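import Vale.Agent.P372.H23.Joint
import Vale.Agent.P372.TestDefs

/-! The relation between the two families of matrices of a tight state. -/

open Matrix Kronecker
open scoped ComplexOrder

set_option linter.unusedSectionVars false

namespace Vale.Agent.P372.R4

variable {A B n : Type} [Fintype A] [DecidableEq A] [Fintype B] [DecidableEq B]
  [Fintype n] [DecidableEq n]

/-- The commutator relation. -/
def Star (C : A → Matrix B B ℂ) (D : B → Matrix A A ℂ) : Prop :=
  ∀ j k s t, ((C j)ᴴ * C k - C k * (C j)ᴴ) t s + ((D t)ᴴ * D s - D s * (D t)ᴴ) j k = 0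

theorem mul_zero_of_trace {M : Matrix n n ℂ} (h : (Mᴴ * M).trace = 0) : M = 0 :=
  trace_conjTranspose_mul_self_eq_zero_iff.mp h

theorem trace_nonneg' (M : Matrix n n ℂ) : 0 ≤ (Mᴴ * M).trace :=
  (posSemidef_conjTranspose_mul_self M).trace_nonneg

theorem diff_trace {P C : Matrix n n ℂ} (hP : Pᴴ = P) (hPP : P * P = P)
    (h : Cᴴ * P = P * Cᴴ * P) :
    ((C * P - P * C * P)ᴴ * (C * P - P * C * P)).trace = (P * (Cᴴ * C - C * Cᴴ)).trace := by
  have h' : P * C = P * C * P := by
    have := congrArg conjTranspose h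
    rw [conjTranspose_mul, conjTranspose_mul, conjTranspose_mul, conjTranspose_conjTranspose, hP,
      ← Matrix.mul_assoc] at this
    exact this
  have e1 : (C * P - P * C * P)ᴴ * (C * P - P * C * P) = P * Cᴴ * C * P - P * Cᴴ * P * C * P := by
    rw [conjTranspose_sub, conjTranspose_mul, conjTranspose_mul, conjTranspose_mul, hP]
    have a1 : P * Cᴴ * (C * P) = P * Cᴴ * C * P := by simp only [Matrix.mul_assoc]
    have a2 : P * Cᴴ * (P * C * P) = P * Cᴴ * P * C * P := by simp only [Matrix.mul_assoc]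
    have a3 : P * (Cᴴ * P) * (C * P) = P * Cᴴ * P * C * P := by simp only [Matrix.mul_assoc]
    have a4 : P * (Cᴴ * P) * (P * C * P) = P * Cᴴ * P * C * P := by
      calc P * (Cᴴ * P) * (P * C * P) = P * Cᴴ * (P * P) * C * P := by
            simp only [Matrix.mul_assoc]
        _ = _ := by rw [hPP]
    rw [Matrix.sub_mul, Matrix.mul_sub, Matrix.mul_sub, a1, a2, a3, a4]
    abel
  have e2 : (P * Cᴴ * C * P).trace = (P * (Cᴴ * C)).trace := by
    rw [trace_mul_comm, ← Matrix.mul_assoc, ← Matrix.mul_assoc, hPP, Matrix.mul_assoc]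
  have e3 : (P * Cᴴ * P * C * P).trace = (P * (C * Cᴴ)).trace := by
    have b1 : (P * Cᴴ * P * C * P).trace = (Cᴴ * (P * C * P)).trace := by
      rw [trace_mul_comm]
      have : P * (P * Cᴴ * P * C) = P * (Cᴴ * (P * C)) := by
        calc P * (P * Cᴴ * P * C) = (P * P) * (Cᴴ * (P * C)) := by simp only [Matrix.mul_assoc]
          _ = _ := by rw [hPP]
      rw [this, trace_mul_comm, Matrix.mul_assoc, ← h']
    rw [b1, ← h', trace_mul_comm, Matrix.mul_assoc]
  rw [e1, trace_sub, e2, e3, Matrix.mul_sub, trace_sub]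

/-- Invariant subspaces are reducing, matrix form. -/
theorem Star.rigid {C : A → Matrix B B ℂ} {D : B → Matrix A A ℂ} (hS : Star C D)
    {P : Matrix B B ℂ} (hP : Pᴴ = P) (hPP : P * P = P)
    (h : ∀ j, (C j)ᴴ * P = P * (C j)ᴴ * P) (j : A) : C j * P = P * C j * P := by
  have h1 : ∑ j, (P * ((C j)ᴴ * C j - C j * (C j)ᴴ)).trace = 0 := by
    have e : ∀ j, (P * ((C j)ᴴ * C j - C j * (C j)ᴴ)).trace =
        ∑ s, ∑ t, P s t * -((D t)ᴴ * D s - D s * (D t)ᴴ) j j := by
      intro j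
      rw [trace]
      refine Finset.sum_congr rfl fun s _ => ?_
      rw [diag_apply, mul_apply]
      refine Finset.sum_congr rfl fun t _ => ?_
      rw [eq_neg_of_add_eq_zero_left (hS j j s t)]
    simp only [e]
    rw [Finset.sum_comm]
    refine Finset.sum_eq_zero fun s _ => ?_
    rw [Finset.sum_comm]
    refine Finset.sum_eq_zero fun t _ => ?_
    rw [← Finset.mul_sum]
    have : ∑ j, -((D t)ᴴ * D s - D s * (D t)ᴴ) j j =
        -((D t)ᴴ * D s - D s * (D t)ᴴ).trace := by
      rw [Finset.sum_neg_distrib]; rfl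
    rw [this, trace_sub, trace_mul_comm, sub_self, neg_zero, mul_zero]
  have h2 : ∑ j, ((C j * P - P * C j * P)ᴴ * (C j * P - P * C j * P)).trace = 0 := by
    rw [← h1]
    exact Finset.sum_congr rfl fun j _ => diff_trace hP hPP (h j)
  have h3 := (Finset.sum_eq_zero_iff_of_nonneg (fun j _ => trace_nonneg' _)).mp h2 j
    (Finset.mem_univ j)
  exact sub_eq_zero.mp (mul_zero_of_trace h3)

/-- Fuglede's theorem for matrices. -/
theorem fuglede {N M : Matrix n n ℂ} (hN : Nᴴ * N = N * Nᴴ) (h : N * M = M * N) :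
    Nᴴ * M = M * Nᴴ := by
  have e : ((Nᴴ * M - M * Nᴴ)ᴴ * (Nᴴ * M - M * Nᴴ)).trace =
      ((N * M - M * N)ᴴ * (N * M - M * N)).trace := by
    simp only [conjTranspose_sub, conjTranspose_mul, conjTranspose_conjTranspose,
      Matrix.sub_mul, Matrix.mul_sub, trace_sub]
    have a1 : (Mᴴ * N * (Nᴴ * M)).trace = (Mᴴ * Nᴴ * (N * M)).trace := by
      congr 1
      calc Mᴴ * N * (Nᴴ * M) = Mᴴ * (N * Nᴴ) * M := by simp only [Matrix.mul_assoc]
        _ = Mᴴ * (Nᴴ * N) * M := by rw [hN]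
        _ = _ := by simp only [Matrix.mul_assoc]
    have a2 : (N * Mᴴ * (M * Nᴴ)).trace = (Nᴴ * Mᴴ * (M * N)).trace := by
      calc (N * Mᴴ * (M * Nᴴ)).trace = (N * (Mᴴ * M * Nᴴ)).trace := by
            simp only [Matrix.mul_assoc]
        _ = (Mᴴ * M * Nᴴ * N).trace := trace_mul_comm _ _
        _ = (Mᴴ * M * (N * Nᴴ)).trace := by rw [Matrix.mul_assoc, hN]
        _ = (Mᴴ * M * N * Nᴴ).trace := by simp only [Matrix.mul_assoc]
        _ = (Nᴴ * (Mᴴ * M * N)).trace := trace_mul_comm _ _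
        _ = _ := by simp only [Matrix.mul_assoc]
    have a3 : (N * Mᴴ * (Nᴴ * M)).trace = (Mᴴ * Nᴴ * (M * N)).trace := by
      calc (N * Mᴴ * (Nᴴ * M)).trace = (N * (Mᴴ * Nᴴ * M)).trace := by
            simp only [Matrix.mul_assoc]
        _ = (Mᴴ * Nᴴ * M * N).trace := trace_mul_comm _ _
        _ = _ := by simp only [Matrix.mul_assoc]
    have a4 : (Mᴴ * N * (M * Nᴴ)).trace = (Nᴴ * Mᴴ * (N * M)).trace := by
      calc (Mᴴ * N * (M * Nᴴ)).trace = (Mᴴ * N * M * Nᴴ).trace := by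
            simp only [Matrix.mul_assoc]
        _ = (Nᴴ * (Mᴴ * N * M)).trace := trace_mul_comm _ _
        _ = _ := by simp only [Matrix.mul_assoc]
    rw [a1, a2, a3, a4]
    ring
  rw [h, sub_self, conjTranspose_zero, Matrix.zero_mul, trace_zero] at e
  exact sub_eq_zero.mp (mul_zero_of_trace e)

end Vale.Agent.P372.R4
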