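import Vale.Agent.P372.R4.W1

/-! Every state of rank at most four is separable or has positive distillable key. -/

open Matrix Kronecker
open scoped ComplexOrder MatrixOrder

set_option linter.unusedSectionVars false
set_option linter.unusedVariables false

namespace Vale.Agent.P372.R4

variable {A B : Type} [Fintype A] [DecidableEq A] [Fintype B] [DecidableEq B]
  {r : Matrix (A × B) (A × B) ℂ}

theorem sep_small_A (hr : r.PosSemidef) (hp : (pTrans r).PosSemidef) (hrk : r.rank ≤ 4)
    (h : (redA r).rank ≤ 2) : IsSep r := by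
  by_cases hB : r.rank ≤ (redB r).rank
  · exact sep_of_local hr hp (Or.inl hB)
  have main : ∀ (m n : ℕ), m ≤ 2 → n ≤ 3 →
      ∀ r' : Matrix (Fin m × Fin n) (Fin m × Fin n) ℂ, r'.PosSemidef →
      (pTrans r').PosSemidef → r'.rank ≤ 4 → (redA r').rank = m → (redB r').rank = n →
      IsSep r' := by
    intro m n hm hn r' h1 h2 h5 h7 h8
    have h6 : r'.rank ≤ m * n := by
      have := rank_le_card_width r'
      rwa [Fintype.card_prod, Fintype.card_fin, Fintype.card_fin] at this
    have hm' : m = 0 ∨ m = 1 ∨ m = 2 := by omega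
    have hn' : n = 0 ∨ n = 1 ∨ n = 2 ∨ n = 3 := by omega
    rcases hm' with rfl | rfl | rfl
    · exact sep_of_local h1 h2 (Or.inl (by omega))
    · exact sep_of_local h1 h2 (Or.inl (by omega))
    · rcases hn' with rfl | rfl | rfl | rfl
      · exact sep_of_local h1 h2 (Or.inl (by omega))
      · exact sep_of_local h1 h2 (Or.inr (by omega))
      · exact sep_22 r' h1 h2
      · exact W.sep_23 r' h1 h2 h5
  obtain ⟨V, W, r', -, -, h1, h2, h5, h6, h7, h8, h9, h10, h11⟩ := sup hr
  exact h7.1 (main _ _ h (by omega) r' h5 (h6 hp) (by omega) h10 h11)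

/-- A PPT operator of rank at most four with a local rank at most two is separable. -/
theorem sep_small (hr : r.PosSemidef) (hp : (pTrans r).PosSemidef) (hrk : r.rank ≤ 4)
    (h : (redA r).rank ≤ 2 ∨ (redB r).rank ≤ 2) : IsSep r := by
  rcases h with h | h
  · exact sep_small_A hr hp hrk h
  · exact sep_swp (sep_small_A (J2.swp_psd hr) (ppt_swp hr hp) (by rw [J2.swp_rank]; exact hrk) h)

/-- **Every state of rank at most four is separable or has positive distillable key.** -/
theorem rank_four_full (r : Matrix (A × B) (A × B) ℂ) (htr : r.trace = 1) (hr : r.PosSemidef)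
    (hrk : r.rank ≤ 4) : KeyPos r ∨ IsSep r := by
  by_cases hp : (pTrans r).PosSemidef
  · by_cases hA : (redA r).rank ≤ 2
    · exact Or.inr (sep_small hr hp hrk (Or.inl hA))
    · by_cases hB : (redB r).rank ≤ 2
      · exact Or.inr (sep_small hr hp hrk (Or.inr hB))
      · exact rank_four r htr hr hp hrk (by omega) (by omega)
  · exact Or.inl (J2.npt_rank_four r htr hr hrk hp)

end Vale.Agent.P372.R4
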