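import Vale.Agent.P372.R4.Defs

/-!
The planar identity behind the case of ranks `(4, 4)` of a qubit and a qutrit.
-/

open Matrix
open scoped ComplexOrder

namespace Vale.Agent.P372.R4

/-- the identity in coordinates -/
theorem b2_aux {t1 t2 t3 t4 t1' t2' t3' t4' a0 a1 a0' a1' b0 b1 b0' b1' q0 q1 q0' q1' l0 l1 l0' l1' :
    ℂ}
    (e00 : t1' * t1 + t3' * t3 + b0 * b0' + l0 * l0' = t1 * t1' + t2 * t2' + a0 * a0' + q0 * q0')
    (e01 : t1' * t2 + t3' * t4 + b0 * b1' + l0 * l1' = t1 * t3' + t2 * t4' + a0 * a1' + q0 * q1')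
    (e10 : t2' * t1 + t4' * t3 + b1 * b0' + l1 * l0' = t3 * t1' + t4 * t2' + a1 * a0' + q1 * q0')
    (e11 : t2' * t2 + t4' * t4 + b1 * b1' + l1 * l1' = t3 * t3' + t4 * t4' + a1 * a1' + q1 * q1')
    (f0 : t1' * a0 + t3' * a1 = t1 * b0 + t2 * b1)
    (f1 : t2' * a0 + t4' * a1 = t3 * b0 + t4 * b1)
    (f0' : t1 * a0' + t3 * a1' = t1' * b0' + t2' * b1')
    (f1' : t2 * a0' + t4 * a1' = t3' * b0' + t4' * b1')
    (g : a0' * a0 + a1' * a1 = b0' * b0 + b1' * b1)
    (hql : (q0 * l1 - q1 * l0) * (q0' * l1' - q1' * l0') ≠ 0) :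
    (a0' * q0 + a1' * q1) * (a0 * q0' + a1 * q1') =
      (b0' * l0 + b1' * l1) * (b0 * l0' + b1 * l1') := by
  have hX : q1 * q1' - l1 * l1' = -(q0 * q0' - l0 * l0') := by
    linear_combination -e00 - e11 - g
  have hY : a1 * a1' - b1 * b1' = -(a0 * a0' - b0 * b0') := by
    linear_combination g
  obtain ⟨x, hx⟩ : ∃ x, x = q0 * q0' - l0 * l0' := ⟨_, rfl⟩
  obtain ⟨k, hk⟩ : ∃ k, k = q0 * q1' - l0 * l1' := ⟨_, rfl⟩
  obtain ⟨k', hk'⟩ : ∃ k', k' = q1 * q0' - l1 * l0' := ⟨_, rfl⟩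
  obtain ⟨y, hy⟩ : ∃ y, y = a0 * a0' - b0 * b0' := ⟨_, rfl⟩
  obtain ⟨h, hh⟩ : ∃ h, h = a0 * a1' - b0 * b1' := ⟨_, rfl⟩
  obtain ⟨h', hh'⟩ : ∃ h', h' = a1 * a0' - b1 * b0' := ⟨_, rfl⟩
  have hX0 := hX
  have hY0 := hY
  rw [← hx] at hX
  rw [← hy] at hY
  have z0 : t3' * t3 - t2 * t2' = x + y := by
    rw [hx, hy]
    linear_combination e00
  have z1 : t1' * t2 + t3' * t4 - t1 * t3' - t2 * t4' = k + h := by
    rw [hk, hh]
    linear_combination e01
  have z2 : t2' * t1 + t4' * t3 - t3 * t1' - t4 * t2' = k' + h' := by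
    rw [hk', hh']
    linear_combination e10
  have YT : y * t1 + h * t3 + h' * t2 - y * t4 = 0 := by
    have : y * t1 + h * t3 + h' * t2 + (a1 * a1' - b1 * b1') * t4 = 0 := by
      rw [hy, hh, hh']
      linear_combination a0 * f0' + a1 * f1' + b0' * f0 + b1' * f1
    rw [hY] at this
    linear_combination this
  have YT' : y * t1' + h' * t3' + h * t2' - y * t4' = 0 := by
    have : y * t1' + h' * t3' + h * t2' + (a1 * a1' - b1 * b1') * t4' = 0 := by
      rw [hy, hh, hh']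
      linear_combination a0' * f0 + a1' * f1 + b0 * f0' + b1 * f1'
    rw [hY] at this
    linear_combination this
  have ET : x * t1 + k * t3 + k' * t2 - x * t4 = 0 := by
    linear_combination -YT - (t1 - t4) * z0 - t3 * z1 - t2 * z2
  have ET' : x * t1' + k' * t3' + k * t2' - x * t4' = 0 := by
    linear_combination -YT' - (t1' - t4') * z0 - t3' * z2 - t2' * z1
  have R1 : x * h = y * k := by
    linear_combination t2 * ET' - t3' * ET - x * z1 + k * z0
  have R1' : x * h' = y * k' := by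
    linear_combination t2' * ET - t3 * ET' - x * z2 + k' * z0
  have R2 : k * h' = k' * h := by
    linear_combination (t1 - t4) * ET' - (t1' - t4') * ET - k * z2 + k' * z1
  -- `X ≠ 0`
  have hXne : ¬ (x = 0 ∧ k = 0 ∧ k' = 0) := by
    rintro ⟨u1, u2, u3⟩
    apply hql
    rw [u1] at hx hX
    rw [u2] at hk
    rw [u3] at hk'
    linear_combination (q1 * q1') * hx - (q0 * q0') * hX - (q1 * q0') * hk - (q0 * q1') * hk'
  have hXS : x * (q0 * q0' + l0 * l0') + k * (q1 * q0' + l1 * l0') + k' * (q0 * q1' + l0 * l1') -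
      x * (q1 * q1' + l1 * l1') = 0 := by
    rw [hx, hk, hk']
    linear_combination (q0 * q0' + l0 * l0') * hX0
  have hYU : y * (a0 * a0' + b0 * b0') + h * (a1 * a0' + b1 * b0') + h' * (a0 * a1' + b0 * b1') -
      y * (a1 * a1' + b1 * b1') = 0 := by
    rw [hy, hh, hh']
    linear_combination (a0 * a0' + b0 * b0') * hY0
  obtain ⟨s1, hs1⟩ : ∃ s1, s1 = q0 * q0' + l0 * l0' := ⟨_, rfl⟩
  obtain ⟨s2, hs2⟩ : ∃ s2, s2 = q1 * q1' + l1 * l1' := ⟨_, rfl⟩
  obtain ⟨m, hm⟩ : ∃ m, m = q0 * q1' + l0 * l1' := ⟨_, rfl⟩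
  obtain ⟨m', hm'⟩ : ∃ m', m' = q1 * q0' + l1 * l0' := ⟨_, rfl⟩
  obtain ⟨v1, hv1⟩ : ∃ v1, v1 = a0 * a0' + b0 * b0' := ⟨_, rfl⟩
  obtain ⟨v2, hv2⟩ : ∃ v2, v2 = a1 * a1' + b1 * b1' := ⟨_, rfl⟩
  obtain ⟨w, hw⟩ : ∃ w, w = a0 * a1' + b0 * b1' := ⟨_, rfl⟩
  obtain ⟨w', hw'⟩ : ∃ w', w' = a1 * a0' + b1 * b0' := ⟨_, rfl⟩
  rw [← hs1, ← hs2, ← hm, ← hm'] at hXS
  rw [← hv1, ← hv2, ← hw, ← hw'] at hYU
  have EY : y * s1 + h * m' + h' * m - y * s2 = 0 := by
    by_contra hne
    apply hXne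
    refine ⟨?_, ?_, ?_⟩
    · have : x * (y * s1 + h * m' + h' * m - y * s2) = 0 := by
        linear_combination y * hXS + m' * R1 + m * R1'
      exact (mul_eq_zero.1 this).resolve_right hne
    · have : k * (y * s1 + h * m' + h' * m - y * s2) = 0 := by
        linear_combination h * hXS - (s1 - s2) * R1 + m * R2
      exact (mul_eq_zero.1 this).resolve_right hne
    · have : k' * (y * s1 + h * m' + h' * m - y * s2) = 0 := by
        linear_combination h' * hXS - (s1 - s2) * R1' - m' * R2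
      exact (mul_eq_zero.1 this).resolve_right hne
  by_cases hYz : y = 0 ∧ h = 0 ∧ h' = 0
  · obtain ⟨u1, u2, u3⟩ := hYz
    have A00 : a0 * a0' - b0 * b0' = 0 := by rw [← hy, u1]
    have A01 : a0 * a1' - b0 * b1' = 0 := by rw [← hh, u2]
    have A10 : a1 * a0' - b1 * b0' = 0 := by rw [← hh', u3]
    have A11 : a1 * a1' - b1 * b1' = 0 := by rw [hY, u1, neg_zero]
    rw [u1, add_zero] at z0
    rw [u2, add_zero] at z1
    rw [u3, add_zero] at z2
    have hN : (t1 * a0 + t2 * a1) * (t1' * a0' + t2' * a1') +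
        (t3 * a0 + t4 * a1) * (t3' * a0' + t4' * a1') =
        (t1' * a0 + t3' * a1) * (t1 * a0' + t3 * a1') +
        (t2' * a0 + t4' * a1) * (t2 * a0' + t4 * a1') := by
      linear_combination -(t1 * a0' + t3 * a1') * f0 - (t1 * b0 + t2 * b1) * f0' -
        (t2 * a0' + t4 * a1') * f1 - (t3 * b0 + t4 * b1) * f1' +
        (t1 * t1' + t3 * t3') * A00 + (t1 * t2' + t3 * t4') * A01 +
        (t2 * t1' + t4 * t3') * A10 + (t2 * t2' + t4 * t4') * A11
    have hZ : x * (a0 * a0') + k * (a0' * a1) + k' * (a1' * a0) - x * (a1 * a1') = 0 := by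
      linear_combination hN - (a0 * a0' - a1 * a1') * z0 - (a0' * a1) * z1 - (a1' * a0) * z2
    rw [hx, hk, hk'] at hZ
    linear_combination hZ + (a1 * a1') * hX0 + (l0 * l0') * A00 + (l1 * l0') * A01 +
      (l0 * l1') * A10 + (l1 * l1') * A11
  · have EX : x * v1 + k * w' + k' * w - x * v2 = 0 := by
      by_contra hne
      apply hYz
      refine ⟨?_, ?_, ?_⟩
      · have : y * (x * v1 + k * w' + k' * w - x * v2) = 0 := by
          linear_combination x * hYU - w' * R1 - w * R1'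
        exact (mul_eq_zero.1 this).resolve_right hne
      · have : h * (x * v1 + k * w' + k' * w - x * v2) = 0 := by
          linear_combination k * hYU + (v1 - v2) * R1 - w * R2
        exact (mul_eq_zero.1 this).resolve_right hne
      · have : h' * (x * v1 + k * w' + k' * w - x * v2) = 0 := by
          linear_combination k' * hYU + (v1 - v2) * R1' + w' * R2
        exact (mul_eq_zero.1 this).resolve_right hne
    rw [hy, hh, hh', hs1, hs2, hm, hm'] at EY
    rw [hx, hk, hk', hv1, hv2, hw, hw'] at EX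
    linear_combination (1 / 2) * EY + (1 / 2) * EX + (1 / 2) * (q1 * q1' + l1 * l1') * hY0 +
      (1 / 2) * (a1 * a1' + b1 * b1') * hX0

/-- The planar identity. -/
theorem b2 (T : Matrix (Fin 2) (Fin 2) ℂ) (a b q l : Fin 2 → ℂ)
    (h1 : Tᴴ * T + vecMulVec b (star b) + vecMulVec l (star l) =
      T * Tᴴ + vecMulVec a (star a) + vecMulVec q (star q))
    (h2 : Tᴴ *ᵥ a = T *ᵥ b) (h3 : star a ⬝ᵥ a = star b ⬝ᵥ b) (hql : q 0 * l 1 ≠ q 1 * l 0) :
    Complex.normSq (star a ⬝ᵥ q) = Complex.normSq (star b ⬝ᵥ l) := by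
  have e00 := congrFun (congrFun h1 0) 0
  have e01 := congrFun (congrFun h1 0) 1
  have e10 := congrFun (congrFun h1 1) 0
  have e11 := congrFun (congrFun h1 1) 1
  have f0 := congrFun h2 0
  have f1 := congrFun h2 1
  have f0' := congrArg star f0
  have f1' := congrArg star f1
  simp only [Matrix.add_apply, Matrix.mul_apply, Fin.sum_univ_two, conjTranspose_apply,
    vecMulVec_apply, Pi.star_apply] at e00 e01 e10 e11
  simp only [mulVec, dotProduct, Fin.sum_univ_two, conjTranspose_apply, star_add, star_mul',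
    star_star, Pi.star_apply] at f0 f1 f0' f1' h3
  have hne : (q 0 * l 1 - q 1 * l 0) * (star (q 0) * star (l 1) - star (q 1) * star (l 0)) ≠ 0 := by
    have h4 : star (q 0) * star (l 1) - star (q 1) * star (l 0) =
        star (q 0 * l 1 - q 1 * l 0) := by
      rw [star_sub, star_mul', star_mul']
    rw [h4]
    exact mul_ne_zero (sub_ne_zero.2 hql) (star_ne_zero.2 (sub_ne_zero.2 hql))
  have key := b2_aux e00 e01 e10 e11 f0 f1 f0' f1' h3 hne
  have h5 : ∀ z : ℂ, ((Complex.normSq z : ℝ) : ℂ) = z * star z := fun z =>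
    (Complex.mul_conj z).symm
  have h6 : ((Complex.normSq (star a ⬝ᵥ q) : ℝ) : ℂ) = ((Complex.normSq (star b ⬝ᵥ l) : ℝ) : ℂ) := by
    rw [h5, h5]
    simp only [dotProduct, Fin.sum_univ_two, Pi.star_apply, star_add, star_mul', star_star]
    exact key
  exact_mod_cast h6

end Vale.Agent.P372.R4
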