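import Vale.Agent.P372.R4.Ker
import Mathlib.Data.Matrix.ColumnRowPartitioned

open Matrix Filter Topology
open scoped ComplexOrder

namespace Vale.Agent.P372.R4

variable {A B : Type} [Fintype A] [Fintype B]

set_option linter.unusedSectionVars false
set_option linter.unusedVariables false

/-- A frame of the range of a positive semidefinite matrix. -/
theorem exists_frame [DecidableEq B] {P : Matrix B B ℂ} (hP : P.PosSemidef) :
    ∃ U : Matrix B (Fin P.rank) ℂ, (Uᴴ * P * U).det ≠ 0 := by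
  classical
  let b : Module.Basis (Fin P.rank) ℂ (LinearMap.range P.mulVecLin) :=
    Module.finBasisOfFinrankEq ℂ _ rfl
  let U : Matrix B (Fin P.rank) ℂ := fun s i => (b i : B → ℂ) s
  refine ⟨U, fun hdet => ?_⟩
  obtain ⟨c, hc, hc0⟩ := Matrix.exists_mulVec_eq_zero_iff.2 hdet
  have h1 : star (U *ᵥ c) ⬝ᵥ (P *ᵥ (U *ᵥ c)) = 0 := by
    have h2 : star c ⬝ᵥ ((Uᴴ * P * U) *ᵥ c) = 0 := by rw [hc0, dotProduct_zero]
    rw [← h2, star_mulVec, ← dotProduct_mulVec, mulVec_mulVec, mulVec_mulVec, Matrix.mul_assoc]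
  have h3 : P *ᵥ (U *ᵥ c) = 0 := (hP.dotProduct_mulVec_zero_iff _).1 h1
  have h4 : U *ᵥ c = ((∑ i, c i • b i : LinearMap.range P.mulVecLin) : B → ℂ) := by
    ext s
    simp only [mulVec, dotProduct, Submodule.coe_sum, Submodule.coe_smul, Finset.sum_apply,
      Pi.smul_apply, smul_eq_mul, U]
    exact Finset.sum_congr rfl fun i _ => mul_comm _ _
  obtain ⟨w, hw⟩ := (∑ i, c i • b i : LinearMap.range P.mulVecLin).2
  rw [Matrix.mulVecLin_apply, ← h4] at hw
  have h5 : U *ᵥ c = 0 := by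
    rw [← hw] at h3 ⊢
    have h6 : star (P *ᵥ w) ⬝ᵥ (P *ᵥ w) = 0 := by
      rw [star_mulVec, hP.1.eq, ← dotProduct_mulVec, h3, dotProduct_zero]
    exact dotProduct_star_self_eq_zero.1 h6
  have h7 : (∑ i, c i • b i : LinearMap.range P.mulVecLin) = 0 := by
    apply Subtype.ext
    rw [← h4, h5]
    rfl
  have h8 := Fintype.linearIndependent_iff.1 b.linearIndependent c h7
  exact hc (funext h8)

/-- A rank increase by a second order perturbation. -/
theorem rank_bump [DecidableEq B] {P X Q : Matrix B B ℂ} (hP : P.PosSemidef) {v : B → ℂ}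
    (h1 : P *ᵥ v = 0) (h2 : X *ᵥ v = 0) (h3 : Xᴴ *ᵥ v = 0) (h4 : star v ⬝ᵥ (Q *ᵥ v) ≠ 0) :
    ∃ e : ℝ, P.rank + 1 ≤ (P + (e : ℂ) • X + ((e : ℂ) ^ 2) • Q).rank := by
  classical
  obtain ⟨U, hU⟩ := exists_frame hP
  let V : Matrix B Unit ℂ := fun s _ => v s
  let M : ℝ → Matrix B B ℂ := fun e => P + (e : ℂ) • X + ((e : ℂ) ^ 2) • Q
  have k1 : P * V = 0 := by
    ext s u
    exact congrFun h1 s
  have k2 : X * V = 0 := by
    ext s u
    exact congrFun h2 s
  have k3 : Vᴴ * X = 0 := by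
    have : (Xᴴ * V)ᴴ = 0 := by
      have : Xᴴ * V = 0 := by
        ext s u
        exact congrFun h3 s
      rw [this, conjTranspose_zero]
    rwa [conjTranspose_mul, conjTranspose_conjTranspose] at this
  have k4 : Vᴴ * P = 0 := by
    have : (P * V)ᴴ = 0 := by rw [k1, conjTranspose_zero]
    rwa [conjTranspose_mul, hP.1.eq] at this
  have m1 : ∀ e, M e * V = ((e : ℂ) ^ 2) • (Q * V) := fun e => by
    simp only [M, Matrix.add_mul, Matrix.smul_mul, k1, k2, smul_zero, zero_add]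
  have m2 : ∀ e, Vᴴ * M e = ((e : ℂ) ^ 2) • (Vᴴ * Q) := fun e => by
    simp only [M, Matrix.mul_add, Matrix.mul_smul, k3, k4, smul_zero, zero_add]
  let F : ℝ → Matrix (Fin P.rank ⊕ Unit) (Fin P.rank ⊕ Unit) ℂ := fun e =>
    fromBlocks (Uᴴ * M e * U) (((e : ℂ) ^ 2) • (Uᴴ * Q * V)) (Vᴴ * Q * U) (Vᴴ * Q * V)
  have hF0 : (F 0).det ≠ 0 := by
    have : F 0 = fromBlocks (Uᴴ * P * U) 0 (Vᴴ * Q * U) (Vᴴ * Q * V) := by
      simp [F, M]
    rw [this, det_fromBlocks_zero₁₂]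
    refine mul_ne_zero hU ?_
    rw [det_unique, Matrix.mul_assoc]
    exact h4
  have hc : Continuous fun e => (F e).det := by
    refine Continuous.matrix_det ?_
    have c1 : Continuous fun e : ℝ => ((e : ℂ)) := Complex.continuous_ofReal
    refine Continuous.matrix_fromBlocks ?_ ?_ continuous_const continuous_const
    · refine Continuous.matrix_mul (Continuous.matrix_mul continuous_const ?_) continuous_const
      exact (continuous_const.add (c1.smul continuous_const)).add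
        ((c1.pow 2).smul continuous_const)
    · exact (c1.pow 2).smul continuous_const
  have h5 : ∀ᶠ e in 𝓝 (0 : ℝ), (F e).det ≠ 0 := (hc.tendsto 0).eventually_ne hF0
  have h6 : ∀ᶠ e in 𝓝[≠] (0 : ℝ), (F e).det ≠ 0 := h5.filter_mono nhdsWithin_le_nhds
  obtain ⟨e, he, he0⟩ := (h6.and self_mem_nhdsWithin).exists
  have he1 : ((e : ℂ) ^ 2) ≠ 0 := pow_ne_zero 2 (Complex.ofReal_ne_zero.2 he0)
  refine ⟨e, ?_⟩
  let E : Matrix B (Fin P.rank ⊕ Unit) ℂ := fromCols U V
  have hG : Eᴴ * M e * E = fromBlocks 1 0 0 (((e : ℂ) ^ 2) • (1 : Matrix Unit Unit ℂ)) * F e := by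
    have e1 : Eᴴ = fromRows Uᴴ Vᴴ := by
      ext (i | i) s <;> rfl
    rw [e1, fromRows_mul, fromRows_mul_fromCols, fromBlocks_multiply, m2]
    have e2 : Uᴴ * M e * V = ((e : ℂ) ^ 2) • (Uᴴ * Q * V) := by
      rw [Matrix.mul_assoc, m1, Matrix.mul_smul, Matrix.mul_assoc]
    rw [e2]
    simp only [Matrix.one_mul, Matrix.zero_mul, add_zero, zero_add, Matrix.smul_mul]
  have hdet : IsUnit (Eᴴ * M e * E) := by
    rw [Matrix.isUnit_iff_isUnit_det, hG, det_mul, det_fromBlocks_zero₁₂, isUnit_iff_ne_zero]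
    refine mul_ne_zero (mul_ne_zero ?_ ?_) he
    · simp
    · simpa using he1
  have h7 : (Eᴴ * M e * E).rank = P.rank + 1 := by
    rw [Matrix.rank_of_isUnit _ hdet]
    simp
  calc P.rank + 1 = (Eᴴ * M e * E).rank := h7.symm
    _ ≤ (Eᴴ * M e).rank := rank_mul_le_left _ _
    _ ≤ (M e).rank := rank_mul_le_right _ _

end Vale.Agent.P372.R4
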