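import Vale.Agent.P372.R2.helper492.LetterDefs

open Matrix

namespace Vale.Agent.P372.R4

/-- The operator `⟨a| r |a⟩` on Bob's system. -/
def bl {A B : Type} [Fintype A] (a : A → ℂ) (r : Matrix (A × B) (A × B) ℂ) : Matrix B B ℂ :=
  fun s t => ∑ j, ∑ k, star (a j) * r (j, s) (k, t) * a k

/-- The operator `⟨b| r |b⟩` on Alice's system. -/
def br {A B : Type} [Fintype B] (b : B → ℂ) (r : Matrix (A × B) (A × B) ℂ) : Matrix A A ℂ :=
  fun j k => ∑ s, ∑ t, star (b s) * r (j, s) (k, t) * b t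

/-- Bob's reduction `tr_A r`. -/
def trA {A B : Type} [Fintype A] (r : Matrix (A × B) (A × B) ℂ) : Matrix B B ℂ :=
  fun s t => ∑ j, r (j, s) (j, t)

end Vale.Agent.P372.R4
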