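import Vale.Agent.P372.R4.Defs

open Matrix
open scoped ComplexOrder

namespace Vale.Agent.P372.R4

variable {A B : Type} [Fintype A] [Fintype B]

set_option linter.unusedSectionVars false
set_option linter.unusedVariables false

/-- The operator `⟨a| r |x⟩` on Bob's system. -/
def blc (a x : A → ℂ) (r : Matrix (A × B) (A × B) ℂ) : Matrix B B ℂ :=
  fun s t => ∑ j, ∑ k, star (a j) * r (j, s) (k, t) * x k

theorem blc_self (a : A → ℂ) (r : Matrix (A × B) (A × B) ℂ) : blc a a r = bl a r := rfl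

theorem quad (a x : A → ℂ) (v w : B → ℂ) (r : Matrix (A × B) (A × B) ℂ) :
    star v ⬝ᵥ (blc a x r *ᵥ w) = star (prodVec a v) ⬝ᵥ (r *ᵥ prodVec x w) := by
  simp only [dotProduct, mulVec, blc, prodVec, Fintype.sum_prod_type, Finset.mul_sum,
    Finset.sum_mul, Pi.star_apply, star_mul']
  rw [eq_comm, Finset.sum_comm]
  refine Finset.sum_congr rfl fun s _ => ?_
  rw [eq_comm, Finset.sum_comm]
  refine Finset.sum_congr rfl fun j _ => ?_
  rw [Finset.sum_comm]
  refine Finset.sum_congr rfl fun k _ => Finset.sum_congr rfl fun t _ => ?_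
  ring

theorem quad' (a : A → ℂ) (v : B → ℂ) (r : Matrix (A × B) (A × B) ℂ) :
    star v ⬝ᵥ (bl a r *ᵥ v) = star (prodVec a v) ⬝ᵥ (r *ᵥ prodVec a v) := quad a a v v r

theorem bl_psd {r : Matrix (A × B) (A × B) ℂ} (hr : r.PosSemidef) (a : A → ℂ) :
    (bl a r).PosSemidef := by
  refine Matrix.PosSemidef.of_dotProduct_mulVec_nonneg ?_ fun v => ?_
  · ext s t
    simp only [conjTranspose_apply, bl, star_sum, star_mul', star_star]
    rw [Finset.sum_comm]
    refine Finset.sum_congr rfl fun j _ => Finset.sum_congr rfl fun k _ => ?_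
    have h := congrFun (congrFun hr.1 (j, s)) (k, t)
    rw [conjTranspose_apply] at h
    rw [h]
    ring
  · rw [quad']
    exact hr.dotProduct_mulVec_nonneg _

theorem kill {r : Matrix (A × B) (A × B) ℂ} (hr : r.PosSemidef) {a : A → ℂ} {v : B → ℂ}
    (h : bl a r *ᵥ v = 0) : r *ᵥ prodVec a v = 0 := by
  rw [← hr.dotProduct_mulVec_zero_iff, ← quad', h, dotProduct_zero]

theorem pT_form (a : A → ℂ) (v : B → ℂ) (r : Matrix (A × B) (A × B) ℂ) :
    star (prodVec a (star v)) ⬝ᵥ (pTrans r *ᵥ prodVec a (star v)) =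
      star (prodVec a v) ⬝ᵥ (r *ᵥ prodVec a v) := by
  simp only [dotProduct, mulVec, pTrans, prodVec, Fintype.sum_prod_type, Finset.mul_sum,
    Pi.star_apply, star_mul', star_star]
  refine Finset.sum_congr rfl fun j _ => ?_
  have e1 : ∀ g : B → A → B → ℂ, ∑ s, ∑ k, ∑ t, g s k t = ∑ t, ∑ k, ∑ s, g s k t := by
    intro g
    have h1 : ∀ s, ∑ k, ∑ t, g s k t = ∑ t, ∑ k, g s k t := fun s => Finset.sum_comm
    have h2 : ∀ t, ∑ k, ∑ s, g s k t = ∑ s, ∑ k, g s k t := fun t => Finset.sum_comm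
    simp only [h1, h2]
    exact Finset.sum_comm
  rw [e1]
  refine Finset.sum_congr rfl fun s _ => Finset.sum_congr rfl fun k _ =>
    Finset.sum_congr rfl fun t _ => ?_
  ring

theorem kill' {r : Matrix (A × B) (A × B) ℂ} (hr : r.PosSemidef) (hp : (pTrans r).PosSemidef)
    {a : A → ℂ} {v : B → ℂ} (h : bl a r *ᵥ v = 0) : pTrans r *ᵥ prodVec a (star v) = 0 := by
  rw [← hp.dotProduct_mulVec_zero_iff, pT_form, ← quad', h, dotProduct_zero]

theorem blc_right {r : Matrix (A × B) (A × B) ℂ} {a : A → ℂ} {v : B → ℂ}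
    (h : r *ᵥ prodVec a v = 0) (x : A → ℂ) : blc x a r *ᵥ v = 0 := by
  have h1 : ∀ w : B → ℂ, star w ⬝ᵥ (blc x a r *ᵥ v) = 0 := by
    intro w
    rw [quad, h, dotProduct_zero]
  have h2 := h1 (blc x a r *ᵥ v)
  exact dotProduct_star_self_eq_zero.1 h2

theorem blc_left {r : Matrix (A × B) (A × B) ℂ} (hr : r.PosSemidef) {a : A → ℂ} {v : B → ℂ}
    (h : pTrans r *ᵥ prodVec a (star v) = 0) (x : A → ℂ) : blc a x r *ᵥ v = 0 := by
  ext s
  simp only [mulVec, dotProduct, blc, Finset.sum_mul, Pi.zero_apply]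
  have e1 : ∀ k : A, ∑ t, ∑ j, star (a j) * r (j, s) (k, t) * v t = 0 := by
    intro k
    have h3 := congrArg star (congrFun h (k, s))
    simp only [mulVec, dotProduct, pTrans, prodVec, Fintype.sum_prod_type, Pi.zero_apply,
      star_sum, star_mul', star_star, Pi.star_apply, star_zero] at h3
    rw [← h3, Finset.sum_comm]
    refine Finset.sum_congr rfl fun j _ => Finset.sum_congr rfl fun t _ => ?_
    have h4 := congrFun (congrFun hr.1 (j, s)) (k, t)
    rw [conjTranspose_apply] at h4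
    rw [h4]
    ring
  have e2 : ∀ t, ∑ j, ∑ k, star (a j) * r (j, s) (k, t) * x k * v t =
      ∑ k, x k * ∑ j, star (a j) * r (j, s) (k, t) * v t := by
    intro t
    rw [Finset.sum_comm]
    refine Finset.sum_congr rfl fun k _ => ?_
    rw [Finset.mul_sum]
    refine Finset.sum_congr rfl fun j _ => ?_
    ring
  simp only [e2]
  rw [Finset.sum_comm]
  refine Finset.sum_eq_zero fun k _ => ?_
  rw [← Finset.mul_sum, e1, mul_zero]

/-- The conclusion of positivity of the partial transpose: if `⟨a|r|a⟩ v = 0`, then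
`⟨a|r|x⟩ v = 0` and `⟨x|r|a⟩ v = 0` for all `x`. -/
theorem ppt_kill {r : Matrix (A × B) (A × B) ℂ} (hr : r.PosSemidef) (hp : (pTrans r).PosSemidef)
    {a : A → ℂ} {v : B → ℂ} (h : bl a r *ᵥ v = 0) (x : A → ℂ) :
    blc a x r *ᵥ v = 0 ∧ blc x a r *ᵥ v = 0 :=
  ⟨blc_left hr (kill' hr hp h) x, blc_right (kill hr h) x⟩

theorem blc_conj {r : Matrix (A × B) (A × B) ℂ} (hr : r.PosSemidef) (a x : A → ℂ) :
    (blc a x r)ᴴ = blc x a r := by
  ext s t
  simp only [conjTranspose_apply, blc, star_sum, star_mul', star_star]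
  rw [Finset.sum_comm]
  refine Finset.sum_congr rfl fun j _ => Finset.sum_congr rfl fun k _ => ?_
  have h := congrFun (congrFun hr.1 (j, s)) (k, t)
  rw [conjTranspose_apply] at h
  rw [h]
  ring

theorem bl_add_smul (a x : A → ℂ) (r : Matrix (A × B) (A × B) ℂ) (e : ℝ) :
    bl (a + (e : ℂ) • x) r =
      bl a r + (e : ℂ) • (blc a x r + blc x a r) + ((e : ℂ) ^ 2) • bl x r := by
  ext s t
  simp only [bl, blc, Matrix.add_apply, Matrix.smul_apply, smul_eq_mul, Pi.add_apply,
    Pi.smul_apply, Finset.mul_sum, ← Finset.sum_add_distrib, star_add, star_mul']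
  refine Finset.sum_congr rfl fun j _ => Finset.sum_congr rfl fun k _ => ?_
  have : star (e : ℂ) = (e : ℂ) := Complex.conj_ofReal e
  rw [this]
  ring

end Vale.Agent.P372.R4
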