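import Vale.Agent.P372.R4.J2c
import Vale.Agent.P372.R4.Ker
import Vale.Agent.P372.H625.Spec
import Vale.Agent.P372.H625.Dist

/-! The theorem on tight states without positivity of the partial transpose. -/

open Matrix Kronecker
open scoped ComplexOrder MatrixOrder

set_option linter.unusedSectionVars false

namespace Vale.Agent.P372.R4.J2

variable {A B : Type} [Fintype A] [DecidableEq A] [Fintype B] [DecidableEq B]
  {r : Matrix (A × B) (A × B) ℂ}

/-- Every vector `x ⊗ y + x' ⊗ y'` has a nonnegative expectation in the partial transpose. -/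
def U1 (r : Matrix (A × B) (A × B) ℂ) : Prop :=
  ∀ (x x' : A → ℂ) (y y' : B → ℂ), 0 ≤ (sprod (prodVec x y + prodVec x' y')
    (pTrans r *ᵥ (prodVec x y + prodVec x' y'))).re

theorem rankTwoNeg_of_not (h : ¬ U1 r) : H625.RankTwoNeg r := by
  unfold U1 at h
  push Not at h
  obtain ⟨x, x', y, y', h⟩ := h
  refine ⟨1, fun f => x (f 0), fun f => x' (f 0), fun g => y (g 0), fun g => y' (g 0), le_rfl, ?_⟩
  let e : ((Fin 1 → A) × (Fin 1 → B)) ≃ A × B :=
    Equiv.prodCongr (Equiv.funUnique (Fin 1) A) (Equiv.funUnique (Fin 1) B)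
  have h1 : ∀ p, (prodVec (fun f : Fin 1 → A => x (f 0)) (fun g : Fin 1 → B => y (g 0)) +
      prodVec (fun f : Fin 1 → A => x' (f 0)) (fun g : Fin 1 → B => y' (g 0))) p =
      (prodVec x y + prodVec x' y') (e p) := fun p => rfl
  have h2 : ∀ p q, tpow 1 (pTrans r) p q = pTrans r (e p) (e q) := by
    intro p q
    rw [tpow, Fin.prod_univ_one]
    rfl
  have h3 : sprod (prodVec (fun f : Fin 1 → A => x (f 0)) (fun g : Fin 1 → B => y (g 0)) +
      prodVec (fun f => x' (f 0)) (fun g => y' (g 0))) (tpow 1 (pTrans r) *ᵥ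
      (prodVec (fun f : Fin 1 → A => x (f 0)) (fun g : Fin 1 → B => y (g 0)) +
      prodVec (fun f => x' (f 0)) (fun g => y' (g 0)))) =
      sprod (prodVec x y + prodVec x' y') (pTrans r *ᵥ (prodVec x y + prodVec x' y')) := by
    rw [sprod, sprod, ← Equiv.sum_comp e]
    refine Finset.sum_congr rfl fun p _ => ?_
    rw [h1]
    congr 1
    rw [mulVec, mulVec, dotProduct, dotProduct, ← Equiv.sum_comp e]
    refine Finset.sum_congr rfl fun q _ => ?_
    rw [h1, h2]
  rw [h3]
  exact h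

/-- Failure of `U1` gives key. -/
theorem keyPos_of_not (htr : r.trace = 1) (hr : r.PosSemidef) (h : ¬ U1 r) : KeyPos r := by
  intro E _ _ Ψ hΨ
  refine H625.test_pos Ψ (by rw [hΨ, htr]) le_rfl zero_le_one le_rfl zero_le_one ?_
  rw [hΨ]
  exact (H625.corner_iff hr).mpr (rankTwoNeg_of_not h)

theorem prodVec_smul (c : ℂ) (a : A → ℂ) (b : B → ℂ) : prodVec (c • a) b = c • prodVec a b := by
  ext p
  simp only [prodVec, Pi.smul_apply, smul_eq_mul, mul_assoc]

theorem pT_herm (hr : r.PosSemidef) : (pTrans r)ᴴ = pTrans r := by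
  ext p q
  rw [conjTranspose_apply]
  exact herm_apply hr _ _

/-- The kernel property. -/
theorem kill (hr : r.PosSemidef) (hU : U1 r) {a : A → ℂ} {v : B → ℂ}
    (h : r *ᵥ prodVec a v = 0) : pTrans r *ᵥ prodVec a (star v) = 0 := by
  by_contra hne
  obtain ⟨z, hz⟩ : ∃ z, z = pTrans r *ᵥ prodVec a (star v) := ⟨_, rfl⟩
  rw [← hz] at hne
  obtain ⟨⟨j, s⟩, hjs⟩ : ∃ p, z p ≠ 0 := by
    by_contra hcon
    push Not at hcon
    exact hne (funext hcon)
  obtain ⟨f, hf⟩ : ∃ f : A × B → ℂ, f = prodVec (Pi.single j 1) (Pi.single s 1) := ⟨_, rfl⟩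
  have hfs : f = Pi.single (j, s) 1 := by
    rw [hf]
    ext ⟨k, t⟩
    rw [prodVec]
    by_cases h1 : k = j
    · by_cases h2 : t = s
      · subst h1; subst h2; simp
      · have : (k, t) ≠ (j, s) := fun h => h2 (congrArg Prod.snd h)
        rw [Pi.single_eq_of_ne this, Pi.single_eq_of_ne h2, mul_zero]
    · have : (k, t) ≠ (j, s) := fun h => h1 (congrArg Prod.fst h)
      rw [Pi.single_eq_of_ne this, Pi.single_eq_of_ne h1, zero_mul]
  obtain ⟨g, hg⟩ : ∃ g : A × B → ℂ, g = prodVec a (star v) := ⟨_, rfl⟩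
  have hgz : pTrans r *ᵥ g = z := by rw [hg, hz]
  have hgg : dp g z = 0 := by
    have e := pT_form a v r
    rw [h, dotProduct_zero, ← hg, hgz] at e
    exact e
  have hfz : dp f z = z (j, s) := by
    rw [hfs, dp, dotProduct, Finset.sum_eq_single (j, s)]
    · rw [Pi.star_apply, Pi.single_eq_same, star_one, one_mul]
    · intro q _ hq
      rw [Pi.star_apply, Pi.single_eq_of_ne hq, star_zero, zero_mul]
    · intro hq; exact absurd (Finset.mem_univ _) hq
  obtain ⟨w, hw⟩ : ∃ w, w = dp f (pTrans r *ᵥ f) := ⟨_, rfl⟩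
  have main : ∀ c : ℂ, 0 ≤ (w + c * z (j, s) + star (c * z (j, s))).re := by
    intro c
    have h1 := hU (Pi.single j 1) (c • a) (Pi.single s 1) (star v)
    have e1 : sprod (prodVec (Pi.single j 1) (Pi.single s 1) + prodVec (c • a) (star v))
        (pTrans r *ᵥ (prodVec (Pi.single j 1) (Pi.single s 1) + prodVec (c • a) (star v))) =
        w + c * z (j, s) + star (c * z (j, s)) := by
      rw [prodVec_smul, ← hf, ← hg]
      change dp (f + c • g) (pTrans r *ᵥ (f + c • g)) = _
      rw [mulVec_add, mulVec_smul, hgz, add_dp, dp_add, dp_add, dp_smul, dp_smul, smul_dp,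
        smul_dp, hgg, hfz, ← hw]
      have e2 : dp g (pTrans r *ᵥ f) = star (z (j, s)) := by
        rw [← pT_herm hr, ← dp_star, ← dp_mulVec, hgz, hfz]
      rw [e2, star_mul']
      ring
    rw [e1] at h1
    exact h1
  have h2 := main (-(((|w.re| + 1 : ℝ) : ℂ) * (z (j, s))⁻¹))
  have e3 : -(((|w.re| + 1 : ℝ) : ℂ) * (z (j, s))⁻¹) * z (j, s) = -((|w.re| + 1 : ℝ) : ℂ) := by
    field_simp
  rw [e3] at h2
  have h3 := le_abs_self w.re
  have h4 := abs_nonneg w.re
  simp only [Complex.add_re, Complex.neg_re, star_neg, Complex.star_def, Complex.conj_ofReal,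
    Complex.ofReal_re] at h2
  linarith

/-- **Theorem J without positivity of the partial transpose.** A state that annihilates `a ⊗ b`
(possibly with `a = 0` or `b = 0`) and whose rank is at most the sum of the ranks of `⟨a|r|a⟩` and
`⟨b|r|b⟩` is separable or has positive distillable key. -/
theorem thmJ2 (r : Matrix (A × B) (A × B) ℂ) (htr : r.trace = 1) (hr : r.PosSemidef)
    (a : A → ℂ) (b : B → ℂ) (h : r *ᵥ prodVec a b = 0)
    (hrk : r.rank ≤ (bl a r).rank + (br b r).rank) : KeyPos r ∨ IsSep r := by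
  by_cases hU : U1 r
  · rcases sep_or_crit hr (kill hr hU h) h hrk with h1 | h1
    · exact Or.inr h1
    · exact Or.inl (h1.keyPos htr)
  · exact Or.inl (keyPos_of_not htr hr hU)

end Vale.Agent.P372.R4.J2
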