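import Vale.Agent.P372.R2.helper492.LetterDefs

/-!
Row SUP of P372: restriction of a state to the supports of its two reductions, and
rectangular filters.
-/

set_option linter.unusedSectionVars false

namespace Vale.Agent.P372.R4

open Matrix Kronecker
open scoped ComplexOrder

theorem iso_core {n : Type} [Fintype n] [DecidableEq n] {p : ℕ} (U : Matrix n n ℂ)
    (lam : n → ℝ) (hUU : Uᴴ * U = 1) (e : {i // lam i ≠ 0} ≃ Fin p) :
    ∃ V : Matrix n (Fin p) ℂ, Vᴴ * V = 1 ∧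
      V * Vᴴ * (U * diagonal (fun i => (lam i : ℂ)) * Uᴴ)
        = U * diagonal (fun i => (lam i : ℂ)) * Uᴴ ∧
      ∃ X : Matrix n n ℂ, V * Vᴴ = X * (U * diagonal (fun i => (lam i : ℂ)) * Uᴴ) := by
  classical
  set V : Matrix n (Fin p) ℂ := U.submatrix id (fun k => (e.symm k).1) with hV
  set ind : n → ℂ := fun i => if lam i ≠ 0 then 1 else 0 with hind
  have hVV : V * Vᴴ = U * diagonal ind * Uᴴ := by
    ext i j
    rw [Matrix.mul_apply, Matrix.mul_apply]
    simp only [Matrix.mul_diagonal, Matrix.conjTranspose_apply]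
    rw [← Equiv.sum_comp e (fun k => V i k * star (V j k))]
    have h0 : ∀ a : {i // lam i ≠ 0}, V i (e a) * star (V j (e a)) = U i a * star (U j a) := by
      intro a
      simp [hV]
    simp_rw [h0]
    have h1 : ∀ x : n, U i x * ind x * star (U j x)
        = if lam x ≠ 0 then U i x * star (U j x) else 0 := by
      intro x
      rw [hind]
      by_cases hx : lam x ≠ 0
      · simp [hx]
      · simp [hx]
    simp_rw [h1]
    rw [← Finset.sum_filter]
    exact (Finset.sum_subtype (Finset.univ.filter fun x => lam x ≠ 0)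
      (fun x => by simp) (fun x => U i x * star (U j x))).symm
  have hprod : ∀ (a b : n → ℂ), U * diagonal a * Uᴴ * (U * diagonal b * Uᴴ)
      = U * diagonal (fun i => a i * b i) * Uᴴ := by
    intro a b
    have h1 : U * diagonal a * Uᴴ * (U * diagonal b * Uᴴ)
        = U * (diagonal a * ((Uᴴ * U) * diagonal b)) * Uᴴ := by
      simp only [Matrix.mul_assoc]
    rw [h1, hUU, Matrix.one_mul, Matrix.diagonal_mul_diagonal]
  refine ⟨V, ?_, ?_, U * diagonal (fun i => ((lam i : ℂ))⁻¹) * Uᴴ, ?_⟩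
  · have h1 : Vᴴ * V = (Uᴴ * U).submatrix (fun k => (e.symm k).1) (fun k => (e.symm k).1) := by
      rw [hV, Matrix.conjTranspose_submatrix]
      rw [Matrix.submatrix_mul _ _ _ (id : n → n) _ Function.bijective_id]
    rw [h1, hUU]
    ext k l
    rw [Matrix.submatrix_apply, Matrix.one_apply, Matrix.one_apply]
    by_cases hkl : k = l
    · simp [hkl]
    · rw [if_neg hkl, if_neg]
      intro hh
      exact hkl (e.symm.injective (Subtype.ext hh))
  · rw [hVV, hprod]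
    have : (fun i => ind i * (lam i : ℂ)) = fun i => (lam i : ℂ) := by
      funext i
      by_cases hx : lam i = 0
      · simp [hx]
      · simp [hind, hx]
    rw [this]
  · rw [hVV, hprod]
    have : (fun i => ((lam i : ℂ))⁻¹ * (lam i : ℂ)) = ind := by
      funext i
      by_cases hx : lam i = 0
      · simp [hind, hx]
      · simp [hind, hx]
    rw [this]

/-- An isometry onto the range of a positive semidefinite matrix. -/
theorem exists_iso {n : Type} [Fintype n] [DecidableEq n] {M : Matrix n n ℂ}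
    (hM : M.PosSemidef) :
    ∃ V : Matrix n (Fin M.rank) ℂ, Vᴴ * V = 1 ∧ V * Vᴴ * M = M ∧
      ∀ x, M *ᵥ x = 0 → Vᴴ *ᵥ x = 0 := by
  classical
  have hH := hM.isHermitian
  have hcard : Fintype.card {i // hH.eigenvalues i ≠ 0} = Fintype.card (Fin M.rank) := by
    rw [Fintype.card_fin, hH.rank_eq_card_non_zero_eigs]
  have hUU : (hH.eigenvectorUnitary : Matrix n n ℂ)ᴴ * (hH.eigenvectorUnitary : Matrix n n ℂ)
      = 1 := by
    have := (Matrix.mem_unitaryGroup_iff').1 hH.eigenvectorUnitary.2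
    simpa [Matrix.star_eq_conjTranspose] using this
  have hspec : M = (hH.eigenvectorUnitary : Matrix n n ℂ) *
      diagonal (fun i => (hH.eigenvalues i : ℂ)) * (hH.eigenvectorUnitary : Matrix n n ℂ)ᴴ := by
    have h1 := hH.spectral_theorem
    rw [Unitary.conjStarAlgAut_apply] at h1
    exact h1
  obtain ⟨V, h1, h2, X, h3⟩ := iso_core (hH.eigenvectorUnitary : Matrix n n ℂ) hH.eigenvalues
    hUU (Fintype.equivOfCardEq hcard)
  rw [← hspec] at h2 h3
  refine ⟨V, h1, h2, fun x hx => ?_⟩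
  have h4 : (V * Vᴴ) *ᵥ x = 0 := by
    rw [h3, ← Matrix.mulVec_mulVec, hx, Matrix.mulVec_zero]
  calc Vᴴ *ᵥ x = (Vᴴ * V) *ᵥ (Vᴴ *ᵥ x) := by rw [h1, Matrix.one_mulVec]
    _ = Vᴴ *ᵥ ((V * Vᴴ) *ᵥ x) := by
      rw [Matrix.mulVec_mulVec, Matrix.mulVec_mulVec, Matrix.mul_assoc]
    _ = 0 := by rw [h4, Matrix.mulVec_zero]

section red

variable {A B : Type} [Fintype A] [Fintype B]

/-- Alice's reduction. -/
def redA (r : Matrix (A × B) (A × B) ℂ) : Matrix A A ℂ := fun i j => ∑ s, r (i, s) (j, s)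

/-- Bob's reduction. -/
def redB (r : Matrix (A × B) (A × B) ℂ) : Matrix B B ℂ := fun s t => ∑ j, r (j, s) (j, t)

theorem redA_eq (r : Matrix (A × B) (A × B) ℂ) :
    redA r = ∑ s, fun i j => r (i, s) (j, s) := by
  funext i j
  simp [redA, Finset.sum_apply]

theorem redB_eq (r : Matrix (A × B) (A × B) ℂ) :
    redB r = ∑ j, fun s t => r (j, s) (j, t) := by
  funext i j
  simp [redB, Finset.sum_apply]

variable [DecidableEq A] [DecidableEq B]

theorem trace_kron_one (X : Matrix A A ℂ) (r : Matrix (A × B) (A × B) ℂ) :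
    ((X ⊗ₖ (1 : Matrix B B ℂ)) * r).trace = (X * redA r).trace := by
  simp only [Matrix.trace, Matrix.diag, Matrix.mul_apply, redA, Fintype.sum_prod_type,
    Matrix.kroneckerMap_apply, Matrix.one_apply, mul_ite, mul_one, mul_zero, ite_mul, zero_mul,
    Finset.sum_ite_eq, Finset.mem_univ, if_true, Finset.mul_sum]
  refine Finset.sum_congr rfl fun i _ => ?_
  rw [Finset.sum_comm]

theorem trace_one_kron (Y : Matrix B B ℂ) (r : Matrix (A × B) (A × B) ℂ) :
    (((1 : Matrix A A ℂ) ⊗ₖ Y) * r).trace = (Y * redB r).trace := by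
  simp only [Matrix.trace, Matrix.diag, Matrix.mul_apply, redB, Fintype.sum_prod_type,
    Matrix.kroneckerMap_apply, Matrix.one_apply, ite_mul, one_mul, zero_mul,
    Finset.sum_ite_irrel, Finset.sum_const_zero,
    Finset.sum_ite_eq, Finset.mem_univ, if_true, Finset.mul_sum]
  rw [Finset.sum_comm]
  refine Finset.sum_congr rfl fun i _ => ?_
  rw [Finset.sum_comm]

omit [DecidableEq A] [DecidableEq B] in
open scoped MatrixOrder Matrix.Norms.L2Operator in
theorem exists_factor {n : Type} [Fintype n] [DecidableEq n] {r : Matrix n n ℂ}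
    (hr : r.PosSemidef) : ∃ C : Matrix n n ℂ, r = Cᴴ * C := by
  obtain ⟨C, hC⟩ := CStarAlgebra.nonneg_iff_eq_star_mul_self.mp hr.nonneg
  exact ⟨C, hC⟩

theorem mul_eq_zero_of_trace {r : Matrix (A × B) (A × B) ℂ} (hr : r.PosSemidef)
    (Z : Matrix (A × B) (A × B) ℂ) (h : (Zᴴ * Z * r).trace = 0) : Z * r = 0 := by
  obtain ⟨C, hC'⟩ := exists_factor hr
  have h1 : ((C * Zᴴ)ᴴ * (C * Zᴴ)).trace = 0 := by
    rw [Matrix.conjTranspose_mul, Matrix.conjTranspose_conjTranspose]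
    have : Z * Cᴴ * (C * Zᴴ) = Z * (r * Zᴴ) := by
      rw [hC']; simp only [Matrix.mul_assoc]
    rw [this, Matrix.trace_mul_comm, Matrix.mul_assoc, Matrix.trace_mul_comm, ← h]
  have h2 : C * Zᴴ = 0 := Matrix.trace_conjTranspose_mul_self_eq_zero_iff.1 h1
  have h3 : Z * Cᴴ = 0 := by
    have := congrArg Matrix.conjTranspose h2
    simpa [Matrix.conjTranspose_mul] using this
  rw [hC', ← Matrix.mul_assoc, h3, Matrix.zero_mul]

theorem kron_one_mul_of_red {r : Matrix (A × B) (A × B) ℂ} (hr : r.PosSemidef)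
    (Q : Matrix A A ℂ) (hQ : Q * redA r = 0) : (Q ⊗ₖ (1 : Matrix B B ℂ)) * r = 0 := by
  apply mul_eq_zero_of_trace hr
  rw [Matrix.conjTranspose_kronecker, ← Matrix.mul_kronecker_mul, Matrix.conjTranspose_one,
    Matrix.mul_one, trace_kron_one, Matrix.mul_assoc, hQ, Matrix.mul_zero, Matrix.trace_zero]

theorem one_kron_mul_of_red {r : Matrix (A × B) (A × B) ℂ} (hr : r.PosSemidef)
    (Q : Matrix B B ℂ) (hQ : Q * redB r = 0) : ((1 : Matrix A A ℂ) ⊗ₖ Q) * r = 0 := by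
  apply mul_eq_zero_of_trace hr
  rw [Matrix.conjTranspose_kronecker, ← Matrix.mul_kronecker_mul, Matrix.conjTranspose_one,
    Matrix.mul_one, trace_one_kron, Matrix.mul_assoc, hQ, Matrix.mul_zero, Matrix.trace_zero]

end red

section filt

variable {A B C D : Type} [Fintype A] [Fintype B] [Fintype C] [Fintype D]

/-- Rectangular local filters preserve separability. -/
theorem isSep_rect {r : Matrix (A × B) (A × B) ℂ} (h : IsSep r) (X : Matrix C A ℂ)
    (Y : Matrix D B ℂ) : IsSep ((X ⊗ₖ Y) * r * (X ⊗ₖ Y)ᴴ) := by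
  obtain ⟨n, M, N, hM, hN, hMN⟩ := h
  refine ⟨n, fun k => X * M k * Xᴴ, fun k => Y * N k * Yᴴ,
    fun k => (hM k).mul_mul_conjTranspose_same _,
    fun k => (hN k).mul_mul_conjTranspose_same _, ?_⟩
  rw [hMN, Matrix.mul_sum, Matrix.sum_mul]
  refine Finset.sum_congr rfl fun k _ => ?_
  rw [Matrix.conjTranspose_kronecker, ← Matrix.mul_kronecker_mul, ← Matrix.mul_kronecker_mul]

omit [Fintype C] [Fintype D] in
theorem rect_apply (τ : Matrix (A × B) (A × B) ℂ) (X : Matrix C A ℂ) (Y : Matrix D B ℂ)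
    (i i' : C) (j j' : D) :
    ((X ⊗ₖ Y) * τ * (X ⊗ₖ Y)ᴴ) (i, j) (i', j') =
      ∑ a, ∑ b, ∑ a', ∑ b', X i a * Y j b * τ (a, b) (a', b') *
        (star (X i' a') * star (Y j' b')) := by
  rw [Matrix.mul_apply, Fintype.sum_prod_type]
  have h : ∀ a' b', ((X ⊗ₖ Y) * τ) (i, j) (a', b') * (X ⊗ₖ Y)ᴴ (a', b') (i', j') =
      ∑ a, ∑ b, X i a * Y j b * τ (a, b) (a', b') * (star (X i' a') * star (Y j' b')) := by
    intro a' b'
    rw [Matrix.mul_apply, Fintype.sum_prod_type, Finset.sum_mul]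
    refine Finset.sum_congr rfl fun a _ => ?_
    rw [Finset.sum_mul]
    refine Finset.sum_congr rfl fun b _ => ?_
    rw [Matrix.kroneckerMap_apply, Matrix.conjTranspose_apply, Matrix.kroneckerMap_apply,
      star_mul']
  simp only [h]
  calc ∑ a', ∑ b', ∑ a, ∑ b, X i a * Y j b * τ (a, b) (a', b') *
        (star (X i' a') * star (Y j' b'))
      = ∑ a', ∑ a, ∑ b', ∑ b, X i a * Y j b * τ (a, b) (a', b') *
        (star (X i' a') * star (Y j' b')) :=
        Finset.sum_congr rfl fun a' _ => Finset.sum_comm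
    _ = ∑ a, ∑ a', ∑ b', ∑ b, X i a * Y j b * τ (a, b) (a', b') *
        (star (X i' a') * star (Y j' b')) := Finset.sum_comm
    _ = ∑ a, ∑ a', ∑ b, ∑ b', X i a * Y j b * τ (a, b) (a', b') *
        (star (X i' a') * star (Y j' b')) :=
        Finset.sum_congr rfl fun a _ => Finset.sum_congr rfl fun a' _ => Finset.sum_comm
    _ = _ := Finset.sum_congr rfl fun a _ => Finset.sum_comm

omit [Fintype C] [Fintype D] in
theorem pTrans_rect (τ : Matrix (A × B) (A × B) ℂ) (X : Matrix C A ℂ) (Y : Matrix D B ℂ) :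
    pTrans ((X ⊗ₖ Y) * τ * (X ⊗ₖ Y)ᴴ) =
      (X ⊗ₖ Y.map star) * pTrans τ * (X ⊗ₖ Y.map star)ᴴ := by
  ext ⟨i, j⟩ ⟨i', j'⟩
  rw [pTrans, rect_apply, rect_apply]
  refine Finset.sum_congr rfl fun a _ => ?_
  calc ∑ b, ∑ a', ∑ b', X i a * Y j' b * τ (a, b) (a', b') * (star (X i' a') * star (Y j b')) =
        ∑ a', ∑ b, ∑ b', X i a * Y j' b * τ (a, b) (a', b') *
          (star (X i' a') * star (Y j b')) := Finset.sum_comm
    _ = ∑ a', ∑ b', ∑ b, X i a * Y j' b * τ (a, b) (a', b') *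
          (star (X i' a') * star (Y j b')) := by
        refine Finset.sum_congr rfl fun a' _ => Finset.sum_comm
    _ = ∑ b', ∑ a', ∑ b, X i a * Y j' b * τ (a, b) (a', b') *
          (star (X i' a') * star (Y j b')) := Finset.sum_comm
    _ = _ := by
        refine Finset.sum_congr rfl fun b' _ => Finset.sum_congr rfl fun a' _ =>
          Finset.sum_congr rfl fun b _ => ?_
        simp only [Matrix.map_apply, pTrans, star_star]
        ring

/-- Rectangular local filters preserve positivity of the partial transpose. -/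
theorem ppt_rect {r : Matrix (A × B) (A × B) ℂ} (h : (pTrans r).PosSemidef) (X : Matrix C A ℂ)
    (Y : Matrix D B ℂ) : (pTrans ((X ⊗ₖ Y) * r * (X ⊗ₖ Y)ᴴ)).PosSemidef := by
  rw [pTrans_rect]
  exact h.mul_mul_conjTranspose_same _

variable [DecidableEq A] [DecidableEq B] [DecidableEq C] [DecidableEq D]

/-- The reduction of a state filtered by isometries onto the supports. -/
theorem redA_rect {r : Matrix (A × B) (A × B) ℂ} (V : Matrix A C ℂ) (W : Matrix B D ℂ)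
    (hW : ((1 : Matrix A A ℂ) ⊗ₖ (W * Wᴴ)) * r = r) :
    redA ((V ⊗ₖ W)ᴴ * r * (V ⊗ₖ W)) = Vᴴ * redA r * V := by
  rw [Matrix.ext_iff_trace_mul_left]
  intro X
  rw [← trace_kron_one (B := D)]
  have h1 : ((X ⊗ₖ (1 : Matrix D D ℂ)) * ((V ⊗ₖ W)ᴴ * r * (V ⊗ₖ W))).trace
      = (((V * X * Vᴴ) ⊗ₖ (1 : Matrix B B ℂ)) * r).trace := by
    calc ((X ⊗ₖ (1 : Matrix D D ℂ)) * ((V ⊗ₖ W)ᴴ * r * (V ⊗ₖ W))).trace
        = ((V ⊗ₖ W) * ((X ⊗ₖ (1 : Matrix D D ℂ)) * ((V ⊗ₖ W)ᴴ * r))).trace := by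
          rw [← Matrix.mul_assoc, Matrix.trace_mul_comm]
      _ = ((((V * X * Vᴴ) ⊗ₖ (1 : Matrix B B ℂ)) *
            ((1 : Matrix A A ℂ) ⊗ₖ (W * Wᴴ))) * r).trace := by
          rw [← Matrix.mul_kronecker_mul, Matrix.conjTranspose_kronecker, ← Matrix.mul_assoc,
            ← Matrix.mul_assoc, ← Matrix.mul_kronecker_mul, ← Matrix.mul_kronecker_mul,
            Matrix.mul_one, Matrix.mul_one, Matrix.one_mul]
      _ = _ := by rw [Matrix.mul_assoc, hW]
  rw [h1, trace_kron_one]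
  calc (V * X * Vᴴ * redA r).trace = (V * (X * (Vᴴ * redA r))).trace := by
        simp only [Matrix.mul_assoc]
    _ = (X * (Vᴴ * redA r * V)).trace := by
        rw [Matrix.trace_mul_comm]
        simp only [Matrix.mul_assoc]

theorem redB_rect {r : Matrix (A × B) (A × B) ℂ} (V : Matrix A C ℂ) (W : Matrix B D ℂ)
    (hV : ((V * Vᴴ) ⊗ₖ (1 : Matrix B B ℂ)) * r = r) :
    redB ((V ⊗ₖ W)ᴴ * r * (V ⊗ₖ W)) = Wᴴ * redB r * W := by
  rw [Matrix.ext_iff_trace_mul_left]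
  intro X
  rw [← trace_one_kron (A := C)]
  have h1 : (((1 : Matrix C C ℂ) ⊗ₖ X) * ((V ⊗ₖ W)ᴴ * r * (V ⊗ₖ W))).trace
      = (((1 : Matrix A A ℂ) ⊗ₖ (W * X * Wᴴ)) * r).trace := by
    calc (((1 : Matrix C C ℂ) ⊗ₖ X) * ((V ⊗ₖ W)ᴴ * r * (V ⊗ₖ W))).trace
        = ((V ⊗ₖ W) * (((1 : Matrix C C ℂ) ⊗ₖ X) * ((V ⊗ₖ W)ᴴ * r))).trace := by
          rw [← Matrix.mul_assoc, Matrix.trace_mul_comm]
      _ = ((((1 : Matrix A A ℂ) ⊗ₖ (W * X * Wᴴ)) *
            ((V * Vᴴ) ⊗ₖ (1 : Matrix B B ℂ))) * r).trace := by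
          rw [← Matrix.mul_kronecker_mul, Matrix.conjTranspose_kronecker, ← Matrix.mul_assoc,
            ← Matrix.mul_assoc, ← Matrix.mul_kronecker_mul, ← Matrix.mul_kronecker_mul,
            Matrix.mul_one, Matrix.mul_one, Matrix.one_mul]
      _ = _ := by rw [Matrix.mul_assoc, hV]
  rw [h1, trace_one_kron]
  calc (W * X * Wᴴ * redB r).trace = (W * (X * (Wᴴ * redB r))).trace := by
        simp only [Matrix.mul_assoc]
    _ = (X * (Wᴴ * redB r * W)).trace := by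
        rw [Matrix.trace_mul_comm]
        simp only [Matrix.mul_assoc]

end filt

section support

variable {A B : Type} [Fintype A] [Fintype B] [DecidableEq A] [DecidableEq B]

theorem redA_psd {r : Matrix (A × B) (A × B) ℂ} (hr : r.PosSemidef) : (redA r).PosSemidef := by
  obtain ⟨C, rfl⟩ := exists_factor hr
  have h : redA (Cᴴ * C) = ∑ s : B, (C.submatrix id (fun i : A => (i, s)))ᴴ *
      (C.submatrix id (fun i : A => (i, s))) := by
    ext i j
    rw [Matrix.sum_apply]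
    rfl
  rw [h]
  exact Matrix.posSemidef_sum _ fun s _ => Matrix.posSemidef_conjTranspose_mul_self _

theorem redB_psd {r : Matrix (A × B) (A × B) ℂ} (hr : r.PosSemidef) : (redB r).PosSemidef := by
  obtain ⟨C, rfl⟩ := exists_factor hr
  have h : redB (Cᴴ * C) = ∑ j : A, (C.submatrix id (fun s : B => (j, s)))ᴴ *
      (C.submatrix id (fun s : B => (j, s))) := by
    ext i j
    rw [Matrix.sum_apply]
    rfl
  rw [h]
  exact Matrix.posSemidef_sum _ fun s _ => Matrix.posSemidef_conjTranspose_mul_self _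

/-- Row SUP, Alice's half. -/
theorem sup_A {r : Matrix (A × B) (A × B) ℂ} (hr : r.PosSemidef) :
    ∃ V : Matrix A (Fin (redA r).rank) ℂ, Vᴴ * V = 1 ∧
      ((V * Vᴴ) ⊗ₖ (1 : Matrix B B ℂ)) * r = r := by
  obtain ⟨V, h1, h2, -⟩ := exists_iso (redA_psd hr)
  refine ⟨V, h1, ?_⟩
  have h3 : ((1 - V * Vᴴ) ⊗ₖ (1 : Matrix B B ℂ)) * r = 0 := by
    apply kron_one_mul_of_red hr
    rw [Matrix.sub_mul, Matrix.one_mul, h2, sub_self]
  have h4 : (1 - V * Vᴴ) ⊗ₖ (1 : Matrix B B ℂ) = 1 - (V * Vᴴ) ⊗ₖ (1 : Matrix B B ℂ) := by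
    rw [← Matrix.one_kronecker_one (α := ℂ) (m := A) (n := B)]
    ext p q
    simp only [Matrix.kroneckerMap_apply, Matrix.sub_apply, sub_mul]
  rw [h4, Matrix.sub_mul, Matrix.one_mul, sub_eq_zero] at h3
  exact h3.symm

/-- Row SUP, Bob's half. -/
theorem sup_B {r : Matrix (A × B) (A × B) ℂ} (hr : r.PosSemidef) :
    ∃ W : Matrix B (Fin (redB r).rank) ℂ, Wᴴ * W = 1 ∧
      ((1 : Matrix A A ℂ) ⊗ₖ (W * Wᴴ)) * r = r := by
  obtain ⟨W, h1, h2, -⟩ := exists_iso (redB_psd hr)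
  refine ⟨W, h1, ?_⟩
  have h3 : ((1 : Matrix A A ℂ) ⊗ₖ (1 - W * Wᴴ)) * r = 0 := by
    apply one_kron_mul_of_red hr
    rw [Matrix.sub_mul, Matrix.one_mul, h2, sub_self]
  have h4 : (1 : Matrix A A ℂ) ⊗ₖ (1 - W * Wᴴ) = 1 - (1 : Matrix A A ℂ) ⊗ₖ (W * Wᴴ) := by
    rw [← Matrix.one_kronecker_one (α := ℂ) (m := A) (n := B)]
    ext p q
    simp only [Matrix.kroneckerMap_apply, Matrix.sub_apply, mul_sub]
  rw [h4, Matrix.sub_mul, Matrix.one_mul, sub_eq_zero] at h3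
  exact h3.symm

/-- Row SUP: compression of a state to the supports of its reductions. -/
theorem sup {r : Matrix (A × B) (A × B) ℂ} (hr : r.PosSemidef) :
    ∃ (V : Matrix A (Fin (redA r).rank) ℂ) (W : Matrix B (Fin (redB r).rank) ℂ)
      (r' : Matrix (Fin (redA r).rank × Fin (redB r).rank)
        (Fin (redA r).rank × Fin (redB r).rank) ℂ),
      Vᴴ * V = 1 ∧ Wᴴ * W = 1 ∧ r' = (V ⊗ₖ W)ᴴ * r * (V ⊗ₖ W) ∧
      (V ⊗ₖ W) * r' * (V ⊗ₖ W)ᴴ = r ∧ r'.PosSemidef ∧
      ((pTrans r).PosSemidef → (pTrans r').PosSemidef) ∧ (IsSep r' ↔ IsSep r) ∧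
      r'.rank = r.rank ∧ r'.trace = r.trace ∧
      (redA r').rank = (redA r).rank ∧ (redB r').rank = (redB r).rank := by
  obtain ⟨V, hV1, hV2⟩ := sup_A hr
  obtain ⟨W, hW1, hW2⟩ := sup_B hr
  have hVW : (V ⊗ₖ W)ᴴ * (V ⊗ₖ W) = 1 := by
    rw [Matrix.conjTranspose_kronecker, ← Matrix.mul_kronecker_mul, hV1, hW1,
      Matrix.one_kronecker_one]
  have hP : ((V ⊗ₖ W) * (V ⊗ₖ W)ᴴ) * r = r := by
    rw [Matrix.conjTranspose_kronecker, ← Matrix.mul_kronecker_mul]
    have : (V * Vᴴ) ⊗ₖ (W * Wᴴ)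
        = ((V * Vᴴ) ⊗ₖ (1 : Matrix B B ℂ)) * ((1 : Matrix A A ℂ) ⊗ₖ (W * Wᴴ)) := by
      rw [← Matrix.mul_kronecker_mul, Matrix.mul_one, Matrix.one_mul]
    rw [this, Matrix.mul_assoc, hW2, hV2]
  have hP' : r * ((V ⊗ₖ W) * (V ⊗ₖ W)ᴴ) = r := by
    have h := congrArg Matrix.conjTranspose hP
    rw [Matrix.conjTranspose_mul, Matrix.conjTranspose_mul, Matrix.conjTranspose_conjTranspose,
      hr.isHermitian.eq] at h
    exact h
  have hback : (V ⊗ₖ W) * ((V ⊗ₖ W)ᴴ * r * (V ⊗ₖ W)) * (V ⊗ₖ W)ᴴ = r := by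
    calc (V ⊗ₖ W) * ((V ⊗ₖ W)ᴴ * r * (V ⊗ₖ W)) * (V ⊗ₖ W)ᴴ
        = (((V ⊗ₖ W) * (V ⊗ₖ W)ᴴ) * r) * ((V ⊗ₖ W) * (V ⊗ₖ W)ᴴ) := by
          simp only [Matrix.mul_assoc]
      _ = r := by rw [hP, hP']
  have hfwd : (V ⊗ₖ W)ᴴ * r * (V ⊗ₖ W) = (Vᴴ ⊗ₖ Wᴴ) * r * (Vᴴ ⊗ₖ Wᴴ)ᴴ := by
    rw [Matrix.conjTranspose_kronecker, Matrix.conjTranspose_kronecker,
      Matrix.conjTranspose_conjTranspose, Matrix.conjTranspose_conjTranspose]
  refine ⟨V, W, (V ⊗ₖ W)ᴴ * r * (V ⊗ₖ W), hV1, hW1, rfl, hback, ?_, ?_, ⟨?_, ?_⟩, ?_, ?_, ?_, ?_⟩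
  · exact hr.conjTranspose_mul_mul_same _
  · intro h
    rw [hfwd]
    exact ppt_rect h _ _
  · intro h
    have := isSep_rect h V W
    rwa [hback] at this
  · intro h
    rw [hfwd]
    exact isSep_rect h _ _
  · apply le_antisymm
    · exact (Matrix.rank_mul_le_left _ _).trans (Matrix.rank_mul_le_right _ _)
    · conv_lhs => rw [← hback]
      exact (Matrix.rank_mul_le_left _ _).trans (Matrix.rank_mul_le_right _ _)
  · rw [Matrix.trace_mul_comm, ← Matrix.mul_assoc, hP]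
  · rw [redA_rect V W hW2]
    apply le_antisymm
    · exact (Matrix.rank_mul_le_left _ _).trans (Matrix.rank_mul_le_right _ _)
    · have h1 : redA r = V * (Vᴴ * redA r * V) * Vᴴ := by
        conv_lhs => rw [← hback]
        rw [← redA_rect V W hW2]
        set r' := (V ⊗ₖ W)ᴴ * r * (V ⊗ₖ W) with hr'
        have h2 : (V ⊗ₖ W) * r' * (V ⊗ₖ W)ᴴ = (Vᴴ ⊗ₖ Wᴴ)ᴴ * r' * (Vᴴ ⊗ₖ Wᴴ) := by
          rw [Matrix.conjTranspose_kronecker, Matrix.conjTranspose_kronecker,
            Matrix.conjTranspose_conjTranspose, Matrix.conjTranspose_conjTranspose]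
        rw [h2, redA_rect Vᴴ Wᴴ, Matrix.conjTranspose_conjTranspose]
        rw [Matrix.conjTranspose_conjTranspose, hW1, Matrix.one_kronecker_one, Matrix.one_mul]
      conv_lhs => rw [h1]
      exact (Matrix.rank_mul_le_left _ _).trans (Matrix.rank_mul_le_right _ _)
  · rw [redB_rect V W hV2]
    apply le_antisymm
    · exact (Matrix.rank_mul_le_left _ _).trans (Matrix.rank_mul_le_right _ _)
    · have h1 : redB r = W * (Wᴴ * redB r * W) * Wᴴ := by
        conv_lhs => rw [← hback]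
        rw [← redB_rect V W hV2]
        set r' := (V ⊗ₖ W)ᴴ * r * (V ⊗ₖ W) with hr'
        have h2 : (V ⊗ₖ W) * r' * (V ⊗ₖ W)ᴴ = (Vᴴ ⊗ₖ Wᴴ)ᴴ * r' * (Vᴴ ⊗ₖ Wᴴ) := by
          rw [Matrix.conjTranspose_kronecker, Matrix.conjTranspose_kronecker,
            Matrix.conjTranspose_conjTranspose, Matrix.conjTranspose_conjTranspose]
        rw [h2, redB_rect Vᴴ Wᴴ, Matrix.conjTranspose_conjTranspose]
        rw [Matrix.conjTranspose_conjTranspose, hV1, Matrix.one_kronecker_one, Matrix.one_mul]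
      conv_lhs => rw [h1]
      exact (Matrix.rank_mul_le_left _ _).trans (Matrix.rank_mul_le_right _ _)

end support

end Vale.Agent.P372.R4
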