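import Vale.Agent.P372.R4.Hopf
import Vale.Agent.P372.R4.SUP
import Vale.Agent.P372.R4.J2d

/-!
States of rank at most `rank r_A + rank r_B - 2` whose kernel contains no `a ⊗ V`, `V ⊗ b` with
`V` a plane in the support: separable or positive distillable key.
-/

open Matrix Kronecker
open scoped ComplexOrder

set_option linter.unusedSectionVars false

namespace Vale.Agent.P372.R4

variable {A B : Type} [Fintype A] [DecidableEq A] [Fintype B] [DecidableEq B]

theorem trace_redA (r : Matrix (A × B) (A × B) ℂ) : (redA r).trace = r.trace := by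
  simp only [Matrix.trace, redA, Matrix.diag_apply, Fintype.sum_prod_type]

theorem trace_trA (r : Matrix (A × B) (A × B) ℂ) : (trA r).trace = r.trace := by
  simp only [Matrix.trace, trA, Matrix.diag_apply, Fintype.sum_prod_type]
  exact Finset.sum_comm

theorem rank_pos_of_trace {n : Type} [Fintype n] [DecidableEq n] {X : Matrix n n ℂ}
    (h : X.trace ≠ 0) : 0 < X.rank := by
  rw [Nat.pos_iff_ne_zero]
  intro h0
  apply h
  rw [Matrix.rank, Submodule.finrank_eq_zero, LinearMap.range_eq_bot] at h0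
  have h1 : X = 0 := by
    ext i j
    have h2 := congrFun (LinearMap.congr_fun h0 (Pi.single j 1)) i
    simpa using h2
  rw [h1, Matrix.trace_zero]

/-- A nonzero product vector of the supports in the kernel. -/
theorem exists_prod (r : Matrix (A × B) (A × B) ℂ) (X : Matrix A A ℂ) (Y : Matrix B B ℂ)
    (hX : 0 < X.rank) (hY : 0 < Y.rank) (hrk : r.rank + 2 ≤ X.rank + Y.rank) :
    ∃ (a : A → ℂ) (b : B → ℂ), a ∈ LinearMap.range X.mulVecLin ∧
      b ∈ LinearMap.range Y.mulVecLin ∧ a ≠ 0 ∧ b ≠ 0 ∧ r *ᵥ prodVec a b = 0 := by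
  obtain ⟨eA, heA⟩ : ∃ e, e = Module.finBasis ℂ (LinearMap.range X.mulVecLin) := ⟨_, rfl⟩
  obtain ⟨eB, heB⟩ : ∃ e, e = Module.finBasis ℂ (LinearMap.range Y.mulVecLin) := ⟨_, rfl⟩
  have hX' : 0 < Module.finrank ℂ (LinearMap.range X.mulVecLin) := hX
  have hY' : 0 < Module.finrank ℂ (LinearMap.range Y.mulVecLin) := hY
  have : Nonempty (Fin (Module.finrank ℂ (LinearMap.range X.mulVecLin))) := ⟨⟨0, hX'⟩⟩
  have : Nonempty (Fin (Module.finrank ℂ (LinearMap.range Y.mulVecLin))) := ⟨⟨0, hY'⟩⟩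
  obtain ⟨a', b', ha', hb', h⟩ := hopf (r.mulVecLin.rangeRestrict ∘ₗ
    Fintype.linearCombination ℂ (fun p : Fin (Module.finrank ℂ (LinearMap.range X.mulVecLin)) ×
      Fin (Module.finrank ℂ (LinearMap.range Y.mulVecLin)) =>
        prodVec (eA p.1 : A → ℂ) (eB p.2 : B → ℂ))) (by
      rw [Fintype.card_fin, Fintype.card_fin]
      exact hrk)
  refine ⟨(eA.equivFun.symm a' : LinearMap.range X.mulVecLin),
    (eB.equivFun.symm b' : LinearMap.range Y.mulVecLin), Subtype.coe_prop _, Subtype.coe_prop _,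
    ?_, ?_, ?_⟩
  · intro h0
    exact ha' ((LinearEquiv.map_eq_zero_iff eA.equivFun.symm).1 (Subtype.ext h0))
  · intro h0
    exact hb' ((LinearEquiv.map_eq_zero_iff eB.equivFun.symm).1 (Subtype.ext h0))
  · have h1 := congrArg Subtype.val h
    have h2 : Fintype.linearCombination ℂ
        (fun p : Fin (Module.finrank ℂ (LinearMap.range X.mulVecLin)) ×
          Fin (Module.finrank ℂ (LinearMap.range Y.mulVecLin)) =>
            prodVec (eA p.1 : A → ℂ) (eB p.2 : B → ℂ)) (prodVec a' b') =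
        prodVec ((eA.equivFun.symm a' : LinearMap.range X.mulVecLin) : A → ℂ)
          ((eB.equivFun.symm b' : LinearMap.range Y.mulVecLin) : B → ℂ) := by
      rw [Fintype.linearCombination_apply, Module.Basis.equivFun_symm_apply,
        Module.Basis.equivFun_symm_apply]
      funext ⟨i, j⟩
      simp only [Finset.sum_apply, Pi.smul_apply, prodVec, smul_eq_mul, Submodule.coe_sum,
        Submodule.coe_smul, Fintype.sum_prod_type, Finset.sum_mul_sum]
      refine Finset.sum_congr rfl fun k _ => Finset.sum_congr rfl fun l _ => ?_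
      ring
    rw [← h2]
    exact h1

/-- **Theorem G.** -/
theorem thmG (r : Matrix (A × B) (A × B) ℂ) (htr : r.trace = 1) (hr : r.PosSemidef)
    (h1 : ∀ a ∈ LinearMap.range (redA r).mulVecLin, a ≠ 0 → (trA r).rank ≤ (bl a r).rank + 1)
    (h2 : ∀ b ∈ LinearMap.range (trA r).mulVecLin, b ≠ 0 → (redA r).rank ≤ (br b r).rank + 1)
    (hrk : r.rank + 2 ≤ (redA r).rank + (trA r).rank) : KeyPos r ∨ IsSep r := by
  have hA : 0 < (redA r).rank := rank_pos_of_trace (by rw [trace_redA, htr]; exact one_ne_zero)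
  have hB : 0 < (trA r).rank := rank_pos_of_trace (by rw [trace_trA, htr]; exact one_ne_zero)
  obtain ⟨a, b, ha, hb, ha0, hb0, h⟩ := exists_prod r (redA r) (trA r) hA hB hrk
  have h3 := h1 a ha ha0
  have h4 := h2 b hb hb0
  exact J2.thmJ2 r htr hr a b h (by omega)

/-- `⟨b|r|b⟩` as a quadratic form -/
theorem quad_br (b : B → ℂ) (x : A → ℂ) (r : Matrix (A × B) (A × B) ℂ) :
    star x ⬝ᵥ (br b r *ᵥ x) = star (prodVec x b) ⬝ᵥ (r *ᵥ prodVec x b) := by
  simp only [dotProduct, mulVec, br, prodVec, Fintype.sum_prod_type, Finset.mul_sum,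
    Finset.sum_mul, Pi.star_apply, star_mul']
  refine Finset.sum_congr rfl fun j _ => ?_
  rw [Finset.sum_comm]
  refine Finset.sum_congr rfl fun s _ => Finset.sum_congr rfl fun k _ =>
    Finset.sum_congr rfl fun t _ => ?_
  ring

theorem kill_br {r : Matrix (A × B) (A × B) ℂ} (hr : r.PosSemidef) {x : A → ℂ} {b : B → ℂ}
    (h : br b r *ᵥ x = 0) : r *ᵥ prodVec x b = 0 := by
  rw [← hr.dotProduct_mulVec_zero_iff, ← quad_br, h, dotProduct_zero]

/-- A matrix whose kernel meets the range of `Y` in at most a line has at least rank `Y - 1`. -/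
theorem rank_le_of_line {n : Type} [Fintype n] [DecidableEq n] (X Y : Matrix n n ℂ)
    (h : ∀ v ∈ LinearMap.range Y.mulVecLin, ∀ w ∈ LinearMap.range Y.mulVecLin, v ≠ 0 →
      X *ᵥ v = 0 → X *ᵥ w = 0 → ∃ c : ℂ, w = c • v) : Y.rank ≤ X.rank + 1 := by
  obtain ⟨T, hT⟩ : ∃ T, T = X.mulVecLin ∘ₗ (LinearMap.range Y.mulVecLin).subtype := ⟨_, rfl⟩
  have h1 := LinearMap.finrank_range_add_finrank_ker T
  have h2 : Module.finrank ℂ (LinearMap.range T) ≤ X.rank := by
    rw [hT]
    exact Submodule.finrank_mono (LinearMap.range_comp_le_range _ _)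
  have h3 : Module.finrank ℂ (LinearMap.ker T) ≤ 1 := by
    by_cases h0 : LinearMap.ker T = ⊥
    · rw [h0, finrank_bot]
      exact zero_le_one
    · obtain ⟨v, hv, hv0⟩ := Submodule.exists_mem_ne_zero_of_ne_bot h0
      refine finrank_le_one (⟨v, hv⟩ : LinearMap.ker T) fun w => ?_
      have hTv : ∀ u, T u = X *ᵥ (u : n → ℂ) := fun u => by rw [hT]; rfl
      obtain ⟨c, hc⟩ := h v v.2 (w : LinearMap.range Y.mulVecLin) (Subtype.coe_prop _)
        (fun h4 => hv0 (Subtype.ext h4)) ((hTv v).symm.trans (LinearMap.mem_ker.1 hv))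
        ((hTv w).symm.trans (LinearMap.mem_ker.1 w.2))
      exact ⟨c, Subtype.ext (Subtype.ext hc.symm)⟩
  have h4 : Y.rank = Module.finrank ℂ (LinearMap.range Y.mulVecLin) := rfl
  omega

/-- **Theorem G, kernel form.** No product vectors `a ⊗ v`, `a ⊗ w` (`v`, `w` independent), and no
`v ⊗ b`, `w ⊗ b`, of the supports in the kernel. -/
theorem thmG_ker (r : Matrix (A × B) (A × B) ℂ) (htr : r.trace = 1) (hr : r.PosSemidef)
    (h1 : ∀ a ∈ LinearMap.range (redA r).mulVecLin, a ≠ 0 →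
      ∀ v ∈ LinearMap.range (trA r).mulVecLin, ∀ w ∈ LinearMap.range (trA r).mulVecLin, v ≠ 0 →
        r *ᵥ prodVec a v = 0 → r *ᵥ prodVec a w = 0 → ∃ c : ℂ, w = c • v)
    (h2 : ∀ b ∈ LinearMap.range (trA r).mulVecLin, b ≠ 0 →
      ∀ v ∈ LinearMap.range (redA r).mulVecLin, ∀ w ∈ LinearMap.range (redA r).mulVecLin, v ≠ 0 →
        r *ᵥ prodVec v b = 0 → r *ᵥ prodVec w b = 0 → ∃ c : ℂ, w = c • v)
    (hrk : r.rank + 2 ≤ (redA r).rank + (trA r).rank) : KeyPos r ∨ IsSep r := by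
  refine thmG r htr hr (fun a ha ha0 => ?_) (fun b hb hb0 => ?_) hrk
  · exact rank_le_of_line _ _ fun v hv w hw hv0 hv1 hw1 =>
      h1 a ha ha0 v hv w hw hv0 (kill hr hv1) (kill hr hw1)
  · exact rank_le_of_line _ _ fun v hv w hw hv0 hv1 hw1 =>
      h2 b hb hb0 v hv w hw hv0 (kill_br hr hv1) (kill_br hr hw1)

end Vale.Agent.P372.R4
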