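import Mathlib

/-!
# P372, row K: a pencil of three `(d+1) × d` matrices drops rank somewhere

`exists_sing`: three complex matrices with `d+1` rows and `d > 0` columns have a nontrivial
combination with a nontrivial kernel vector.
-/

namespace Vale.Agent.P372.R4

open Matrix Polynomial

/-- The observability matrix. -/
def obs {R : Type*} [CommRing R] {d : ℕ} (l : Fin d → R) (C : Matrix (Fin d) (Fin d) R) :
    Matrix (Fin d) (Fin d) R := fun i j => (l ᵥ* C ^ (i : ℕ)) j

theorem obs_map {R S : Type*} [CommRing R] [CommRing S] {d : ℕ} (φ : R →+* S) (l : Fin d → R)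
    (C : Matrix (Fin d) (Fin d) R) :
    (obs l C).map φ = obs (fun j => φ (l j)) (C.map φ) := by
  ext i j
  rw [Matrix.map_apply]
  show φ ((l ᵥ* C ^ (i : ℕ)) j) = ((fun j => φ (l j)) ᵥ* (C.map φ) ^ (i : ℕ)) j
  have h : (C.map φ) ^ (i : ℕ) = (C ^ (i : ℕ)).map φ := by
    have := map_pow (φ.mapMatrix : Matrix (Fin d) (Fin d) R →+* _) C (i : ℕ)
    rw [RingHom.mapMatrix_apply, RingHom.mapMatrix_apply] at this
    exact this.symm
  rw [h]
  simp only [Matrix.vecMul, dotProduct, map_sum, map_mul, Matrix.map_apply]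

theorem det_obs_map {R S : Type*} [CommRing R] [CommRing S] {d : ℕ} (φ : R →+* S) (l : Fin d → R)
    (C : Matrix (Fin d) (Fin d) R) :
    φ (obs l C).det = (obs (fun j => φ (l j)) (C.map φ)).det := by
  rw [RingHom.map_det, RingHom.mapMatrix_apply, obs_map]

theorem det_obs_smul {R : Type*} [CommRing R] {d : ℕ} (l : Fin d → R)
    (C : Matrix (Fin d) (Fin d) R) (t : R) :
    (obs (t • l) (t • C)).det = t ^ (∑ i : Fin d, ((i : ℕ) + 1)) * (obs l C).det := by
  have h : obs (t • l) (t • C) =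
      Matrix.of (fun (i : Fin d) (j : Fin d) => t ^ ((i : ℕ) + 1) * obs l C i j) := by
    ext i j
    show ((t • l) ᵥ* (t • C) ^ (i : ℕ)) j = t ^ ((i : ℕ) + 1) * (l ᵥ* C ^ (i : ℕ)) j
    rw [_root_.smul_pow, Matrix.smul_vecMul, Matrix.vecMul_smul, smul_smul, Pi.smul_apply, smul_eq_mul,
      pow_succ']
  rw [h, Matrix.det_mul_column (fun i : Fin d => t ^ ((i : ℕ) + 1)) (obs l C),
    Finset.prod_pow_eq_pow_sum]

/-- The binary form `det O(x)` has a nontrivial zero. -/
theorem exists_det_zero {d : ℕ} (hd : 0 < d) (C1 C2 : Matrix (Fin d) (Fin d) ℂ)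
    (l1 l2 : Fin d → ℂ) : ∃ x1 x2 : ℂ, (x1 ≠ 0 ∨ x2 ≠ 0) ∧
      (obs (x1 • l1 + x2 • l2) (x1 • C1 + x2 • C2)).det = 0 := by
  classical
  -- the dehomogenised forms, as polynomials
  set p : ℂ[X] := (obs (fun j => X * C (l1 j) + C (l2 j))
    ((X : ℂ[X]) • C1.map C + C2.map C)).det with hp
  set q : ℂ[X] := (obs (fun j => C (l1 j) + X * C (l2 j))
    (C1.map C + (X : ℂ[X]) • C2.map C)).det with hq
  have hpe : ∀ w : ℂ, p.eval w = (obs (w • l1 + (1 : ℂ) • l2) (w • C1 + (1 : ℂ) • C2)).det := by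
    intro w
    rw [hp]
    show (evalRingHom w) _ = _
    rw [det_obs_map]
    congr 2
    · ext j
      simp only [coe_evalRingHom, eval_add, eval_mul, eval_X, eval_C, Pi.add_apply, Pi.smul_apply,
        smul_eq_mul, one_mul]
    · ext i j
      simp only [Matrix.map_apply, Matrix.add_apply, Matrix.smul_apply, coe_evalRingHom, eval_add,
        eval_mul, eval_X, eval_C, smul_eq_mul, one_mul]
  have hqe : ∀ w : ℂ, q.eval w = (obs ((1 : ℂ) • l1 + w • l2) ((1 : ℂ) • C1 + w • C2)).det := by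
    intro w
    rw [hq]
    show (evalRingHom w) _ = _
    rw [det_obs_map]
    congr 2
    · ext j
      simp only [coe_evalRingHom, eval_add, eval_mul, eval_X, eval_C, Pi.add_apply, Pi.smul_apply,
        smul_eq_mul, one_mul]
    · ext i j
      simp only [Matrix.map_apply, Matrix.add_apply, Matrix.smul_apply, coe_evalRingHom, eval_add,
        eval_mul, eval_X, eval_C, smul_eq_mul, one_mul]
  by_cases hroot : ∃ w, p.eval w = 0
  · obtain ⟨w, hw⟩ := hroot
    exact ⟨w, 1, Or.inr one_ne_zero, by rw [← hpe, hw]⟩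
  · push Not at hroot
    -- `p` is constant
    have hdeg : p.degree ≤ 0 := by
      by_contra hlt
      push Not at hlt
      obtain ⟨w, hw⟩ := Complex.exists_root hlt
      exact hroot w hw
    obtain ⟨c, hc⟩ : ∃ c, p = C c := ⟨_, Polynomial.eq_C_of_degree_le_zero hdeg⟩
    set D : ℕ := ∑ i : Fin d, ((i : ℕ) + 1) with hD
    have hD0 : 0 < D := by
      apply Finset.sum_pos
      · intro i _
        exact Nat.succ_pos _
      · exact ⟨⟨0, hd⟩, Finset.mem_univ _⟩
    have hqt : ∀ t : ℂ, t ≠ 0 → q.eval t = c * t ^ D := by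
      intro t ht
      have h1 : (1 : ℂ) • l1 + t • l2 = t • (t⁻¹ • l1 + (1 : ℂ) • l2) := by
        rw [smul_add, smul_smul, mul_inv_cancel₀ ht, one_smul, one_smul]
      have h2 : (1 : ℂ) • C1 + t • C2 = t • (t⁻¹ • C1 + (1 : ℂ) • C2) := by
        rw [smul_add, smul_smul, mul_inv_cancel₀ ht, one_smul, one_smul]
      rw [hqe, h1, h2, det_obs_smul, ← hpe, hc, eval_C, mul_comm]
    have hqq : q = C c * X ^ D := by
      apply Polynomial.eq_of_infinite_eval_eq
      apply Set.Infinite.mono (s := {t : ℂ | t ≠ 0})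
      · intro t ht
        show q.eval t = (C c * X ^ D).eval t
        rw [hqt t ht]
        simp
      · exact (Set.finite_singleton (0 : ℂ)).infinite_compl
    refine ⟨1, 0, Or.inl one_ne_zero, ?_⟩
    rw [← hqe, hqq]
    simp [hD0.ne']

/-- A common kernel vector gives an eigenvector. -/
theorem exists_eigen {d : ℕ} (M : Matrix (Fin d) (Fin d) ℂ) (l : Fin d → ℂ)
    (h : (obs l M).det = 0) : ∃ v : Fin d → ℂ, v ≠ 0 ∧ ∃ μ : ℂ, M *ᵥ v = μ • v ∧ l ⬝ᵥ v = 0 := by
  classical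
  obtain ⟨y, hy0, hy⟩ := Matrix.exists_mulVec_eq_zero_iff.2 h
  have hy' : ∀ i < d, l ⬝ᵥ (M ^ i *ᵥ y) = 0 := by
    intro i hi
    have := congrFun hy ⟨i, hi⟩
    rw [Pi.zero_apply] at this
    rw [Matrix.dotProduct_mulVec]
    exact this
  have hall : ∀ i, l ⬝ᵥ (M ^ i *ᵥ y) = 0 := by
    intro i
    have hm : M.charpoly.Monic := M.charpoly_monic
    have h1 : M ^ i = aeval M ((X ^ i : ℂ[X]) %ₘ M.charpoly) := by
      rw [Polynomial.aeval_modByMonic_eq_self_of_root (M.aeval_self_charpoly)]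
      simp
    rcases Nat.eq_zero_or_pos d with hd | hd
    · subst hd
      simp [dotProduct]
    have hdeg : ((X ^ i : ℂ[X]) %ₘ M.charpoly).natDegree < d := by
      have hne : M.charpoly ≠ 1 := by
        intro h1
        have := M.charpoly_natDegree_eq_dim
        rw [h1, Polynomial.natDegree_one, Fintype.card_fin] at this
        omega
      have := Polynomial.natDegree_modByMonic_lt (X ^ i : ℂ[X]) hm hne
      rwa [M.charpoly_natDegree_eq_dim, Fintype.card_fin] at this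
    rw [h1, Polynomial.aeval_eq_sum_range' hdeg, Matrix.sum_mulVec, dotProduct_sum]
    apply Finset.sum_eq_zero
    intro j hj
    rw [Matrix.smul_mulVec, dotProduct_smul, hy' j (Finset.mem_range.1 hj), smul_zero]
  -- the unobservable subspace
  let N : Submodule ℂ (Fin d → ℂ) :=
    { carrier := {v | ∀ i : ℕ, l ⬝ᵥ (M ^ i *ᵥ v) = 0}
      zero_mem' := by
        intro i
        rw [Matrix.mulVec_zero, dotProduct_zero]
      add_mem' := by
        intro a b ha hb i
        rw [Matrix.mulVec_add, dotProduct_add, ha i, hb i, add_zero]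
      smul_mem' := by
        intro c a ha i
        rw [Matrix.mulVec_smul, dotProduct_smul, ha i, smul_zero] }
  have hN : ∀ v ∈ N, Matrix.mulVecLin M v ∈ N := by
    intro v hv i
    show l ⬝ᵥ (M ^ i *ᵥ (M *ᵥ v)) = 0
    rw [Matrix.mulVec_mulVec, ← pow_succ]
    exact hv (i + 1)
  have : Nontrivial N := ⟨⟨⟨y, hall⟩, 0, fun h => hy0 (congrArg Subtype.val h)⟩⟩
  obtain ⟨μ, hμ⟩ := Module.End.exists_eigenvalue ((Matrix.mulVecLin M).restrict hN)
  obtain ⟨v, hv⟩ := hμ.exists_hasEigenvector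
  refine ⟨v.1, ?_, μ, ?_, ?_⟩
  · intro h
    exact hv.2 (Subtype.ext h)
  · have := congrArg Subtype.val hv.apply_eq_smul
    exact this
  · have := v.2 0
    rwa [pow_zero, Matrix.one_mulVec] at this

/-- **Row K.** -/
theorem exists_sing (d : ℕ) (W : Fin 3 → Matrix (Fin (d + 1)) (Fin d) ℂ) (hd : 0 < d) :
    ∃ z : Fin 3 → ℂ, z ≠ 0 ∧ ∃ y : Fin d → ℂ, y ≠ 0 ∧ (∑ i, z i • W i) *ᵥ y = 0 := by
  classical
  by_cases hinj : Function.Injective (Matrix.mulVecLin (W 0))
  swap
  · have hker : LinearMap.ker (Matrix.mulVecLin (W 0)) ≠ ⊥ := fun h =>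
      hinj (LinearMap.ker_eq_bot.1 h)
    obtain ⟨y, hy, hy0⟩ := Submodule.exists_mem_ne_zero_of_ne_bot hker
    refine ⟨Pi.single 0 1, ?_, y, hy0, ?_⟩
    · intro h
      have := congrFun h 0
      simp at this
    · have h1 : (∑ i, (Pi.single 0 1 : Fin 3 → ℂ) i • W i) = W 0 := by
        simp
      rw [h1]
      exact hy
  -- a vector outside of the range
  have hrange : LinearMap.range (Matrix.mulVecLin (W 0)) ≠ ⊤ := by
    intro h
    have h1 := LinearMap.finrank_range_of_inj hinj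
    rw [h, finrank_top] at h1
    simp at h1
  obtain ⟨u, hu⟩ : ∃ u, u ∉ LinearMap.range (Matrix.mulVecLin (W 0)) := by
    by_contra hcon
    push Not at hcon
    exact hrange (eq_top_iff.2 fun x _ => hcon x)
  let E : ((Fin d → ℂ) × ℂ) →ₗ[ℂ] (Fin (d + 1) → ℂ) :=
    LinearMap.coprod (Matrix.mulVecLin (W 0)) (LinearMap.toSpanSingleton ℂ _ u)
  have hE : ∀ v t, E (v, t) = W 0 *ᵥ v + t • u := fun v t => rfl
  have hEinj : Function.Injective E := by
    rw [← LinearMap.ker_eq_bot, LinearMap.ker_eq_bot']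
    rintro ⟨v, t⟩ h
    rw [hE] at h
    have ht : t = 0 := by
      by_contra ht
      apply hu
      refine ⟨-(t⁻¹ • v), ?_⟩
      rw [Matrix.mulVecLin_apply, Matrix.mulVec_neg, Matrix.mulVec_smul]
      have h2 : W 0 *ᵥ v = -(t • u) := eq_neg_of_add_eq_zero_left h
      rw [h2, smul_neg, neg_neg, smul_smul, inv_mul_cancel₀ ht, one_smul]
    subst ht
    rw [zero_smul, add_zero] at h
    have : v = 0 := hinj (by rw [map_zero]; exact h)
    rw [this]
    rfl
  have hfr : Module.finrank ℂ ((Fin d → ℂ) × ℂ) = Module.finrank ℂ (Fin (d + 1) → ℂ) := by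
    simp
  let e : ((Fin d → ℂ) × ℂ) ≃ₗ[ℂ] (Fin (d + 1) → ℂ) :=
    LinearEquiv.ofBijective E ⟨hEinj, (LinearMap.injective_iff_surjective_of_finrank_eq_finrank hfr).1
      hEinj⟩
  have he : ∀ v, e.symm (W 0 *ᵥ v) = (v, 0) := by
    intro v
    rw [LinearEquiv.symm_apply_eq]
    show W 0 *ᵥ v = E (v, 0)
    rw [hE, zero_smul, add_zero]
  -- the two parts of the other matrices
  let Cm : Fin 3 → Matrix (Fin d) (Fin d) ℂ := fun k =>
    LinearMap.toMatrix' ((LinearMap.fst ℂ (Fin d → ℂ) ℂ).comp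
      (e.symm.toLinearMap.comp (Matrix.mulVecLin (W k))))
  let lv : Fin 3 → Fin d → ℂ := fun k j => (e.symm (W k *ᵥ Pi.single j 1)).2
  have hC : ∀ k v, Cm k *ᵥ v = (e.symm (W k *ᵥ v)).1 := by
    intro k v
    show (LinearMap.toMatrix' _) *ᵥ v = _
    rw [LinearMap.toMatrix'_mulVec]
    rfl
  have hl : ∀ k v, lv k ⬝ᵥ v = (e.symm (W k *ᵥ v)).2 := by
    intro k v
    have h1 : (e.symm (W k *ᵥ v)).2 = ((LinearMap.snd ℂ (Fin d → ℂ) ℂ).comp
      (e.symm.toLinearMap.comp (Matrix.mulVecLin (W k)))) v := rfl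
    rw [h1, LinearMap.pi_apply_eq_sum_univ, dotProduct]
    apply Finset.sum_congr rfl
    intro j _
    rw [smul_eq_mul, mul_comm]
    congr 1
    show (e.symm (W k *ᵥ Pi.single j 1)).2 = _
    have h2 : (Pi.single j 1 : Fin d → ℂ) = fun i => if j = i then 1 else 0 := by
      ext i
      simp [Pi.single_apply, eq_comm]
    rw [h2]
    rfl
  obtain ⟨x1, x2, hx, hdet⟩ := exists_det_zero hd (Cm 1) (Cm 2) (lv 1) (lv 2)
  obtain ⟨v, hv0, μ, hv1, hv2⟩ := exists_eigen _ _ hdet
  refine ⟨![-μ, x1, x2], ?_, v, hv0, ?_⟩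
  · intro h
    have h1 := congrFun h 1
    have h2 := congrFun h 2
    simp at h1 h2
    rcases hx with hx | hx
    · exact hx h1
    · exact hx h2
  · apply e.symm.injective
    rw [map_zero]
    have hsum : (∑ i, (![-μ, x1, x2] : Fin 3 → ℂ) i • W i) *ᵥ v =
        (-μ) • (W 0 *ᵥ v) + (x1 • (W 1 *ᵥ v) + x2 • (W 2 *ᵥ v)) := by
      rw [Fin.sum_univ_three, Matrix.add_mulVec, Matrix.add_mulVec, Matrix.smul_mulVec,
        Matrix.smul_mulVec, Matrix.smul_mulVec, add_assoc]
      rfl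
    rw [hsum, map_add, map_add, map_smul, map_smul, map_smul, he]
    rw [Matrix.add_mulVec, Matrix.smul_mulVec, Matrix.smul_mulVec, hC, hC] at hv1
    rw [add_dotProduct, smul_dotProduct, smul_dotProduct, hl, hl] at hv2
    refine Prod.ext ?_ ?_
    · show (-μ) • v + (x1 • (e.symm (W 1 *ᵥ v)).1 + x2 • (e.symm (W 2 *ᵥ v)).1) = 0
      rw [hv1, neg_smul, neg_add_cancel]
    · show (-μ) • (0 : ℂ) + (x1 • (e.symm (W 1 *ᵥ v)).2 + x2 • (e.symm (W 2 *ᵥ v)).2) = 0
      rw [hv2, smul_zero, add_zero]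

end Vale.Agent.P372.R4
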