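import Vale.Agent.P372.H625.Normal3
import Vale.Agent.P372.R4.SUP

/-!
Rectangular local filters cannot create key; transfer of positive key from the compression of
a state to the supports of its reductions.
-/

set_option linter.unusedSectionVars false

namespace Vale.Agent.P372.R4

open Matrix Kronecker
open scoped ComplexOrder

variable {A B C D : Type} [Fintype A] [DecidableEq A] [Fintype B] [DecidableEq B]
  [Fintype C] [DecidableEq C] [Fintype D] [DecidableEq D]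

/-- Rectangular local filters cannot create key. -/
theorem keyPos_rect {ρ : Matrix (A × B) (A × B) ℂ} (hρ : ρ.PosSemidef) (h1 : ρ.trace = 1)
    (X : Matrix C A ℂ) (Y : Matrix D B ℂ) (h1' : ((X ⊗ₖ Y) * ρ * (X ⊗ₖ Y)ᴴ).trace = 1)
    (h : KeyPos ((X ⊗ₖ Y) * ρ * (X ⊗ₖ Y)ᴴ)) : KeyPos ρ := by
  refine H625.keyPos_sepOp (K := Unit) hρ h1 h1' (fun _ => 1)
    (fun _ => X * H625.idF A ((√(1 : ℝ) : ℝ) : ℂ)) (fun _ => Y * H625.idF B 1) ?_ h
  rw [Fintype.sum_unique, ← H625.filtered_comp', H625.filtered_idF ρ zero_le_one,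
    Complex.ofReal_one, one_smul]

/-- Positive key passes from a compression by isometries to the state. -/
theorem keyPos_of_compr {r : Matrix (A × B) (A × B) ℂ} (hr : r.PosSemidef) (h1 : r.trace = 1)
    (V : Matrix A C ℂ) (W : Matrix B D ℂ) (ht : ((V ⊗ₖ W)ᴴ * r * (V ⊗ₖ W)).trace = r.trace)
    (h : KeyPos ((V ⊗ₖ W)ᴴ * r * (V ⊗ₖ W))) : KeyPos r := by
  have hfwd : (V ⊗ₖ W)ᴴ * r * (V ⊗ₖ W) = (Vᴴ ⊗ₖ Wᴴ) * r * (Vᴴ ⊗ₖ Wᴴ)ᴴ := by
    rw [Matrix.conjTranspose_kronecker, Matrix.conjTranspose_kronecker,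
      Matrix.conjTranspose_conjTranspose, Matrix.conjTranspose_conjTranspose]
  rw [hfwd] at h ht
  exact keyPos_rect hr h1 Vᴴ Wᴴ (ht.trans h1) h

end Vale.Agent.P372.R4
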