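import Vale.Agent.P372.R4.Npt2
import Vale.Agent.P372.R4.Key
import Vale.Agent.P372.R4.K

/-! States of rank at most four whose partial transpose is not positive have positive
distillable key. -/

open Matrix Kronecker
open scoped ComplexOrder MatrixOrder

set_option linter.unusedSectionVars false
set_option linter.unusedVariables false

namespace Vale.Agent.P372.R4.J2

variable {A B : Type} [Fintype A] [DecidableEq A] [Fintype B] [DecidableEq B]
  {r : Matrix (A × B) (A × B) ℂ}

theorem rank_lt {n : Type} [Fintype n] [DecidableEq n] {M : Matrix n n ℂ} {v : n → ℂ}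
    (hv : v ≠ 0) (h : M *ᵥ v = 0) : M.rank + 1 ≤ Fintype.card n := by
  have h2 := LinearMap.finrank_range_add_finrank_ker M.mulVecLin
  have h3 : 0 < Module.finrank ℂ (LinearMap.ker M.mulVecLin) := by
    rw [Module.finrank_pos_iff_exists_ne_zero]
    exact ⟨⟨v, h⟩, fun h => hv (congrArg Subtype.val h)⟩
  have h4 : M.rank = Module.finrank ℂ (LinearMap.range M.mulVecLin) := rfl
  rw [Module.finrank_fintype_fun_eq_card] at h2
  omega

theorem redA_mulVec (a : A → ℂ) (h : ∀ y : B → ℂ, r *ᵥ prodVec a y = 0) : redA r *ᵥ a = 0 := by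
  ext i
  have e : (redA r *ᵥ a) i = ∑ s, (r *ᵥ prodVec a (Pi.single s 1)) (i, s) := by
    simp only [mulVec, dotProduct, redA, prodVec, Fintype.sum_prod_type, Finset.sum_mul]
    rw [Finset.sum_comm]
    refine Finset.sum_congr rfl fun s _ => Finset.sum_congr rfl fun k _ => ?_
    rw [Finset.sum_eq_single s]
    · simp
    · intro t _ ht
      simp [Pi.single_eq_of_ne ht]
    · simp
  rw [e]
  exact Finset.sum_eq_zero fun s _ => by rw [h, Pi.zero_apply]

/-- A kernel product vector of a rank-four state of two qutrits. -/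
theorem exists_prod {r : Matrix (Fin 3 × Fin 3) (Fin 3 × Fin 3) ℂ} (hr : r.PosSemidef)
    (hrk : r.rank = 4) :
    ∃ (a : Fin 3 → ℂ) (b : Fin 3 → ℂ), a ≠ 0 ∧ b ≠ 0 ∧ r *ᵥ prodVec a b = 0 := by
  obtain ⟨V, hV⟩ : ∃ V : Matrix (Fin 3 × Fin 3) (Fin 4) ℂ, V * Vᴴ * r = r := by
    rw [← hrk]
    obtain ⟨V, -, h2, -⟩ := exists_iso hr
    exact ⟨V, h2⟩
  obtain ⟨z, hz, y, hy, h⟩ := exists_sing 3 (fun k i s => star (V (k, s) i)) (by norm_num)
  refine ⟨z, y, hz, hy, ?_⟩
  have h1 : Vᴴ *ᵥ prodVec z y = 0 := by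
    ext i
    have h2 := congrFun h i
    rw [Pi.zero_apply] at h2 ⊢
    rw [← h2]
    simp only [mulVec, dotProduct, Fintype.sum_prod_type, conjTranspose_apply, prodVec,
      Matrix.sum_apply, Finset.sum_mul]
    rw [Finset.sum_comm]
    refine Finset.sum_congr rfl fun s _ => Finset.sum_congr rfl fun k _ => ?_
    change star (V (k, s) i) * (z k * y s) = z k * star (V (k, s) i) * y s
    ring
  have h3 : r * (V * Vᴴ) = r := by
    have := congrArg conjTranspose hV
    rw [conjTranspose_mul, conjTranspose_mul, conjTranspose_conjTranspose,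
      hr.isHermitian.eq] at this
    exact this
  rw [← h3, ← mulVec_mulVec, ← mulVec_mulVec, h1, mulVec_zero, mulVec_zero]

theorem redA_swp : redA (swp r) = redB r := rfl

theorem bl_swp (b : B → ℂ) : bl b (swp r) = br b r := rfl

theorem swp_rank : (swp r).rank = r.rank :=
  Matrix.rank_submatrix r (Equiv.prodComm B A) (Equiv.prodComm B A)

/-- The rank of `⟨a|r|a⟩` is at least two for an entangled-like state with full reduction. -/
theorem two_le (hr : r.PosSemidef) (hU : U1 r) (hA : Fintype.card A = 3)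
    (hfull : 3 ≤ (redA r).rank) (hn : ¬ (pTrans r).PosSemidef) {a : A → ℂ} (ha : a ≠ 0) :
    2 ≤ (bl a r).rank := by
  by_contra hlt
  have h2 : (bl a r).rank = 0 ∨ (bl a r).rank = 1 := by omega
  rcases h2 with h0 | h1
  · have h3 : bl a r = 0 := by
      have h6 : Module.finrank ℂ (LinearMap.range (bl a r).mulVecLin) = 0 := h0
      rw [Submodule.finrank_eq_zero, LinearMap.range_eq_bot] at h6
      ext s t
      have h7 := congrFun (LinearMap.congr_fun h6 (Pi.single t 1)) s
      simpa using h7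
    have h4 : redA r *ᵥ a = 0 := redA_mulVec a fun y => R4.kill hr (by rw [h3, zero_mulVec])
    have h5 := rank_lt ha h4
    omega
  · exact hn (ppt_of_rank_one hr hU hA.le a h1)

/-- The case of two qutrits. -/
theorem npt_three {r : Matrix (Fin 3 × Fin 3) (Fin 3 × Fin 3) ℂ} (htr : r.trace = 1)
    (hr : r.PosSemidef) (hrk : r.rank = 4) (hA : 3 ≤ (redA r).rank) (hB : 3 ≤ (redB r).rank)
    (h : ¬ (pTrans r).PosSemidef) : KeyPos r := by
  by_contra hk
  have hU : U1 r := by
    by_contra hU
    exact hk (keyPos_of_not htr hr hU)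
  obtain ⟨a, b, ha, hb, hab⟩ := exists_prod hr hrk
  have h1 : 2 ≤ (bl a r).rank := two_le hr hU (by simp) hA h ha
  have h2 : 2 ≤ (br b r).rank := by
    rw [← bl_swp]
    exact two_le (swp_psd hr) (swp_U1 hr hU) (by simp) (by rw [redA_swp]; exact hB)
      (fun hp => h (swp_ppt hr hp)) hb
  rcases thmJ2 r htr hr a b hab (by omega) with h3 | h3
  · exact hk h3
  · exact h (H625.sep_ppt h3)

theorem prodVec_zero_right (a : A → ℂ) : prodVec a (0 : B → ℂ) = 0 := by
  ext p
  simp [prodVec]

theorem prodVec_zero_left (b : B → ℂ) : prodVec (0 : A → ℂ) b = 0 := by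
  ext p
  simp [prodVec]

/-- **States of rank at most four that are not PPT have positive distillable key.** -/
theorem npt_rank_four (r : Matrix (A × B) (A × B) ℂ) (htr : r.trace = 1) (hr : r.PosSemidef)
    (hrk : r.rank ≤ 4) (h : ¬ (pTrans r).PosSemidef) : KeyPos r := by
  by_contra hk
  have hU : U1 r := by
    by_contra hU
    exact hk (keyPos_of_not htr hr hU)
  have hA : 3 ≤ (redA r).rank := by
    by_contra hlt
    exact h (ppt_of_redA hr hU (by omega))
  have hB : 3 ≤ (redB r).rank := by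
    by_contra hlt
    exact h (swp_ppt hr (ppt_of_redA (swp_psd hr) (swp_U1 hr hU) (by rw [redA_swp]; omega)))
  have hB' : (redB r).rank < r.rank := by
    by_contra hlt
    obtain ⟨a, ha⟩ := L0K hr (kp_of hr hU)
    have ha' : (bl a r).rank = (redB r).rank := ha
    rcases thmJ2 r htr hr a 0 (by rw [prodVec_zero_right, mulVec_zero]) (by omega) with h3 | h3
    · exact hk h3
    · exact h (H625.sep_ppt h3)
  have hA' : (redA r).rank < r.rank := by
    by_contra hlt
    obtain ⟨b, hb⟩ := L0K (swp_psd hr) (swp_Kp hr (kp_of hr hU))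
    have hb' : (br b r).rank = (redA r).rank := hb
    rcases thmJ2 r htr hr 0 b (by rw [prodVec_zero_left, mulVec_zero]) (by omega) with h3 | h3
    · exact hk h3
    · exact h (H625.sep_ppt h3)
  have e1 : (redA r).rank = 3 := by omega
  have e2 : (redB r).rank = 3 := by omega
  have e3 : r.rank = 4 := by omega
  have main : ∀ (m n : ℕ), m = 3 → n = 3 → ∀ (V : Matrix A (Fin m) ℂ) (W : Matrix B (Fin n) ℂ)
      (r' : Matrix (Fin m × Fin n) (Fin m × Fin n) ℂ), r' = (V ⊗ₖ W)ᴴ * r * (V ⊗ₖ W) →
      (V ⊗ₖ W) * r' * (V ⊗ₖ W)ᴴ = r → r'.PosSemidef → r'.rank = r.rank → r'.trace = r.trace →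
      (redA r').rank = (redA r).rank → (redB r').rank = (redB r).rank → False := by
    intro m n hm hn V W r' h1 h2 h3 h4 h5 h6 h7
    subst hm hn
    have h8 : ¬ (pTrans r').PosSemidef := by
      intro hp
      apply h
      rw [← h2]
      exact ppt_rect hp V W
    have h9 := npt_three (by rw [h5, htr]) h3 (by omega) (by omega) (by omega) h8
    rw [h1] at h9
    refine hk (keyPos_of_compr hr htr V W ?_ h9)
    rw [← h1, h5]
  obtain ⟨V, W, r', -, -, h1, h2, h3, -, -, h4, h5, h6, h7⟩ := sup hr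
  exact main _ _ e1 e2 V W r' h1 h2 h3 h4 h5 h6 h7

end Vale.Agent.P372.R4.J2
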