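import Vale.Agent.P372.R2.helper492.LetterDefs

/-!
# Two qubits: PPT operators of rank at most three are separable (elementary proof)

* kernel vector a product: `r = M ⊗ |1><1| + |1><1| ⊗ N` after local filters;
* kernel vector entangled: after a local filter it is the singlet, `r = ∑ h_k ⊗ h_k` with Hermitian
  `h_k`, `∑ det h_k = 0`, and rotations of pairs of the `h_k` make all determinants zero.
-/

open Matrix Kronecker
open scoped ComplexOrder MatrixOrder

namespace Vale.Agent.P372.R4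

namespace Q

section Sep

set_option linter.unusedSectionVars false

variable {A B : Type} [Fintype A] [Fintype B]

theorem isSep_kron {M : Matrix A A ℂ} {N : Matrix B B ℂ} (hM : M.PosSemidef)
    (hN : N.PosSemidef) : IsSep (M ⊗ₖ N) :=
  ⟨1, fun _ => M, fun _ => N, fun _ => hM, fun _ => hN, by simp⟩

theorem isSep_zero : IsSep (0 : Matrix (A × B) (A × B) ℂ) :=
  ⟨0, fun _ => 0, fun _ => 0, fun _ => PosSemidef.zero, fun _ => PosSemidef.zero, by simp⟩

theorem isSep_add {R S : Matrix (A × B) (A × B) ℂ} (hR : IsSep R) (hS : IsSep S) :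
    IsSep (R + S) := by
  obtain ⟨n, M, N, hM, hN, rfl⟩ := hR
  obtain ⟨n', M', N', hM', hN', rfl⟩ := hS
  refine ⟨n + n', Fin.append M M', Fin.append N N', ?_, ?_, ?_⟩
  · intro k
    refine Fin.addCases (fun i => ?_) (fun i => ?_) k
    · rw [Fin.append_left]; exact hM i
    · rw [Fin.append_right]; exact hM' i
  · intro k
    refine Fin.addCases (fun i => ?_) (fun i => ?_) k
    · rw [Fin.append_left]; exact hN i
    · rw [Fin.append_right]; exact hN' i
  · rw [Fin.sum_univ_add]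
    simp only [Fin.append_left, Fin.append_right]

theorem isSep_conj [DecidableEq A] [DecidableEq B] {R : Matrix (A × B) (A × B) ℂ} (hR : IsSep R)
    (V : Matrix A A ℂ) (W : Matrix B B ℂ) : IsSep ((V ⊗ₖ W) * R * (V ⊗ₖ W)ᴴ) := by
  obtain ⟨n, M, N, hM, hN, rfl⟩ := hR
  refine ⟨n, fun k => V * M k * Vᴴ, fun k => W * N k * Wᴴ,
    fun k => (hM k).mul_mul_conjTranspose_same _, fun k => (hN k).mul_mul_conjTranspose_same _, ?_⟩
  rw [Matrix.mul_sum, Matrix.sum_mul]
  refine Finset.sum_congr rfl fun k _ => ?_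
  rw [conjTranspose_kronecker, ← mul_kronecker_mul, ← mul_kronecker_mul]

/-- invertible filters preserve entanglement -/
theorem sep_of_filter [DecidableEq A] [DecidableEq B] {ρ : Matrix (A × B) (A × B) ℂ}
    {X : Matrix A A ℂ} {Y : Matrix B B ℂ} (hX : IsUnit X.det) (hY : IsUnit Y.det)
    (h : IsSep ((X ⊗ₖ Y) * ρ * (X ⊗ₖ Y)ᴴ)) : IsSep ρ := by
  have h1 : (X⁻¹ ⊗ₖ Y⁻¹) * (X ⊗ₖ Y) = 1 := by
    rw [← mul_kronecker_mul, nonsing_inv_mul _ hX, nonsing_inv_mul _ hY, one_kronecker_one]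
  have h2 : ρ = (X⁻¹ ⊗ₖ Y⁻¹) * ((X ⊗ₖ Y) * ρ * (X ⊗ₖ Y)ᴴ) * (X⁻¹ ⊗ₖ Y⁻¹)ᴴ := by
    calc ρ = ((X⁻¹ ⊗ₖ Y⁻¹) * (X ⊗ₖ Y)) * ρ * ((X⁻¹ ⊗ₖ Y⁻¹) * (X ⊗ₖ Y))ᴴ := by
          rw [h1, conjTranspose_one, Matrix.one_mul, Matrix.mul_one]
      _ = _ := by
          rw [conjTranspose_mul (X⁻¹ ⊗ₖ Y⁻¹) (X ⊗ₖ Y)]
          simp only [Matrix.mul_assoc]
  rw [h2]
  exact isSep_conj h _ _

theorem pTrans_filt (τ : Matrix (A × B) (A × B) ℂ) (X : Matrix A A ℂ) (Y : Matrix B B ℂ) :
    pTrans ((X ⊗ₖ Y) * τ * (X ⊗ₖ Y)ᴴ) =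
      (X ⊗ₖ Y.map star) * pTrans τ * (X ⊗ₖ Y.map star)ᴴ := by
  ext ⟨i, j⟩ ⟨i', j'⟩
  have L : ∀ (σ : Matrix (A × B) (A × B) ℂ) (Z : Matrix B B ℂ) (i : A) (j : B) (i' : A) (j' : B),
      ((X ⊗ₖ Z) * σ * (X ⊗ₖ Z)ᴴ) (i, j) (i', j') =
        ∑ a, ∑ a', ∑ b, ∑ b', X i a * star (X i' a') * (Z j b * star (Z j' b')) *
          σ (a, b) (a', b') := by
    intro σ Z i j i' j'
    rw [mul_apply, Fintype.sum_prod_type]
    simp only [mul_apply, Fintype.sum_prod_type, conjTranspose_apply, kroneckerMap_apply,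
      star_mul', Finset.sum_mul]
    rw [Finset.sum_comm]
    calc _ = ∑ b', ∑ a, ∑ a', ∑ b, X i a * star (X i' a') * (Z j b * star (Z j' b')) *
          σ (a, b) (a', b') := by
          refine Finset.sum_congr rfl fun b' _ => ?_
          rw [Finset.sum_comm]
          refine Finset.sum_congr rfl fun a _ => Finset.sum_congr rfl fun a' _ =>
            Finset.sum_congr rfl fun b _ => ?_
          ring
      _ = ∑ a, ∑ b', ∑ a', ∑ b, X i a * star (X i' a') * (Z j b * star (Z j' b')) *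
          σ (a, b) (a', b') := Finset.sum_comm
      _ = _ := by
          refine Finset.sum_congr rfl fun a _ => ?_
          rw [Finset.sum_comm]
          refine Finset.sum_congr rfl fun a' _ => Finset.sum_comm
  have h1 : pTrans ((X ⊗ₖ Y) * τ * (X ⊗ₖ Y)ᴴ) (i, j) (i', j') =
      ((X ⊗ₖ Y) * τ * (X ⊗ₖ Y)ᴴ) (i, j') (i', j) := rfl
  rw [h1, L, L]
  refine Finset.sum_congr rfl fun a _ => Finset.sum_congr rfl fun a' _ => ?_
  rw [Finset.sum_comm]
  refine Finset.sum_congr rfl fun b _ => Finset.sum_congr rfl fun b' _ => ?_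
  simp only [map_apply, pTrans, star_star]
  ring

theorem ppt_filter {ρ : Matrix (A × B) (A × B) ℂ} (h : (pTrans ρ).PosSemidef)
    (X : Matrix A A ℂ) (Y : Matrix B B ℂ) :
    (pTrans ((X ⊗ₖ Y) * ρ * (X ⊗ₖ Y)ᴴ)).PosSemidef := by
  rw [pTrans_filt]
  exact h.mul_mul_conjTranspose_same _

end Sep

/-! ### Hermitian 2 × 2 matrices -/

/-- the Hermitian matrix with entries `v 0, v 2 - i v 3, v 2 + i v 3, v 1` -/
def H (v : Fin 4 → ℝ) : Matrix (Fin 2) (Fin 2) ℂ :=
  !![(v 0 : ℂ), (v 2 : ℂ) - Complex.I * (v 3 : ℂ); (v 2 : ℂ) + Complex.I * (v 3 : ℂ), (v 1 : ℂ)]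

/-- its determinant -/
def q (v : Fin 4 → ℝ) : ℝ := v 0 * v 1 - v 2 ^ 2 - v 3 ^ 2

/-- its tensor square -/
def K (v : Fin 4 → ℝ) : Matrix (Fin 2 × Fin 2) (Fin 2 × Fin 2) ℂ := H v ⊗ₖ H v

/-- a Hermitian matrix `[[p, w], [w*, s]]` with `|w|^2 ≤ p s` -/
theorem psd2 {p s : ℝ} {w : ℂ} (hp : 0 ≤ p) (hs : 0 ≤ s) (h : Complex.normSq w ≤ p * s) :
    (!![(p : ℂ), w; star w, (s : ℂ)] : Matrix (Fin 2) (Fin 2) ℂ).PosSemidef := by
  have e0 : (!![0, 0; 0, 1] : Matrix (Fin 2) (Fin 2) ℂ).PosSemidef := by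
    have : (!![0, 0; 0, 1] : Matrix (Fin 2) (Fin 2) ℂ) =
        vecMulVec (![0, 1] : Fin 2 → ℂ) (star ![0, 1]) := by
      ext i j
      fin_cases i <;> fin_cases j <;> simp [vecMulVec_apply]
    rw [this]
    exact posSemidef_vecMulVec_self_star _
  rcases eq_or_lt_of_le hp with h0 | h0
  · have hw : w = 0 := by
      rw [← Complex.normSq_eq_zero]
      rw [← h0, zero_mul] at h
      exact le_antisymm h (Complex.normSq_nonneg _)
    have : (!![(p : ℂ), w; star w, (s : ℂ)] : Matrix (Fin 2) (Fin 2) ℂ) =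
        (s : ℂ) • !![0, 0; 0, 1] := by
      rw [hw, ← h0]
      ext i j
      fin_cases i <;> fin_cases j <;> simp
    rw [this]
    exact e0.smul (Complex.zero_le_real.mpr hs)
  · have : (!![(p : ℂ), w; star w, (s : ℂ)] : Matrix (Fin 2) (Fin 2) ℂ) =
        ((p⁻¹ : ℝ) : ℂ) • vecMulVec (![(p : ℂ), star w] : Fin 2 → ℂ) (star ![(p : ℂ), star w]) +
          ((s - Complex.normSq w / p : ℝ) : ℂ) • !![0, 0; 0, 1] := by
      have hpc : (p : ℂ) ≠ 0 := by exact_mod_cast h0.ne'
      ext i j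
      rw [Matrix.add_apply, Matrix.smul_apply, Matrix.smul_apply, vecMulVec_apply]
      fin_cases i <;> fin_cases j
      · simp
        field_simp
      · simp
        field_simp
      · simp
        field_simp
      · simp
        rw [Complex.normSq_eq_conj_mul_self]
        field_simp
        ring
    rw [this]
    refine PosSemidef.add ((posSemidef_vecMulVec_self_star _).smul
      (Complex.zero_le_real.mpr (inv_nonneg.2 hp))) (e0.smul (Complex.zero_le_real.mpr ?_))
    rw [sub_nonneg, div_le_iff₀ h0]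
    linarith

theorem K_neg (v : Fin 4 → ℝ) : K (-v) = K v := by
  ext ⟨i, j⟩ ⟨i', j'⟩
  fin_cases i <;> fin_cases j <;> fin_cases i' <;> fin_cases j' <;>
    simp [K, H, kroneckerMap_apply] <;> ring

theorem H_psd {v : Fin 4 → ℝ} (h0 : q v = 0) (h1 : 0 ≤ v 0 + v 1) : (H v).PosSemidef := by
  unfold q at h0
  have h2 : 0 ≤ v 0 := by
    by_contra hc
    push Not at hc
    have h3 : 0 ≤ v 0 * v 1 := by nlinarith [sq_nonneg (v 2), sq_nonneg (v 3)]
    nlinarith
  have h3 : 0 ≤ v 1 := by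
    by_contra hc
    push Not at hc
    have h3 : 0 ≤ v 0 * v 1 := by nlinarith [sq_nonneg (v 2), sq_nonneg (v 3)]
    nlinarith
  have h4 := psd2 (w := (v 2 : ℂ) - Complex.I * (v 3 : ℂ)) h2 h3 (by
    rw [Complex.normSq_apply]
    simp
    nlinarith)
  have h5 : H v = !![(v 0 : ℂ), (v 2 : ℂ) - Complex.I * (v 3 : ℂ);
      star ((v 2 : ℂ) - Complex.I * (v 3 : ℂ)), (v 1 : ℂ)] := by
    unfold H
    simp
  rw [h5]
  exact h4

theorem K_sep {v : Fin 4 → ℝ} (h : q v = 0) : IsSep (K v) := by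
  by_cases h1 : 0 ≤ v 0 + v 1
  · exact isSep_kron (H_psd h h1) (H_psd h h1)
  · have h2 : q (-v) = 0 := by
      rw [← h]
      simp only [q, Pi.neg_apply]
      ring
    have h3 : 0 ≤ (-v) 0 + (-v) 1 := by
      simp only [Pi.neg_apply]
      linarith
    rw [← K_neg]
    exact isSep_kron (H_psd h2 h3) (H_psd h2 h3)

theorem K_rot (v w : Fin 4 → ℝ) {c s : ℝ} (h : c ^ 2 + s ^ 2 = 1) :
    K v + K w = K (c • v + s • w) + K (-s • v + c • w) := by
  have h' : (c : ℂ) ^ 2 + (s : ℂ) ^ 2 = 1 := by exact_mod_cast h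
  have e : ∀ x y x' y' : ℂ, x * y + x' * y' = (c * x + s * x') * (c * y + s * y') +
      (-s * x + c * x') * (-s * y + c * y') := by
    intro x y x' y'
    calc x * y + x' * y' = (c ^ 2 + s ^ 2) * (x * y + x' * y') := by rw [h', one_mul]
      _ = _ := by ring
  ext ⟨i, j⟩ ⟨i', j'⟩
  have e1 : ∀ i i', H (c • v + s • w) i i' = c * H v i i' + s * H w i i' := by
    intro i i'
    fin_cases i <;> fin_cases i' <;> simp [H] <;> ring
  have e2 : ∀ i i', H (-s • v + c • w) i i' = -s * H v i i' + c * H w i i' := by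
    intro i i'
    fin_cases i <;> fin_cases i' <;> simp [H] <;> ring
  simp only [K, Matrix.add_apply, kroneckerMap_apply, e1, e2]
  exact e _ _ _ _

theorem q_rot (v w : Fin 4 → ℝ) {c s : ℝ} (h : c ^ 2 + s ^ 2 = 1) :
    q v + q w = q (c • v + s • w) + q (-s • v + c • w) := by
  have : q (c • v + s • w) + q (-s • v + c • w) = (c ^ 2 + s ^ 2) * (q v + q w) := by
    simp only [q, Pi.add_apply, Pi.smul_apply, smul_eq_mul]
    ring
  rw [this, h, one_mul]

/-- two vectors with `q` of opposite signs -/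
theorem exists_rot {v w : Fin 4 → ℝ} (h : q v * q w < 0) :
    ∃ c s : ℝ, c ^ 2 + s ^ 2 = 1 ∧ q (c • v + s • w) = 0 := by
  obtain ⟨b, hb⟩ : ∃ b : ℝ, ∀ c s : ℝ, q (c • v + s • w) =
      q v * c ^ 2 + 2 * b * (c * s) + q w * s ^ 2 := by
    refine ⟨(v 0 * w 1 + w 0 * v 1) / 2 - v 2 * w 2 - v 3 * w 3, fun c s => ?_⟩
    simp only [q, Pi.add_apply, Pi.smul_apply, smul_eq_mul]
    ring
  have hd : 0 ≤ b ^ 2 - q v * q w := by nlinarith [sq_nonneg b]
  have ha : q v ≠ 0 := fun h0 => by rw [h0, zero_mul] at h; exact lt_irrefl _ h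
  set c0 : ℝ := -b + Real.sqrt (b ^ 2 - q v * q w)
  set s0 : ℝ := q v
  have h1 : c0 ^ 2 + 2 * b * c0 + q v * q w = 0 := by
    have := Real.sq_sqrt hd
    simp only [c0]
    nlinarith
  have h2 : 0 < c0 ^ 2 + s0 ^ 2 := by positivity
  set n : ℝ := Real.sqrt (c0 ^ 2 + s0 ^ 2)
  have hn : n ^ 2 = c0 ^ 2 + s0 ^ 2 := Real.sq_sqrt h2.le
  have hn0 : 0 < n := Real.sqrt_pos.2 h2
  refine ⟨c0 / n, s0 / n, ?_, ?_⟩
  · rw [div_pow, div_pow, ← add_div, hn, div_self h2.ne']
  · rw [hb]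
    have : q v * (c0 / n) ^ 2 + 2 * b * (c0 / n * (s0 / n)) + q w * (s0 / n) ^ 2 =
        q v * (c0 ^ 2 + 2 * b * c0 + q v * q w) / n ^ 2 := by
      simp only [s0]
      field_simp
    rw [this, h1, mul_zero, zero_div]

theorem sum_update {M : Type} [AddCommGroup M] {n : ℕ} (F : (Fin 4 → ℝ) → M)
    (f : Fin n → (Fin 4 → ℝ)) (i : Fin n) (a : Fin 4 → ℝ) :
    ∑ k, F (Function.update f i a k) = ∑ k, F (f k) - F (f i) + F a := by
  have h1 : (fun k => F (Function.update f i a k)) = Function.update (fun k => F (f k)) i (F a) := by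
    funext k
    by_cases h : k = i
    · subst h; simp
    · simp [h]
  rw [h1, Finset.sum_update_of_mem (Finset.mem_univ i),
    ← Finset.sum_erase_eq_sub (Finset.mem_univ i), Finset.erase_eq, add_comm]

/-- **rotations make all determinants zero** -/
theorem sum_K_sep : ∀ (n : ℕ) (v : Fin n → (Fin 4 → ℝ)), ∑ k, q (v k) = 0 →
    IsSep (∑ k, K (v k)) := by
  intro n
  induction n with
  | zero =>
    intro v _
    rw [Finset.univ_eq_empty, Finset.sum_empty]
    exact isSep_zero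
  | succ n ih =>
    intro v hv
    rw [Fin.sum_univ_succ] at hv ⊢
    by_cases h0 : q (v 0) = 0
    · rw [h0, zero_add] at hv
      exact isSep_add (K_sep h0) (ih (fun k => v k.succ) hv)
    · have h1 : ∃ i : Fin n, q (v 0) * q (v i.succ) < 0 := by
        by_contra hc
        push Not at hc
        have h2 : 0 ≤ ∑ i : Fin n, q (v 0) * q (v i.succ) := Finset.sum_nonneg fun i _ => hc i
        rw [← Finset.mul_sum] at h2
        have h3 : ∑ i : Fin n, q (v i.succ) = -q (v 0) := by linarith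
        rw [h3] at h2
        have : 0 < q (v 0) ^ 2 := by positivity
        nlinarith
      obtain ⟨i, hi⟩ := h1
      obtain ⟨c, s, hcs, hq⟩ := exists_rot hi
      set f : Fin n → (Fin 4 → ℝ) := fun k => v k.succ
      set a : Fin 4 → ℝ := -s • v 0 + c • v i.succ
      have e1 := sum_update q f i a
      have e2 := sum_update K f i a
      have e3 := q_rot (v 0) (v i.succ) hcs
      have e4 := K_rot (v 0) (v i.succ) hcs
      have h2 : ∑ k, q (Function.update f i a k) = 0 := by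
        rw [e1]
        rw [hq, zero_add] at e3
        have e5 : q a = q (v 0) + q (v i.succ) := e3.symm
        have e6 : q (f i) = q (v i.succ) := rfl
        rw [e5, e6]
        linarith
      have h3 : K (v 0) + ∑ k, K (v (Fin.succ k)) =
          K (c • v 0 + s • v i.succ) + ∑ k, K (Function.update f i a k) := by
        rw [e2]
        have e6 : K (f i) = K (v i.succ) := rfl
        have e7 : K a = K (v 0) + K (v i.succ) - K (c • v 0 + s • v i.succ) := by
          rw [e4]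
          abel
        rw [e6, e7]
        abel
      rw [h3]
      exact isSep_add (K_sep hq) (ih _ h2)

/-! ### the singlet in the kernel -/

/-- the Hermitian basis -/
def E : Fin 4 → Matrix (Fin 2) (Fin 2) ℂ :=
  ![!![1, 0; 0, 0], !![0, 0; 0, 1], !![0, 1; 1, 0], !![0, -Complex.I; Complex.I, 0]]

theorem H_eq (v : Fin 4 → ℝ) (i i' : Fin 2) : H v i i' = ∑ m, (v m : ℂ) * E m i i' := by
  rw [Fin.sum_univ_four]
  fin_cases i <;> fin_cases i' <;> simp [H, E] <;> ring

/-- the coefficients of `r` in the Hermitian basis -/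
noncomputable def C (a b d : ℝ) (x y z : ℂ) : Matrix (Fin 4) (Fin 4) ℝ :=
  !![a, b, x.re, -x.im; b, d, z.re, -z.im; x.re, z.re, (b + y.re) / 2, -y.im / 2;
    -x.im, -z.im, -y.im / 2, (b - y.re) / 2]

/-- the entries of a Hermitian matrix whose kernel contains the singlet -/
structure Ent (r : Matrix (Fin 2 × Fin 2) (Fin 2 × Fin 2) ℂ) (a b d : ℝ) (x y z : ℂ) : Prop where
  e00 : r (0, 0) (0, 0) = (a : ℂ)
  e01 : r (0, 0) (0, 1) = x
  e02 : r (0, 0) (1, 0) = x
  e03 : r (0, 0) (1, 1) = y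
  e10 : r (0, 1) (0, 0) = star x
  e11 : r (0, 1) (0, 1) = (b : ℂ)
  e12 : r (0, 1) (1, 0) = (b : ℂ)
  e13 : r (0, 1) (1, 1) = z
  e20 : r (1, 0) (0, 0) = star x
  e21 : r (1, 0) (0, 1) = (b : ℂ)
  e22 : r (1, 0) (1, 0) = (b : ℂ)
  e23 : r (1, 0) (1, 1) = z
  e30 : r (1, 1) (0, 0) = star y
  e31 : r (1, 1) (0, 1) = star z
  e32 : r (1, 1) (1, 0) = star z
  e33 : r (1, 1) (1, 1) = (d : ℂ)

theorem exists_ent {r : Matrix (Fin 2 × Fin 2) (Fin 2 × Fin 2) ℂ} (hr : r.IsHermitian)
    (hs : ∀ p, r p (0, 1) = r p (1, 0)) :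
    ∃ (a b d : ℝ) (x y z : ℂ), Ent r a b d x y z := by
  have hH : ∀ p q, r p q = star (r q p) := fun p q => (hr.apply p q).symm
  have hD : ∀ p, r p p = ((r p p).re : ℂ) := fun p =>
    (Complex.conj_eq_iff_re.1 (hH p p).symm).symm
  have hs' : ∀ p, r (0, 1) p = r (1, 0) p := fun p => by
    rw [hH (0, 1) p, hH (1, 0) p, hs]
  refine ⟨(r (0, 0) (0, 0)).re, (r (0, 1) (0, 1)).re, (r (1, 1) (1, 1)).re, r (0, 0) (0, 1),
    r (0, 0) (1, 1), r (0, 1) (1, 1), ?_⟩
  exact
    { e00 := hD _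
      e01 := rfl
      e02 := (hs _).symm
      e03 := rfl
      e10 := hH _ _
      e11 := hD _
      e12 := by rw [← hs]; exact hD _
      e13 := rfl
      e20 := by rw [← hs']; exact hH _ _
      e21 := by rw [← hs']; exact hD _
      e22 := by rw [← hs', ← hs]; exact hD _
      e23 := (hs' _).symm
      e30 := hH _ _
      e31 := hH _ _
      e32 := by rw [← hs]; exact hH _ _
      e33 := hD _ }

/-- the vector of the Hermitian matrix -/
noncomputable def W (v : Fin 4 → ℝ) : Fin 2 × Fin 2 → ℂ := fun p =>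
  !![(v 0 : ℂ), ((v 2 : ℂ) - Complex.I * (v 3 : ℂ)) / 2;
    ((v 2 : ℂ) + Complex.I * (v 3 : ℂ)) / 2, (v 1 : ℂ)] p.1 p.2

theorem C_form {r : Matrix (Fin 2 × Fin 2) (Fin 2 × Fin 2) ℂ} {a b d : ℝ} {x y z : ℂ}
    (h : Ent r a b d x y z) (v : Fin 4 → ℝ) :
    star v ⬝ᵥ (C a b d x y z *ᵥ v) = (star (W v) ⬝ᵥ (pTrans r *ᵥ W v)).re := by
  simp only [dotProduct, mulVec, Fintype.sum_prod_type, Fin.sum_univ_two, Fin.sum_univ_four,
    pTrans, h.e00, h.e01, h.e02, h.e03, h.e10, h.e11, h.e12, h.e13, h.e20, h.e21, h.e22, h.e23,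
    h.e30, h.e31, h.e32, h.e33, Pi.star_apply]
  simp [W, C]
  ring

theorem C_psd {r : Matrix (Fin 2 × Fin 2) (Fin 2 × Fin 2) ℂ} {a b d : ℝ} {x y z : ℂ}
    (h : Ent r a b d x y z) (hp : (pTrans r).PosSemidef) : (C a b d x y z).PosSemidef := by
  refine PosSemidef.of_dotProduct_mulVec_nonneg ?_ fun v => ?_
  · ext i j
    fin_cases i <;> fin_cases j <;> simp [C]
  · rw [C_form h]
    exact (Complex.le_def.1 (hp.dotProduct_mulVec_nonneg (W v))).1

theorem ent_eq {r : Matrix (Fin 2 × Fin 2) (Fin 2 × Fin 2) ℂ} {a b d : ℝ} {x y z : ℂ}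
    (h : Ent r a b d x y z) (i j i' j' : Fin 2) :
    r (i, j) (i', j') = ∑ m, ∑ n, (C a b d x y z m n : ℂ) * (E m i i' * E n j j') := by
  simp only [Fin.sum_univ_four]
  fin_cases i <;> fin_cases j <;> fin_cases i' <;> fin_cases j'
  · refine h.e00.trans ?_
    apply Complex.ext <;> simp [E, C]
  · refine h.e01.trans ?_
    apply Complex.ext <;> simp [E, C]
  · refine h.e02.trans ?_
    apply Complex.ext <;> simp [E, C]
  · refine h.e03.trans ?_
    apply Complex.ext <;> simp [E, C] <;> ring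
  · refine h.e10.trans ?_
    apply Complex.ext <;> simp [E, C]
  · refine h.e11.trans ?_
    apply Complex.ext <;> simp [E, C]
  · refine h.e12.trans ?_
    apply Complex.ext <;> simp [E, C] <;> ring
  · refine h.e13.trans ?_
    apply Complex.ext <;> simp [E, C]
  · refine h.e20.trans ?_
    apply Complex.ext <;> simp [E, C]
  · refine h.e21.trans ?_
    apply Complex.ext <;> simp [E, C] <;> ring
  · refine h.e22.trans ?_
    apply Complex.ext <;> simp [E, C]
  · refine h.e23.trans ?_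
    apply Complex.ext <;> simp [E, C]
  · refine h.e30.trans ?_
    apply Complex.ext <;> simp [E, C] <;> ring
  · refine h.e31.trans ?_
    apply Complex.ext <;> simp [E, C]
  · refine h.e32.trans ?_
    apply Complex.ext <;> simp [E, C]
  · refine h.e33.trans ?_
    apply Complex.ext <;> simp [E, C]

/-- **PPT with the singlet in the kernel** -/
theorem sep_singlet {r : Matrix (Fin 2 × Fin 2) (Fin 2 × Fin 2) ℂ} (hr : r.PosSemidef)
    (hp : (pTrans r).PosSemidef) (hs : ∀ p, r p (0, 1) = r p (1, 0)) : IsSep r := by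
  obtain ⟨a, b, d, x, y, z, h⟩ := exists_ent hr.1 hs
  obtain ⟨B, hB⟩ : ∃ B : Matrix (Fin 4) (Fin 4) ℝ, C a b d x y z = Bᴴ * B :=
    CStarAlgebra.nonneg_iff_eq_star_mul_self.mp (C_psd h hp).nonneg
  have hC : ∀ m n, C a b d x y z m n = ∑ k, B k m * B k n := by
    intro m n
    rw [hB, mul_apply]
    refine Finset.sum_congr rfl fun k _ => ?_
    rw [conjTranspose_apply]
    simp
  have h1 : r = ∑ k, K (B k) := by
    ext ⟨i, j⟩ ⟨i', j'⟩
    rw [ent_eq h, Matrix.sum_apply]
    symm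
    simp only [K, kroneckerMap_apply, H_eq, Finset.sum_mul_sum]
    rw [Finset.sum_comm]
    refine Finset.sum_congr rfl fun m _ => ?_
    rw [Finset.sum_comm]
    refine Finset.sum_congr rfl fun n _ => ?_
    rw [hC, Complex.ofReal_sum, Finset.sum_mul]
    refine Finset.sum_congr rfl fun k _ => ?_
    rw [Complex.ofReal_mul]
    ring
  have h2 : ∑ k, q (B k) = 0 := by
    have e1 := hC 0 1
    have e2 := hC 2 2
    have e3 := hC 3 3
    have e4 : ∑ k, q (B k) = ∑ k, B k 0 * B k 1 - ∑ k, B k 2 * B k 2 - ∑ k, B k 3 * B k 3 := by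
      rw [← Finset.sum_sub_distrib, ← Finset.sum_sub_distrib]
      refine Finset.sum_congr rfl fun k _ => ?_
      unfold q
      ring
    rw [e4, ← e1, ← e2, ← e3]
    simp [C]
    ring
  rw [h1]
  exact sum_K_sep 4 B h2

/-! ### a product vector in the kernel -/

/-- **PPT with the first product basis vector in the kernel** -/
theorem sep_prod {r : Matrix (Fin 2 × Fin 2) (Fin 2 × Fin 2) ℂ} (hr : r.PosSemidef)
    (hp : (pTrans r).PosSemidef) (h0 : ∀ p, r p (0, 0) = 0) : IsSep r := by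
  have hH : ∀ p q, r p q = star (r q p) := fun p q => (hr.1.apply p q).symm
  have hD : ∀ p, r p p = ((r p p).re : ℂ) := fun p =>
    (Complex.conj_eq_iff_re.1 (hH p p).symm).symm
  have h0' : ∀ p, r (0, 0) p = 0 := fun p => by rw [hH, h0, star_zero]
  -- the cross term
  have hc : r (0, 1) (1, 0) = 0 := by
    have hv : star (fun p : Fin 2 × Fin 2 => if p = (0, 0) then (1 : ℂ) else 0) ⬝ᵥ
        (pTrans r *ᵥ fun p => if p = (0, 0) then (1 : ℂ) else 0) = 0 := by
      simp [dotProduct, mulVec, pTrans, h0]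
    have h1 := congrFun ((hp.dotProduct_mulVec_zero_iff _).1 hv) (1, 1)
    simp [dotProduct, mulVec, pTrans] at h1
    rw [hH, h1, star_zero]
  have hc' : r (1, 0) (0, 1) = 0 := by rw [hH, hc, star_zero]
  set x := (r (0, 1) (0, 1)).re with hx
  set y := (r (1, 0) (1, 0)).re with hy
  set z := (r (1, 1) (1, 1)).re with hz
  set u := r (0, 1) (1, 1) with hu
  set v := r (1, 0) (1, 1) with hv
  have hxx : r (0, 1) (0, 1) = (x : ℂ) := hD _
  have hyy : r (1, 0) (1, 0) = (y : ℂ) := hD _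
  have hzz : r (1, 1) (1, 1) = (z : ℂ) := hD _
  have hu' : r (1, 1) (0, 1) = star u := hH _ _
  have hv' : r (1, 1) (1, 0) = star v := hH _ _
  -- the form
  have hF : ∀ (s t : ℝ), 0 ≤ x * (s ^ 2 * Complex.normSq u) + y * (t ^ 2 * Complex.normSq v) + z -
      2 * s * Complex.normSq u - 2 * t * Complex.normSq v := by
    intro s t
    have h1 := (Complex.le_def.1 (hr.dotProduct_mulVec_nonneg (fun p : Fin 2 × Fin 2 =>
      !![0, -(s : ℂ) * u; -(t : ℂ) * v, 1] p.1 p.2))).1
    simp only [dotProduct, mulVec, Fintype.sum_prod_type, Fin.sum_univ_two, h0, h0', hc, hc',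
      Pi.star_apply, hxx, hyy, hzz, ← hu, ← hv, hu', hv'] at h1
    simp [Complex.normSq_apply] at h1 ⊢
    linarith
  have hx0 : 0 ≤ x := by
    have := (Complex.le_def.1 (hr.diag_nonneg (i := (0, 1)))).1
    simpa using this
  have hy0 : 0 ≤ y := by
    have := (Complex.le_def.1 (hr.diag_nonneg (i := (1, 0)))).1
    simpa using this
  have hux : x = 0 → Complex.normSq u = 0 := by
    intro h
    by_contra hne
    have hpos : 0 < Complex.normSq u := lt_of_le_of_ne (Complex.normSq_nonneg _) (Ne.symm hne)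
    have := hF ((z + 1) / (2 * Complex.normSq u)) 0
    rw [h] at this
    have e : 2 * ((z + 1) / (2 * Complex.normSq u)) * Complex.normSq u = z + 1 := by
      field_simp
    rw [e] at this
    simp at this
    linarith
  have hvy : y = 0 → Complex.normSq v = 0 := by
    intro h
    by_contra hne
    have hpos : 0 < Complex.normSq v := lt_of_le_of_ne (Complex.normSq_nonneg _) (Ne.symm hne)
    have := hF 0 ((z + 1) / (2 * Complex.normSq v))
    rw [h] at this
    have e : 2 * ((z + 1) / (2 * Complex.normSq v)) * Complex.normSq v = z + 1 := by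
      field_simp
    rw [e] at this
    simp at this
    linarith
  have e1 : x * (Complex.normSq u / x) = Complex.normSq u := by
    by_cases h : x = 0
    · rw [hux h, h, zero_mul]
    · field_simp
  have e2 : y * (Complex.normSq v / y) = Complex.normSq v := by
    by_cases h : y = 0
    · rw [hvy h, h, zero_mul]
    · field_simp
  have hz1 : Complex.normSq v / y ≤ z - Complex.normSq u / x := by
    have h1 := hF x⁻¹ y⁻¹
    have e3 : x * (x⁻¹ ^ 2 * Complex.normSq u) = Complex.normSq u / x := by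
      by_cases h : x = 0
      · rw [h]; simp
      · field_simp
    have e4 : y * (y⁻¹ ^ 2 * Complex.normSq v) = Complex.normSq v / y := by
      by_cases h : y = 0
      · rw [h]; simp
      · field_simp
    have e5 : 2 * x⁻¹ * Complex.normSq u = 2 * (Complex.normSq u / x) := by ring
    have e6 : 2 * y⁻¹ * Complex.normSq v = 2 * (Complex.normSq v / y) := by ring
    rw [e3, e4, e5, e6] at h1
    linarith
  have p1 := psd2 (w := u) hx0 (div_nonneg (Complex.normSq_nonneg u) hx0) (le_of_eq e1.symm)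
  have p2 := psd2 (w := v) hy0 ((div_nonneg (Complex.normSq_nonneg v) hy0).trans hz1)
    (by
      have := mul_le_mul_of_nonneg_left hz1 hy0
      rwa [e2] at this)
  have d1 : (!![0, 0; 0, 1] : Matrix (Fin 2) (Fin 2) ℂ).PosSemidef := by
    have := psd2 (p := 0) (s := 1) (w := 0) le_rfl zero_le_one (by simp)
    simpa using this
  have h1 : r = (!![(x : ℂ), u; star u, ((Complex.normSq u / x : ℝ) : ℂ)] ⊗ₖ !![0, 0; 0, 1]) +
      (!![0, 0; 0, 1] ⊗ₖ !![(y : ℂ), v; star v, ((z - Complex.normSq u / x : ℝ) : ℂ)]) := by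
    ext ⟨i, j⟩ ⟨i', j'⟩
    rw [Matrix.add_apply, kroneckerMap_apply, kroneckerMap_apply]
    fin_cases i <;> fin_cases j <;> fin_cases i' <;> fin_cases j'
    · simpa using h0 (0, 0)
    · simpa using h0' (0, 1)
    · simpa using h0' (1, 0)
    · simpa using h0' (1, 1)
    · simpa using h0 (0, 1)
    · simpa using hD (0, 1)
    · simpa using hc
    · simp [hu]
    · simpa using h0 (1, 0)
    · simpa using hc'
    · simpa using hD (1, 0)
    · simp [hv]
    · simpa using h0 (1, 1)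
    · simpa using hu'
    · simpa using hv'
    · simpa using hD (1, 1)
  rw [h1]
  exact isSep_add (isSep_kron p1 d1) (isSep_kron d1 p2)

/-! ### the filters -/

theorem kron_mulVec_conj {r : Matrix (Fin 2 × Fin 2) (Fin 2 × Fin 2) ℂ} (X Y : Matrix (Fin 2) (Fin 2) ℂ)
    (φ ψ : Fin 2 × Fin 2 → ℂ) (h : (X ⊗ₖ Y) *ᵥ φ = ψ) (h0 : r *ᵥ ψ = 0) :
    ((Xᴴ ⊗ₖ Yᴴ) * r * (Xᴴ ⊗ₖ Yᴴ)ᴴ) *ᵥ φ = 0 := by
  rw [conjTranspose_kronecker, conjTranspose_conjTranspose, conjTranspose_conjTranspose,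
    ← mulVec_mulVec, h, ← mulVec_mulVec, h0, mulVec_zero]

theorem det_conj {X : Matrix (Fin 2) (Fin 2) ℂ} (h : X.det ≠ 0) : IsUnit (Xᴴ).det := by
  rw [det_conjTranspose]
  exact (IsUnit.mk0 _ h).star

theorem exists_first {a : Fin 2 → ℂ} (h : a ≠ 0) :
    ∃ X : Matrix (Fin 2) (Fin 2) ℂ, X.det ≠ 0 ∧ ∀ i, X i 0 = a i := by
  refine ⟨!![a 0, -star (a 1); a 1, star (a 0)], ?_, ?_⟩
  · rw [det_fin_two_of]
    intro h1
    have h2 : ((Complex.normSq (a 0) + Complex.normSq (a 1) : ℝ) : ℂ) = 0 := by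
      rw [Complex.ofReal_add, ← Complex.mul_conj, ← Complex.mul_conj, ← h1]
      simp only [Complex.star_def]
      ring
    have h3 : Complex.normSq (a 0) + Complex.normSq (a 1) = 0 := by exact_mod_cast h2
    have h4 := Complex.normSq_nonneg (a 0)
    have h5 := Complex.normSq_nonneg (a 1)
    apply h
    funext i
    revert i
    rw [Fin.forall_fin_two]
    exact ⟨Complex.normSq_eq_zero.1 (by linarith), Complex.normSq_eq_zero.1 (by linarith)⟩
  · intro i
    fin_cases i <;> rfl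

end Q

/-- **Two qubits: a PPT operator of rank at most three is separable.** -/
theorem sep_two_qubits (r : Matrix (Fin 2 × Fin 2) (Fin 2 × Fin 2) ℂ) (hr : r.PosSemidef)
    (hp : (pTrans r).PosSemidef) (hk : r.rank ≤ 3) : IsSep r := by
  have hdet : r.det = 0 := by
    by_contra hne
    have h1 := rank_of_isUnit r ((isUnit_iff_isUnit_det r).2 (IsUnit.mk0 _ hne))
    rw [h1] at hk
    simp at hk
  obtain ⟨ψ, hψ, h0⟩ := exists_mulVec_eq_zero_iff.2 hdet
  by_cases hd : ψ (0, 0) * ψ (1, 1) = ψ (0, 1) * ψ (1, 0)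
  · -- product kernel vector
    obtain ⟨⟨j0, s0⟩, hne⟩ : ∃ p, ψ p ≠ 0 := by
      by_contra hc
      push Not at hc
      exact hψ (funext hc)
    have hab : ∀ j s, ψ (j, s) = ψ (j, s0) / ψ (j0, s0) * ψ (j0, s) := by
      intro j s
      rw [div_mul_eq_mul_div, eq_div_iff hne]
      fin_cases j <;> fin_cases s <;> fin_cases j0 <;> fin_cases s0 <;>
        simp only [Fin.zero_eta, Fin.mk_one] at hd ⊢ <;> first | ring1 | linear_combination hd |
          linear_combination -hd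
    obtain ⟨X, hX, hX'⟩ := Q.exists_first (a := fun j => ψ (j, s0) / ψ (j0, s0)) (fun h => by
      have := congrFun h j0
      simp only [Pi.zero_apply, div_self hne] at this
      exact one_ne_zero this)
    obtain ⟨Y, hY, hY'⟩ := Q.exists_first (a := fun s => ψ (j0, s)) (fun h => hne (congrFun h s0))
    have h1 : (X ⊗ₖ Y) *ᵥ (Pi.single (0, 0) 1) = ψ := by
      funext p
      rw [mulVec_single_one, col_apply, kroneckerMap_apply, hX', hY']
      exact (hab p.1 p.2).symm
    have h2 := Q.kron_mulVec_conj X Y _ _ h1 h0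
    refine Q.sep_of_filter (Q.det_conj hX) (Q.det_conj hY) (Q.sep_prod
      (hr.mul_mul_conjTranspose_same _) (Q.ppt_filter hp _ _) fun p => ?_)
    have h3 := congrFun h2 p
    rw [mulVec_single_one] at h3
    exact h3
  · -- entangled kernel vector
    have hX : (!![ψ (0, 1), -ψ (0, 0); ψ (1, 1), -ψ (1, 0)] : Matrix (Fin 2) (Fin 2) ℂ).det ≠ 0 := by
      rw [det_fin_two_of]
      intro h
      apply hd
      linear_combination h
    have hY : (1 : Matrix (Fin 2) (Fin 2) ℂ).det ≠ 0 := by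
      rw [det_one]
      exact one_ne_zero
    have h1 : ((!![ψ (0, 1), -ψ (0, 0); ψ (1, 1), -ψ (1, 0)] : Matrix (Fin 2) (Fin 2) ℂ) ⊗ₖ
        (1 : Matrix (Fin 2) (Fin 2) ℂ)) *ᵥ (Pi.single (0, 1) 1 - Pi.single (1, 0) 1) = ψ := by
      funext p
      obtain ⟨i, j⟩ := p
      rw [mulVec_sub, Pi.sub_apply, mulVec_single_one, mulVec_single_one, col_apply, col_apply,
        kroneckerMap_apply, kroneckerMap_apply, one_apply, one_apply]
      fin_cases i <;> fin_cases j <;> simp
    have h2 := Q.kron_mulVec_conj _ _ _ _ h1 h0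
    refine Q.sep_of_filter (Q.det_conj hX) (Q.det_conj hY) (Q.sep_singlet
      (hr.mul_mul_conjTranspose_same _) (Q.ppt_filter hp _ _) fun p => ?_)
    have h3 := congrFun h2 p
    rw [mulVec_sub, Pi.sub_apply, mulVec_single_one, mulVec_single_one] at h3
    exact sub_eq_zero.1 h3

end Vale.Agent.P372.R4
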