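import Vale.Agent.P372.R4.H
import Vale.Agent.P372.R4.G
import Vale.Agent.P372.R4.Npt
import Vale.Agent.P372.R4.Q22

/-! States of rank at most four. -/

open Matrix Kronecker
open scoped ComplexOrder MatrixOrder

set_option linter.unusedSectionVars false

namespace Vale.Agent.P372.R4

variable {A B : Type} [Fintype A] [DecidableEq A] [Fintype B] [DecidableEq B]
  {r : Matrix (A × B) (A × B) ℂ}

/-- The support of a reduction inside a space of given dimension. -/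
theorem exists_emb {n : Type} [Fintype n] [DecidableEq n] {M : Matrix n n ℂ}
    (hM : M.PosSemidef) {p : ℕ} (h : M.rank ≤ p) :
    ∃ V : Matrix n (Fin p) ℂ, V * Vᴴ * M = M := by
  obtain ⟨V, -, v2, -⟩ := exists_iso hM
  obtain ⟨J, hJ⟩ : ∃ J : Matrix (Fin M.rank) (Fin p) ℂ,
      J = fun i j => if Fin.castLE h i = j then 1 else 0 := ⟨_, rfl⟩
  have hJJ : J * Jᴴ = 1 := by
    ext i k
    rw [mul_apply, Finset.sum_eq_single (Fin.castLE h i)]
    · rw [conjTranspose_apply, hJ]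
      simp only [if_true, one_mul]
      by_cases hik : i = k
      · rw [hik, one_apply_eq, if_pos rfl, star_one]
      · rw [one_apply_ne hik, if_neg (fun h2 => hik (Fin.castLE_injective h h2).symm), star_zero]
    · intro j _ hj
      rw [hJ]
      simp only [if_neg (Ne.symm hj), zero_mul]
    · intro h; exact absurd (Finset.mem_univ _) h
  refine ⟨V * J, ?_⟩
  calc V * J * (V * J)ᴴ * M = V * (J * Jᴴ) * Vᴴ * M := by
        rw [conjTranspose_mul]; simp only [Matrix.mul_assoc]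
    _ = M := by rw [hJJ, Matrix.mul_one, v2]

/-- Separability on small local supports. -/
theorem sep_of_emb {p q k : ℕ}
    (hsep : ∀ r' : Matrix (Fin p × Fin q) (Fin p × Fin q) ℂ, r'.PosSemidef →
      (pTrans r').PosSemidef → r'.rank ≤ k → IsSep r')
    (hr : r.PosSemidef) (hp : (pTrans r).PosSemidef) (hA : (redA r).rank ≤ p)
    (hB : (redB r).rank ≤ q) (hk : r.rank ≤ k) : IsSep r := by
  obtain ⟨V, hV⟩ := exists_emb (redA_psd hr) hA
  obtain ⟨W, hW⟩ := exists_emb (redB_psd hr) hB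
  have h1 : ((V * Vᴴ) ⊗ₖ (1 : Matrix B B ℂ)) * r = r := by
    have h3 : ((1 - V * Vᴴ) ⊗ₖ (1 : Matrix B B ℂ)) * r = 0 := by
      apply kron_one_mul_of_red hr
      rw [Matrix.sub_mul, Matrix.one_mul, hV, sub_self]
    have h4 : (1 - V * Vᴴ) ⊗ₖ (1 : Matrix B B ℂ) = 1 - (V * Vᴴ) ⊗ₖ (1 : Matrix B B ℂ) := by
      rw [← Matrix.one_kronecker_one (α := ℂ) (m := A) (n := B)]
      ext p q
      simp only [Matrix.kroneckerMap_apply, Matrix.sub_apply, sub_mul]
    rw [h4, Matrix.sub_mul, Matrix.one_mul, sub_eq_zero] at h3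
    exact h3.symm
  have h2 : ((1 : Matrix A A ℂ) ⊗ₖ (W * Wᴴ)) * r = r := by
    have h3 : ((1 : Matrix A A ℂ) ⊗ₖ (1 - W * Wᴴ)) * r = 0 := by
      apply one_kron_mul_of_red hr
      rw [Matrix.sub_mul, Matrix.one_mul, hW, sub_self]
    rw [sub_kron, Matrix.sub_mul, Matrix.one_mul, sub_eq_zero] at h3
    exact h3.symm
  have h3 : ((V ⊗ₖ W) * (V ⊗ₖ W)ᴴ) * r = r := by
    have : (V ⊗ₖ W) * (V ⊗ₖ W)ᴴ
        = ((V * Vᴴ) ⊗ₖ (1 : Matrix B B ℂ)) * ((1 : Matrix A A ℂ) ⊗ₖ (W * Wᴴ)) := by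
      rw [conjTranspose_kronecker, ← Matrix.mul_kronecker_mul, ← Matrix.mul_kronecker_mul,
        Matrix.mul_one, Matrix.one_mul]
    rw [this, Matrix.mul_assoc, h2, h1]
  have h4 : r * ((V ⊗ₖ W) * (V ⊗ₖ W)ᴴ) = r := by
    have h := congrArg Matrix.conjTranspose h3
    rw [Matrix.conjTranspose_mul, Matrix.conjTranspose_mul, Matrix.conjTranspose_conjTranspose,
      hr.isHermitian.eq] at h
    exact h
  have h5 : (V ⊗ₖ W) * ((Vᴴ ⊗ₖ Wᴴ) * r * (Vᴴ ⊗ₖ Wᴴ)ᴴ) * (V ⊗ₖ W)ᴴ = r := by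
    have e : Vᴴ ⊗ₖ Wᴴ = (V ⊗ₖ W)ᴴ := (conjTranspose_kronecker V W).symm
    rw [e, conjTranspose_conjTranspose]
    calc (V ⊗ₖ W) * ((V ⊗ₖ W)ᴴ * r * (V ⊗ₖ W)) * (V ⊗ₖ W)ᴴ
        = (((V ⊗ₖ W) * (V ⊗ₖ W)ᴴ) * r) * ((V ⊗ₖ W) * (V ⊗ₖ W)ᴴ) := by
          simp only [Matrix.mul_assoc]
      _ = r := by rw [h3, h4]
  rw [← h5]
  refine isSep_rect ?_ V W
  refine hsep _ (hr.mul_mul_conjTranspose_same _) (ppt_rect hp _ _) ?_
  exact ((rank_mul_le_left _ _).trans (rank_mul_le_right _ _)).trans hk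

/-- PPT states of rank at most four with both local ranks at least three. -/
theorem ppt_rank_four (r : Matrix (A × B) (A × B) ℂ) (htr : r.trace = 1) (hr : r.PosSemidef)
    (hp : (pTrans r).PosSemidef) (hrk : r.rank ≤ 4) (hA : 3 ≤ (redA r).rank)
    (hB : 3 ≤ (redB r).rank) : KeyPos r ∨ IsSep r := by
  by_cases h0 : r.rank ≤ (redB r).rank
  · exact Or.inr (sepB hr hp h0)
  rcases thmH r htr hr hp (by omega) with h | h | h | ⟨F, G, h1, h2, h3, h4⟩
  · exact Or.inl h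
  · exact Or.inr h
  · omega
  · exfalso
    refine h4 (sep_of_emb (p := 2) (q := 2) (k := 3) sep_two_qubits (fl_psd hr F G)
      (fl_ppt hp F G) h1 (by omega) (by omega))

end Vale.Agent.P372.R4
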