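import Vale.Agent.P372.R4.KeyHalf
import Vale.Agent.P372.R4.Q22

/-! Normalisation by local filters and the theorem on tight PPT states. -/

open Matrix Kronecker
open scoped ComplexOrder MatrixOrder

set_option linter.unusedSectionVars false

namespace Vale.Agent.P372.R4

open H750 UPB

variable {A B n : Type} [Fintype A] [DecidableEq A] [Fintype B] [DecidableEq B]
  [Fintype n] [DecidableEq n]
  {r : Matrix (A × B) (A × B) ℂ} {a : A → ℂ} {b : B → ℂ}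

/-- A Hermitian filter that turns a positive operator into a projection and fixes a kernel
vector. -/
theorem exists_norm {P : Matrix n n ℂ} (hP : P.PosSemidef) {v : n → ℂ} (hv : P *ᵥ v = 0) :
    ∃ T T' : Matrix n n ℂ, Tᴴ = T ∧ T' * T = 1 ∧ (T * P * T) * (T * P * T) = T * P * T ∧
      T *ᵥ v = v := by
  have hN : P.IsHermitian := hP.1
  obtain ⟨U, hU⟩ : ∃ U : Matrix n n ℂ, U = (hN.eigenvectorUnitary : Matrix n n ℂ) := ⟨_, rfl⟩
  have hU1 : Uᴴ * U = 1 := by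
    rw [hU]
    exact Unitary.coe_star_mul_self hN.eigenvectorUnitary
  have hU2 : U * Uᴴ = 1 := mul_eq_one_comm.mp hU1
  obtain ⟨d, hd⟩ : ∃ d : n → ℝ, d = hN.eigenvalues := ⟨_, rfl⟩
  have hd0 : ∀ i, 0 ≤ d i := by
    intro i
    rw [hd]
    exact hP.eigenvalues_nonneg i
  have hsp : P = U * diagonal (fun i => (d i : ℂ)) * Uᴴ := by
    have h := hN.spectral_theorem
    rw [Unitary.conjStarAlgAut_apply] at h
    rw [hU, hd]
    exact h
  have key : ∀ (e f : n → ℂ), (U * diagonal e * Uᴴ) * (U * diagonal f * Uᴴ) =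
      U * diagonal (fun i => e i * f i) * Uᴴ := by
    intro e f
    calc (U * diagonal e * Uᴴ) * (U * diagonal f * Uᴴ) =
        U * diagonal e * (Uᴴ * U) * diagonal f * Uᴴ := by simp only [Matrix.mul_assoc]
      _ = _ := by rw [hU1, Matrix.mul_one, Matrix.mul_assoc U, diagonal_mul_diagonal]
  have hone : U * diagonal (fun _ => (1 : ℂ)) * Uᴴ = 1 := by
    rw [diagonal_one, Matrix.mul_one, hU2]
  obtain ⟨f, hf⟩ : ∃ f : n → ℝ, f = fun i => if d i = 0 then 1 else (Real.sqrt (d i))⁻¹ :=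
    ⟨_, rfl⟩
  obtain ⟨g, hg⟩ : ∃ g : n → ℝ, g = fun i => if d i = 0 then 1 else Real.sqrt (d i) :=
    ⟨_, rfl⟩
  have hfg : ∀ i, g i * f i = 1 := by
    intro i
    rw [hf, hg]
    dsimp only
    split_ifs with h0
    · norm_num
    · exact mul_inv_cancel₀ (Real.sqrt_ne_zero'.mpr (lt_of_le_of_ne (hd0 i) (Ne.symm h0)))
  have hfd : ∀ i, f i * d i * f i = if d i = 0 then 0 else 1 := by
    intro i
    rw [hf]
    dsimp only
    split_ifs with h0
    · rw [h0]; norm_num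
    · have h1 : Real.sqrt (d i) ≠ 0 :=
        Real.sqrt_ne_zero'.mpr (lt_of_le_of_ne (hd0 i) (Ne.symm h0))
      have h2 : d i = Real.sqrt (d i) * Real.sqrt (d i) := (Real.mul_self_sqrt (hd0 i)).symm
      calc (Real.sqrt (d i))⁻¹ * d i * (Real.sqrt (d i))⁻¹ =
          (Real.sqrt (d i))⁻¹ * (Real.sqrt (d i) * Real.sqrt (d i)) * (Real.sqrt (d i))⁻¹ := by
            rw [← h2]
        _ = 1 := by field_simp
  obtain ⟨T, hT⟩ : ∃ T, T = U * diagonal (fun i => (f i : ℂ)) * Uᴴ := ⟨_, rfl⟩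
  have hTPT : T * P * T = U * diagonal (fun i => if d i = 0 then (0 : ℂ) else 1) * Uᴴ := by
    rw [hT, hsp, key, key]
    congr 2
    congr 1
    funext i
    have := hfd i
    have h2 : ((f i * d i * f i : ℝ) : ℂ) = ((if d i = 0 then 0 else 1 : ℝ) : ℂ) := by rw [this]
    rw [Complex.ofReal_mul, Complex.ofReal_mul] at h2
    rw [h2]
    split_ifs <;> simp
  refine ⟨T, U * diagonal (fun i => (g i : ℂ)) * Uᴴ, ?_, ?_, ?_, ?_⟩
  · rw [hT, conjTranspose_mul, conjTranspose_mul, conjTranspose_conjTranspose,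
      diagonal_conjTranspose, ← Matrix.mul_assoc]
    congr 2
    congr 1
    funext i
    rw [Pi.star_apply, Complex.star_def, Complex.conj_ofReal]
  · rw [hT, key, ← hone]
    congr 2
    congr 1
    funext i
    rw [← Complex.ofReal_mul, hfg, Complex.ofReal_one]
  · rw [hTPT, key]
    congr 2
    congr 1
    funext i
    split_ifs <;> simp
  · have h1 : T = 1 + (U * diagonal (fun i => ((f i : ℂ) - 1) * (d i : ℂ)⁻¹) * Uᴴ) * P := by
      have h2 : (U * diagonal (fun i => ((f i : ℂ) - 1) * (d i : ℂ)⁻¹) * Uᴴ) * P =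
          U * diagonal (fun i => (f i : ℂ) - 1) * Uᴴ := by
        conv_lhs => rw [hsp]
        rw [key]
        congr 2
        congr 1
        funext i
        by_cases h0 : d i = 0
        · rw [h0, hf]
          simp [h0]
        · have h3 : (d i : ℂ) ≠ 0 := by exact_mod_cast h0
          rw [mul_assoc, inv_mul_cancel₀ h3, mul_one]
      rw [h2, ← hone, ← Matrix.add_mul, ← Matrix.mul_add, diagonal_add, hT]
      congr 2
      congr 1
      funext i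
      ring
    rw [h1, add_mulVec, one_mulVec, ← mulVec_mulVec, hv, mulVec_zero, add_zero]

/-- The embedding `a ⊗ ·`. -/
def Va (a : A → ℂ) : Matrix (A × B) B ℂ := fun p t => if p.2 = t then a p.1 else 0

/-- The embedding `· ⊗ b`. -/
def Wb (b : B → ℂ) : Matrix (A × B) A ℂ := fun p k => if p.1 = k then b p.2 else 0

theorem Va_mulVec (a : A → ℂ) (b : B → ℂ) : Va a *ᵥ b = prodVec a b := by
  ext ⟨j, s⟩
  rw [mulVec, dotProduct, Finset.sum_eq_single s]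
  · simp [Va, prodVec]
  · intro t _ ht
    simp [Va, Ne.symm ht]
  · intro h; exact absurd (Finset.mem_univ s) h

theorem Wb_mulVec (a : A → ℂ) (b : B → ℂ) : Wb b *ᵥ a = prodVec a b := by
  ext ⟨j, s⟩
  rw [mulVec, dotProduct, Finset.sum_eq_single j]
  · simp [Wb, prodVec, mul_comm]
  · intro t _ ht
    simp [Wb, Ne.symm ht]
  · intro h; exact absurd (Finset.mem_univ j) h

theorem kron_Va (M : Matrix A A ℂ) (N : Matrix B B ℂ) (a : A → ℂ) :
    (M ⊗ₖ N) * Va a = Va (M *ᵥ a) * N := by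
  ext ⟨j, s⟩ t
  rw [mul_apply, mul_apply, Fintype.sum_prod_type, Finset.sum_eq_single s]
  · simp only [Va, if_true]
    rw [mulVec, dotProduct, Finset.sum_mul]
    refine Finset.sum_congr rfl fun k _ => ?_
    rw [Finset.sum_eq_single t]
    · rw [kroneckerMap_apply, if_pos rfl]; ring
    · intro u _ hu
      rw [if_neg hu, mul_zero]
    · intro h; exact absurd (Finset.mem_univ t) h
  · intro u _ hu
    simp [Va, Ne.symm hu]
  · intro h; exact absurd (Finset.mem_univ s) h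

theorem kron_Wb (M : Matrix A A ℂ) (N : Matrix B B ℂ) (b : B → ℂ) :
    (M ⊗ₖ N) * Wb b = Wb (N *ᵥ b) * M := by
  ext ⟨j, s⟩ t
  rw [mul_apply, mul_apply, Fintype.sum_prod_type, Finset.sum_eq_single t]
  · rw [Finset.sum_eq_single j]
    · simp only [Wb, if_true]
      rw [mulVec, dotProduct, Finset.sum_mul]
      refine Finset.sum_congr rfl fun k _ => ?_
      rw [kroneckerMap_apply]; ring
    · intro u _ hu
      simp [Wb, Ne.symm hu]
    · intro h; exact absurd (Finset.mem_univ j) h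
  · intro u _ hu
    simp [Wb, hu]
  · intro h; exact absurd (Finset.mem_univ t) h

theorem bl_Va (a : A → ℂ) (r : Matrix (A × B) (A × B) ℂ) : bl a r = (Va a)ᴴ * r * Va a := by
  refine Matrix.ext_of_mulVec_single fun i => ?_
  ext s
  rw [Matrix.mul_assoc, ← mulVec_mulVec, ← mulVec_mulVec, Va_mulVec]
  rw [mulVec_single_one, mulVec, dotProduct, Fintype.sum_prod_type]
  change bl a r s i = _
  rw [bl]
  refine Finset.sum_congr rfl fun j _ => ?_
  rw [Finset.sum_eq_single s]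
  · rw [sum_prodVec, conjTranspose_apply]
    simp only [Va, if_true, Finset.mul_sum]
    refine Finset.sum_congr rfl fun k _ => ?_
    rw [Finset.sum_eq_single i]
    · rw [Pi.single_eq_same]; ring
    · intro t _ ht
      rw [Pi.single_eq_of_ne ht]; ring
    · intro h; exact absurd (Finset.mem_univ i) h
  · intro t _ ht
    simp [conjTranspose_apply, Va, ht]
  · intro h; exact absurd (Finset.mem_univ s) h

theorem br_Wb (b : B → ℂ) (r : Matrix (A × B) (A × B) ℂ) : br b r = (Wb b)ᴴ * r * Wb b := by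
  refine Matrix.ext_of_mulVec_single fun i => ?_
  ext s
  rw [Matrix.mul_assoc, ← mulVec_mulVec, ← mulVec_mulVec, Wb_mulVec]
  rw [mulVec_single_one, mulVec, dotProduct, Fintype.sum_prod_type]
  change br b r s i = _
  rw [br, Finset.sum_eq_single s]
  · refine Finset.sum_congr rfl fun j _ => ?_
    rw [sum_prodVec, conjTranspose_apply]
    simp only [Wb, if_true, Finset.mul_sum]
    rw [Finset.sum_eq_single i]
    · refine Finset.sum_congr rfl fun k _ => ?_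
      rw [Pi.single_eq_same]; ring
    · intro t _ ht
      refine Finset.sum_eq_zero fun k _ => ?_
      rw [Pi.single_eq_of_ne ht]; ring
    · intro h; exact absurd (Finset.mem_univ i) h
  · intro t _ ht
    refine Finset.sum_eq_zero fun k _ => ?_
    simp [conjTranspose_apply, Wb, ht]
  · intro h; exact absurd (Finset.mem_univ s) h

theorem bl_filter (S : Matrix A A ℂ) (T : Matrix B B ℂ) :
    bl a ((S ⊗ₖ T) * r * (S ⊗ₖ T)ᴴ) = T * bl (Sᴴ *ᵥ a) r * Tᴴ := by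
  obtain ⟨V, hV⟩ : ∃ V : Matrix (A × B) B ℂ, V = Va a := ⟨_, rfl⟩
  obtain ⟨V', hV'⟩ : ∃ V' : Matrix (A × B) B ℂ, V' = Va (Sᴴ *ᵥ a) := ⟨_, rfl⟩
  have h1 : (S ⊗ₖ T)ᴴ * V = V' * Tᴴ := by
    rw [conjTranspose_kronecker, hV, kron_Va, hV']
  have h2 : Vᴴ * (S ⊗ₖ T) = T * V'ᴴ := by
    have := congrArg conjTranspose h1
    rw [conjTranspose_mul, conjTranspose_mul, conjTranspose_conjTranspose,
      conjTranspose_conjTranspose] at this
    exact this
  rw [bl_Va, bl_Va, ← hV, ← hV']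
  calc Vᴴ * ((S ⊗ₖ T) * r * (S ⊗ₖ T)ᴴ) * V =
      (Vᴴ * (S ⊗ₖ T)) * r * ((S ⊗ₖ T)ᴴ * V) := by simp only [Matrix.mul_assoc]
    _ = _ := by rw [h1, h2]; simp only [Matrix.mul_assoc]

theorem br_filter (S : Matrix A A ℂ) (T : Matrix B B ℂ) :
    br b ((S ⊗ₖ T) * r * (S ⊗ₖ T)ᴴ) = S * br (Tᴴ *ᵥ b) r * Sᴴ := by
  obtain ⟨V, hV⟩ : ∃ V : Matrix (A × B) A ℂ, V = Wb b := ⟨_, rfl⟩
  obtain ⟨V', hV'⟩ : ∃ V' : Matrix (A × B) A ℂ, V' = Wb (Tᴴ *ᵥ b) := ⟨_, rfl⟩
  have h1 : (S ⊗ₖ T)ᴴ * V = V' * Sᴴ := by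
    rw [conjTranspose_kronecker, hV, kron_Wb, hV']
  have h2 : Vᴴ * (S ⊗ₖ T) = S * V'ᴴ := by
    have := congrArg conjTranspose h1
    rw [conjTranspose_mul, conjTranspose_mul, conjTranspose_conjTranspose,
      conjTranspose_conjTranspose] at this
    exact this
  rw [br_Wb, br_Wb, ← hV, ← hV']
  calc Vᴴ * ((S ⊗ₖ T) * r * (S ⊗ₖ T)ᴴ) * V =
      (Vᴴ * (S ⊗ₖ T)) * r * ((S ⊗ₖ T)ᴴ * V) := by simp only [Matrix.mul_assoc]
    _ = _ := by rw [h1, h2]; simp only [Matrix.mul_assoc]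

theorem rank_conj_le {P T T' : Matrix n n ℂ} (h : T' * T = 1) : P.rank ≤ (T * P * T).rank := by
  have h' : T * T' = 1 := mul_eq_one_comm.mp h
  have e : P = T' * (T * P * T) * T' := by
    calc P = (T' * T) * P * (T * T') := by rw [h, h', Matrix.one_mul, Matrix.mul_one]
      _ = _ := by simp only [Matrix.mul_assoc]
  calc P.rank = (T' * (T * P * T) * T').rank := by rw [← e]
    _ ≤ (T' * (T * P * T)).rank := rank_mul_le_left _ _
    _ ≤ _ := rank_mul_le_right _ _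

/-- The normalisation. -/
theorem normalise (hr : r.PosSemidef) (hp : (pTrans r).PosSemidef)
    (h : r *ᵥ prodVec a b = 0) (hrk : r.rank ≤ (bl a r).rank + (br b r).rank) :
    ∃ (S S' : Matrix A A ℂ) (T T' : Matrix B B ℂ), S' * S = 1 ∧ T' * T = 1 ∧
      ((S ⊗ₖ T) * r * (S ⊗ₖ T)ᴴ).PosSemidef ∧
      (pTrans ((S ⊗ₖ T) * r * (S ⊗ₖ T)ᴴ)).PosSemidef ∧
      ((S ⊗ₖ T) * r * (S ⊗ₖ T)ᴴ) *ᵥ prodVec a b = 0 ∧
      bl a ((S ⊗ₖ T) * r * (S ⊗ₖ T)ᴴ) * bl a ((S ⊗ₖ T) * r * (S ⊗ₖ T)ᴴ) =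
        bl a ((S ⊗ₖ T) * r * (S ⊗ₖ T)ᴴ) ∧
      br b ((S ⊗ₖ T) * r * (S ⊗ₖ T)ᴴ) * br b ((S ⊗ₖ T) * r * (S ⊗ₖ T)ᴴ) =
        br b ((S ⊗ₖ T) * r * (S ⊗ₖ T)ᴴ) ∧
      ((S ⊗ₖ T) * r * (S ⊗ₖ T)ᴴ).rank ≤ (bl a ((S ⊗ₖ T) * r * (S ⊗ₖ T)ᴴ)).rank +
        (br b ((S ⊗ₖ T) * r * (S ⊗ₖ T)ᴴ)).rank := by
  have hP : (bl a r).PosSemidef := by
    rw [bl_Va]; exact hr.conjTranspose_mul_mul_same _
  have hQ : (br b r).PosSemidef := by
    rw [br_Wb]; exact hr.conjTranspose_mul_mul_same _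
  have hPb : bl a r *ᵥ b = 0 := by
    rw [bl_Va, Matrix.mul_assoc, ← mulVec_mulVec, ← mulVec_mulVec, Va_mulVec, h, mulVec_zero]
  have hQa : br b r *ᵥ a = 0 := by
    rw [br_Wb, Matrix.mul_assoc, ← mulVec_mulVec, ← mulVec_mulVec, Wb_mulVec, h, mulVec_zero]
  obtain ⟨T, T', t1, t2, t3, t4⟩ := exists_norm hP hPb
  obtain ⟨S, S', s1, s2, s3, s4⟩ := exists_norm hQ hQa
  have e1 : bl a ((S ⊗ₖ T) * r * (S ⊗ₖ T)ᴴ) = T * bl a r * T := by
    rw [bl_filter, s1, s4, t1]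
  have e2 : br b ((S ⊗ₖ T) * r * (S ⊗ₖ T)ᴴ) = S * br b r * S := by
    rw [br_filter, t1, t4, s1]
  refine ⟨S, S', T, T', s2, t2, hr.mul_mul_conjTranspose_same _, Q.ppt_filter hp S T, ?_, ?_, ?_,
    ?_⟩
  · have e3 : (S ⊗ₖ T)ᴴ *ᵥ prodVec a b = prodVec a b := by
      rw [conjTranspose_kronecker, ← Va_mulVec, mulVec_mulVec, kron_Va, ← mulVec_mulVec, s1, t1,
        s4, t4]
    rw [← mulVec_mulVec, ← mulVec_mulVec, e3, h, mulVec_zero]
  · rw [e1, t3]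
  · rw [e2, s3]
  · rw [e1, e2]
    calc ((S ⊗ₖ T) * r * (S ⊗ₖ T)ᴴ).rank ≤ ((S ⊗ₖ T) * r).rank := rank_mul_le_left _ _
      _ ≤ r.rank := rank_mul_le_right _ _
      _ ≤ _ := hrk
      _ ≤ _ := Nat.add_le_add (rank_conj_le t2) (rank_conj_le s2)

theorem sep_of_filter' {S S' : Matrix A A ℂ} {T T' : Matrix B B ℂ} (hS : S' * S = 1)
    (hT : T' * T = 1) (h : IsSep ((S ⊗ₖ T) * r * (S ⊗ₖ T)ᴴ)) : IsSep r := by
  have h1 : (S' ⊗ₖ T') * (S ⊗ₖ T) = 1 := by
    rw [← mul_kronecker_mul, hS, hT, one_kronecker_one]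
  have h2 : r = (S' ⊗ₖ T') * ((S ⊗ₖ T) * r * (S ⊗ₖ T)ᴴ) * (S' ⊗ₖ T')ᴴ := by
    calc r = ((S' ⊗ₖ T') * (S ⊗ₖ T)) * r * ((S' ⊗ₖ T') * (S ⊗ₖ T))ᴴ := by
          rw [h1, conjTranspose_one, Matrix.one_mul, Matrix.mul_one]
      _ = _ := by
          rw [conjTranspose_mul (S' ⊗ₖ T') (S ⊗ₖ T)]
          simp only [Matrix.mul_assoc]
  rw [h2]
  exact Q.isSep_conj h _ _

theorem psd_add_zero {M N : Matrix n n ℂ} (hM : M.PosSemidef) (hN : N.PosSemidef) {v : n → ℂ}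
    (h : (M + N) *ᵥ v = 0) : M *ᵥ v = 0 ∧ N *ᵥ v = 0 := by
  have h1 : dp v (M *ᵥ v) + dp v (N *ᵥ v) = 0 := by
    rw [← dp_add, ← add_mulVec, h, dp, dotProduct_zero]
  have h2 : 0 ≤ dp v (M *ᵥ v) := hM.dotProduct_mulVec_nonneg v
  have h3 : 0 ≤ dp v (N *ᵥ v) := hN.dotProduct_mulVec_nonneg v
  have h4 := (add_eq_zero_iff_of_nonneg h2 h3).mp h1
  exact ⟨psd_mulVec_zero hM h4.1, psd_mulVec_zero hN h4.2⟩

/-- The criterion is invariant under invertible local filters. -/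
theorem KeyCrit.filter {S S' : Matrix A A ℂ} {T T' : Matrix B B ℂ} (hS : S' * S = 1)
    (hT : T' * T = 1) (h : KeyCrit ((S ⊗ₖ T) * r * (S ⊗ₖ T)ᴴ)) : KeyCrit r := by
  obtain ⟨X, Y, hX, hY, hc, hW⟩ := h
  obtain ⟨F, hF⟩ : ∃ F, F = S ⊗ₖ T := ⟨_, rfl⟩
  have hS' : S * S' = 1 := mul_eq_one_comm.mp hS
  have hT' : T * T' = 1 := mul_eq_one_comm.mp hT
  have hF1 : (S' ⊗ₖ T') * F = 1 := by
    rw [hF, ← mul_kronecker_mul, hS, hT, one_kronecker_one]
  have hF2 : Fᴴ * (S' ⊗ₖ T')ᴴ = 1 := by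
    rw [← conjTranspose_mul, hF1, conjTranspose_one]
  rw [← hF] at hc hW
  have hFX : ∀ (M : Matrix A A ℂ) (N : Matrix B B ℂ),
      (Sᴴ * M * S) ⊗ₖ (Tᴴ * N * T) = Fᴴ * (M ⊗ₖ N) * F := by
    intro M N
    rw [hF, conjTranspose_kronecker, ← mul_kronecker_mul, ← mul_kronecker_mul]
  refine ⟨Sᴴ * X * S, Tᴴ * Y * T, ?_, ?_, ?_, ?_⟩
  · rw [IsHermitian, conjTranspose_mul, conjTranspose_mul, conjTranspose_conjTranspose, hX.eq,
      Matrix.mul_assoc]
  · rw [IsHermitian, conjTranspose_mul, conjTranspose_mul, conjTranspose_conjTranspose, hY.eq,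
      Matrix.mul_assoc]
  · rw [hFX]
    have e : (r * (Fᴴ * (X ⊗ₖ Y) * F)).trace = (F * r * Fᴴ * (X ⊗ₖ Y)).trace := by
      calc (r * (Fᴴ * (X ⊗ₖ Y) * F)).trace = ((r * Fᴴ * (X ⊗ₖ Y)) * F).trace := by
            simp only [Matrix.mul_assoc]
        _ = (F * (r * Fᴴ * (X ⊗ₖ Y))).trace := trace_mul_comm _ _
        _ = _ := by simp only [Matrix.mul_assoc]
    rw [e]
    exact hc
  · intro W hWr hW0
    obtain ⟨G, H, hG, hH, h1, v', hv', h2⟩ := hW (W.map F.mulVecLin) (by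
      rintro _ ⟨v, hv, rfl⟩
      obtain ⟨w, rfl⟩ := hWr hv
      refine ⟨(S' ⊗ₖ T')ᴴ *ᵥ w, ?_⟩
      simp only [mulVecLin_apply, mulVec_mulVec]
      rw [Matrix.mul_assoc (F * r), hF2, Matrix.mul_one]) (by
      intro h0
      obtain ⟨v, hv, hv0⟩ := W.exists_mem_ne_zero_of_ne_bot hW0
      have : F *ᵥ v ∈ W.map F.mulVecLin := ⟨v, hv, rfl⟩
      rw [h0, Submodule.mem_bot] at this
      apply hv0
      rw [← one_mulVec v, ← hF1, ← mulVec_mulVec, this, mulVec_zero])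
    obtain ⟨v, hv, rfl⟩ := hv'
    rw [mulVecLin_apply] at h2
    have hGp : (Sᴴ * G * S).PosSemidef := hG.conjTranspose_mul_mul_same _
    have hHp : (Tᴴ * H * T).PosSemidef := hH.conjTranspose_mul_mul_same _
    refine ⟨Sᴴ * G * S, Tᴴ * H * T, hGp, hHp, ?_, v, hv, ?_⟩
    · intro u hu w hw
      have e : (Sᴴ * X * S) ⊗ₖ (Tᴴ * H * T) + (Sᴴ * G * S) ⊗ₖ (Tᴴ * Y * T) =
          Fᴴ * (X ⊗ₖ H + G ⊗ₖ Y) * F := by
        rw [hFX, hFX, Matrix.mul_add, Matrix.add_mul]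
      have := h1 (F *ᵥ u) ⟨u, hu, rfl⟩ (F *ᵥ w) ⟨w, hw, rfl⟩
      rw [e, Matrix.mul_assoc, ← mulVec_mulVec, ← mulVec_mulVec, dotProduct_mulVec (star u),
        ← star_mulVec]
      rw [mulVec_mulVec] at this
      rw [mulVec_mulVec]
      exact this
    · intro h0
      apply h2
      have p1 : ((Sᴴ * G * S) ⊗ₖ (1 : Matrix B B ℂ)).PosSemidef := hGp.kronecker PosSemidef.one
      have p2 : ((1 : Matrix A A ℂ) ⊗ₖ (Tᴴ * H * T)).PosSemidef :=
        PosSemidef.one.kronecker hHp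
      obtain ⟨q1, q2⟩ := psd_add_zero p1 p2 h0
      have e1 : (G ⊗ₖ (1 : Matrix B B ℂ)) * F =
          (S'ᴴ ⊗ₖ T) * ((Sᴴ * G * S) ⊗ₖ (1 : Matrix B B ℂ)) := by
        rw [hF, ← mul_kronecker_mul, ← mul_kronecker_mul, Matrix.one_mul, Matrix.mul_one]
        congr 1
        calc G * S = (S * S')ᴴ * G * S := by rw [hS', conjTranspose_one, Matrix.one_mul]
          _ = _ := by rw [conjTranspose_mul]; simp only [Matrix.mul_assoc]
      have e2 : ((1 : Matrix A A ℂ) ⊗ₖ H) * F =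
          (S ⊗ₖ T'ᴴ) * ((1 : Matrix A A ℂ) ⊗ₖ (Tᴴ * H * T)) := by
        rw [hF, ← mul_kronecker_mul, ← mul_kronecker_mul, Matrix.one_mul, Matrix.mul_one]
        congr 1
        calc H * T = (T * T')ᴴ * H * T := by rw [hT', conjTranspose_one, Matrix.one_mul]
          _ = _ := by rw [conjTranspose_mul]; simp only [Matrix.mul_assoc]
      rw [add_mulVec, mulVec_mulVec, mulVec_mulVec, e1, e2, ← mulVec_mulVec, ← mulVec_mulVec, q1,
        q2, mulVec_zero, mulVec_zero, add_zero]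

/-- Tight PPT states: separable or the criterion holds. -/
theorem tight_sep_or_crit (hr : r.PosSemidef) (hp : (pTrans r).PosSemidef)
    (h : r *ᵥ prodVec a b = 0) (hrk : r.rank ≤ (bl a r).rank + (br b r).rank) :
    IsSep r ∨ KeyCrit r := by
  obtain ⟨S, S', T, T', s1, t1, h1, h2, h3, h4, h5, h6⟩ := normalise hr hp h hrk
  rcases norm_dichotomy h1 h2 h3 h4 h5 h6 with h7 | h7
  · exact Or.inl (sep_of_filter' s1 t1 h7)
  · exact Or.inr (h7.filter s1 t1)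

/-- **Theorem J.** A PPT state that annihilates `a ⊗ b` and whose rank is at most the sum of the
ranks of `⟨a|r|a⟩` and `⟨b|r|b⟩` is separable or has positive distillable key. -/
theorem thmJ (r : Matrix (A × B) (A × B) ℂ) (htr : r.trace = 1) (hr : r.PosSemidef)
    (hp : (pTrans r).PosSemidef) (a : A → ℂ) (b : B → ℂ) (h : r *ᵥ prodVec a b = 0)
    (hrk : r.rank ≤ (bl a r).rank + (br b r).rank) : KeyPos r ∨ IsSep r := by
  rcases tight_sep_or_crit hr hp h hrk with h1 | h1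
  · exact Or.inr h1
  · exact Or.inl (h1.keyPos htr)

/-- PPT operators whose rank is at most that of `⟨b|r|b⟩` are separable. -/
theorem sep_of_rank (r : Matrix (A × B) (A × B) ℂ) (hr : r.PosSemidef)
    (hp : (pTrans r).PosSemidef) (b : B → ℂ) (hrk : r.rank ≤ (br b r).rank) : IsSep r := by
  have h0 : r *ᵥ prodVec (0 : A → ℂ) b = 0 := by
    have : prodVec (0 : A → ℂ) b = 0 := by
      ext ⟨j, s⟩
      simp [prodVec]
    rw [this, mulVec_zero]
  obtain ⟨S, S', T, T', s1, t1, h1, h2, h3, h4, h5, h6⟩ :=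
    normalise (a := 0) hr hp h0 (hrk.trans (Nat.le_add_left _ _))
  refine sep_of_filter' s1 t1 ?_
  rcases tight_dichotomy h1 h2 h3 h4 h5 h6 with h7 | ⟨V, hV, h7, h8⟩
  · exact h7
  · exfalso
    refine not_all_eig h7 h8 fun j => ⟨0, fun v _ => ?_⟩
    have : ∀ r' : Matrix (A × B) (A × B) ℂ, Cm (0 : A → ℂ) r' j = 0 := by
      intro r'
      ext s t
      simp [Cm]
    rw [this, conjTranspose_zero, zero_mulVec, zero_smul]

/-- PPT operators whose rank is at most that of `⟨a|r|a⟩` are separable. -/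
theorem sep_of_rank' (r : Matrix (A × B) (A × B) ℂ) (hr : r.PosSemidef)
    (hp : (pTrans r).PosSemidef) (a : A → ℂ) (hrk : r.rank ≤ (bl a r).rank) : IsSep r := by
  have h0 : r *ᵥ prodVec a (0 : B → ℂ) = 0 := by
    have : prodVec a (0 : B → ℂ) = 0 := by
      ext ⟨j, s⟩
      simp [prodVec]
    rw [this, mulVec_zero]
  obtain ⟨S, S', T, T', s1, t1, h1, h2, h3, h4, h5, h6⟩ :=
    normalise (b := 0) hr hp h0 (hrk.trans (Nat.le_add_right _ _))
  refine sep_of_filter' s1 t1 ?_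
  obtain ⟨h7, h8⟩ := tight h1 h2 h3 h4 h5 h6
  have hD : ∀ (r' : Matrix (A × B) (A × B) ℂ) (s : B), Dm (0 : B → ℂ) r' s = 0 := by
    intro r' s
    ext j k
    simp [Dm]
  have h9 : ∀ i j, (Cm a ((S ⊗ₖ T) * r * (S ⊗ₖ T)ᴴ) i)ᴴ * Cm a ((S ⊗ₖ T) * r * (S ⊗ₖ T)ᴴ) j =
      Cm a ((S ⊗ₖ T) * r * (S ⊗ₖ T)ᴴ) j * (Cm a ((S ⊗ₖ T) * r * (S ⊗ₖ T)ᴴ) i)ᴴ := by
    intro i j
    ext t s
    have := h8 i j s t
    rw [hD, hD, conjTranspose_zero, Matrix.zero_mul, sub_self, Matrix.zero_apply, add_zero,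
      Matrix.sub_apply, sub_eq_zero] at this
    exact this
  refine sep_of_comm _ _ _ h7 h8 (fun i j => ?_) h9
  have := fuglede (N := (Cm a ((S ⊗ₖ T) * r * (S ⊗ₖ T)ᴴ) i)ᴴ)
    (M := Cm a ((S ⊗ₖ T) * r * (S ⊗ₖ T)ᴴ) j)
    (by rw [conjTranspose_conjTranspose, h9]) (h9 i j)
  rw [conjTranspose_conjTranspose] at this
  exact this

end Vale.Agent.P372.R4
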