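import Vale.Agent.P372.R4.Npt
import Vale.Agent.P372.R4.Q22
import Vale.Agent.P372.R4.Main

/-! PPT states of rank at most four with both reductions of rank at least three. -/

open Matrix Kronecker
open scoped ComplexOrder MatrixOrder

set_option linter.unusedSectionVars false
set_option linter.unusedVariables false

namespace Vale.Agent.P372.R4

variable {A B : Type} [Fintype A] [DecidableEq A] [Fintype B] [DecidableEq B]
  {r : Matrix (A × B) (A × B) ℂ}

open J2 in
theorem kp_of_ppt (hr : r.PosSemidef) (hp : (pTrans r).PosSemidef) : Kp r :=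
  fun _ _ h => kill' hr hp (by
    have := blc_right h
    exact this _)

theorem ppt_swp (hr : r.PosSemidef) (hp : (pTrans r).PosSemidef) :
    (pTrans (J2.swp r)).PosSemidef := J2.swp_ppt (r := J2.swp r) (J2.swp_psd hr) hp

theorem sep_swp (h : IsSep (J2.swp r)) : IsSep r := by
  obtain ⟨n, M, N, hM, hN, hMN⟩ := h
  refine ⟨n, N, M, hN, hM, ?_⟩
  ext ⟨j, s⟩ ⟨k, t⟩
  have h1 := congrFun (congrFun hMN (s, j)) (t, k)
  change r (j, s) (k, t) = _ at h1
  rw [h1, Matrix.sum_apply, Matrix.sum_apply]
  exact Finset.sum_congr rfl fun i _ => mul_comm _ _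

/-- A PPT operator whose rank is at most a local rank is separable. -/
theorem sep_of_local (hr : r.PosSemidef) (hp : (pTrans r).PosSemidef)
    (h : r.rank ≤ (redB r).rank ∨ r.rank ≤ (redA r).rank) : IsSep r := by
  rcases h with h | h
  · obtain ⟨a, ha⟩ := L0 r hr hp
    have ha' : (bl a r).rank = (redB r).rank := ha
    exact sep_of_rank' r hr hp a (by omega)
  · obtain ⟨b, hb⟩ := L0 (J2.swp r) (J2.swp_psd hr) (ppt_swp hr hp)
    have hb' : (br b r).rank = (redA r).rank := hb
    exact sep_of_rank r hr hp b (by omega)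

/-- **A PPT operator of rank at most three is separable.** -/
theorem sep_three (hr : r.PosSemidef) (hp : (pTrans r).PosSemidef) (h3 : r.rank ≤ 3) :
    IsSep r := by
  by_cases hB : r.rank ≤ (redB r).rank
  · exact sep_of_local hr hp (Or.inl hB)
  by_cases hA : r.rank ≤ (redA r).rank
  · exact sep_of_local hr hp (Or.inr hA)
  have main : ∀ (m n : ℕ), m ≤ 2 → n ≤ 2 →
      ∀ r' : Matrix (Fin m × Fin n) (Fin m × Fin n) ℂ, r'.PosSemidef → (pTrans r').PosSemidef →
      r'.rank = r.rank → (redA r').rank = m → (redB r').rank = n → IsSep r' := by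
    intro m n hm hn r' h1 h2 h3 h4 h5
    have h6 : r'.rank ≤ m * n := by
      have := rank_le_card_width r'
      rwa [Fintype.card_prod, Fintype.card_fin, Fintype.card_fin] at this
    have hm' : m = 0 ∨ m = 1 ∨ m = 2 := by omega
    have hn' : n = 0 ∨ n = 1 ∨ n = 2 := by omega
    rcases hm' with rfl | rfl | rfl
    · exact sep_of_local h1 h2 (Or.inl (by omega))
    · exact sep_of_local h1 h2 (Or.inl (by omega))
    · rcases hn' with rfl | rfl | rfl
      · exact sep_of_local h1 h2 (Or.inr (by omega))
      · exact sep_of_local h1 h2 (Or.inr (by omega))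
      · exact sep_two_qubits r' h1 h2 (by omega)
  obtain ⟨V, W, r', -, -, h1, h2, h3, h4, h5, h6, h7, h8, h9⟩ := sup hr
  exact h5.1 (main _ _ (by omega) (by omega) r' h3 (h4 hp) h6 h8 h9)

/-- A PPT operator of rank at most four with a vector `a` such that `⟨a|r|a⟩` has rank one is
separable. -/
theorem sep_of_one (hr : r.PosSemidef) (hp : (pTrans r).PosSemidef) (h4 : r.rank ≤ 4)
    (a : A → ℂ) (h1 : (bl a r).rank = 1) : IsSep r := by
  obtain ⟨M, N, r', hM, hN, h5, h6, h7, h8, -⟩ := SPL r hr hp a h1
  have h9 : IsSep r' := sep_three h6 h7 (by omega)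
  rw [h5]
  exact Q.isSep_add (Q.isSep_kron hM hN) h9

/-- **Row ASM.** A PPT state of rank at most four with both reductions of rank at least three is
separable or has positive distillable key. -/
theorem rank_four (r : Matrix (A × B) (A × B) ℂ) (htr : r.trace = 1) (hr : r.PosSemidef)
    (hp : (pTrans r).PosSemidef) (hrk : r.rank ≤ 4) (hA : 3 ≤ (redA r).rank)
    (hB : 3 ≤ (redB r).rank) : KeyPos r ∨ IsSep r := by
  by_cases hB' : r.rank ≤ (redB r).rank
  · exact Or.inr (sep_of_local hr hp (Or.inl hB'))
  by_cases hA' : r.rank ≤ (redA r).rank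
  · exact Or.inr (sep_of_local hr hp (Or.inr hA'))
  have e1 : (redA r).rank = 3 := by omega
  have e2 : (redB r).rank = 3 := by omega
  have e3 : r.rank = 4 := by omega
  have main : ∀ (m n : ℕ), m = 3 → n = 3 → ∀ (V : Matrix A (Fin m) ℂ) (W : Matrix B (Fin n) ℂ)
      (r' : Matrix (Fin m × Fin n) (Fin m × Fin n) ℂ), r' = (V ⊗ₖ W)ᴴ * r * (V ⊗ₖ W) →
      r'.PosSemidef → (pTrans r').PosSemidef → (IsSep r' ↔ IsSep r) → r'.rank = r.rank →
      r'.trace = r.trace → (redA r').rank = (redA r).rank → (redB r').rank = (redB r).rank →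
      KeyPos r ∨ IsSep r := by
    intro m n hm hn V W r' h1 h2 h3 h4 h5 h6 h7 h8
    subst hm hn
    obtain ⟨a, b, ha, hb, hab⟩ := J2.exists_prod h2 (by omega)
    have pa : (bl a r').rank ≠ 0 := by
      intro h0
      have h9 : bl a r' = 0 := by
        have h6 : Module.finrank ℂ (LinearMap.range (bl a r').mulVecLin) = 0 := h0
        rw [Submodule.finrank_eq_zero, LinearMap.range_eq_bot] at h6
        ext s t
        have h7 := congrFun (LinearMap.congr_fun h6 (Pi.single t 1)) s
        simpa using h7
      have h10 : redA r' *ᵥ a = 0 := J2.redA_mulVec a fun y => kill h2 (by rw [h9, zero_mulVec])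
      have h11 := J2.rank_lt ha h10
      simp only [Fintype.card_fin] at h11
      omega
    have pb : (br b r').rank ≠ 0 := by
      intro h0
      have h9 : bl b (J2.swp r') = 0 := by
        have h6 : Module.finrank ℂ (LinearMap.range (br b r').mulVecLin) = 0 := h0
        rw [Submodule.finrank_eq_zero, LinearMap.range_eq_bot] at h6
        ext s t
        have h7 := congrFun (LinearMap.congr_fun h6 (Pi.single t 1)) s
        have h8 : br b r' s t = 0 := by simpa using h7
        exact h8
      have h10 : redB r' *ᵥ b = 0 := J2.redA_mulVec (r := J2.swp r') b fun y =>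
        kill (J2.swp_psd h2) (by rw [h9, zero_mulVec])
      have h11 := J2.rank_lt hb h10
      simp only [Fintype.card_fin] at h11
      omega
    by_cases ca : (bl a r').rank = 1
    · exact Or.inr (h4.1 (sep_of_one h2 h3 (by omega) a ca))
    by_cases cb : (br b r').rank = 1
    · refine Or.inr (h4.1 (sep_swp (sep_of_one (J2.swp_psd h2) (ppt_swp h2 h3) ?_ b cb)))
      rw [J2.swp_rank]
      omega
    rcases J2.thmJ2 r' (by rw [h6, htr]) h2 a b hab (by omega) with h9 | h9
    · left
      rw [h1] at h9
      refine keyPos_of_compr hr htr V W ?_ h9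
      rw [← h1, h6]
    · exact Or.inr (h4.1 h9)
  obtain ⟨V, W, r', -, -, h1, -, h2, h3, h4, h5, h6, h7, h8⟩ := sup hr
  exact main _ _ e1 e2 V W r' h1 h2 (h3 hp) h4 h5 h6 h7 h8

/-- **States of rank at most four.** -/
theorem rank_four_all (r : Matrix (A × B) (A × B) ℂ) (htr : r.trace = 1) (hr : r.PosSemidef)
    (hrk : r.rank ≤ 4)
    (h : ¬ (pTrans r).PosSemidef ∨ (3 ≤ (redA r).rank ∧ 3 ≤ (redB r).rank)) :
    KeyPos r ∨ IsSep r := by
  by_cases hp : (pTrans r).PosSemidef
  · rcases h with h | h
    · exact absurd hp h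
    · exact rank_four r htr hr hp hrk h.1 h.2
  · exact Or.inl (J2.npt_rank_four r htr hr hrk hp)

end Vale.Agent.P372.R4
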