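import Vale.Agent.P372.R4.J2b

/-! The key half for a general subspace of kernel product vectors. -/

open Matrix Kronecker
open scoped ComplexOrder MatrixOrder

set_option linter.unusedSectionVars false

namespace Vale.Agent.P372.R4.J2

open H750 UPB

variable {A B : Type} [Fintype A] [DecidableEq A] [Fintype B] [DecidableEq B]
  {r : Matrix (A × B) (A × B) ℂ} {a : A → ℂ}

/-- No stuck subspaces. -/
theorem noStuck_coreV {x : A → ℂ} (hr : r.PosSemidef) (K : Submodule ℂ (B → ℂ))
    (h0 : ∀ v ∈ K, r *ᵥ prodVec a v = 0)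
    (h2 : ∀ s ∈ LinearMap.range r.mulVecLin, (∀ v ∈ K, ctr v s = 0) →
      ∀ j y, s (j, y) = ((Cm a r j)ᴴ *ᵥ ca a s) y)
    {M Y : Matrix B B ℂ} (hM : ∑ j, x j • Cm a r j = M)
    (hY : ∀ u ∈ core M, ∀ w ∈ core M, dp u (Y *ᵥ w) = 0) :
    NoStuck (LinearMap.range r.mulVecLin) (vecMulVec a (star x) + vecMulVec x (star a)) Y := by
  intro S hSr hS0
  have hk : ∀ b ∈ K, ∀ v ∈ S, ip (prodVec a b) v = 0 := by
    intro b hb v hv
    obtain ⟨w, rfl⟩ := hSr hv
    rw [mulVecLin_apply]
    have : ip (prodVec a b) (r *ᵥ w) = dp (rᴴ *ᵥ prodVec a b) w := dp_mulVec r _ _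
    rw [this, hr.1, h0 b hb, dp, star_zero, zero_dotProduct]
  by_cases hc1 : ∃ b ∈ K, ∃ v ∈ S, ctr b v ≠ 0
  · obtain ⟨b, hb, v, hv, hv0⟩ := hc1
    refine ⟨0, vecMulVec b (star b), PosSemidef.zero, posSemidef_vmv b, fun u hu w hw => ?_,
      v, hv, one_kron_mulVec_ne hv0⟩
    refine form_X a x b Y u w ?_ ?_
    · rw [hk b hb w hw, zero_mul]
    · rw [ip_comm_zero (hk b hb u hu), mul_zero]
  push Not at hc1
  have hvec : ∀ v ∈ S, ∀ j s, v (j, s) = ((Cm a r j)ᴴ *ᵥ ca a v) s := by
    intro v hv j s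
    exact h2 v (hSr hv) (fun b hb => hc1 b hb v hv) j s
  have hctr : ∀ v ∈ S, ∀ (g : B → ℂ) (j : A), ctr g v j = dp g ((Cm a r j)ᴴ *ᵥ ca a v) := by
    intro v hv g j
    rw [ctr_apply, ip, dp]
    congr 1
    ext s
    exact hvec v hv j s
  obtain ⟨V, hV⟩ : ∃ V : Submodule ℂ (B → ℂ), V = S.map (ca a) := ⟨_, rfl⟩
  have hmem : ∀ v ∈ S, ca a v ∈ V := fun v hv => by
    rw [hV]; exact Submodule.mem_map_of_mem hv
  have hix : ∀ v ∈ S, ∀ g : B → ℂ, ip (prodVec x g) v = dp (M *ᵥ g) (ca a v) := by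
    intro w hw g
    rw [ip_ctr, dp, dotProduct]
    have e1 : ∀ j, star x j * ctr g w j = dp ((x j • Cm a r j) *ᵥ g) (ca a w) := by
      intro j
      rw [hctr w hw, dp_mulVec, conjTranspose_conjTranspose, smul_mulVec, smul_dp]
      rfl
    simp only [e1]
    rw [← hM, sum_mulVec, dp, star_sum, sum_dotProduct]
    rfl
  by_cases hc2 : Inv (Cm a r) V
  · by_cases hc3 : V.map Mᴴ.mulVecLin = V
    · have hle := le_core hc3
      obtain ⟨v, hv, hv0⟩ := S.exists_mem_ne_zero_of_ne_bot hS0
      refine ⟨1, 0, PosSemidef.one, PosSemidef.zero, fun u hu w hw => ?_, v, hv, ?_⟩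
      · have e1 : ∀ v ∈ S, ∀ j, (fun s => v (j, s)) = (Cm a r j)ᴴ *ᵥ ca a v := by
          intro v hv j
          ext s
          exact hvec v hv j s
        have e2 : ∀ j, dp (fun s => u (j, s)) (Y *ᵥ fun s => w (j, s)) = 0 := by
          intro j
          rw [e1 u hu, e1 w hw]
          exact hY _ (hle (hc2 j _ (hmem u hu))) _ (hle (hc2 j _ (hmem w hw)))
        rw [kronecker_zero, zero_add, dotProduct, Fintype.sum_prod_type]
        refine Finset.sum_eq_zero fun j _ => ?_
        rw [← e2 j, dp, dotProduct]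
        refine Finset.sum_congr rfl fun s _ => ?_
        congr 1
        rw [mulVec, dotProduct, Fintype.sum_prod_type, Finset.sum_eq_single j]
        · rw [mulVec, dotProduct]
          refine Finset.sum_congr rfl fun t _ => ?_
          rw [kroneckerMap_apply, one_apply_eq, one_mul]
        · intro k _ hk
          refine Finset.sum_eq_zero fun t _ => ?_
          rw [kroneckerMap_apply, one_apply_ne (Ne.symm hk), zero_mul, zero_mul]
        · intro hj; exact absurd (Finset.mem_univ j) hj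
      · rw [kronecker_zero, add_zero, one_kronecker_one, one_mulVec]
        exact hv0
    · -- a vector of `V` orthogonal to the image
      have hMV : V.map Mᴴ.mulVecLin ≤ V := by
        rintro _ ⟨v, hv, rfl⟩
        rw [mulVecLin_apply, ← hM, conjTranspose_sum, sum_mulVec]
        refine Submodule.sum_mem _ fun k _ => ?_
        rw [conjTranspose_smul, smul_mulVec]
        exact Submodule.smul_mem _ _ (hc2 k v hv)
      obtain ⟨w, hw, hw1⟩ : ∃ w ∈ V, w ∉ V.map Mᴴ.mulVecLin := by
        by_contra hcon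
        push Not at hcon
        exact hc3 (le_antisymm hMV hcon)
      obtain ⟨P, p1, p2, p3, p4⟩ := exists_proj (V.map Mᴴ.mulVecLin)
      obtain ⟨g, hg⟩ : ∃ g, g = w - P *ᵥ w := ⟨_, rfl⟩
      have hgV : g ∈ V := by
        rw [hg]
        exact Submodule.sub_mem _ hw (hMV (p4 w))
      have hg0 : g ≠ 0 := by
        intro h0
        rw [h0] at hg
        apply hw1
        rw [sub_eq_zero.mp hg.symm]
        exact p4 w
      have hgo : ∀ z ∈ V, dp (M *ᵥ g) z = 0 := by
        intro z hz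
        have hz' : Mᴴ *ᵥ z ∈ V.map Mᴴ.mulVecLin := Submodule.mem_map_of_mem (f := Mᴴ.mulVecLin) hz
        have e : dp g (Mᴴ *ᵥ z) = 0 := by
          have e1 : dp (P *ᵥ w) (Mᴴ *ᵥ z) = dp w (Mᴴ *ᵥ z) := by
            have := dp_mulVec Pᴴ w (Mᴴ *ᵥ z)
            rw [conjTranspose_conjTranspose, p1, p3 _ hz'] at this
            exact this.symm
          have e2 : w = g + P *ᵥ w := by rw [hg]; abel
          have e3 : dp w (Mᴴ *ᵥ z) = dp g (Mᴴ *ᵥ z) + dp (P *ᵥ w) (Mᴴ *ᵥ z) := by
            conv_lhs => rw [e2]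
            rw [add_dp]
          rw [e1] at e3
          exact (right_eq_add.mp e3)
        rw [dp_mulVec, conjTranspose_conjTranspose] at e
        exact e
      obtain ⟨v, hv, hvg⟩ : ∃ v ∈ S, ca a v = g := by
        rw [hV] at hgV
        exact hgV
      have hz : ∀ u ∈ S, ip (prodVec x g) u = 0 := by
        intro u hu
        rw [hix u hu]
        exact hgo _ (hmem u hu)
      have hne : ctr g v ≠ 0 := by
        intro h0
        have e : ip (prodVec a g) v = 0 := by rw [ip_ctr, h0, dp, dotProduct_zero]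
        rw [ip_ca, hvg] at e
        exact hg0 (dp_self e)
      refine ⟨0, vecMulVec g (star g), PosSemidef.zero, posSemidef_vmv g, fun u hu w hw => ?_,
        v, hv, one_kron_mulVec_ne hne⟩
      refine form_X a x g Y u w ?_ ?_
      · rw [ip_comm_zero (hz u hu), mul_zero]
      · rw [hz w hw, zero_mul]
  · -- a vector orthogonal to `V`
    unfold Inv at hc2
    push Not at hc2
    obtain ⟨j, β, hβ, hn⟩ := hc2
    rw [hV] at hβ
    obtain ⟨v, hv, rfl⟩ := hβ
    obtain ⟨g, hgo, hgw⟩ := exists_orth hn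
    have hz : ∀ u ∈ S, ip (prodVec a g) u = 0 := by
      intro u hu
      rw [ip_ca]
      exact dp_zero_symm (hgo _ (hmem u hu))
    have hne : ctr g v ≠ 0 := by
      intro h0
      apply hgw
      have := congrFun h0 j
      rw [hctr v hv, Pi.zero_apply] at this
      exact this
    refine ⟨0, vecMulVec g (star g), PosSemidef.zero, posSemidef_vmv g, fun u hu w hw => ?_,
      v, hv, one_kron_mulVec_ne hne⟩
    refine form_X a x g Y u w ?_ ?_
    · rw [hz w hw, zero_mul]
    · rw [ip_comm_zero (hz u hu), mul_zero]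

/-- **The key half.** Either the criterion holds, or all `⟨a|r|x⟩` are normal. -/
theorem keyhalf (hr : r.PosSemidef) (K : Submodule ℂ (B → ℂ))
    (hP : bl a r * bl a r = bl a r) (h0 : ∀ v ∈ K, r *ᵥ prodVec a v = 0)
    (h2 : ∀ s ∈ LinearMap.range r.mulVecLin, (∀ v ∈ K, ctr v s = 0) →
      ∀ j y, s (j, y) = ((Cm a r j)ᴴ *ᵥ ca a s) y) :
    KeyCrit r ∨ ∀ x : A → ℂ, (∑ k, x k • Cm a r k)ᴴ * (∑ k, x k • Cm a r k) =
      (∑ k, x k • Cm a r k) * (∑ k, x k • Cm a r k)ᴴ := by
  by_cases hK : KeyCrit r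
  · exact Or.inl hK
  refine Or.inr fun x => ?_
  have hPh : (bl a r)ᴴ = bl a r := by
    have : (bl a r).PosSemidef := by
      rw [bl_Va]; exact hr.conjTranspose_mul_mul_same _
    exact this.1
  have step : ∀ y : A → ℂ, ∀ v, (∑ k, y k • Cm a r k)ᴴ *ᵥ v = 0 →
      (∑ k, y k • Cm a r k) *ᵥ v = 0 := by
    intro y v hv
    obtain ⟨M, hM⟩ : ∃ M, ∑ k, y k • Cm a r k = M := ⟨_, rfl⟩
    rw [hM] at hv ⊢
    obtain ⟨E, e1, e2, e3, e4⟩ := exists_proj (core M)
    by_cases h : M = E * M * E
    · exact ker_of_core e1 e3 e4 h hv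
    · exfalso
      apply hK
      obtain ⟨c, Y, y1, y2, y3⟩ := exists_Y e1 e2 h
      have hc : ∑ k, (c • y) k • Cm a r k = c • M := by
        rw [← hM, Finset.smul_sum]
        refine Finset.sum_congr rfl fun k _ => ?_
        rw [Pi.smul_apply, smul_eq_mul, mul_smul]
      refine ⟨vecMulVec a (star (c • y)) + vecMulVec (c • y) (star a), Y, ?_, y1, ?_, ?_⟩
      · rw [IsHermitian, conjTranspose_add, conjTranspose_vecMulVec, conjTranspose_vecMulVec,
          star_star, star_star, add_comm]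
      · rw [trace_X hr, hc]
        exact y3
      · have hc0 : c ≠ 0 := by
          intro h0
          rw [h0, zero_smul, conjTranspose_zero, add_zero, Matrix.zero_mul, trace_zero] at y3
          exact lt_irrefl _ y3
        refine noStuck_coreV hr K h0 h2 hc fun u hu w hw => ?_
        have hcore : core (c • M) ≤ core M := by
          refine le_core ?_
          have h5 := map_core (c • M)
          have h6 : (c • M)ᴴ.mulVecLin = star c • Mᴴ.mulVecLin := by
            rw [conjTranspose_smul]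
            ext v
            simp
          rw [h6, Submodule.map_smul _ _ _ (star_ne_zero.mpr hc0)] at h5
          exact h5
        have e5 : dp u (Y *ᵥ w) = dp u ((E * Y * E) *ᵥ w) := by
          rw [← mulVec_mulVec, ← mulVec_mulVec, e3 w (hcore hw), dp_mulVec E, e1, e3 u (hcore hu)]
        rw [e5, y2, zero_mulVec, dp, dotProduct_zero]
  refine normal_of_pencil hPh (fun v hv => ?_) hP fun c v hv => ?_
  · rw [conjTranspose_sum, sum_mulVec]
    refine Finset.sum_eq_zero fun k _ => ?_
    rw [conjTranspose_smul, smul_mulVec, Cm_adj_zero hr hv, smul_zero]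
  · have e : ∑ k, (x - c • a) k • Cm a r k = (∑ k, x k • Cm a r k) - c • bl a r := by
      rw [bl_eq, Finset.smul_sum, ← Finset.sum_sub_distrib]
      refine Finset.sum_congr rfl fun k _ => ?_
      rw [Pi.sub_apply, Pi.smul_apply, sub_smul, smul_eq_mul, mul_smul]
    rw [← e] at hv ⊢
    exact step _ v hv

end Vale.Agent.P372.R4.J2
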