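import Vale.Agent.P372.R4.HPrep2
import Vale.Agent.P372.R4.J2k
import Vale.Agent.P372.R4.Key

/-! PPT states whose rank is at most one more than a local rank. -/

open Matrix Kronecker
open scoped ComplexOrder MatrixOrder

set_option linter.unusedSectionVars false

namespace Vale.Agent.P372.R4

open H750 UPB

variable {A B n : Type} [Fintype A] [DecidableEq A] [Fintype B] [DecidableEq B]
  [Fintype n] [DecidableEq n]
  {r : Matrix (A × B) (A × B) ℂ} {a : A → ℂ}

/-- The operator `r` after local filters. -/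
def fl (F : Matrix A A ℂ) (G : Matrix B B ℂ) (r : Matrix (A × B) (A × B) ℂ) :
    Matrix (A × B) (A × B) ℂ := (F ⊗ₖ G) * r * (F ⊗ₖ G)ᴴ

theorem fl_fl (F F' : Matrix A A ℂ) (G G' : Matrix B B ℂ) (r : Matrix (A × B) (A × B) ℂ) :
    fl F' G' (fl F G r) = fl (F' * F) (G' * G) r := by
  rw [fl, fl, fl, mul_kronecker_mul, conjTranspose_mul]
  simp only [Matrix.mul_assoc]

theorem fl_one (r : Matrix (A × B) (A × B) ℂ) : fl 1 1 r = r := by
  rw [fl, one_kronecker_one, conjTranspose_one, Matrix.one_mul, Matrix.mul_one]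

theorem fl_psd (hr : r.PosSemidef) (F : Matrix A A ℂ) (G : Matrix B B ℂ) :
    (fl F G r).PosSemidef := hr.mul_mul_conjTranspose_same _

theorem fl_ppt (hp : (pTrans r).PosSemidef) (F : Matrix A A ℂ) (G : Matrix B B ℂ) :
    (pTrans (fl F G r)).PosSemidef := Q.ppt_filter hp F G

/-- Some local filter of `r` satisfies the criterion. -/
def KC (r : Matrix (A × B) (A × B) ℂ) : Prop :=
  ∃ (F : Matrix A A ℂ) (G : Matrix B B ℂ), KeyCrit (fl F G r)

/-- Some local filter of `r` is a non-separable operator of local rank at most two on Alice's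
side, of rank one more than Bob's local rank, which is smaller than `m`. -/
def Exc (m : ℕ) (r : Matrix (A × B) (A × B) ℂ) : Prop :=
  ∃ (F : Matrix A A ℂ) (G : Matrix B B ℂ), (redA (fl F G r)).rank ≤ 2 ∧
    (fl F G r).rank = (redB (fl F G r)).rank + 1 ∧ (redB (fl F G r)).rank < m ∧
    ¬ IsSep (fl F G r)

theorem KC.of_fl {F : Matrix A A ℂ} {G : Matrix B B ℂ} (h : KC (fl F G r)) : KC r := by
  obtain ⟨F', G', h⟩ := h
  rw [fl_fl] at h
  exact ⟨_, _, h⟩

theorem Exc.of_fl {F : Matrix A A ℂ} {G : Matrix B B ℂ} {m m' : ℕ} (h : Exc m (fl F G r))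
    (hm : m ≤ m') : Exc m' r := by
  obtain ⟨F', G', h1, h2, h3, h4⟩ := h
  rw [fl_fl] at h1 h2 h3 h4
  exact ⟨_, _, h1, h2, h3.trans_le hm, h4⟩

/-- Relatively tight operators: the criterion, or a separable part can be split off. -/
theorem J3 (hr : r.PosSemidef) (hp : (pTrans r).PosSemidef) (hP : bl a r * bl a r = bl a r)
    (hrk : r.rank ≤ (fl 1 (1 - bl a r) r).rank + (bl a r).rank) :
    KeyCrit r ∨ (IsSep (rv a r * (rv a r)ᴴ) ∧ (pTrans (sc a r)).PosSemidef) := by
  have hPh : (bl a r)ᴴ = bl a r := (bl_psd hr a).1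
  rcases J2.keyhalf hr (LinearMap.ker (bl a r).mulVecLin) hP
    (fun v hv => kill hr hv) (fun s hs hv j y => by
      refine rel_slices hr hp hP hrk hs ?_ j y
      ext ⟨k, t⟩
      have h1 : (1 - bl a r) *ᵥ Pi.single t 1 ∈ LinearMap.ker (bl a r).mulVecLin := by
        rw [LinearMap.mem_ker, mulVecLin_apply, mulVec_mulVec, Matrix.mul_sub, Matrix.mul_one, hP,
          sub_self, zero_mulVec]
      have h2 := congrFun (hv _ h1) k
      rw [ctr_apply, Pi.zero_apply, mulVec_single_one] at h2
      rw [Pi.zero_apply, ← h2, mulVec, dotProduct, Fintype.sum_prod_type,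
        Finset.sum_eq_single k]
      · rw [ip, dotProduct]
        refine Finset.sum_congr rfl fun u _ => ?_
        rw [kroneckerMap_apply, one_apply_eq, one_mul]
        congr 1
        rw [Pi.star_apply]
        have h3 : (1 - bl a r)ᴴ = 1 - bl a r := by
          rw [conjTranspose_sub, conjTranspose_one, hPh]
        have h4 := congrFun (congrFun h3 t) u
        rw [conjTranspose_apply] at h4
        exact h4.symm
      · intro l _ hl
        refine Finset.sum_eq_zero fun u _ => ?_
        rw [kroneckerMap_apply, one_apply_ne (Ne.symm hl), zero_mul, zero_mul]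
      · intro h; exact absurd (Finset.mem_univ k) h) with h | h
  · exact Or.inl h
  · right
    have hC := J2.comm_of_normal _ h
    exact ⟨sep_part hr hC, sc_ppt hr hp hP hC⟩

/-- A compression that keeps the rank can be undone. -/
theorem exists_lift {M P : Matrix n n ℂ} (h : M.rank ≤ (P * M * Pᴴ).rank) :
    ∃ G : Matrix n n ℂ, G * P * M = M := by
  obtain ⟨L, hL⟩ : ∃ L, L = P.mulVecLin ∘ₗ (LinearMap.range M.mulVecLin).subtype := ⟨_, rfl⟩
  have h1 : M.rank ≤ (P * M).rank := h.trans (rank_mul_le_left _ _)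
  have h2 : LinearMap.range L = LinearMap.range (P * M).mulVecLin := by
    rw [hL, LinearMap.range_comp, Submodule.range_subtype, mulVecLin_mul, LinearMap.range_comp]
  have h3 : LinearMap.ker L = ⊥ := by
    have h4 := LinearMap.finrank_range_add_finrank_ker L
    rw [h2] at h4
    have h5 : Module.finrank ℂ (LinearMap.ker L) = 0 := by
      rw [Matrix.rank, Matrix.rank] at h1
      omega
    exact Submodule.finrank_eq_zero.mp h5
  obtain ⟨g, hg⟩ := L.exists_leftInverse_of_injective h3
  refine ⟨LinearMap.toMatrix' ((LinearMap.range M.mulVecLin).subtype ∘ₗ g), ?_⟩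
  refine Matrix.ext_of_mulVec_single fun i => ?_
  rw [Matrix.mul_assoc, ← mulVec_mulVec, ← mulVec_mulVec, ← toLin'_apply, toLin'_toMatrix']
  have h4 := LinearMap.congr_fun hg ⟨M *ᵥ Pi.single i 1, ⟨_, rfl⟩⟩
  have h5 : g (L ⟨M *ᵥ Pi.single i 1, ⟨_, rfl⟩⟩) = ⟨M *ᵥ Pi.single i 1, ⟨_, rfl⟩⟩ := h4
  have h6 : L ⟨M *ᵥ Pi.single i 1, ⟨_, rfl⟩⟩ = P *ᵥ (M *ᵥ Pi.single i 1) := by
    rw [hL]
    rfl
  rw [h6] at h5
  rw [LinearMap.comp_apply, h5]
  rfl

theorem fl_lift (hr : r.PosSemidef) {G P : Matrix B B ℂ} (h : G * P * redB r = redB r) :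
    fl 1 G (fl 1 P r) = r := by
  have h1 : ((1 : Matrix A A ℂ) ⊗ₖ (1 - G * P)) * r = 0 := by
    apply one_kron_mul_of_red hr
    rw [Matrix.sub_mul, Matrix.one_mul, h, sub_self]
  rw [sub_kron, Matrix.sub_mul, Matrix.one_mul, sub_eq_zero] at h1
  have h2 := congrArg conjTranspose h1
  rw [conjTranspose_mul, hr.1.eq] at h2
  rw [fl_fl, Matrix.one_mul, fl, ← h1, ← h2]

theorem redB_fl' (G : Matrix B B ℂ) (r : Matrix (A × B) (A × B) ℂ) :
    redB (fl 1 G r) = G * redB r * Gᴴ := redB_fl G r

/-- The inductive step for normalised operators. -/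
theorem H_step {m : ℕ} (ih : ∀ r : Matrix (A × B) (A × B) ℂ, r.rank ≤ m → r.PosSemidef →
      (pTrans r).PosSemidef → r.rank ≤ (redB r).rank + 1 →
      KC r ∨ IsSep r ∨ (redA r).rank ≤ 2 ∨ Exc (redB r).rank r)
    (hm : r.rank ≤ m + 1) (hr : r.PosSemidef) (hp : (pTrans r).PosSemidef)
    (hrk : r.rank = (redB r).rank + 1) (hP : bl a r * bl a r = bl a r)
    (h1 : 0 < (bl a r).rank) (h2 : (bl a r).rank < (redB r).rank) :
    KC r ∨ IsSep r ∨ Exc (redB r).rank r := by
  have hPh : (bl a r)ᴴ = bl a r := (bl_psd hr a).1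
  obtain ⟨v, hv⟩ : ∃ v, v = fl 1 (1 - bl a r) r := ⟨_, rfl⟩
  have hvr : v.PosSemidef := by rw [hv]; exact fl_psd hr _ _
  have hvp : (pTrans v).PosSemidef := by rw [hv]; exact fl_ppt hp _ _
  have e1 : v.rank + (bl a r).rank ≤ r.rank := by
    rw [hv]; exact rank_compr hr hp hP
  have e2 : (redB r).rank ≤ (redB v).rank + (bl a r).rank := by
    rw [hv, redB_fl']; exact rank_compr_le (redB_psd hr) hPh
  have e3 : (redB v).rank ≤ v.rank := redB_le hvr hvp
  by_cases hc : v.rank ≤ (redB v).rank
  · -- peel off a product vector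
    have hv0 : v ≠ 0 := by
      intro h0
      rw [h0, rank_zero] at e3
      rw [h0] at e2
      omega
    obtain ⟨y, hy⟩ := exists_rank_one hvr hvp hv0 hc
    have hy' : (br ((1 - bl a r)ᴴ *ᵥ y) r).rank = 1 := by
      rw [hv, fl, br_filter, conjTranspose_one, Matrix.one_mul, Matrix.mul_one] at hy
      exact hy
    obtain ⟨r', G, f1, f2, f3, f4, f5, f6⟩ := peel hr hp _ hy'
    have f1' : r' = fl 1 G r := f1
    have f7 : (redB r').rank ≤ r'.rank := redB_le f2 f3
    rcases ih r' (by omega) f2 f3 (by omega) with h | h | h | h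
    · rw [f1'] at h
      exact Or.inl h.of_fl
    · exact Or.inr (Or.inl (f6 h))
    · by_cases hs : IsSep r'
      · exact Or.inr (Or.inl (f6 hs))
      · right; right
        have f8 : (redB r').rank < r'.rank := by
          by_contra hcon
          exact hs (sepB f2 f3 (by omega))
        refine ⟨1, G, ?_, ?_, ?_, ?_⟩
        · rw [← f1']; exact h
        · rw [← f1']; omega
        · rw [← f1']; omega
        · rw [← f1']; exact hs
    · rw [f1'] at h
      refine Or.inr (Or.inr (h.of_fl ?_))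
      rw [← f1']
      omega
  · -- the relatively tight case
    have e4 : r.rank ≤ (fl 1 (1 - bl a r) r).rank + (bl a r).rank := by
      rw [← hv]; omega
    rcases J3 hr hp hP e4 with h | ⟨g1, g2⟩
    · left
      refine ⟨1, 1, ?_⟩
      rw [fl_one]
      exact h
    · obtain ⟨w, hw⟩ : ∃ w, w = sc a r := ⟨_, rfl⟩
      rw [← hw] at g2
      have g3 : w.PosSemidef := by rw [hw]; exact sc_psd hr hP
      have g4 : w.rank + (bl a r).rank ≤ r.rank := by rw [hw]; exact sc_rank hr hP
      have g5 : IsSep w → IsSep r := by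
        intro hs
        have : r = rv a r * (rv a r)ᴴ + w := by rw [hw, sc]; abel
        rw [this]
        exact Q.isSep_add g1 hs
      have g6 : v = fl 1 (1 - bl a r) w := by
        rw [hv, hw]
        exact sc_compr hr hp hP
      have g7 : redB v = (1 - bl a r) * redB w * (1 - bl a r)ᴴ := by
        rw [g6, redB_fl']
      by_cases hc' : w.rank ≤ (redB w).rank
      · exact Or.inr (Or.inl (g5 (sepB g3 g2 hc')))
      · have g8 : (redB v).rank ≤ (redB w).rank := by
          rw [g7]
          exact (rank_mul_le_left _ _).trans (rank_mul_le_right _ _)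
        have g9 : (redB w).rank ≤ ((1 - bl a r) * redB w * (1 - bl a r)ᴴ).rank := by
          rw [← g7]; omega
        obtain ⟨G, hG⟩ := exists_lift g9
        have g10 : IsSep v → IsSep r := by
          intro hs
          apply g5
          have := fl_lift g3 hG
          rw [← this, ← g6]
          exact Q.isSep_conj hs _ _
        rcases ih v (by omega) hvr hvp (by omega) with h | h | h | h
        · rw [hv] at h
          exact Or.inl h.of_fl
        · exact Or.inr (Or.inl (g10 h))
        · by_cases hs : IsSep v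
          · exact Or.inr (Or.inl (g10 hs))
          · right; right
            refine ⟨1, 1 - bl a r, ?_, ?_, ?_, ?_⟩
            · rw [← hv]; exact h
            · rw [← hv]; omega
            · rw [← hv]; omega
            · rw [← hv]; exact hs
        · right; right
          have h' : Exc (redB v).rank (fl 1 (1 - bl a r) r) := by rw [← hv]; exact h
          exact h'.of_fl (by omega)

/-- **Theorem H**, operator form. -/
theorem H_main (m : ℕ) : ∀ r : Matrix (A × B) (A × B) ℂ, r.rank ≤ m → r.PosSemidef →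
      (pTrans r).PosSemidef → r.rank ≤ (redB r).rank + 1 →
      KC r ∨ IsSep r ∨ (redA r).rank ≤ 2 ∨ Exc (redB r).rank r := by
  induction m with
  | zero =>
    intro r hm hr hp _
    exact Or.inr (Or.inl (sepB hr hp (hm.trans (Nat.zero_le _))))
  | succ m ih =>
    intro r hm hr hp hrk
    by_cases h0 : r.rank ≤ (redB r).rank
    · exact Or.inr (Or.inl (sepB hr hp h0))
    by_cases hA : (redA r).rank ≤ 2
    · exact Or.inr (Or.inr (Or.inl hA))
    have hrk' : r.rank = (redB r).rank + 1 := by omega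
    obtain ⟨a, ha0, ha1⟩ := exists_a hr hrk' (by omega)
    obtain ⟨T, T', t1, t2, t3, -⟩ := exists_norm (bl_psd hr a) (v := 0) (mulVec_zero _)
    obtain ⟨r1, hr1⟩ : ∃ r1, r1 = fl 1 T r := ⟨_, rfl⟩
    have hk : ((1 : Matrix A A ℂ) ⊗ₖ T') * ((1 : Matrix A A ℂ) ⊗ₖ T) = 1 := by
      rw [← mul_kronecker_mul, Matrix.one_mul, t2, one_kronecker_one]
    have e1 : r1.rank = r.rank := by rw [hr1, fl, rank_conj_inv hk]
    have e2 : (redB r1).rank = (redB r).rank := by rw [hr1, redB_fl', rank_conj_inv t2]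
    have e3 : bl a r1 = T * bl a r * T := by
      rw [hr1, fl, bl_filter, conjTranspose_one, one_mulVec, t1]
    have e4 : (bl a r1).rank = (bl a r).rank := by
      rw [e3]
      have := rank_conj_inv (P := bl a r) t2
      rw [t1] at this
      exact this
    have e5 : 0 < (bl a r).rank := by
      rw [Nat.pos_iff_ne_zero]
      intro h
      apply ha0
      rw [Matrix.rank, Submodule.finrank_eq_zero, LinearMap.range_eq_bot] at h
      refine Matrix.ext_of_mulVec_single fun i => ?_
      rw [zero_mulVec]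
      exact LinearMap.congr_fun h _
    have h := H_step (r := r1) (a := a) ih (by omega) (by rw [hr1]; exact fl_psd hr _ _)
      (by rw [hr1]; exact fl_ppt hp _ _) (by omega) (by rw [e3, t3]) (by omega) (by omega)
    rw [e2] at h
    rcases h with h | h | h
    · rw [hr1] at h
      exact Or.inl h.of_fl
    · rw [hr1] at h
      exact Or.inr (Or.inl (sep_of_filter' (S' := 1) (by rw [Matrix.one_mul]) t2 h))
    · rw [hr1] at h
      exact Or.inr (Or.inr (Or.inr (h.of_fl le_rfl)))

/-- The criterion after a local filter gives key. -/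
theorem KC.keyPos (hr : r.PosSemidef) (htr : r.trace = 1) (h : KC r) : KeyPos r := by
  obtain ⟨F, G, X, Y, hX, hY, hc, hW⟩ := h
  obtain ⟨r', hr'⟩ : ∃ r', r' = fl F G r := ⟨_, rfl⟩
  rw [← hr'] at hc hW
  have hp' : r'.PosSemidef := by rw [hr']; exact fl_psd hr _ _
  have h0 : r'.trace ≠ 0 := by
    intro h0
    rw [hp'.trace_eq_zero_iff.mp h0, Matrix.zero_mul, trace_zero] at hc
    exact lt_irrefl _ hc
  obtain ⟨c, hc0, hct⟩ : ∃ c : ℝ, 0 < c ∧ r'.trace = c := by
    have h1 := hp'.trace_nonneg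
    refine ⟨r'.trace.re, lt_of_le_of_ne (Complex.le_def.mp h1).1 fun h2 => h0 ?_, ?_⟩
    · exact Complex.ext h2.symm (Complex.le_def.mp h1).2.symm
    · exact Complex.ext rfl (Complex.le_def.mp h1).2.symm
  obtain ⟨s, hs⟩ : ∃ s : ℝ, s = (Real.sqrt c)⁻¹ := ⟨_, rfl⟩
  have hss : s * s = c⁻¹ := by
    rw [hs, ← mul_inv, Real.mul_self_sqrt hc0.le]
  have h1 : fl ((s : ℂ) • F) G r = ((c⁻¹ : ℝ) : ℂ) • r' := by
    rw [hr', fl, fl, smul_kronecker, conjTranspose_smul, Complex.star_def, Complex.conj_ofReal,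
      Matrix.smul_mul, Matrix.smul_mul, Matrix.mul_smul, smul_smul, ← Complex.ofReal_mul, hss]
  have h2 : (((c⁻¹ : ℝ) : ℂ) • r').trace = 1 := by
    rw [trace_smul, hct, smul_eq_mul, ← Complex.ofReal_mul, inv_mul_cancel₀ hc0.ne',
      Complex.ofReal_one]
  refine keyPos_rect hr htr ((s : ℂ) • F) G (by rw [← fl, h1, h2]) ?_
  rw [← fl, h1]
  refine KeyCrit.keyPos ⟨X, Y, hX, hY, ?_, ?_⟩ h2
  · rw [Matrix.smul_mul, trace_smul, smul_eq_mul, Complex.re_ofReal_mul]
    exact mul_pos (inv_pos.mpr hc0) hc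
  · intro S hS hS0
    refine hW S (fun u hu => ?_) hS0
    obtain ⟨w, hw⟩ := hS hu
    refine ⟨((c⁻¹ : ℝ) : ℂ) • w, ?_⟩
    rw [← hw, mulVecLin_apply, mulVecLin_apply, mulVec_smul, smul_mulVec]

/-- **Theorem H.** A PPT state whose rank is at most one more than the rank of Bob's reduction
has key, or is separable, or Alice's reduction has rank at most two, or a local filter of it is a
non-separable operator with Alice's local rank at most two, rank one more than Bob's local rank,
and smaller local rank of Bob. -/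
theorem thmH (r : Matrix (A × B) (A × B) ℂ) (htr : r.trace = 1) (hr : r.PosSemidef)
    (hp : (pTrans r).PosSemidef) (hrk : r.rank ≤ (redB r).rank + 1) :
    KeyPos r ∨ IsSep r ∨ (redA r).rank ≤ 2 ∨ Exc (redB r).rank r := by
  rcases H_main r.rank r le_rfl hr hp hrk with h | h | h | h
  · exact Or.inl (h.keyPos hr htr)
  · exact Or.inr (Or.inl h)
  · exact Or.inr (Or.inr (Or.inl h))
  · exact Or.inr (Or.inr (Or.inr h))

end Vale.Agent.P372.R4
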