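import Vale.Agent.P372.R4.J2b

/-! The theorem without positivity of the partial transpose: structure, swap, normalisation. -/

open Matrix Kronecker
open scoped ComplexOrder MatrixOrder

set_option linter.unusedSectionVars false

namespace Vale.Agent.P372.R4.J2

open H750 UPB

variable {A B : Type} [Fintype A] [DecidableEq A] [Fintype B] [DecidableEq B]
  {r : Matrix (A × B) (A × B) ℂ} {a : A → ℂ} {b : B → ℂ}

/-- The Gram matrix of the state. -/
theorem gram (hr : r.PosSemidef) (hk : pTrans r *ᵥ prodVec a (star b) = 0) :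
    (Fm a b)ᴴ * r * Fm a b = fromBlocks (bl a r) 0 0 (br b r) := by
  have hz : ∀ (y : B) (l : A), ∑ x, star (a x) * star (Dm b r y l x) = 0 := by
    intro y l
    have h1 := congrFun hk (l, y)
    rw [sum_prodVec] at h1
    have h2 : ∑ x, star (a x) * star (Dm b r y l x) = star (∑ x, ∑ y', pTrans r (l, y) (x, y') *
        (a x * (star b) y')) := by
      rw [star_sum]
      refine Finset.sum_congr rfl fun x _ => ?_
      rw [Dm, ← star_mul', mul_comm, Finset.sum_mul]
      congr 1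
      refine Finset.sum_congr rfl fun y' _ => ?_
      simp only [pTrans, Pi.star_apply]
      ring
    rw [h2, h1, Pi.zero_apply, star_zero]
  rw [Matrix.mul_assoc]
  ext p q
  rcases p with y | l <;> rcases q with y' | l'
  · rw [Fm_mul_inl, fromBlocks_apply₁₁, bl]
    refine Finset.sum_congr rfl fun x _ => ?_
    rw [mul_Fm_inl, Finset.mul_sum]
    refine Finset.sum_congr rfl fun x' _ => ?_
    ring
  · rw [Fm_mul_inl, fromBlocks_apply₁₂, Matrix.zero_apply]
    simp only [mulF_inr hr]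
    exact hz y l'
  · rw [Fm_mul_inr, fromBlocks_apply₂₁, Matrix.zero_apply]
    simp only [mulF_inl hr]
    have h3 := hz y' l
    have h4 : ∑ y, star (b y) * star (Cm a r l y' y) = star (∑ x, star (a x) *
        star (Dm b r y' l x)) := by
      simp only [Cm, Dm, star_sum, star_mul', star_star, Finset.mul_sum]
      rw [Finset.sum_comm]
      refine Finset.sum_congr rfl fun x _ => Finset.sum_congr rfl fun y _ => ?_
      rw [herm_apply hr]
      ring
    rw [h4, h3, star_zero]
  · rw [Fm_mul_inr, fromBlocks_apply₂₂, br]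
    refine Finset.sum_congr rfl fun x _ => ?_
    rw [mul_Fm_inr, Finset.mul_sum]
    refine Finset.sum_congr rfl fun x' _ => ?_
    ring

/-- The structure of a tight state. -/
theorem tight (hr : r.PosSemidef) (hk : pTrans r *ᵥ prodVec a (star b) = 0)
    (hP : bl a r * bl a r = bl a r) (hQ : br b r * br b r = br b r)
    (hrk : r.rank ≤ (bl a r).rank + (br b r).rank) (j : A) (s : B) (k : A) (t : B) :
    r (j, s) (k, t) = ((Cm a r j)ᴴ * Cm a r k) s t + ((Dm b r s)ᴴ * Dm b r t) j k := by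
  have g1 := gram_idem (gram hr hk) hP hQ
  have e1 := schur_zero hr (Fm a b) g1.1 (by rw [g1.2]; exact hrk)
  conv_lhs => rw [e1]
  rw [mul_apply, Fintype.sum_sum_type]
  simp only [conjTranspose_apply (r * Fm a b), mulF_inl hr, mulF_inr hr, star_star]
  rw [mul_apply, mul_apply]
  rfl

/-- Exchange of the parties. -/
def swp (r : Matrix (A × B) (A × B) ℂ) : Matrix (B × A) (B × A) ℂ :=
  r.submatrix Prod.swap Prod.swap

theorem swp_psd (hr : r.PosSemidef) : (swp r).PosSemidef := hr.submatrix _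

/-- Exchange of the tensor factors of a vector. -/
def sv : (B × A → ℂ) →ₗ[ℂ] (A × B → ℂ) where
  toFun v := fun p => v p.swap
  map_add' _ _ := rfl
  map_smul' _ _ := rfl

theorem sum_swap (f : B × A → ℂ) : ∑ p : A × B, f p.swap = ∑ q, f q :=
  Equiv.sum_comp (Equiv.prodComm A B) f

theorem mulVec_sv (X : Matrix A A ℂ) (Y : Matrix B B ℂ) (v : B × A → ℂ) :
    (X ⊗ₖ Y) *ᵥ sv v = sv ((Y ⊗ₖ X) *ᵥ v) := by
  ext ⟨j, s⟩
  change ∑ q : A × B, (X ⊗ₖ Y) (j, s) q * v q.swap = ∑ q : B × A, (Y ⊗ₖ X) (s, j) q * v q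
  rw [← sum_swap (fun q : B × A => (Y ⊗ₖ X) (s, j) q * v q)]
  refine Finset.sum_congr rfl fun q _ => ?_
  rw [kroneckerMap_apply, kroneckerMap_apply]
  simp only [Prod.fst_swap, Prod.snd_swap]
  ring

theorem dot_sv (u v : B × A → ℂ) : star (sv u) ⬝ᵥ sv v = star u ⬝ᵥ v := by
  exact sum_swap (fun q : B × A => star (u q) * v q)

theorem swp_mulVec (v : B × A → ℂ) : r *ᵥ sv v = sv (swp r *ᵥ v) := by
  ext ⟨j, s⟩
  change ∑ q : A × B, r (j, s) q * v q.swap = ∑ q : B × A, swp r (s, j) q * v q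
  rw [← sum_swap]
  rfl

theorem sv_inj {v : B × A → ℂ} (h : sv v = 0) : v = 0 := by
  ext ⟨s, j⟩
  exact congrFun h (j, s)

/-- The criterion is symmetric. -/
theorem crit_swp (h : KeyCrit (swp r)) : KeyCrit r := by
  obtain ⟨X, Y, hX, hY, hc, hW⟩ := h
  refine ⟨Y, X, hY, hX, ?_, ?_⟩
  · have e : (r * (Y ⊗ₖ X)).trace = (swp r * (X ⊗ₖ Y)).trace := by
      rw [trace, trace, ← sum_swap]
      refine Finset.sum_congr rfl fun p _ => ?_
      rw [diag_apply, diag_apply, mul_apply, mul_apply, ← sum_swap]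
      refine Finset.sum_congr rfl fun q _ => ?_
      rw [kroneckerMap_apply, kroneckerMap_apply, mul_comm (Y _ _)]
      rfl
    rw [e]
    exact hc
  · intro S hS hS0
    obtain ⟨G, H, hG, hH, h1, v, hv, h2⟩ := hW (S.comap sv) (by
      intro v hv
      obtain ⟨w, hw⟩ := hS hv
      refine ⟨fun p => w p.swap, ?_⟩
      have e : sv (fun p : B × A => w p.swap) = w := by
        ext ⟨j, s⟩
        rfl
      rw [mulVecLin_apply] at hw ⊢
      have : sv (swp r *ᵥ (fun p : B × A => w p.swap) - v) = 0 := by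
        rw [map_sub, ← swp_mulVec, e, hw, sub_self]
      exact sub_eq_zero.mp (sv_inj this)) (by
      intro h0
      obtain ⟨v, hv, hv0⟩ := S.exists_mem_ne_zero_of_ne_bot hS0
      have e : sv (fun p : B × A => v p.swap) = v := by
        ext ⟨j, s⟩
        rfl
      have h3 : (fun p : B × A => v p.swap) ∈ S.comap sv := by
        rw [Submodule.mem_comap, e]
        exact hv
      rw [h0, Submodule.mem_bot] at h3
      apply hv0
      rw [← e, h3, map_zero])
    refine ⟨H, G, hH, hG, ?_, sv v, hv, ?_⟩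
    · intro u hu w hw
      have eu : sv (fun p : B × A => u p.swap) = u := by
        ext ⟨j, s⟩
        rfl
      have ew : sv (fun p : B × A => w p.swap) = w := by
        ext ⟨j, s⟩
        rfl
      rw [← eu, ← ew, add_mulVec, mulVec_sv, mulVec_sv, ← map_add, dot_sv, add_comm,
        ← add_mulVec]
      exact h1 _ (by rw [Submodule.mem_comap, eu]; exact hu) _
        (by rw [Submodule.mem_comap, ew]; exact hw)
    · intro h0
      apply h2
      rw [add_mulVec, mulVec_sv, mulVec_sv, ← map_add, add_comm, ← add_mulVec] at h0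
      exact sv_inj h0

/-- The dichotomy for normalised tight states. -/
theorem norm_dich (hr : r.PosSemidef) (hk : pTrans r *ᵥ prodVec a (star b) = 0)
    (h : r *ᵥ prodVec a b = 0) (hP : bl a r * bl a r = bl a r)
    (hQ : br b r * br b r = br b r) (hrk : r.rank ≤ (bl a r).rank + (br b r).rank) :
    IsSep r ∨ KeyCrit r := by
  have hst := tight hr hk hP hQ hrk
  rcases crit_or_normal hr h hst hP with h1 | h1
  · exact Or.inr h1
  have hsw : swp r *ᵥ prodVec b a = 0 := by
    have e : sv (prodVec b a) = prodVec a b := by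
      ext ⟨j, s⟩
      exact mul_comm _ _
    apply sv_inj
    rw [← swp_mulVec, e, h]
  have hst' : ∀ s j t k, (swp r) (s, j) (t, k) =
      ((Cm b (swp r) s)ᴴ * Cm b (swp r) t) j k + ((Dm a (swp r) j)ᴴ * Dm a (swp r) k) s t := by
    intro s j t k
    have := hst j s k t
    rw [add_comm] at this
    exact this
  rcases crit_or_normal (swp_psd hr) hsw hst' hQ with h2 | h2
  · exact Or.inr (crit_swp h2)
  refine Or.inl ?_
  have c2 := comm_of_normal _ h1
  have d2 : ∀ s t, (Dm b r s)ᴴ * Dm b r t = Dm b r t * (Dm b r s)ᴴ := comm_of_normal _ h2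
  refine sep_of_comm r _ _ hst ?_ (fun i j => ?_) c2
  · intro j k s t
    rw [c2, d2, sub_self, sub_self, Matrix.zero_apply, Matrix.zero_apply, add_zero]
  · have := fuglede (N := (Cm a r i)ᴴ) (M := Cm a r j)
      (by rw [conjTranspose_conjTranspose, c2]) (c2 i j)
    rw [conjTranspose_conjTranspose] at this
    exact this

theorem kron_prodVec (X : Matrix A A ℂ) (Y : Matrix B B ℂ) (a : A → ℂ) (b : B → ℂ) :
    (X ⊗ₖ Y) *ᵥ prodVec a b = prodVec (X *ᵥ a) (Y *ᵥ b) := by
  rw [← Va_mulVec, mulVec_mulVec, kron_Va, ← mulVec_mulVec, Va_mulVec]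

/-- Tight states: separable or the criterion holds. -/
theorem sep_or_crit (hr : r.PosSemidef) (hk : pTrans r *ᵥ prodVec a (star b) = 0)
    (h : r *ᵥ prodVec a b = 0) (hrk : r.rank ≤ (bl a r).rank + (br b r).rank) :
    IsSep r ∨ KeyCrit r := by
  have hP : (bl a r).PosSemidef := by
    rw [bl_Va]; exact hr.conjTranspose_mul_mul_same _
  have hQ : (br b r).PosSemidef := by
    rw [br_Wb]; exact hr.conjTranspose_mul_mul_same _
  have hPb : bl a r *ᵥ b = 0 := by
    rw [bl_Va, Matrix.mul_assoc, ← mulVec_mulVec, ← mulVec_mulVec, Va_mulVec, h, mulVec_zero]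
  have hQa : br b r *ᵥ a = 0 := by
    rw [br_Wb, Matrix.mul_assoc, ← mulVec_mulVec, ← mulVec_mulVec, Wb_mulVec, h, mulVec_zero]
  obtain ⟨T, T', t1, t2, t3, t4⟩ := exists_norm hP hPb
  obtain ⟨S, S', s1, s2, s3, s4⟩ := exists_norm hQ hQa
  have e1 : bl a ((S ⊗ₖ T) * r * (S ⊗ₖ T)ᴴ) = T * bl a r * T := by
    rw [bl_filter, s1, s4, t1]
  have e2 : br b ((S ⊗ₖ T) * r * (S ⊗ₖ T)ᴴ) = S * br b r * S := by
    rw [br_filter, t1, t4, s1]
  have k1 : (S ⊗ₖ T)ᴴ *ᵥ prodVec a b = prodVec a b := by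
    rw [conjTranspose_kronecker, kron_prodVec, s1, t1, s4, t4]
  have k2 : (S ⊗ₖ T.map star)ᴴ *ᵥ prodVec a (star b) = prodVec a (star b) := by
    rw [conjTranspose_kronecker, kron_prodVec, s1, s4]
    congr 1
    ext s
    have h1 := congrArg star (congrFun t4 s)
    rw [mulVec, dotProduct, star_sum] at h1
    rw [mulVec, dotProduct, Pi.star_apply, ← h1]
    refine Finset.sum_congr rfl fun t _ => ?_
    have h2 : T t s = star (T s t) := by
      conv_lhs => rw [← t1]
      rfl
    rw [conjTranspose_apply, map_apply, star_star, h2, Pi.star_apply, star_mul', mul_comm]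
  have g1 : ((S ⊗ₖ T) * r * (S ⊗ₖ T)ᴴ) *ᵥ prodVec a b = 0 := by
    rw [← mulVec_mulVec, ← mulVec_mulVec, k1, h, mulVec_zero]
  have g2 : pTrans ((S ⊗ₖ T) * r * (S ⊗ₖ T)ᴴ) *ᵥ prodVec a (star b) = 0 := by
    rw [Q.pTrans_filt, ← mulVec_mulVec, ← mulVec_mulVec, k2, hk, mulVec_zero]
  rcases norm_dich (hr.mul_mul_conjTranspose_same (S ⊗ₖ T)) g2 g1 (by rw [e1, t3])
    (by rw [e2, s3]) (by
      rw [e1, e2]
      calc ((S ⊗ₖ T) * r * (S ⊗ₖ T)ᴴ).rank ≤ ((S ⊗ₖ T) * r).rank := rank_mul_le_left _ _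
        _ ≤ r.rank := rank_mul_le_right _ _
        _ ≤ _ := hrk
        _ ≤ _ := Nat.add_le_add (rank_conj_le t2) (rank_conj_le s2)) with h7 | h7
  · exact Or.inl (sep_of_filter' s2 t2 h7)
  · exact Or.inr (h7.filter s2 t2)

end Vale.Agent.P372.R4.J2
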