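import Vale.Agent.P372.R4.Bump

open Matrix
open scoped ComplexOrder

namespace Vale.Agent.P372.R4

variable {A B : Type} [Fintype A] [Fintype B]

set_option linter.unusedSectionVars false
set_option linter.unusedVariables false

/-- Matrices with the same kernel have the same rank. -/
theorem rank_eq_of_ker {C D : Type} [Fintype C] [Fintype D] (P Q : Matrix C D ℂ)
    (h : ∀ v, P *ᵥ v = 0 ↔ Q *ᵥ v = 0) : P.rank = Q.rank := by
  have h1 : LinearMap.ker P.mulVecLin = LinearMap.ker Q.mulVecLin := by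
    ext v
    simp only [LinearMap.mem_ker, mulVecLin_apply]
    exact h v
  have h2 := LinearMap.finrank_range_add_finrank_ker P.mulVecLin
  have h3 := LinearMap.finrank_range_add_finrank_ker Q.mulVecLin
  rw [h1] at h2
  rw [Matrix.rank, Matrix.rank]
  omega

theorem trA_eq [DecidableEq A] (r : Matrix (A × B) (A × B) ℂ) :
    trA r = ∑ j, bl (Pi.single j 1) r := by
  ext s t
  simp only [trA, bl, Matrix.sum_apply]
  refine Finset.sum_congr rfl fun j _ => ?_
  rw [Finset.sum_eq_single j, Finset.sum_eq_single j]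
  · simp
  · intro k _ hk
    simp [Pi.single_eq_of_ne hk]
  · simp
  · intro k _ hk
    refine Finset.sum_eq_zero fun l _ => ?_
    simp [Pi.single_eq_of_ne hk]
  · simp

theorem trA_ker [DecidableEq A] {r : Matrix (A × B) (A × B) ℂ} (hr : r.PosSemidef) (v : B → ℂ) :
    trA r *ᵥ v = 0 ↔ ∀ a, bl a r *ᵥ v = 0 := by
  constructor
  · intro h a
    have h1 : ∑ j, star v ⬝ᵥ (bl (Pi.single j 1) r *ᵥ v) = 0 := by
      rw [← dotProduct_sum, ← Matrix.sum_mulVec, ← trA_eq, h, dotProduct_zero]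
    have h2 : ∀ j, r *ᵥ prodVec (Pi.single j 1 : A → ℂ) v = 0 := by
      intro j
      have h3 := (Finset.sum_eq_zero_iff_of_nonneg
        (fun j _ => (bl_psd hr (Pi.single j 1)).dotProduct_mulVec_nonneg v)).1 h1 j
        (Finset.mem_univ j)
      rw [quad'] at h3
      exact (hr.dotProduct_mulVec_zero_iff _).1 h3
    have h4 : prodVec a v = ∑ j, a j • prodVec (Pi.single j 1 : A → ℂ) v := by
      ext p
      simp only [prodVec, Finset.sum_apply, Pi.smul_apply, smul_eq_mul]
      rw [Finset.sum_eq_single p.1]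
      · simp
      · intro k _ hk
        simp [Pi.single_eq_of_ne (Ne.symm hk)]
      · simp
    have h5 : r *ᵥ prodVec a v = 0 := by
      rw [h4, Matrix.mulVec_sum]
      refine Finset.sum_eq_zero fun j _ => ?_
      rw [Matrix.mulVec_smul, h2 j, smul_zero]
    exact blc_right h5 a
  · intro h
    rw [trA_eq, Matrix.sum_mulVec]
    exact Finset.sum_eq_zero fun j _ => h _

/-- **Row L0.** -/
theorem L0 [DecidableEq A] [DecidableEq B] (r : Matrix (A × B) (A × B) ℂ) (hr : r.PosSemidef)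
    (hp : (pTrans r).PosSemidef) :
    ∃ a : A → ℂ, (bl a r).rank = (trA r).rank := by
  obtain ⟨a, ha⟩ : ∃ a : A → ℂ, ∀ x : A → ℂ, (bl x r).rank ≤ (bl a r).rank := by
    have hb : BddAbove (Set.range fun a : A → ℂ => (bl a r).rank) := by
      refine ⟨Fintype.card B, ?_⟩
      rintro _ ⟨a, rfl⟩
      exact rank_le_card_width _
    obtain ⟨a, ha⟩ := Nat.sSup_mem (Set.range_nonempty _) hb
    exact ⟨a, fun x => by
      have h1 : (bl a r).rank = _ := ha
      rw [h1]
      exact le_csSup hb ⟨x, rfl⟩⟩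
  refine ⟨a, rank_eq_of_ker _ (trA r) fun v => ?_⟩
  rw [trA_ker hr]
  refine ⟨fun hv x => ?_, fun h => h a⟩
  by_contra hx
  obtain ⟨k1, k2⟩ := ppt_kill hr hp hv x
  have h2 : (blc a x r + blc x a r) *ᵥ v = 0 := by rw [add_mulVec, k1, k2, add_zero]
  have h3 : (blc a x r + blc x a r)ᴴ *ᵥ v = 0 := by
    rw [conjTranspose_add, blc_conj hr, blc_conj hr, add_mulVec, k1, k2, add_zero]
  have h4 : star v ⬝ᵥ (bl x r *ᵥ v) ≠ 0 := fun h =>
    hx (((bl_psd hr x).dotProduct_mulVec_zero_iff _).1 h)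
  obtain ⟨e, he⟩ := rank_bump (bl_psd hr a) hv h2 h3 h4
  rw [← bl_add_smul] at he
  have := ha (a + (e : ℂ) • x)
  omega

end Vale.Agent.P372.R4
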