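import Vale.Agent.P372.R4.Peel

open Matrix Kronecker
open scoped ComplexOrder

namespace Vale.Agent.P372.R4

set_option linter.unusedSectionVars false
set_option linter.unusedVariables false

variable {A B : Type} [Fintype A] [Fintype B]

theorem blc_single [DecidableEq A] (r : Matrix (A × B) (A × B) ℂ) (a : A → ℂ) (y : B → ℂ) (j : A)
    (s : B) : (blc (Pi.single j 1) a r *ᵥ y) s = (r *ᵥ prodVec a y) (j, s) := by
  simp only [mulVec, dotProduct, blc, prodVec, Fintype.sum_prod_type, Finset.sum_mul]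
  rw [Finset.sum_comm, Finset.sum_eq_single j]
  · rw [Finset.sum_comm]
    refine Finset.sum_congr rfl fun k _ => Finset.sum_congr rfl fun t _ => ?_
    simp only [Pi.single_eq_same, star_one, one_mul]
    ring
  · intro k _ hk
    simp [Pi.single_eq_of_ne hk]
  · simp

theorem pT_single [DecidableEq A] (r : Matrix (A × B) (A × B) ℂ) (a : A → ℂ) (y : B → ℂ) (j : A)
    (s : B) : (pTrans r *ᵥ prodVec a y) (j, s) = (y ᵥ* blc (Pi.single j 1) a r) s := by
  simp only [mulVec, vecMul, dotProduct, blc, prodVec, Fintype.sum_prod_type, Finset.mul_sum,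
    pTrans]
  rw [eq_comm]
  have e1 : ∀ t, ∑ i, ∑ k, y t * (star ((Pi.single j 1 : A → ℂ) i) * r (i, t) (k, s) * a k) =
      ∑ k, r (j, t) (k, s) * (a k * y t) := by
    intro t
    rw [Finset.sum_eq_single j]
    · refine Finset.sum_congr rfl fun k _ => ?_
      simp only [Pi.single_eq_same, star_one, one_mul]
      ring
    · intro k _ hk
      simp [Pi.single_eq_of_ne hk]
    · simp
  simp only [e1]
  exact Finset.sum_comm

theorem adj {D : Type} [Fintype D] (M : Matrix D D ℂ) (u w : D → ℂ) :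
    star w ⬝ᵥ (Mᴴ *ᵥ u) = star (star u ⬝ᵥ (M *ᵥ w)) := by
  rw [← star_dotProduct, star_mulVec, ← dotProduct_mulVec]

/-- **Row SPL.** -/
theorem SPL [DecidableEq A] [DecidableEq B] (r : Matrix (A × B) (A × B) ℂ) (hr : r.PosSemidef)
    (hp : (pTrans r).PosSemidef) (a : A → ℂ) (h1 : (bl a r).rank = 1) :
    ∃ (M : Matrix A A ℂ) (N : Matrix B B ℂ) (r' : Matrix (A × B) (A × B) ℂ),
      M.PosSemidef ∧ N.PosSemidef ∧ r = M ⊗ₖ N + r' ∧ r'.PosSemidef ∧ (pTrans r').PosSemidef ∧
        r'.rank + 1 = r.rank ∧ ∀ y, r' *ᵥ prodVec a y = 0 := by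
  obtain ⟨u₀, hu₀, hP⟩ := rank_one (bl_psd hr a) h1
  set v : B → ℂ := bl a r *ᵥ u₀ with hv
  have hvu : star v ⬝ᵥ u₀ = 1 := by rw [hv, herm_dot (bl_psd hr a).1, ← hv, hu₀]
  have hk : ∀ y : B → ℂ, bl a r *ᵥ (y - (star v ⬝ᵥ y) • u₀) = 0 := by
    intro y
    rw [mulVec_sub, mulVec_smul, ← hv, hP, vecMulVec_mulVec, sub_eq_zero]
    ext i
    simp [mul_comm]
  -- the basic formula
  have hC : ∀ (x : A → ℂ) (y : B → ℂ), blc x a r *ᵥ y = (star v ⬝ᵥ y) • (blc x a r *ᵥ u₀) := by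
    intro x y
    have h3 := (ppt_kill hr hp (hk y) x).2
    rwa [mulVec_sub, mulVec_smul, sub_eq_zero] at h3
  have hC' : ∀ (x : A → ℂ) (y : B → ℂ), blc a x r *ᵥ y = (star v ⬝ᵥ y) • (blc a x r *ᵥ u₀) := by
    intro x y
    have h3 := (ppt_kill hr hp (hk y) x).1
    rwa [mulVec_sub, mulVec_smul, sub_eq_zero] at h3
  let g : (A → ℂ) → ℂ := fun x => star u₀ ⬝ᵥ (blc x a r *ᵥ u₀)
  have hform : ∀ (x : A → ℂ) (w y : B → ℂ),
      star w ⬝ᵥ (blc x a r *ᵥ y) = g x * (star w ⬝ᵥ v) * (star v ⬝ᵥ y) := by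
    intro x w y
    rw [hC, dotProduct_smul, smul_eq_mul]
    have h3 : star w ⬝ᵥ (blc x a r *ᵥ u₀) = star (star u₀ ⬝ᵥ (blc a x r *ᵥ w)) := by
      rw [← blc_conj hr a x, adj]
    have h4 : star (star u₀ ⬝ᵥ (blc a x r *ᵥ u₀)) = g x := by
      rw [← adj, blc_conj hr a x]
    rw [h3, hC', dotProduct_smul, smul_eq_mul, star_mul', h4, ← star_dotProduct]
    ring
  have hM : ∀ (x : A → ℂ) (s t : B), blc x a r s t = g x * v s * star (v t) := by
    intro x s t
    classical
    have h2 := hform x (Pi.single s 1) (Pi.single t 1)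
    have e1 : star (Pi.single s 1 : B → ℂ) = Pi.single s 1 := by
      ext i
      by_cases h : i = s
      · subst h; simp
      · simp [Pi.single_eq_of_ne h]
    rw [e1] at h2
    simpa [mulVec_single] using h2
  let γ : A → ℂ := fun j => g (Pi.single j 1)
  set u : A × B → ℂ := prodVec a u₀ with hudef
  have hu : star u ⬝ᵥ (r *ᵥ u) = 1 := by rw [hudef, ← quad', ← hv, hu₀]
  set u' : A × B → ℂ := prodVec a (star u₀) with hu'def
  have hu' : star u' ⬝ᵥ (pTrans r *ᵥ u') = 1 := by rw [hu'def, pT_form, ← hudef, hu]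
  have hξ : r *ᵥ u = prodVec γ v := by
    ext ⟨j, s⟩
    rw [hudef, ← blc_single]
    simp only [mulVec, dotProduct, hM, prodVec, γ]
    have : ∀ t, g (Pi.single j 1) * v s * star (v t) * u₀ t =
        g (Pi.single j 1) * v s * (star (v t) * u₀ t) := fun t => by ring
    simp only [this, ← Finset.mul_sum]
    have h5 : ∑ t, star (v t) * u₀ t = 1 := hvu
    rw [h5, mul_one]
  have hξ' : pTrans r *ᵥ u' = prodVec γ (star v) := by
    ext ⟨j, s⟩
    rw [hu'def, pT_single]
    simp only [vecMul, dotProduct, hM, prodVec, γ, Pi.star_apply]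
    have : ∀ t, star (u₀ t) * (g (Pi.single j 1) * v t * star (v s)) =
        g (Pi.single j 1) * star (v s) * (star (u₀ t) * v t) := fun t => by ring
    simp only [this, ← Finset.mul_sum]
    have h5 : ∑ t, star (u₀ t) * v t = 1 := hu₀
    rw [h5, mul_one]
  refine ⟨vecMulVec γ (star γ), vecMulVec v (star v), r - vecMulVec (r *ᵥ u) (star (r *ᵥ u)),
    posSemidef_vecMulVec_self_star _, posSemidef_vecMulVec_self_star _, ?_, peel_psd hr hu, ?_,
    peel_rank hr hu, ?_⟩
  · have : vecMulVec (r *ᵥ u) (star (r *ᵥ u)) =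
        vecMulVec γ (star γ) ⊗ₖ vecMulVec v (star v) := by
      rw [hξ]
      ext ⟨j, s⟩ ⟨k, t⟩
      simp only [vecMulVec_apply, prodVec, Pi.star_apply, star_mul', kroneckerMap_apply]
      ring
    rw [this]
    abel
  · have : pTrans (r - vecMulVec (r *ᵥ u) (star (r *ᵥ u))) =
        pTrans r - vecMulVec (pTrans r *ᵥ u') (star (pTrans r *ᵥ u')) := by
      rw [hξ, hξ']
      ext ⟨j, s⟩ ⟨k, t⟩
      simp only [pTrans, Matrix.sub_apply, vecMulVec_apply, prodVec, Pi.star_apply, star_mul',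
        star_star]
      ring
    rw [this]
    exact peel_psd hp hu'
  · intro y
    rw [peel_mulVec]
    have h5 : star (r *ᵥ u) ⬝ᵥ prodVec a y = star v ⬝ᵥ y := by
      rw [herm_dot hr.1, hudef, ← quad, blc_self, hP, vecMulVec_mulVec]
      have : star u₀ ⬝ᵥ (MulOpposite.op (star v ⬝ᵥ y) • v) = (star v ⬝ᵥ y) * (star u₀ ⬝ᵥ v) := by
        simp [dotProduct_smul, mul_comm]
      rw [this, hu₀, mul_one]
    have h6 : prodVec a y - (star (r *ᵥ u) ⬝ᵥ prodVec a y) • u =
        prodVec a (y - (star v ⬝ᵥ y) • u₀) := by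
      rw [h5, hudef]
      ext p
      simp only [prodVec, Pi.sub_apply, Pi.smul_apply, smul_eq_mul]
      ring
    rw [h6]
    exact kill hr (hk y)

end Vale.Agent.P372.R4
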