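import Vale.Agent.P372.R4.Rel
import Vale.Agent.P372.R4.L0
import Vale.Agent.P372.R4.SUP
import Vale.Agent.P372.R4.SPL
import Vale.Agent.P372.R4.K
import Vale.Agent.P372.R4.J2c

/-! Preparations for the theorem on PPT states of rank one more than a local rank. -/

open Matrix Kronecker
open scoped ComplexOrder MatrixOrder

set_option linter.unusedSectionVars false

namespace Vale.Agent.P372.R4

open H750 UPB

variable {A B n : Type} [Fintype A] [DecidableEq A] [Fintype B] [DecidableEq B]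
  [Fintype n] [DecidableEq n]
  {r : Matrix (A × B) (A × B) ℂ} {a : A → ℂ}

theorem sepB (hr : r.PosSemidef) (hp : (pTrans r).PosSemidef) (h : r.rank ≤ (redB r).rank) :
    IsSep r := by
  obtain ⟨a, ha⟩ := L0 r hr hp
  refine sep_of_rank' r hr hp a ?_
  rw [ha]
  exact h

theorem redB_le (hr : r.PosSemidef) (hp : (pTrans r).PosSemidef) : (redB r).rank ≤ r.rank := by
  obtain ⟨a, ha⟩ := L0 r hr hp
  have h1 : (redB r).rank = (bl a r).rank := ha.symm
  rw [h1, bl_Va]
  exact (rank_mul_le_left _ _).trans (rank_mul_le_right _ _)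

theorem redB_fl (G : Matrix B B ℂ) (r : Matrix (A × B) (A × B) ℂ) :
    redB (((1 : Matrix A A ℂ) ⊗ₖ G) * r * ((1 : Matrix A A ℂ) ⊗ₖ G)ᴴ) = G * redB r * Gᴴ := by
  rw [Matrix.ext_iff_trace_mul_left]
  intro X
  rw [← trace_one_kron (A := A)]
  calc (((1 : Matrix A A ℂ) ⊗ₖ X) * (((1 : Matrix A A ℂ) ⊗ₖ G) * r *
        ((1 : Matrix A A ℂ) ⊗ₖ G)ᴴ)).trace
      = (((1 : Matrix A A ℂ) ⊗ₖ X) * (((1 : Matrix A A ℂ) ⊗ₖ G) * r) *
        ((1 : Matrix A A ℂ) ⊗ₖ G)ᴴ).trace := by simp only [Matrix.mul_assoc]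
    _ = (((1 : Matrix A A ℂ) ⊗ₖ G)ᴴ * (((1 : Matrix A A ℂ) ⊗ₖ X) *
        (((1 : Matrix A A ℂ) ⊗ₖ G) * r))).trace := by rw [Matrix.trace_mul_comm]
    _ = (((1 : Matrix A A ℂ) ⊗ₖ (Gᴴ * (X * G))) * r).trace := by
        rw [conjTranspose_kronecker, conjTranspose_one, ← Matrix.mul_assoc, ← Matrix.mul_assoc,
          ← mul_kronecker_mul, ← mul_kronecker_mul, Matrix.one_mul, Matrix.one_mul,
          Matrix.mul_assoc Gᴴ]
    _ = ((Gᴴ * (X * G)) * redB r).trace := trace_one_kron _ _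
    _ = (Gᴴ * (X * (G * redB r))).trace := by simp only [Matrix.mul_assoc]
    _ = (X * (G * redB r) * Gᴴ).trace := by rw [Matrix.trace_mul_comm]
    _ = _ := by simp only [Matrix.mul_assoc]

theorem redB_add (r r' : Matrix (A × B) (A × B) ℂ) : redB (r + r') = redB r + redB r' := by
  ext s t
  simp only [redB, Matrix.add_apply, Finset.sum_add_distrib]

theorem redB_kron (M : Matrix A A ℂ) (N : Matrix B B ℂ) : redB (M ⊗ₖ N) = M.trace • N := by
  ext s t
  simp only [redB, kroneckerMap_apply, Matrix.smul_apply, smul_eq_mul, trace, diag_apply,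
    Finset.sum_mul]

theorem rank_add_le' {m : Type} [Fintype m] (M N : Matrix m n ℂ) :
    (M + N).rank ≤ M.rank + N.rank := by
  have h1 : LinearMap.range (M + N).mulVecLin ≤
      LinearMap.range M.mulVecLin ⊔ LinearMap.range N.mulVecLin := by
    rintro _ ⟨v, rfl⟩
    rw [mulVecLin_apply, add_mulVec]
    exact Submodule.add_mem_sup ⟨v, rfl⟩ ⟨v, rfl⟩
  exact (Submodule.finrank_mono h1).trans (Submodule.finrank_add_le_finrank_add_finrank _ _)

/-- Ranks of compressions of positive matrices. -/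
theorem rank_compr_le {M P : Matrix n n ℂ} (hM : M.PosSemidef) (hP : Pᴴ = P) :
    M.rank ≤ ((1 - P) * M * (1 - P)ᴴ).rank + P.rank := by
  obtain ⟨K, hK⟩ := exists_sq hM
  have e1 : M.rank = K.rank := by rw [hK, rank_conjTranspose_mul_self]
  have e2 : ((1 - P) * M * (1 - P)ᴴ).rank = (K * (1 - P)).rank := by
    have : (1 - P) * M * (1 - P)ᴴ = (K * (1 - P))ᴴ * (K * (1 - P)) := by
      rw [conjTranspose_mul, conjTranspose_sub, conjTranspose_one, hP, hK]
      simp only [Matrix.mul_assoc]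
    rw [this, rank_conjTranspose_mul_self]
  rw [e1, e2]
  have e3 : K = K * (1 - P) + K * P := by
    rw [Matrix.mul_sub, Matrix.mul_one, sub_add_cancel]
  calc K.rank = (K * (1 - P) + K * P).rank := by rw [← e3]
    _ ≤ (K * (1 - P)).rank + (K * P).rank := rank_add_le' _ _
    _ ≤ _ := Nat.add_le_add_left (rank_mul_le_right _ _) _

theorem rank_conj_inv {P T T' : Matrix n n ℂ} (h : T' * T = 1) : (T * P * Tᴴ).rank = P.rank := by
  have h' : T * T' = 1 := mul_eq_one_comm.mp h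
  refine le_antisymm ((rank_mul_le_left _ _).trans (rank_mul_le_right _ _)) ?_
  have e : P = T' * (T * P * Tᴴ) * T'ᴴ := by
    calc P = (T' * T) * P * (T' * T)ᴴ := by rw [h, conjTranspose_one, Matrix.one_mul,
          Matrix.mul_one]
      _ = _ := by rw [conjTranspose_mul]; simp only [Matrix.mul_assoc]
  calc P.rank = (T' * (T * P * Tᴴ) * T'ᴴ).rank := by rw [← e]
    _ ≤ (T' * (T * P * Tᴴ)).rank := rank_mul_le_left _ _
    _ ≤ _ := rank_mul_le_right _ _

/-- Joint eigenprojections, left form. -/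
theorem joint_left {ι : Type} [Finite ι] (C : ι → Matrix n n ℂ)
    (h1 : ∀ i j, C i * C j = C j * C i) (h2 : ∀ i j, (C i)ᴴ * C j = C j * (C i)ᴴ) :
    ∃ (S : Type) (_ : Fintype S) (Q : S → Matrix n n ℂ) (μ : ι → S → ℂ),
      ∑ s, Q s = 1 ∧ ∀ i s, (C i)ᴴ * Q s = μ i s • Q s := by
  have h3 : ∀ i j, (C i)ᴴ * (C j)ᴴ = (C j)ᴴ * (C i)ᴴ := by
    intro i j
    rw [← conjTranspose_mul, ← conjTranspose_mul, h1]
  obtain ⟨S, iS, Q, lam, a1, a2, a3, a4, -⟩ := H23.joint_spec
    (fun p : ι × Bool => if p.2 then C p.1 + (C p.1)ᴴ else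
      Complex.I • (C p.1 - (C p.1)ᴴ)) (by
      rintro ⟨i, b⟩
      cases b
      · simp only [Bool.false_eq_true, if_false]
        rw [IsHermitian, conjTranspose_smul, conjTranspose_sub, conjTranspose_conjTranspose,
          Complex.star_def, Complex.conj_I, neg_smul, ← smul_neg, neg_sub]
      · simp only [if_true]
        rw [IsHermitian, conjTranspose_add, conjTranspose_conjTranspose, add_comm])
    (by
      have k1 : ∀ i j, Commute (C i) (C j) := h1
      have k2 : ∀ i j, Commute (C i)ᴴ (C j) := h2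
      have k3 : ∀ i j, Commute (C i)ᴴ (C j)ᴴ := h3
      have k4 : ∀ i j, Commute (C i) (C j)ᴴ := fun i j => (k2 j i).symm
      rintro ⟨i, b⟩ ⟨j, b'⟩
      cases b <;> cases b'
      · simp only [Bool.false_eq_true, if_false]
        exact ((((k1 i j).sub_right (k4 i j)).sub_left
          ((k2 i j).sub_right (k3 i j))).smul_left _).smul_right _
      · simp only [Bool.false_eq_true, if_false, if_true]
        exact (((k1 i j).add_right (k4 i j)).sub_left
          ((k2 i j).add_right (k3 i j))).smul_left _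
      · simp only [Bool.false_eq_true, if_false, if_true]
        exact (((k1 i j).sub_right (k4 i j)).add_left
          ((k2 i j).sub_right (k3 i j))).smul_right _
      · simp only [if_true]
        exact ((k1 i j).add_right (k4 i j)).add_left
          ((k2 i j).add_right (k3 i j)))
  refine ⟨S, iS, Q, fun i s => (1 / 2 : ℂ) * ((lam (i, true) s : ℂ) +
    Complex.I * lam (i, false) s), a3, ?_⟩
  intro i s
  have e1 := a4 (i, true) s
  have e2 := a4 (i, false) s
  simp only [Bool.false_eq_true, if_false, if_true] at e1 e2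
  rw [Matrix.add_mul] at e1
  rw [Matrix.smul_mul, Matrix.sub_mul] at e2
  have e3 : (C i)ᴴ * Q s = (1 / 2 : ℂ) • ((C i * Q s + (C i)ᴴ * Q s) +
      Complex.I • (Complex.I • (C i * Q s - (C i)ᴴ * Q s))) := by
    rw [smul_smul, Complex.I_mul_I, neg_smul, one_smul]
    have : C i * Q s + (C i)ᴴ * Q s + -(C i * Q s - (C i)ᴴ * Q s) =
        (2 : ℂ) • ((C i)ᴴ * Q s) := by
      rw [two_smul]; abel
    rw [this, smul_smul]
    norm_num
  rw [e3, e1, e2, smul_smul, ← add_smul, smul_smul]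

theorem rank_vmv_one {μ : A → ℂ} {c : ℂ} (hμ : μ ≠ 0) (hc : c ≠ 0) :
    (c • vecMulVec μ (star μ)).rank = 1 := by
  have h1 : (c • vecMulVec μ (star μ)).rank ≤ 1 := by
    have : c • vecMulVec μ (star μ) = vecMulVec (c • μ) (star μ) := by
      ext i j
      simp only [Matrix.smul_apply, vecMulVec_apply, smul_eq_mul, Pi.smul_apply]
      ring
    rw [this]
    exact rank_vecMulVec_le _ _
  have h2 : (c • vecMulVec μ (star μ)).rank ≠ 0 := by
    intro h0
    rw [Matrix.rank, Submodule.finrank_eq_zero, LinearMap.range_eq_bot] at h0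
    have h3 : (c • vecMulVec μ (star μ)) *ᵥ μ = 0 := LinearMap.congr_fun h0 μ
    rw [smul_mulVec, vecMulVec_mulVec] at h3
    have h4 : star μ ⬝ᵥ μ ≠ 0 := fun h => hμ (dotProduct_star_self_eq_zero.mp h)
    have h5 := (smul_eq_zero.mp h3).resolve_left hc
    obtain ⟨i, hi⟩ := Function.ne_iff.mp hμ
    have h6 := congrFun h5 i
    simp only [Pi.smul_apply, Pi.zero_apply, MulOpposite.smul_eq_mul_unop,
      MulOpposite.unop_op] at h6
    rcases mul_eq_zero.mp h6 with h7 | h7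
    · exact hi h7
    · exact h4 h7
  omega

theorem br_quad (y : B → ℂ) (C : A → Matrix B B ℂ) (r : Matrix (A × B) (A × B) ℂ)
    (h : ∀ j s k t, r (j, s) (k, t) = ((C j)ᴴ * C k) s t) (j k : A) :
    br y r j k = dp y (((C j)ᴴ * C k) *ᵥ y) := by
  rw [br, dp, dotProduct]
  refine Finset.sum_congr rfl fun s _ => ?_
  rw [mulVec, dotProduct, Finset.mul_sum]
  refine Finset.sum_congr rfl fun t _ => ?_
  rw [h, Pi.star_apply]
  ring

/-- A vector with a compression of rank one. -/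
theorem exists_rank_one (hr : r.PosSemidef) (hp : (pTrans r).PosSemidef) (h0 : r ≠ 0)
    (hrk : r.rank ≤ (redB r).rank) : ∃ y : B → ℂ, (br y r).rank = 1 := by
  obtain ⟨a, ha⟩ := L0 r hr hp
  have hrk' : r.rank ≤ (bl a r).rank + (br (0 : B → ℂ) r).rank := by
    rw [ha]
    exact hrk.trans (Nat.le_add_right _ _)
  have hk0 : r *ᵥ prodVec a (0 : B → ℂ) = 0 := by
    have : prodVec a (0 : B → ℂ) = 0 := by
      ext ⟨j, s⟩
      simp [prodVec]
    rw [this, mulVec_zero]
  obtain ⟨S, S', T, T', s1, t1, h1, h2, h3, h4, h5, h6⟩ := normalise (b := 0) hr hp hk0 hrk'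
  obtain ⟨r', hr'⟩ : ∃ r', r' = (S ⊗ₖ T) * r * (S ⊗ₖ T)ᴴ := ⟨_, rfl⟩
  rw [← hr'] at h1 h2 h3 h4 h5 h6
  obtain ⟨h7, h8⟩ := tight h1 h2 h3 h4 h5 h6
  have hD : ∀ s : B, Dm (0 : B → ℂ) r' s = 0 := by
    intro s
    ext j k
    simp [Dm]
  have h7' : ∀ j s k t, r' (j, s) (k, t) = ((Cm a r' j)ᴴ * Cm a r' k) s t := by
    intro j s k t
    rw [h7, hD, hD, Matrix.mul_zero, Matrix.zero_apply, add_zero]
  have h9 : ∀ i j, (Cm a r' i)ᴴ * Cm a r' j = Cm a r' j * (Cm a r' i)ᴴ := by
    intro i j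
    ext t s
    have := h8 i j s t
    rw [hD, hD, conjTranspose_zero, Matrix.zero_mul, sub_self, Matrix.zero_apply, add_zero,
      Matrix.sub_apply, sub_eq_zero] at this
    exact this
  have h10 : ∀ i j, Cm a r' i * Cm a r' j = Cm a r' j * Cm a r' i := by
    intro i j
    have := fuglede (N := (Cm a r' i)ᴴ) (M := Cm a r' j)
      (by rw [conjTranspose_conjTranspose, h9]) (h9 i j)
    rw [conjTranspose_conjTranspose] at this
    exact this
  obtain ⟨Sg, iS, Q, μ, q1, q2⟩ := joint_left (Cm a r') h10 h9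
  have hP0 : bl a r' ≠ 0 := by
    intro h
    have hbr : br (0 : B → ℂ) r' = 0 := by
      ext j k
      simp [br]
    rw [h, hbr, rank_zero, rank_zero] at h6
    have h11 : r'.rank = 0 := by omega
    have h12 : r' = 0 := by
      rw [Matrix.rank, Submodule.finrank_eq_zero, LinearMap.range_eq_bot] at h11
      refine Matrix.ext_of_mulVec_single fun i => ?_
      rw [zero_mulVec]
      exact LinearMap.congr_fun h11 _
    apply h0
    have h13 : (S' ⊗ₖ T') * (S ⊗ₖ T) = 1 := by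
      rw [← mul_kronecker_mul, s1, t1, one_kronecker_one]
    calc r = ((S' ⊗ₖ T') * (S ⊗ₖ T)) * r * ((S' ⊗ₖ T') * (S ⊗ₖ T))ᴴ := by
          rw [h13, conjTranspose_one, Matrix.one_mul, Matrix.mul_one]
      _ = (S' ⊗ₖ T') * ((S ⊗ₖ T) * r * (S ⊗ₖ T)ᴴ) * (S' ⊗ₖ T')ᴴ := by
          rw [conjTranspose_mul (S' ⊗ₖ T') (S ⊗ₖ T)]
          simp only [Matrix.mul_assoc]
      _ = 0 := by rw [← hr', h12, Matrix.mul_zero, Matrix.zero_mul]
  obtain ⟨σ, w, hw⟩ : ∃ (σ : Sg) (w : B → ℂ), bl a r' *ᵥ (Q σ *ᵥ w) ≠ 0 := by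
    by_contra hcon
    push Not at hcon
    apply hP0
    refine Matrix.ext_of_mulVec_single fun i => ?_
    rw [zero_mulVec, ← Matrix.mul_one (bl a r'), ← q1, Matrix.mul_sum, sum_mulVec]
    refine Finset.sum_eq_zero fun σ _ => ?_
    rw [← mulVec_mulVec]
    exact hcon σ _
  obtain ⟨y, hy⟩ : ∃ y, y = Q σ *ᵥ w := ⟨_, rfl⟩
  rw [← hy] at hw
  have hCy : ∀ j, (Cm a r' j)ᴴ *ᵥ y = μ j σ • y := by
    intro j
    rw [hy, mulVec_mulVec, q2, smul_mulVec]
  have hy0 : y ≠ 0 := by
    intro h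
    rw [h, mulVec_zero] at hw
    exact hw rfl
  have hyy : dp y y ≠ 0 := fun h => hy0 (dp_self h)
  have hμ : (fun j => μ j σ) ≠ 0 := by
    intro h
    apply hw
    have hPh : (bl a r')ᴴ = bl a r' := (bl_psd h1 a).1
    rw [← hPh, bl_eq, conjTranspose_sum, sum_mulVec]
    refine Finset.sum_eq_zero fun j _ => ?_
    rw [conjTranspose_smul, smul_mulVec, hCy, congrFun h j, Pi.zero_apply, zero_smul, smul_zero]
  have hbr : br y r' = dp y y • vecMulVec (fun j => μ j σ) (star (fun j => μ j σ)) := by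
    ext j k
    rw [br_quad y _ r' h7', h9, ← mulVec_mulVec, hCy, mulVec_smul, dp_smul, dp_mulVec, hCy,
      smul_dp, Matrix.smul_apply, vecMulVec_apply, Pi.star_apply, smul_eq_mul]
    ring
  have hone : (br y r').rank = 1 := by
    rw [hbr]
    exact rank_vmv_one hμ hyy
  refine ⟨Tᴴ *ᵥ y, ?_⟩
  rw [← hone, hr', br_filter, rank_conj_inv s1]

end Vale.Agent.P372.R4
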