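import Vale.Agent.P372.R4.HPrep

/-! Peeling and the choice of a vector. -/

open Matrix Kronecker
open scoped ComplexOrder MatrixOrder

set_option linter.unusedSectionVars false
set_option linter.unusedVariables false

namespace Vale.Agent.P372.R4

section

variable {A B : Type} [Fintype A] [Fintype B]

/-- The splitting lemma with vectors. -/
theorem SPLv [DecidableEq A] [DecidableEq B] (r : Matrix (A × B) (A × B) ℂ) (hr : r.PosSemidef)
    (hp : (pTrans r).PosSemidef) (a : A → ℂ) (h1 : (bl a r).rank = 1) :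
    ∃ (g : A → ℂ) (n : B → ℂ) (r' : Matrix (A × B) (A × B) ℂ),
      r = vecMulVec g (star g) ⊗ₖ vecMulVec n (star n) + r' ∧ r'.PosSemidef ∧
        (pTrans r').PosSemidef ∧ r'.rank + 1 = r.rank ∧ ∀ y, r' *ᵥ prodVec a y = 0 := by
  obtain ⟨u₀, hu₀, hP⟩ := rank_one (bl_psd hr a) h1
  set v : B → ℂ := bl a r *ᵥ u₀ with hv
  have hvu : star v ⬝ᵥ u₀ = 1 := by rw [hv, herm_dot (bl_psd hr a).1, ← hv, hu₀]
  have hk : ∀ y : B → ℂ, bl a r *ᵥ (y - (star v ⬝ᵥ y) • u₀) = 0 := by
    intro y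
    rw [mulVec_sub, mulVec_smul, ← hv, hP, vecMulVec_mulVec, sub_eq_zero]
    ext i
    simp [mul_comm]
  -- the basic formula
  have hC : ∀ (x : A → ℂ) (y : B → ℂ), blc x a r *ᵥ y = (star v ⬝ᵥ y) • (blc x a r *ᵥ u₀) := by
    intro x y
    have h3 := (ppt_kill hr hp (hk y) x).2
    rwa [mulVec_sub, mulVec_smul, sub_eq_zero] at h3
  have hC' : ∀ (x : A → ℂ) (y : B → ℂ), blc a x r *ᵥ y = (star v ⬝ᵥ y) • (blc a x r *ᵥ u₀) := by
    intro x y
    have h3 := (ppt_kill hr hp (hk y) x).1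
    rwa [mulVec_sub, mulVec_smul, sub_eq_zero] at h3
  let g : (A → ℂ) → ℂ := fun x => star u₀ ⬝ᵥ (blc x a r *ᵥ u₀)
  have hform : ∀ (x : A → ℂ) (w y : B → ℂ),
      star w ⬝ᵥ (blc x a r *ᵥ y) = g x * (star w ⬝ᵥ v) * (star v ⬝ᵥ y) := by
    intro x w y
    rw [hC, dotProduct_smul, smul_eq_mul]
    have h3 : star w ⬝ᵥ (blc x a r *ᵥ u₀) = star (star u₀ ⬝ᵥ (blc a x r *ᵥ w)) := by
      rw [← blc_conj hr a x, adj]
    have h4 : star (star u₀ ⬝ᵥ (blc a x r *ᵥ u₀)) = g x := by
      rw [← adj, blc_conj hr a x]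
    rw [h3, hC', dotProduct_smul, smul_eq_mul, star_mul', h4, ← star_dotProduct]
    ring
  have hM : ∀ (x : A → ℂ) (s t : B), blc x a r s t = g x * v s * star (v t) := by
    intro x s t
    classical
    have h2 := hform x (Pi.single s 1) (Pi.single t 1)
    have e1 : star (Pi.single s 1 : B → ℂ) = Pi.single s 1 := by
      ext i
      by_cases h : i = s
      · subst h; simp
      · simp [Pi.single_eq_of_ne h]
    rw [e1] at h2
    simpa [mulVec_single] using h2
  let γ : A → ℂ := fun j => g (Pi.single j 1)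
  set u : A × B → ℂ := prodVec a u₀ with hudef
  have hu : star u ⬝ᵥ (r *ᵥ u) = 1 := by rw [hudef, ← quad', ← hv, hu₀]
  set u' : A × B → ℂ := prodVec a (star u₀) with hu'def
  have hu' : star u' ⬝ᵥ (pTrans r *ᵥ u') = 1 := by rw [hu'def, pT_form, ← hudef, hu]
  have hξ : r *ᵥ u = prodVec γ v := by
    ext ⟨j, s⟩
    rw [hudef, ← blc_single]
    simp only [mulVec, dotProduct, hM, prodVec, γ]
    have : ∀ t, g (Pi.single j 1) * v s * star (v t) * u₀ t =
        g (Pi.single j 1) * v s * (star (v t) * u₀ t) := fun t => by ring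
    simp only [this, ← Finset.mul_sum]
    have h5 : ∑ t, star (v t) * u₀ t = 1 := hvu
    rw [h5, mul_one]
  have hξ' : pTrans r *ᵥ u' = prodVec γ (star v) := by
    ext ⟨j, s⟩
    rw [hu'def, pT_single]
    simp only [vecMul, dotProduct, hM, prodVec, γ, Pi.star_apply]
    have : ∀ t, star (u₀ t) * (g (Pi.single j 1) * v t * star (v s)) =
        g (Pi.single j 1) * star (v s) * (star (u₀ t) * v t) := fun t => by ring
    simp only [this, ← Finset.mul_sum]
    have h5 : ∑ t, star (u₀ t) * v t = 1 := hu₀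
    rw [h5, mul_one]
  refine ⟨γ, v, r - vecMulVec (r *ᵥ u) (star (r *ᵥ u)), ?_, peel_psd hr hu, ?_,
    peel_rank hr hu, ?_⟩
  · have : vecMulVec (r *ᵥ u) (star (r *ᵥ u)) =
        vecMulVec γ (star γ) ⊗ₖ vecMulVec v (star v) := by
      rw [hξ]
      ext ⟨j, s⟩ ⟨k, t⟩
      simp only [vecMulVec_apply, prodVec, Pi.star_apply, star_mul', kroneckerMap_apply]
      ring
    rw [this]
    abel
  · have : pTrans (r - vecMulVec (r *ᵥ u) (star (r *ᵥ u))) =
        pTrans r - vecMulVec (pTrans r *ᵥ u') (star (pTrans r *ᵥ u')) := by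
      rw [hξ, hξ']
      ext ⟨j, s⟩ ⟨k, t⟩
      simp only [pTrans, Matrix.sub_apply, vecMulVec_apply, prodVec, Pi.star_apply, star_mul',
        star_star]
      ring
    rw [this]
    exact peel_psd hp hu'
  · intro y
    rw [peel_mulVec]
    have h5 : star (r *ᵥ u) ⬝ᵥ prodVec a y = star v ⬝ᵥ y := by
      rw [herm_dot hr.1, hudef, ← quad, blc_self, hP, vecMulVec_mulVec]
      have : star u₀ ⬝ᵥ (MulOpposite.op (star v ⬝ᵥ y) • v) = (star v ⬝ᵥ y) * (star u₀ ⬝ᵥ v) := by
        simp [dotProduct_smul, mul_comm]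
      rw [this, hu₀, mul_one]
    have h6 : prodVec a y - (star (r *ᵥ u) ⬝ᵥ prodVec a y) • u =
        prodVec a (y - (star v ⬝ᵥ y) • u₀) := by
      rw [h5, hudef]
      ext p
      simp only [prodVec, Pi.sub_apply, Pi.smul_apply, smul_eq_mul]
      ring
    rw [h6]
    exact kill hr (hk y)


end

open H750 UPB

variable {A B n : Type} [Fintype A] [DecidableEq A] [Fintype B] [DecidableEq B]
  [Fintype n] [DecidableEq n]
  {r : Matrix (A × B) (A × B) ℂ} {a : A → ℂ}

theorem pTrans_swp (hp : (pTrans r).PosSemidef) : (pTrans (J2.swp r)).PosSemidef := by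
  have : pTrans (J2.swp r) = ((pTrans r)ᵀ).submatrix Prod.swap Prod.swap := rfl
  rw [this]
  exact hp.transpose.submatrix _

theorem SPLw (hr : r.PosSemidef) (hp : (pTrans r).PosSemidef) (y : B → ℂ)
    (h1 : (br y r).rank = 1) :
    ∃ (g : A → ℂ) (n : B → ℂ) (r' : Matrix (A × B) (A × B) ℂ),
      r = vecMulVec g (star g) ⊗ₖ vecMulVec n (star n) + r' ∧ r'.PosSemidef ∧
        (pTrans r').PosSemidef ∧ r'.rank + 1 = r.rank ∧ ∀ x, r' *ᵥ prodVec x y = 0 := by
  have h2 : (bl y (J2.swp r)).rank = 1 := h1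
  obtain ⟨g, v, r', e1, e2, e3, e4, e5⟩ := SPLv (J2.swp r) (J2.swp_psd hr) (pTrans_swp hp) y h2
  refine ⟨v, g, J2.swp r', ?_, J2.swp_psd e2, pTrans_swp e3, ?_, ?_⟩
  · have e6 : r = J2.swp (J2.swp r) := rfl
    rw [e6, e1]
    ext ⟨j, s⟩ ⟨k, t⟩
    change vecMulVec g (star g) s t * vecMulVec v (star v) j k + r' (s, j) (t, k) =
      vecMulVec v (star v) j k * vecMulVec g (star g) s t + r' (s, j) (t, k)
    ring
  · have e6 : (J2.swp r').rank = r'.rank := rank_submatrix r' (Equiv.prodComm A B)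
      (Equiv.prodComm A B)
    have e7 : (J2.swp r).rank = r.rank := rank_submatrix r (Equiv.prodComm B A)
      (Equiv.prodComm B A)
    rw [e6, e4, e7]
  · intro x
    have e6 : J2.swp r' *ᵥ J2.sv (prodVec y x) = J2.sv (J2.swp (J2.swp r') *ᵥ prodVec y x) :=
      J2.swp_mulVec _
    have e7 : J2.sv (prodVec y x) = prodVec x y := by
      ext ⟨j, s⟩
      change y s * x j = x j * y s
      ring
    have e8 : J2.swp (J2.swp r') = r' := rfl
    rw [e7, e8, e5, map_zero] at e6
    exact e6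

theorem rank_vmv_le (c : ℂ) (v : n → ℂ) : (c • vecMulVec v (star v)).rank ≤ 1 := by
  have : c • vecMulVec v (star v) = vecMulVec (c • v) (star v) := by
    ext i j
    simp only [Matrix.smul_apply, vecMulVec_apply, smul_eq_mul, Pi.smul_apply]
    ring
  rw [this]
  exact rank_vecMulVec_le _ _

/-- Peeling off a product vector on Bob's side. -/
theorem peel (hr : r.PosSemidef) (hp : (pTrans r).PosSemidef) (y : B → ℂ)
    (h1 : (br y r).rank = 1) :
    ∃ (r' : Matrix (A × B) (A × B) ℂ) (G : Matrix B B ℂ),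
      r' = ((1 : Matrix A A ℂ) ⊗ₖ G) * r * ((1 : Matrix A A ℂ) ⊗ₖ G)ᴴ ∧ r'.PosSemidef ∧
        (pTrans r').PosSemidef ∧ r'.rank + 1 = r.rank ∧
        (redB r).rank ≤ (redB r').rank + 1 ∧ (IsSep r' → IsSep r) := by
  obtain ⟨g, v, r', e1, e2, e3, e4, e5⟩ := SPLw hr hp y h1
  have hy : dp y v ≠ 0 := by
    intro h0
    have h2 : br y r = 0 := by
      have h3 : r' * (Wb y : Matrix (A × B) A ℂ) = 0 := by
        refine Matrix.ext_of_mulVec_single fun i => ?_
        rw [← mulVec_mulVec, Wb_mulVec, e5, zero_mulVec]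
      have h4 : (vecMulVec g (star g) ⊗ₖ vecMulVec v (star v)) *
          (Wb y : Matrix (A × B) A ℂ) = 0 := by
        rw [kron_Wb, vecMulVec_mulVec]
        have : star v ⬝ᵥ y = 0 := dp_zero_symm h0
        rw [this, MulOpposite.op_zero, zero_smul]
        have h5 : (Wb (0 : B → ℂ) : Matrix (A × B) A ℂ) = 0 := by
          ext p q
          simp [Wb]
        rw [h5, Matrix.zero_mul]
      rw [br_Wb, Matrix.mul_assoc, e1, Matrix.add_mul, h3, h4, add_zero, Matrix.mul_zero]
    rw [h2, rank_zero] at h1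
    exact zero_ne_one h1
  obtain ⟨G, hG⟩ : ∃ G : Matrix B B ℂ, G = 1 - (dp y v)⁻¹ • vecMulVec v (star y) := ⟨_, rfl⟩
  have hGv : G *ᵥ v = 0 := by
    rw [hG, sub_mulVec, one_mulVec, smul_mulVec, vecMulVec_mulVec]
    have : (dp y v)⁻¹ • (MulOpposite.op (star y ⬝ᵥ v) • v) = v := by
      ext i
      simp only [Pi.smul_apply, MulOpposite.smul_eq_mul_unop, MulOpposite.unop_op, smul_eq_mul]
      have h2 : star y ⬝ᵥ v = dp y v := rfl
      rw [h2]
      field_simp
    rw [this, sub_self]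
  have hry : redB r' *ᵥ y = 0 := (trA_ker e2 y).mpr fun x => blc_right (e5 x) x
  have hQ : vecMulVec v (star y) * redB r' = 0 := by
    rw [vecMulVec_mul]
    have h2 : star y ᵥ* redB r' = 0 := by
      have h3 := congrArg star hry
      rw [star_mulVec, (redB_psd e2).1.eq, star_zero] at h3
      exact h3
    rw [h2]
    ext i j
    simp [vecMulVec_apply]
  have hGr : ((1 : Matrix A A ℂ) ⊗ₖ G) * r' = r' := by
    have h2 := one_kron_mul_of_red (A := A) e2 _ hQ
    have h3 : (1 : Matrix A A ℂ) ⊗ₖ G = 1 - (dp y v)⁻¹ • ((1 : Matrix A A ℂ) ⊗ₖ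
        vecMulVec v (star y)) := by
      rw [hG, sub_kron, kronecker_smul]
    rw [h3, Matrix.sub_mul, Matrix.one_mul, Matrix.smul_mul, h2, smul_zero, sub_zero]
  refine ⟨r', G, ?_, e2, e3, e4, ?_, fun hs => ?_⟩
  · have h2 : ((1 : Matrix A A ℂ) ⊗ₖ G) * (vecMulVec g (star g) ⊗ₖ vecMulVec v (star v)) = 0 := by
      rw [← mul_kronecker_mul, mul_vecMulVec G, hGv]
      ext p q
      simp [vecMulVec_apply]
    rw [e1, Matrix.mul_add, h2, zero_add, hGr]
    have h3 := congrArg conjTranspose hGr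
    rw [conjTranspose_mul, e2.1.eq] at h3
    exact h3.symm
  · have h2 : redB r = (vecMulVec g (star g)).trace • vecMulVec v (star v) + redB r' := by
      rw [← redB_kron, ← redB_add, ← e1]
    rw [h2]
    refine (rank_add_le' _ _).trans ?_
    rw [add_comm]
    exact Nat.add_le_add_left (rank_vmv_le _ _) _
  · rw [e1]
    exact Q.isSep_add (Q.isSep_kron (posSemidef_vecMulVec_self_star _)
      (posSemidef_vecMulVec_self_star _)) hs

theorem rank_lt_of_ker {m : ℕ} {M : Matrix (Fin m) (Fin m) ℂ} {y : Fin m → ℂ} (hy : y ≠ 0)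
    (h : M *ᵥ y = 0) : M.rank < m := by
  have h1 := LinearMap.finrank_range_add_finrank_ker M.mulVecLin
  have h2 : 0 < Module.finrank ℂ (LinearMap.ker M.mulVecLin) := by
    rw [Module.finrank_pos_iff]
    exact ⟨⟨y, h⟩, 0, fun h3 => hy (congrArg Subtype.val h3)⟩
  rw [Module.finrank_fin_fun] at h1
  rw [Matrix.rank]
  omega

/-- A vector of the support whose compression is singular. -/
theorem exists_a (hr : r.PosSemidef) (hrk : r.rank = (redB r).rank + 1)
    (hA : 3 ≤ (redA r).rank) : ∃ a : A → ℂ, bl a r ≠ 0 ∧ (bl a r).rank < (redB r).rank := by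
  obtain ⟨V, v1, v2, v3⟩ := exists_iso (redA_psd hr)
  obtain ⟨W, w1, w2, w3⟩ := exists_iso (redB_psd hr)
  have hU := exists_iso hr
  rw [hrk] at hU
  obtain ⟨U, u1, u2, u3⟩ := hU
  have hB : 0 < (redB r).rank := by
    by_contra h0
    have h1 : (redB r).rank = 0 := by omega
    rw [Matrix.rank, Submodule.finrank_eq_zero, LinearMap.range_eq_bot] at h1
    have h2 : redB r = 0 := by
      refine Matrix.ext_of_mulVec_single fun i => ?_
      rw [zero_mulVec]
      exact LinearMap.congr_fun h1 _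
    have h3 : ((1 : Matrix A A ℂ) ⊗ₖ (1 : Matrix B B ℂ)) * r = 0 :=
      one_kron_mul_of_red hr 1 (by rw [h2, Matrix.mul_zero])
    rw [one_kronecker_one, Matrix.one_mul] at h3
    rw [h3, rank_zero] at hrk
    omega
  obtain ⟨z, hz, y, hy, hzy⟩ := exists_sing (redB r).rank
    (fun i => Uᴴ * r * (Va (V *ᵥ Pi.single (Fin.castLE hA i) 1) : Matrix (A × B) B ℂ) * W) hB
  obtain ⟨z', hz'⟩ : ∃ z' : Fin (redA r).rank → ℂ, z' = ∑ i, z i • Pi.single (Fin.castLE hA i) 1 :=
    ⟨_, rfl⟩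
  have hz0 : z' ≠ 0 := by
    intro h0
    apply hz
    ext i
    have h1 := congrFun h0 (Fin.castLE hA i)
    rw [hz', Finset.sum_apply, Finset.sum_eq_single i] at h1
    · rw [Pi.smul_apply, Pi.single_eq_same, smul_eq_mul, mul_one] at h1
      exact h1
    · intro k _ hk
      rw [Pi.smul_apply, Pi.single_eq_of_ne, smul_zero]
      intro h2
      exact hk (Fin.castLE_injective hA h2).symm
    · intro h; exact absurd (Finset.mem_univ i) h
  obtain ⟨a, ha⟩ : ∃ a, a = V *ᵥ z' := ⟨_, rfl⟩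
  have hVa : (Va a : Matrix (A × B) B ℂ) =
      ∑ i, z i • Va (V *ᵥ Pi.single (Fin.castLE hA i) 1) := by
    ext p q
    rw [Matrix.sum_apply]
    simp only [Matrix.smul_apply, Va, smul_eq_mul]
    by_cases h : p.2 = q
    · simp only [if_pos h]
      rw [ha, hz', mulVec_sum, Finset.sum_apply]
      refine Finset.sum_congr rfl fun i _ => ?_
      rw [mulVec_smul, Pi.smul_apply, smul_eq_mul]
    · simp only [if_neg h, mul_zero, Finset.sum_const_zero]
  have hk : r *ᵥ prodVec a (W *ᵥ y) = 0 := by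
    have h1 : (Uᴴ * r * (Va a : Matrix (A × B) B ℂ) * W) *ᵥ y = 0 := by
      rw [← hzy, hVa, Matrix.mul_sum, Matrix.sum_mul]
      congr 1
      refine Finset.sum_congr rfl fun i _ => ?_
      rw [Matrix.mul_smul, Matrix.smul_mul]
    have h2 : Uᴴ *ᵥ (r *ᵥ prodVec a (W *ᵥ y)) = 0 := by
      rw [← Va_mulVec]
      simp only [mulVec_mulVec]
      rw [← Matrix.mul_assoc, ← Matrix.mul_assoc]
      exact h1
    have h3 : r *ᵥ prodVec a (W *ᵥ y) = (U * Uᴴ * r) *ᵥ prodVec a (W *ᵥ y) := by rw [u2]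
    rw [h3, ← mulVec_mulVec, ← mulVec_mulVec, h2, mulVec_zero]
  have hkB : bl a r *ᵥ (W *ᵥ y) = 0 := blc_right hk a
  refine ⟨a, fun h0 => ?_, ?_⟩
  · have h1 : r * (Va a : Matrix (A × B) B ℂ) = 0 := by
      refine Matrix.ext_of_mulVec_single fun i => ?_
      rw [← mulVec_mulVec, Va_mulVec, zero_mulVec]
      exact kill hr (by rw [h0, zero_mulVec])
    have h2 : redA r *ᵥ a = 0 := by
      ext j
      rw [mulVec, dotProduct, Pi.zero_apply]
      simp only [redA, Finset.sum_mul]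
      rw [Finset.sum_comm]
      refine Finset.sum_eq_zero fun s _ => ?_
      have h3 := congrFun (congrFun h1 (j, s)) s
      rw [Matrix.zero_apply] at h3
      have h4 := mul_Va (a := a) r (j, s) s
      rw [rv, h3] at h4
      exact h4.symm
    have h3 := v3 a h2
    rw [ha, mulVec_mulVec, v1, one_mulVec] at h3
    exact hz0 h3
  · have h1 : bl a r * (1 - W * Wᴴ) = 0 := by
      refine Matrix.ext_of_mulVec_single fun i => ?_
      rw [← mulVec_mulVec, zero_mulVec]
      refine (trA_ker hr _).mp ?_ a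
      have h2 : redB r * (1 - W * Wᴴ) = 0 := by
        have h3 := congrArg conjTranspose w2
        rw [conjTranspose_mul, conjTranspose_mul, conjTranspose_conjTranspose,
          (redB_psd hr).1.eq] at h3
        rw [Matrix.mul_sub, Matrix.mul_one, h3, sub_self]
      change redB r *ᵥ _ = 0
      rw [mulVec_mulVec, h2, zero_mulVec]
    have hWh : (1 - W * Wᴴ)ᴴ = 1 - W * Wᴴ := by
      rw [conjTranspose_sub, conjTranspose_one, conjTranspose_mul, conjTranspose_conjTranspose]
    have h2 : (1 - W * Wᴴ) * bl a r = 0 := by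
      have h3 := congrArg conjTranspose h1
      rw [conjTranspose_mul, hWh, (bl_psd hr a).1.eq, conjTranspose_zero] at h3
      exact h3
    have h3 : bl a r = W * (Wᴴ * bl a r * W) * Wᴴ := by
      rw [Matrix.mul_sub, Matrix.mul_one, sub_eq_zero] at h1
      rw [Matrix.sub_mul, Matrix.one_mul, sub_eq_zero] at h2
      calc bl a r = bl a r * (W * Wᴴ) := h1
        _ = (W * Wᴴ * bl a r) * (W * Wᴴ) := by rw [← h2]
        _ = _ := by simp only [Matrix.mul_assoc]
    have h4 : (Wᴴ * bl a r * W) *ᵥ y = 0 := by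
      rw [Matrix.mul_assoc, ← mulVec_mulVec, ← mulVec_mulVec, hkB, mulVec_zero]
    calc (bl a r).rank = (W * (Wᴴ * bl a r * W) * Wᴴ).rank := by rw [← h3]
      _ ≤ (W * (Wᴴ * bl a r * W)).rank := rank_mul_le_left _ _
      _ ≤ (Wᴴ * bl a r * W).rank := rank_mul_le_right _ _
      _ < _ := rank_lt_of_ker hy h4

end Vale.Agent.P372.R4
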