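import Vale.Agent.P372.TestDefs
import Mathlib.RingTheory.Ideal.KrullsHeightTheorem
import Mathlib.RingTheory.Nullstellensatz

/-!
A linear map on `ℂ^A ⊗ ℂ^B` of rank at most `|A| + |B| - 2` kills a nonzero product vector.
The cone of the product vectors has dimension `|A| + |B| - 1` (chain of primes), Krull's height
theorem.
-/

set_option linter.unusedSectionVars false

namespace Vale.Agent.P372.R4

open MvPolynomial

section Segre

open scoped Classical

variable {A B : Type} [Fintype A] [Fintype B]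

/-- the ring map `X (i, j) ↦ x i * y j` -/
noncomputable def seg (A B : Type) : MvPolynomial (A × B) ℂ →ₐ[ℂ] MvPolynomial (A ⊕ B) ℂ :=
  aeval fun p => X (Sum.inl p.1) * X (Sum.inr p.2)

theorem seg_X (p : A × B) : seg A B (X p) = X (Sum.inl p.1) * X (Sum.inr p.2) := by
  rw [seg, aeval_X]

/-- kill the variables in `W` -/
noncomputable def killW (W : Finset (A ⊕ B)) :
    MvPolynomial (A ⊕ B) ℂ →ₐ[ℂ] MvPolynomial (A ⊕ B) ℂ :=
  aeval fun v => if v ∈ W then 0 else X v

theorem killW_X (W : Finset (A ⊕ B)) (v : A ⊕ B) :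
    killW W (X v) = if v ∈ W then 0 else X v := by
  rw [killW, aeval_X]

theorem killW_comp {W W' : Finset (A ⊕ B)} (h : W ⊆ W') (f : MvPolynomial (A ⊕ B) ℂ) :
    killW W' (killW W f) = killW W' f := by
  have h1 : (killW W').comp (killW W) = killW W' := by
    ext1 v
    rw [AlgHom.comp_apply, killW_X, killW_X]
    by_cases hv : v ∈ W
    · rw [if_pos hv, if_pos (h hv), map_zero]
    · rw [if_neg hv, killW_X]
  exact DFunLike.congr_fun h1 f

/-- the prime of the Segre ring given by killing the variables in `W` -/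
noncomputable def KW (W : Finset (A ⊕ B)) : Ideal (seg A B).range :=
  RingHom.ker ((killW W).comp (seg A B).range.val)

instance (W : Finset (A ⊕ B)) : (KW W).IsPrime := RingHom.ker_isPrime _

theorem mem_KW {W : Finset (A ⊕ B)} {s : (seg A B).range} :
    s ∈ KW W ↔ killW W (s : MvPolynomial (A ⊕ B) ℂ) = 0 := by
  rw [KW, RingHom.mem_ker]
  rfl

/-- the product of two variables in the Segre ring -/
noncomputable def el (i : A) (j : B) : (seg A B).range :=
  ⟨X (Sum.inl i) * X (Sum.inr j), X (i, j), seg_X (i, j)⟩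

theorem el_mem {W : Finset (A ⊕ B)} {i : A} {j : B} :
    el i j ∈ KW W ↔ Sum.inl i ∈ W ∨ Sum.inr j ∈ W := by
  rw [mem_KW]
  show killW W (X (Sum.inl i) * X (Sum.inr j)) = 0 ↔ _
  rw [map_mul, killW_X, killW_X]
  by_cases h1 : (Sum.inl i : A ⊕ B) ∈ W
  · rw [if_pos h1, zero_mul]
    simp [h1]
  · by_cases h2 : (Sum.inr j : A ⊕ B) ∈ W
    · rw [if_pos h2, mul_zero]
      simp [h2]
    · rw [if_neg h1, if_neg h2]
      simp only [h1, h2, or_self, iff_false]
      exact mul_ne_zero (X_ne_zero _) (X_ne_zero _)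

theorem KW_mono {W W' : Finset (A ⊕ B)} (h : W ⊆ W') : KW W ≤ KW W' := by
  intro s hs
  rw [mem_KW] at hs ⊢
  rw [← killW_comp h, hs, map_zero]

theorem KW_lt {W W' : Finset (A ⊕ B)} (h : W ⊆ W') {i : A} {j : B}
    (h1 : Sum.inl i ∉ W) (h2 : Sum.inr j ∉ W) (h3 : Sum.inl i ∈ W' ∨ Sum.inr j ∈ W') :
    KW W < KW W' := by
  refine lt_of_le_of_ne (KW_mono h) fun heq => ?_
  have h4 : el i j ∈ KW W' := el_mem.2 h3
  rw [← heq, el_mem] at h4
  rcases h4 with h4 | h4
  · exact h1 h4
  · exact h2 h4

theorem height_KW (i0 : A) (j0 : B) (W : Finset (A ⊕ B)) (h1 : Sum.inl i0 ∉ W)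
    (h2 : Sum.inr j0 ∉ W) : (W.card : ℕ∞) ≤ (KW W).height := by
  induction W using Finset.induction_on with
  | empty => simp
  | insert v W hv ih =>
    rw [Finset.mem_insert, not_or] at h1 h2
    have hlt : KW W < KW (insert v W) := by
      rcases v with i | j
      · exact KW_lt (Finset.subset_insert _ _) (i := i) (j := j0) hv h2.2
          (Or.inl (Finset.mem_insert_self _ _))
      · exact KW_lt (Finset.subset_insert _ _) (i := i0) (j := j) h1.2 hv
          (Or.inr (Finset.mem_insert_self _ _))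
    have h3 := Ideal.height_add_one_le_of_lt_of_isPrime hlt
    rw [Finset.card_insert_of_notMem hv]
    refine le_trans ?_ h3
    push_cast
    gcongr
    exact ih h1.2 h2.2

theorem height_top (i0 : A) (j0 : B) :
    ((Fintype.card A + Fintype.card B - 1 : ℕ) : ℕ∞) ≤
      (KW (Finset.univ : Finset (A ⊕ B))).height := by
  set W : Finset (A ⊕ B) := (Finset.univ.erase (Sum.inl i0)).erase (Sum.inr j0) with hW
  have h1 : Sum.inl i0 ∉ W := by simp [hW]
  have h2 : Sum.inr j0 ∉ W := by simp [hW]
  have h3 := height_KW i0 j0 W h1 h2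
  have hlt : KW W < KW (Finset.univ : Finset (A ⊕ B)) :=
    KW_lt (Finset.subset_univ _) h1 h2 (Or.inl (Finset.mem_univ _))
  have h4 := Ideal.height_add_one_le_of_lt_of_isPrime hlt
  have hc : W.card = Fintype.card A + Fintype.card B - 2 := by
    rw [hW, Finset.card_erase_of_mem (by simp), Finset.card_erase_of_mem (Finset.mem_univ _),
      Finset.card_univ, Fintype.card_sum]
    omega
  have hA : 0 < Fintype.card A := Fintype.card_pos_iff.2 ⟨i0⟩
  have hB : 0 < Fintype.card B := Fintype.card_pos_iff.2 ⟨j0⟩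
  have hn : Fintype.card A + Fintype.card B - 1 = W.card + 1 := by omega
  rw [hn]
  refine le_trans ?_ h4
  push_cast
  gcongr

theorem kill_seg (g : MvPolynomial (A × B) ℂ) :
    killW (Finset.univ : Finset (A ⊕ B)) (seg A B g) = C (aeval (0 : A × B → ℂ) g) := by
  have h : (killW (Finset.univ : Finset (A ⊕ B))).comp (seg A B) =
      (Algebra.ofId ℂ (MvPolynomial (A ⊕ B) ℂ)).comp (aeval (0 : A × B → ℂ)) := by
    ext1 p
    rw [AlgHom.comp_apply, AlgHom.comp_apply, seg_X, map_mul, killW_X, aeval_X,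
      if_pos (Finset.mem_univ _), zero_mul, Pi.zero_apply, map_zero]
  exact DFunLike.congr_fun h g

theorem rank_one_vec {z : A × B → ℂ}
    (h : ∀ i k j l, z (i, j) * z (k, l) = z (i, l) * z (k, j)) (hz : z ≠ 0) :
    ∃ (a : A → ℂ) (b : B → ℂ), a ≠ 0 ∧ b ≠ 0 ∧ z = prodVec a b := by
  obtain ⟨⟨i0, j0⟩, h0⟩ := Function.ne_iff.1 hz
  rw [Pi.zero_apply] at h0
  refine ⟨fun i => z (i, j0), fun j => z (i0, j) / z (i0, j0), ?_, ?_, ?_⟩
  · exact fun h1 => h0 (congrFun h1 i0)
  · intro h1
    have h2 := congrFun h1 j0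
    simp only [Pi.zero_apply, div_self h0] at h2
    exact one_ne_zero h2
  · funext ⟨i, j⟩
    show z (i, j) = z (i, j0) * (z (i0, j) / z (i0, j0))
    rw [← mul_div_assoc, eq_div_iff h0, h i i0 j j0]

/-- **Hopf's theorem** (Segre varieties): a linear map of rank at most `|A| + |B| - 2` kills a
nonzero product vector. -/
theorem hopf {F : Type} [AddCommGroup F] [Module ℂ F] [FiniteDimensional ℂ F] [Nonempty A]
    [Nonempty B] (L : (A × B → ℂ) →ₗ[ℂ] F)
    (h : Module.finrank ℂ F + 2 ≤ Fintype.card A + Fintype.card B) :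
    ∃ (a : A → ℂ) (b : B → ℂ), a ≠ 0 ∧ b ≠ 0 ∧ L (prodVec a b) = 0 := by
  by_contra hcon
  push Not at hcon
  obtain ⟨i0⟩ := ‹Nonempty A›
  obtain ⟨j0⟩ := ‹Nonempty B›
  set e := Module.finBasis ℂ F with he
  set f : Fin (Module.finrank ℂ F) → MvPolynomial (A × B) ℂ := fun k =>
    ∑ p : A × B, C (e.repr (L (Pi.single p 1)) k) * X p with hf
  have hfe : ∀ (k) (z : A × B → ℂ), aeval z (f k) = e.repr (L z) k := by
    intro k z
    have hz : z = ∑ p : A × B, z p • (Pi.single p 1 : A × B → ℂ) := by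
      funext x
      rw [Finset.sum_apply, Finset.sum_eq_single x]
      · simp
      · intro y _ hy
        simp [Pi.single_eq_of_ne hy.symm]
      · intro hx
        exact absurd (Finset.mem_univ x) hx
    have h1 : e.repr (L z) k = ∑ p : A × B, z p * e.repr (L (Pi.single p 1)) k := by
      conv_lhs => rw [hz]
      simp only [map_sum, map_smul, Finsupp.coe_finsetSum, Finset.sum_apply, Finsupp.coe_smul,
        Pi.smul_apply, smul_eq_mul]
    rw [h1, hf]
    simp only [map_sum, map_mul, aeval_X, algHom_C, Algebra.algebraMap_self, RingHom.id_apply]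
    exact Finset.sum_congr rfl fun p _ => mul_comm _ _
  set π : MvPolynomial (A × B) ℂ →+* (seg A B).range := (seg A B).rangeRestrict.toRingHom with hπ
  have hπv : ∀ g, ((π g : (seg A B).range) : MvPolynomial (A ⊕ B) ℂ) = seg A B g := fun g => rfl
  have hsurj : Function.Surjective π := (seg A B).rangeRestrict_surjective
  set m0 : Ideal (MvPolynomial (A × B) ℂ) := vanishingIdeal ℂ {(0 : A × B → ℂ)} with hm0
  have hm0mem : ∀ g, g ∈ m0 ↔ aeval (0 : A × B → ℂ) g = 0 := fun g => by
    rw [hm0, mem_vanishingIdeal_singleton_iff]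
  set I : Ideal (MvPolynomial (A × B) ℂ) := Ideal.span (Set.range f) ⊔ RingHom.ker π with hI
  have hIm : I ≤ m0 := by
    refine sup_le ?_ ?_
    · rw [Ideal.span_le]
      rintro _ ⟨k, rfl⟩
      rw [SetLike.mem_coe, hm0mem, hfe, map_zero, map_zero, Finsupp.zero_apply]
    · intro g hg
      rw [RingHom.mem_ker] at hg
      rw [hm0mem]
      have h1 : seg A B g = 0 := by rw [← hπv, hg]; rfl
      have h2 := kill_seg g
      rw [h1, map_zero] at h2
      exact (C_injective (A ⊕ B) ℂ) (by rw [← h2, map_zero])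
  have hz : zeroLocus ℂ I = {(0 : A × B → ℂ)} := by
    ext z
    rw [mem_zeroLocus_iff, Set.mem_singleton_iff]
    constructor
    · intro hz
      by_contra hne
      have h1 : ∀ i k j l, z (i, j) * z (k, l) = z (i, l) * z (k, j) := by
        intro i k j l
        have h2 : (X (i, j) * X (k, l) - X (i, l) * X (k, j) : MvPolynomial (A × B) ℂ) ∈ I := by
          refine Ideal.mem_sup_right ?_
          rw [RingHom.mem_ker]
          apply Subtype.ext
          rw [hπv, map_sub, map_mul, map_mul, seg_X, seg_X, seg_X, seg_X]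
          show _ = (0 : MvPolynomial (A ⊕ B) ℂ)
          ring
        have h3 := hz _ h2
        rw [map_sub, map_mul, map_mul, aeval_X, aeval_X, aeval_X, aeval_X] at h3
        exact sub_eq_zero.1 h3
      obtain ⟨a, b, ha, hb, hab⟩ := rank_one_vec h1 hne
      refine hcon a b ha hb ?_
      rw [← hab]
      have h4 : e.repr (L z) = 0 := by
        ext k
        rw [← hfe]
        exact hz _ (Ideal.mem_sup_left (Ideal.subset_span ⟨k, rfl⟩))
      exact (LinearEquiv.map_eq_zero_iff e.repr).1 h4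
    · rintro rfl g hg
      exact (hm0mem g).1 (hIm hg)
  have hrad : m0 = I.radical := by
    rw [hm0, ← hz, vanishingIdeal_zeroLocus_eq_radical]
  have hmin : m0 ∈ I.minimalPrimes := by
    refine ⟨⟨inferInstance, hIm⟩, ?_⟩
    rintro J ⟨hJ, hIJ⟩ -
    change m0 ≤ J
    rw [hrad]
    exact hJ.radical_le_iff.2 hIJ
  have hmin2 : Ideal.map π m0 ∈ (Ideal.map π (Ideal.span (Set.range f))).minimalPrimes := by
    rw [Ideal.minimalPrimes_map_of_surjective hsurj]
    exact ⟨m0, hmin, rfl⟩
  rw [Ideal.map_span] at hmin2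
  have : IsNoetherianRing (seg A B).range := isNoetherianRing_of_surjective _ _ π hsurj
  have h1 := Ideal.height_le_card_of_mem_minimalPrimes_span
    ((Set.finite_range f).image π) hmin2
  have hle : KW (Finset.univ : Finset (A ⊕ B)) ≤ Ideal.map π m0 := by
    intro s hs
    obtain ⟨g, rfl⟩ := hsurj s
    refine Ideal.mem_map_of_mem π ?_
    rw [mem_KW, hπv, kill_seg] at hs
    rw [hm0mem]
    exact (C_injective (A ⊕ B) ℂ) (by rw [hs, map_zero])
  have h2 := (height_top i0 j0).trans ((Ideal.height_mono hle).trans h1)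
  have h3 : (π '' Set.range f).ncard ≤ Module.finrank ℂ F := by
    rw [← Set.image_univ, ← Set.image_comp]
    refine (Set.ncard_image_le Set.finite_univ).trans ?_
    simp only [Set.ncard_univ, Nat.card_eq_fintype_card, Fintype.card_fin, le_refl]
  have h4 : Fintype.card A + Fintype.card B - 1 ≤ Module.finrank ℂ F :=
    le_trans (by exact_mod_cast h2) h3
  omega

end Segre

end Vale.Agent.P372.R4
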