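import Vale.Agent.P372.R4.Sub
import Mathlib.LinearAlgebra.Eigenspace.Triangularizable

/-! Matrix algebra for the theorem without positivity of the partial transpose. -/

open Matrix
open scoped ComplexOrder

set_option linter.unusedSectionVars false

namespace Vale.Agent.P372.R4.J2

variable {n : Type} [Fintype n] [DecidableEq n]

/-- The largest subspace mapped onto itself by `Mᴴ`. -/
def core (M : Matrix n n ℂ) : Submodule ℂ (n → ℂ) :=
  sSup {V | V.map Mᴴ.mulVecLin = V}

theorem le_core {M : Matrix n n ℂ} {V : Submodule ℂ (n → ℂ)} (h : V.map Mᴴ.mulVecLin = V) :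
    V ≤ core M := le_sSup h

theorem map_core (M : Matrix n n ℂ) : (core M).map Mᴴ.mulVecLin = core M := by
  apply le_antisymm
  · rw [core, Submodule.map_le_iff_le_comap]
    refine sSup_le fun V hV => ?_
    rw [← Submodule.map_le_iff_le_comap]
    have h1 : V.map Mᴴ.mulVecLin = V := hV
    rw [h1]
    exact le_sSup hV
  · conv_lhs => rw [core]
    refine sSup_le fun V hV => ?_
    have h1 : V.map Mᴴ.mulVecLin = V := hV
    rw [← h1]
    exact Submodule.map_mono (le_sSup hV)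

theorem core_inj {M : Matrix n n ℂ} {v : n → ℂ} (hv : v ∈ core M) (h : Mᴴ *ᵥ v = 0) : v = 0 := by
  have h1 : ∀ w ∈ core M, Mᴴ.mulVecLin w ∈ core M := by
    intro w hw
    rw [← map_core M]
    exact Submodule.mem_map_of_mem hw
  have h2 : Function.Surjective (Mᴴ.mulVecLin.restrict h1) := by
    rintro ⟨w, hw⟩
    rw [← map_core M] at hw
    obtain ⟨z, hz, hz1⟩ := hw
    exact ⟨⟨z, hz⟩, Subtype.ext hz1⟩
  have h3 := LinearMap.injective_iff_surjective.mpr h2
  have h4 : (⟨v, hv⟩ : core M) = 0 := by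
    apply h3
    apply Subtype.ext
    simpa using h
  exact congrArg Subtype.val h4

/-- If `M` lives on its core, then the kernel of `Mᴴ` is killed by `M`. -/
theorem ker_of_core {M E : Matrix n n ℂ} (hE : Eᴴ = E) (h1 : ∀ v ∈ core M, E *ᵥ v = v)
    (h2 : ∀ v, E *ᵥ v ∈ core M) (h : M = E * M * E) {v : n → ℂ} (hv : Mᴴ *ᵥ v = 0) :
    M *ᵥ v = 0 := by
  have h3 : Mᴴ = E * Mᴴ * E := by
    conv_lhs => rw [h]
    rw [conjTranspose_mul, conjTranspose_mul, hE, Matrix.mul_assoc]
  have h4 : Mᴴ *ᵥ (E *ᵥ v) ∈ core M := by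
    rw [← map_core M]
    exact Submodule.mem_map_of_mem (f := Mᴴ.mulVecLin) (h2 v)
  have h5 : Mᴴ *ᵥ (E *ᵥ v) = 0 := by
    rw [← h1 _ h4, mulVec_mulVec, mulVec_mulVec, ← h3, hv]
  have h6 := core_inj (h2 v) h5
  rw [h, ← mulVec_mulVec, h6, mulVec_zero]

/-- The operator on Bob's side. -/
theorem exists_Y {M E : Matrix n n ℂ} (hE : Eᴴ = E) (hEE : E * E = E) (h : M ≠ E * M * E) :
    ∃ (c : ℂ) (Y : Matrix n n ℂ), Y.IsHermitian ∧ E * Y * E = 0 ∧
      0 < ((c • M + (c • M)ᴴ) * Y).trace.re := by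
  have key : ∀ W : Matrix n n ℂ, Wᴴ = W → W - E * W * E ≠ 0 →
      ∃ Y : Matrix n n ℂ, Y.IsHermitian ∧ E * Y * E = 0 ∧ 0 < (W * Y).trace.re := by
    intro W hW hY
    obtain ⟨Y, hYd⟩ : ∃ Y, Y = W - E * W * E := ⟨_, rfl⟩
    rw [← hYd] at hY
    have hYh : Yᴴ = Y := by
      rw [hYd, conjTranspose_sub, conjTranspose_mul, conjTranspose_mul, hE, hW, Matrix.mul_assoc]
    have hEY : E * Y * E = 0 := by
      rw [hYd, Matrix.mul_sub, Matrix.sub_mul, sub_eq_zero]
      calc E * W * E = (E * E) * W * (E * E) := by rw [hEE]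
        _ = _ := by simp only [Matrix.mul_assoc]
    refine ⟨Y, hYh, hEY, ?_⟩
    have e1 : (W * Y).trace = (Yᴴ * Y).trace := by
      have e2 : W = Y + E * W * E := by rw [hYd]; abel
      have e3 : (E * W * E * Y).trace = 0 := by
        have : E * W * E * Y = E * (W * E * Y) := by simp only [Matrix.mul_assoc]
        rw [this, trace_mul_comm]
        have : W * E * Y * E = W * (E * Y * E) := by simp only [Matrix.mul_assoc]
        rw [this, hEY, Matrix.mul_zero, trace_zero]
      conv_lhs => rw [e2]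
      rw [Matrix.add_mul, trace_add, e3, add_zero, hYh]
    rw [e1]
    have e5 : 0 ≤ (Yᴴ * Y).trace := trace_nonneg' _
    have e6 : (Yᴴ * Y).trace ≠ 0 := fun h0 => hY (mul_zero_of_trace h0)
    have e7 : 0 < (Yᴴ * Y).trace := lt_of_le_of_ne e5 (Ne.symm e6)
    exact (Complex.lt_def.mp e7).1
  have hW : ∀ c : ℂ, (c • M + (c • M)ᴴ)ᴴ = c • M + (c • M)ᴴ := by
    intro c
    rw [conjTranspose_add, conjTranspose_conjTranspose, add_comm]
  by_cases h1 : ((1 : ℂ) • M + ((1 : ℂ) • M)ᴴ) - E * ((1 : ℂ) • M + ((1 : ℂ) • M)ᴴ) * E = 0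
  · by_cases h2 : (Complex.I • M + (Complex.I • M)ᴴ) - E * (Complex.I • M + (Complex.I • M)ᴴ) * E
        = 0
    · exfalso
      apply h
      rw [one_smul, Matrix.mul_add, Matrix.add_mul] at h1
      rw [conjTranspose_smul, Complex.star_def, Complex.conj_I, neg_smul, Matrix.mul_add,
        Matrix.add_mul, Matrix.mul_neg, Matrix.neg_mul, Matrix.mul_smul, Matrix.smul_mul,
        Matrix.mul_smul, Matrix.smul_mul] at h2
      have h3 : Complex.I • ((M - E * M * E) - (Mᴴ - E * Mᴴ * E)) = 0 := by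
        rw [← h2]
        simp only [smul_sub]
        abel
      have h4 : (M - E * M * E) - (Mᴴ - E * Mᴴ * E) = 0 :=
        (smul_eq_zero.mp h3).resolve_left Complex.I_ne_zero
      have h5 : (M - E * M * E) + (Mᴴ - E * Mᴴ * E) = 0 := by
        rw [← h1]
        abel
      have h6 : (2 : ℂ) • (M - E * M * E) = 0 := by
        rw [two_smul]
        calc (M - E * M * E) + (M - E * M * E) = ((M - E * M * E) - (Mᴴ - E * Mᴴ * E)) +
              ((M - E * M * E) + (Mᴴ - E * Mᴴ * E)) := by abel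
          _ = 0 := by rw [h4, h5, add_zero]
      exact sub_eq_zero.mp ((smul_eq_zero.mp h6).resolve_left two_ne_zero)
    · obtain ⟨Y, y1, y2, y3⟩ := key _ (hW _) h2
      exact ⟨_, Y, y1, y2, y3⟩
  · obtain ⟨Y, y1, y2, y3⟩ := key _ (hW _) h1
    exact ⟨_, Y, y1, y2, y3⟩

/-- A matrix all of whose eigenvectors are eigenvectors of its adjoint is normal. -/
theorem normal_of_eig {N : Matrix n n ℂ}
    (h : ∀ (μ : ℂ) (v : n → ℂ), N *ᵥ v = μ • v → Nᴴ *ᵥ v = star μ • v) : Nᴴ * N = N * Nᴴ := by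
  obtain ⟨W, hW⟩ : ∃ W : Submodule ℂ (n → ℂ), W = Submodule.span ℂ
    {v | ∃ μ : ℂ, N *ᵥ v = μ • v} := ⟨_, rfl⟩
  have h1 : ∀ w ∈ orth W, N *ᵥ w ∈ orth W := by
    intro w hw v hv
    rw [hW] at hv
    induction hv using Submodule.span_induction with
    | mem x hx =>
      obtain ⟨μ, hμ⟩ := hx
      rw [dp_mulVec, h μ x hμ, smul_dp]
      have : dp x w = 0 := hw x (by rw [hW]; exact Submodule.subset_span ⟨μ, hμ⟩)
      rw [this, mul_zero]
    | zero => rw [dp, star_zero, zero_dotProduct]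
    | add x y _ _ hx hy => rw [add_dp, hx, hy, add_zero]
    | smul c x _ hx => rw [smul_dp, hx, mul_zero]
  have h2 : orth W = ⊥ := by
    by_contra h0
    have : Nontrivial (orth W) := Submodule.nontrivial_iff_ne_bot.mpr h0
    obtain ⟨c, hc⟩ := Module.End.exists_eigenvalue (N.mulVecLin.restrict (p := orth W)
      (q := orth W) h1)
    obtain ⟨g, hg⟩ := hc.exists_hasEigenvector
    have hg1 : N *ᵥ g.1 = c • g.1 := congrArg Subtype.val hg.apply_eq_smul
    have hg0 : g.1 ≠ 0 := fun h0 => hg.2 (Subtype.ext h0)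
    have hgW : g.1 ∈ Submodule.span ℂ {v | ∃ μ : ℂ, N *ᵥ v = μ • v} :=
      Submodule.subset_span ⟨c, hg1⟩
    have hgW' : g.1 ∈ W := hW ▸ hgW
    exact hg0 (inf_orth hgW' g.2)
  have h3 := orth_bot h2
  refine Matrix.ext_of_mulVec_single fun i => ?_
  have h4 : ∀ v ∈ W, (Nᴴ * N) *ᵥ v = (N * Nᴴ) *ᵥ v := by
    intro v hv
    rw [hW] at hv
    induction hv using Submodule.span_induction with
    | mem x hx =>
      obtain ⟨μ, hμ⟩ := hx
      rw [← mulVec_mulVec, ← mulVec_mulVec, hμ, h μ x hμ, mulVec_smul, mulVec_smul, hμ, h μ x hμ,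
        smul_comm]
    | zero => rw [mulVec_zero, mulVec_zero]
    | add x y _ _ hx hy => rw [mulVec_add, mulVec_add, hx, hy]
    | smul c x _ hx => rw [mulVec_smul, mulVec_smul, hx]
  exact h4 _ (by rw [h3]; exact Submodule.mem_top)

/-- The pencil `C - λ P`. -/
theorem normal_of_pencil {C P : Matrix n n ℂ} (hP : Pᴴ = P)
    (hC : ∀ v, P *ᵥ v = 0 → Cᴴ *ᵥ v = 0) (hPP : P * P = P)
    (h : ∀ (c : ℂ) (v : n → ℂ), (C - c • P)ᴴ *ᵥ v = 0 → (C - c • P) *ᵥ v = 0) :
    Cᴴ * C = C * Cᴴ := by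
  have h0 : ∀ v, Cᴴ *ᵥ v = 0 → C *ᵥ v = 0 := by
    intro v hv
    have := h 0 v (by rwa [zero_smul, sub_zero])
    rwa [zero_smul, sub_zero] at this
  have h1 : C * P = C := by
    refine Matrix.ext_of_mulVec_single fun i => ?_
    have e1 : P *ᵥ (Pi.single i 1 - P *ᵥ Pi.single i 1) = 0 := by
      rw [mulVec_sub, mulVec_mulVec, hPP, sub_self]
    have e2 := h0 _ (hC _ e1)
    rw [mulVec_sub, sub_eq_zero, mulVec_mulVec] at e2
    exact e2.symm
  have h2 : P * Cᴴ = Cᴴ := by
    have := congrArg conjTranspose h1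
    rwa [conjTranspose_mul, hP] at this
  have h3 := normal_of_eig (N := Cᴴ) (fun μ v hv => by
    rw [conjTranspose_conjTranspose]
    by_cases hμ : μ = 0
    · rw [hμ, zero_smul] at hv
      rw [hμ, star_zero, zero_smul]
      exact h0 v hv
    · have e1 : P *ᵥ v = v := by
        have e2 : v = μ⁻¹ • (Cᴴ *ᵥ v) := by
          rw [hv, smul_smul, inv_mul_cancel₀ hμ, one_smul]
        rw [e2, mulVec_smul, mulVec_mulVec, h2]
      have e3 : (C - (star μ) • P)ᴴ *ᵥ v = 0 := by
        rw [conjTranspose_sub, conjTranspose_smul, star_star, hP, sub_mulVec, smul_mulVec, hv, e1,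
          sub_self]
      have e4 := h (star μ) v e3
      rw [sub_mulVec, smul_mulVec, e1, sub_eq_zero] at e4
      exact e4)
  rw [conjTranspose_conjTranspose] at h3
  exact h3.symm

/-- Polarisation. -/
theorem comm_of_normal {ι : Type} [Fintype ι] [DecidableEq ι] (C : ι → Matrix n n ℂ)
    (h : ∀ x : ι → ℂ, (∑ k, x k • C k)ᴴ * (∑ k, x k • C k) =
      (∑ k, x k • C k) * (∑ k, x k • C k)ᴴ) (i j : ι) : (C i)ᴴ * C j = C j * (C i)ᴴ := by
  have h1 : ∀ i, (C i)ᴴ * C i = C i * (C i)ᴴ := by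
    intro i
    have := h (Pi.single i 1)
    have e : ∑ k, (Pi.single i 1 : ι → ℂ) k • C k = C i := by
      rw [Finset.sum_eq_single i]
      · rw [Pi.single_eq_same, one_smul]
      · intro k _ hk
        rw [Pi.single_eq_of_ne hk, zero_smul]
      · intro hi; exact absurd (Finset.mem_univ i) hi
    rwa [e] at this
  have h2 : ∀ c : ℂ, (C i + c • C j)ᴴ * (C i + c • C j) = (C i + c • C j) * (C i + c • C j)ᴴ := by
    intro c
    have := h (Pi.single i 1 + c • Pi.single j 1)
    have e : ∑ k, (Pi.single i 1 + c • Pi.single j 1 : ι → ℂ) k • C k = C i + c • C j := by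
      simp only [Pi.add_apply, Pi.smul_apply, add_smul, Finset.sum_add_distrib, smul_eq_mul]
      congr 1
      · rw [Finset.sum_eq_single i]
        · rw [Pi.single_eq_same, one_smul]
        · intro k _ hk
          rw [Pi.single_eq_of_ne hk, zero_smul]
        · intro hi; exact absurd (Finset.mem_univ i) hi
      · rw [Finset.sum_eq_single j]
        · rw [Pi.single_eq_same, mul_one]
        · intro k _ hk
          rw [Pi.single_eq_of_ne hk, mul_zero, zero_smul]
        · intro hi; exact absurd (Finset.mem_univ j) hi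
    rwa [e] at this
  obtain ⟨X, hX⟩ : ∃ X, X = (C i)ᴴ * C j - C j * (C i)ᴴ := ⟨_, rfl⟩
  obtain ⟨Z, hZ⟩ : ∃ Z, Z = (C j)ᴴ * C i - C i * (C j)ᴴ := ⟨_, rfl⟩
  have h3 : ∀ c : ℂ, c • X + star c • Z = 0 := by
    intro c
    have := h2 c
    rw [conjTranspose_add, conjTranspose_smul] at this
    simp only [Matrix.add_mul, Matrix.mul_add, Matrix.smul_mul, Matrix.mul_smul] at this
    rw [h1 i, h1 j] at this
    simp only [smul_add, smul_smul, mul_comm c (star c)] at this
    rw [hX, hZ, smul_sub, smul_sub]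
    have h4 := sub_eq_zero.mpr this
    rw [← h4]
    abel
  have h4 : X + Z = 0 := by
    have := h3 1
    rwa [one_smul, star_one, one_smul] at this
  have h5 : X - Z = 0 := by
    have := h3 Complex.I
    rw [Complex.star_def, Complex.conj_I, neg_smul, ← sub_eq_add_neg, ← smul_sub] at this
    exact (smul_eq_zero.mp this).resolve_left Complex.I_ne_zero
  have h6 : (2 : ℂ) • X = 0 := by
    rw [two_smul]
    calc X + X = (X + Z) + (X - Z) := by abel
      _ = 0 := by rw [h4, h5, add_zero]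
  have h7 := (smul_eq_zero.mp h6).resolve_left two_ne_zero
  rw [hX, sub_eq_zero] at h7
  exact h7

end Vale.Agent.P372.R4.J2
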