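import Vale.Agent.P372.R4.Stuck

/-! An irreducible subspace gives the blinding criterion. -/

open Matrix Kronecker
open scoped ComplexOrder MatrixOrder

set_option linter.unusedSectionVars false

namespace Vale.Agent.P372.R4

open H750 UPB

variable {A B : Type} [Fintype A] [DecidableEq A] [Fintype B] [DecidableEq B]
  {r : Matrix (A × B) (A × B) ℂ} {a : A → ℂ} {b : B → ℂ}

theorem Cm_adj (hr : r.PosSemidef) (j : A) (v : B → ℂ) (s : B) :
    ((Cm a r j)ᴴ *ᵥ v) s = (r *ᵥ prodVec a v) (j, s) := by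
  rw [sum_prodVec, mulVec, dotProduct, Finset.sum_comm]
  refine Finset.sum_congr rfl fun t _ => ?_
  rw [conjTranspose_apply, Cm, star_sum, Finset.sum_mul]
  refine Finset.sum_congr rfl fun x _ => ?_
  rw [star_mul', star_star, herm_apply hr]
  ring

theorem dp_bl (v : B → ℂ) : dp (prodVec a v) (r *ᵥ prodVec a v) = dp v (bl a r *ᵥ v) := by
  have e : ∀ w : A × B → ℂ, dp (prodVec a v) w = dp v (ca a w) := fun w => ip_ca a v w
  rw [e]
  congr 1
  ext y
  rw [ca_apply, mulVec, dotProduct]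
  simp only [sum_prodVec, bl, Finset.mul_sum, Finset.sum_mul]
  have e2 : ∀ x : A, ∑ i : A, ∑ i_1 : B, star (a x) * (r (x, y) (i, i_1) * (a i * v i_1)) =
      ∑ i_1 : B, ∑ i : A, star (a x) * (r (x, y) (i, i_1) * (a i * v i_1)) :=
    fun x => Finset.sum_comm
  simp only [e2]
  rw [Finset.sum_comm]
  refine Finset.sum_congr rfl fun t _ => Finset.sum_congr rfl fun x _ =>
    Finset.sum_congr rfl fun i _ => ?_
  ring

theorem Cm_adj_zero (hr : r.PosSemidef) {v : B → ℂ} (hv : bl a r *ᵥ v = 0) (j : A) :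
    (Cm a r j)ᴴ *ᵥ v = 0 := by
  have h1 : r *ᵥ prodVec a v = 0 := by
    apply psd_mulVec_zero hr
    rw [dp_bl, hv, dp, dotProduct_zero]
  ext s
  rw [Cm_adj hr, h1]
  rfl

/-- A space all of whose vectors are common eigenvectors is a line. -/
theorem not_all_eig {V : Submodule ℂ (B → ℂ)} (h2 : 2 ≤ Module.finrank ℂ V)
    (hirr : ∀ U : Submodule ℂ (B → ℂ), Inv (Cm a r) U → U ≤ V → U = ⊥ ∨ U = V)
    (h : ∀ j, ∃ c : ℂ, ∀ v ∈ V, (Cm a r j)ᴴ *ᵥ v = c • v) : False := by
  have hV0 : V ≠ ⊥ := by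
    intro h0
    rw [h0, finrank_bot] at h2
    omega
  obtain ⟨f, hf, hf0⟩ := V.exists_mem_ne_zero_of_ne_bot hV0
  have hI : Inv (Cm a r) (Submodule.span ℂ {f}) := by
    intro j v hv
    obtain ⟨d, rfl⟩ := Submodule.mem_span_singleton.mp hv
    obtain ⟨c, hc⟩ := h j
    rw [mulVec_smul, hc f hf]
    exact Submodule.smul_mem _ _ (Submodule.smul_mem _ _ (Submodule.mem_span_singleton_self f))
  have hle : Submodule.span ℂ {f} ≤ V := by
    rw [Submodule.span_singleton_le_iff_mem]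
    exact hf
  rcases hirr _ hI hle with h1 | h1
  · rw [Submodule.span_singleton_eq_bot] at h1
    exact hf0 h1
  · have h3 := finrank_span_singleton (K := ℂ) hf0
    rw [h1] at h3
    omega

/-- The compression `⟨a| r |a⟩` is the identity on the irreducible subspace. -/
theorem bl_fix (hr : r.PosSemidef) (hP : bl a r * bl a r = bl a r)
    (hS : Star (Cm a r) (Dm b r)) {V : Submodule ℂ (B → ℂ)} (hV : Inv (Cm a r) V)
    (h2 : 2 ≤ Module.finrank ℂ V)
    (hirr : ∀ U : Submodule ℂ (B → ℂ), Inv (Cm a r) U → U ≤ V → U = ⊥ ∨ U = V)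
    {v : B → ℂ} (hv : v ∈ V) : bl a r *ᵥ v = v := by
  obtain ⟨U, hU⟩ : ∃ U : Submodule ℂ (B → ℂ), U = V ⊓ LinearMap.ker (bl a r).mulVecLin :=
    ⟨_, rfl⟩
  have hUk : ∀ w ∈ U, bl a r *ᵥ w = 0 := by
    intro w hw
    rw [hU] at hw
    exact LinearMap.mem_ker.mp hw.2
  have hUI : Inv (Cm a r) U := by
    intro j w hw
    rw [Cm_adj_zero hr (hUk w hw)]
    exact Submodule.zero_mem _
  have hUV : U ≤ V := by rw [hU]; exact inf_le_left
  have hPV : ∀ w ∈ V, bl a r *ᵥ w ∈ V := by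
    intro w hw
    rw [bl_eq, sum_mulVec]
    refine Submodule.sum_mem _ fun x _ => ?_
    rw [smul_mulVec]
    exact Submodule.smul_mem _ _ (hS.rigid' hV x hw)
  rcases hirr U hUI hUV with h3 | h3
  · have h4 : v - bl a r *ᵥ v ∈ U := by
      rw [hU]
      refine ⟨Submodule.sub_mem _ hv (hPV v hv), LinearMap.mem_ker.mpr ?_⟩
      rw [mulVecLin_apply, mulVec_sub, mulVec_mulVec, hP, sub_self]
    rw [h3, Submodule.mem_bot, sub_eq_zero] at h4
    exact h4.symm
  · exfalso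
    refine not_all_eig h2 hirr fun j => ⟨0, fun w hw => ?_⟩
    rw [zero_smul, Cm_adj_zero hr (hUk w (by rw [h3]; exact hw))]

theorem trace_kron_gen (M : Matrix A A ℂ) (Y : Matrix B B ℂ) :
    (r * (M ⊗ₖ Y)).trace = ∑ s, ∑ t, (∑ y, ∑ k, M k y * r (y, s) (k, t)) * Y t s := by
  obtain ⟨F, hF⟩ : ∃ F : A → B → A → B → ℂ, F = fun y s k t => M k y * r (y, s) (k, t) * Y t s :=
    ⟨_, rfl⟩
  calc (r * (M ⊗ₖ Y)).trace = ∑ y, ∑ s, ∑ k, ∑ t, F y s k t := by
        rw [trace, Fintype.sum_prod_type]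
        refine Finset.sum_congr rfl fun y _ => Finset.sum_congr rfl fun s _ => ?_
        rw [diag_apply, mul_apply, Fintype.sum_prod_type]
        refine Finset.sum_congr rfl fun k _ => Finset.sum_congr rfl fun t _ => ?_
        rw [kroneckerMap_apply, hF]
        ring
    _ = ∑ s, ∑ y, ∑ k, ∑ t, F y s k t := Finset.sum_comm
    _ = ∑ s, ∑ y, ∑ t, ∑ k, F y s k t :=
        Finset.sum_congr rfl fun s _ => Finset.sum_congr rfl fun y _ => Finset.sum_comm
    _ = ∑ s, ∑ t, ∑ y, ∑ k, F y s k t := Finset.sum_congr rfl fun s _ => Finset.sum_comm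
    _ = _ := by
        refine Finset.sum_congr rfl fun s _ => Finset.sum_congr rfl fun t _ => ?_
        rw [Finset.sum_mul]
        refine Finset.sum_congr rfl fun y _ => ?_
        rw [Finset.sum_mul, hF]

/-- The operator on Bob's side and the trace. -/
theorem trace_X (hr : r.PosSemidef) (x : A → ℂ) (Y : Matrix B B ℂ) :
    (r * ((vecMulVec a (star x) + vecMulVec x (star a)) ⊗ₖ Y)).trace =
      ((∑ k, x k • Cm a r k + (∑ k, x k • Cm a r k)ᴴ) * Y).trace := by
  rw [trace_kron_gen, trace]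
  refine Finset.sum_congr rfl fun s _ => ?_
  rw [diag_apply, mul_apply]
  refine Finset.sum_congr rfl fun t _ => ?_
  congr 1
  have e1 : ∀ s t, (∑ k, x k • Cm a r k) s t = ∑ y, ∑ k, x k * star (a y) * r (y, s) (k, t) := by
    intro s t
    rw [Matrix.sum_apply, Finset.sum_comm]
    refine Finset.sum_congr rfl fun k _ => ?_
    rw [Matrix.smul_apply, Cm, smul_eq_mul, Finset.mul_sum]
    refine Finset.sum_congr rfl fun y _ => ?_
    ring
  rw [Matrix.add_apply, conjTranspose_apply, e1, e1, star_sum]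
  have e2 : ∑ y, star (∑ k, x k * star (a y) * r (y, t) (k, s)) =
      ∑ y, ∑ k, a k * star (x y) * r (y, s) (k, t) := by
    simp only [star_sum]
    rw [Finset.sum_comm]
    refine Finset.sum_congr rfl fun y _ => Finset.sum_congr rfl fun k _ => ?_
    rw [star_mul', star_mul', star_star, herm_apply hr]
    ring
  rw [e2, ← Finset.sum_add_distrib]
  refine Finset.sum_congr rfl fun y _ => ?_
  rw [← Finset.sum_add_distrib]
  refine Finset.sum_congr rfl fun k _ => ?_
  rw [Matrix.add_apply, vecMulVec_apply, vecMulVec_apply, Pi.star_apply, Pi.star_apply]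
  ring

/-- A vector `x` such that `⟨a| r |x⟩` is singular but nonzero on the irreducible subspace. -/
theorem exists_x (hr : r.PosSemidef) (hP : bl a r * bl a r = bl a r)
    (hS : Star (Cm a r) (Dm b r)) {V : Submodule ℂ (B → ℂ)} (hV : Inv (Cm a r) V)
    (h2 : 2 ≤ Module.finrank ℂ V)
    (hirr : ∀ U : Submodule ℂ (B → ℂ), Inv (Cm a r) U → U ≤ V → U = ⊥ ∨ U = V) :
    ∃ (x : A → ℂ) (h : B → ℂ), h ∈ V ∧ h ≠ 0 ∧ (∑ k, x k • Cm a r k) *ᵥ h = 0 ∧
      ∃ v ∈ V, (∑ k, x k • Cm a r k) *ᵥ v ≠ 0 := by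
  classical
  have h3 : ∃ j, ∀ c : ℂ, ∃ v ∈ V, Cm a r j *ᵥ v ≠ c • v := by
    by_contra hcon
    push Not at hcon
    refine not_all_eig h2 hirr fun j => ?_
    obtain ⟨c, hc⟩ := hcon j
    refine ⟨star c, fun v hv => ?_⟩
    rw [← sub_eq_zero]
    refine inf_orth (V := V) (Submodule.sub_mem _ (hV j v hv) (Submodule.smul_mem _ _ hv)) ?_
    intro w hw
    have e1 : dp w ((Cm a r j)ᴴ *ᵥ v) = star c * dp w v := by
      rw [dp_mulVec, conjTranspose_conjTranspose, hc w hw, smul_dp]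
    rw [sub_eq_add_neg, dp_add, ← neg_one_smul ℂ (star c • v), dp_smul, dp_smul, e1]
    ring
  obtain ⟨j, hj⟩ := h3
  have : Nontrivial V := by
    apply Module.nontrivial_of_finrank_pos (R := ℂ)
    omega
  obtain ⟨c, hc⟩ := Module.End.exists_eigenvalue
    ((Cm a r j).mulVecLin.restrict (p := V) (q := V) (fun v hv => hS.rigid' hV j hv))
  obtain ⟨h, hh⟩ := hc.exists_hasEigenvector
  have hh1 : Cm a r j *ᵥ h.1 = c • h.1 := by
    have := congrArg Subtype.val hh.apply_eq_smul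
    exact this
  have hh0 : h.1 ≠ 0 := fun h0 => hh.2 (Subtype.ext h0)
  have hW : ∀ v ∈ V, (∑ k, (Pi.single j 1 - c • a : A → ℂ) k • Cm a r k) *ᵥ v =
      Cm a r j *ᵥ v - c • v := by
    intro v hv
    have e1 : ∑ k, (Pi.single j 1 - c • a : A → ℂ) k • Cm a r k = Cm a r j - c • bl a r := by
      rw [bl_eq, Finset.smul_sum]
      simp only [Pi.sub_apply, sub_smul, Finset.sum_sub_distrib, Pi.smul_apply, smul_eq_mul,
        mul_smul]
      congr 1
      rw [Finset.sum_eq_single j]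
      · rw [Pi.single_eq_same, one_smul]
      · intro k _ hk
        rw [Pi.single_eq_of_ne hk, zero_smul]
      · intro hj; exact absurd (Finset.mem_univ j) hj
    rw [e1, sub_mulVec, smul_mulVec, bl_fix hr hP hS hV h2 hirr hv]
  refine ⟨Pi.single j 1 - c • a, h.1, h.2, hh0, ?_, ?_⟩
  · rw [hW h.1 h.2, hh1, sub_self]
  · obtain ⟨v, hv, hv1⟩ := hj c
    refine ⟨v, hv, ?_⟩
    rw [hW v hv]
    exact sub_ne_zero.mpr hv1

/-- The irreducible case. -/
theorem keyCrit_of_irred (hr : r.PosSemidef) (h : r *ᵥ prodVec a b = 0)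
    (hst : ∀ j s k t, r (j, s) (k, t) =
      ((Cm a r j)ᴴ * Cm a r k) s t + ((Dm b r s)ᴴ * Dm b r t) j k)
    (hP : bl a r * bl a r = bl a r)
    (hS : Star (Cm a r) (Dm b r)) {V : Submodule ℂ (B → ℂ)} (hV : Inv (Cm a r) V)
    (h2 : 2 ≤ Module.finrank ℂ V)
    (hirr : ∀ U : Submodule ℂ (B → ℂ), Inv (Cm a r) U → U ≤ V → U = ⊥ ∨ U = V) :
    KeyCrit r := by
  obtain ⟨x, g, hg, hg0, hx, w, hw, hw1⟩ := exists_x hr hP hS hV h2 hirr
  obtain ⟨Pr, p1, p2, p3, p4⟩ := exists_proj V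
  have p5 : ∀ w ∈ orth V, Pr *ᵥ w = 0 := by
    intro w hw
    refine inf_orth (p4 w) fun v hv => ?_
    rw [dp_mulVec, p1, p3 v hv]
    exact hw v hv
  -- a version for `c • x`
  have key : ∀ c : ℂ, Pr * ((∑ k, (c • x) k • Cm a r k) + (∑ k, (c • x) k • Cm a r k)ᴴ) * Pr ≠ 0 →
      KeyCrit r := by
    intro c hc
    obtain ⟨W, hWd⟩ : ∃ W, W = (∑ k, (c • x) k • Cm a r k) + (∑ k, (c • x) k • Cm a r k)ᴴ :=
      ⟨_, rfl⟩
    rw [← hWd] at hc
    have hWh : Wᴴ = W := by
      rw [hWd, conjTranspose_add, conjTranspose_conjTranspose, add_comm]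
    have hYh : (Pr * W * Pr).IsHermitian := by
      rw [IsHermitian, conjTranspose_mul, conjTranspose_mul, p1, hWh, Matrix.mul_assoc]
    have hx' : (∑ k, (c • x) k • Cm a r k) *ᵥ g = 0 := by
      have : ∑ k, (c • x) k • Cm a r k = c • ∑ k, x k • Cm a r k := by
        rw [Finset.smul_sum]
        refine Finset.sum_congr rfl fun k _ => ?_
        rw [Pi.smul_apply, smul_eq_mul, mul_smul]
      rw [this, smul_mulVec, hx, smul_zero]
    refine ⟨vecMulVec a (star (c • x)) + vecMulVec (c • x) (star a), Pr * W * Pr, ?_, hYh, ?_, ?_⟩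
    · rw [IsHermitian, conjTranspose_add, conjTranspose_vecMulVec, conjTranspose_vecMulVec,
        star_star, star_star, add_comm]
    · rw [trace_X hr, ← hWd]
      have e1 : (W * (Pr * W * Pr)).trace = ((Pr * W * Pr)ᴴ * (Pr * W * Pr)).trace := by
        rw [hYh.eq]
        have e2 : (Pr * W * Pr) * (Pr * W * Pr) = Pr * (W * Pr * W * Pr) := by
          calc (Pr * W * Pr) * (Pr * W * Pr) = Pr * (W * (Pr * Pr) * W * Pr) := by
                simp only [Matrix.mul_assoc]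
            _ = _ := by rw [p2]
        have e3 : W * (Pr * W * Pr) = W * Pr * W * Pr := by simp only [Matrix.mul_assoc]
        have e4 : (Pr * (W * Pr * W * Pr)).trace = (W * Pr * W * Pr * Pr).trace := trace_mul_comm _ _
        rw [e2, e3, e4, Matrix.mul_assoc (W * Pr * W), p2]
      rw [e1]
      have e5 : 0 ≤ ((Pr * W * Pr)ᴴ * (Pr * W * Pr)).trace := trace_nonneg' _
      have e6 : ((Pr * W * Pr)ᴴ * (Pr * W * Pr)).trace ≠ 0 := fun h0 => hc (mul_zero_of_trace h0)
      have e7 : 0 < ((Pr * W * Pr)ᴴ * (Pr * W * Pr)).trace := lt_of_le_of_ne e5 (Ne.symm e6)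
      exact (Complex.lt_def.mp e7).1
    · refine noStuck_of_irred hr h hst hS hV hirr hg hg0 hx' fun w hw => ?_
      rw [← mulVec_mulVec, p5 w hw, mulVec_zero]
  obtain ⟨Z, hZ⟩ : ∃ Z, Z = ∑ k, x k • Cm a r k := ⟨_, rfl⟩
  have hc : ∀ c : ℂ, ∑ k, (c • x) k • Cm a r k = c • Z := by
    intro c
    rw [hZ, Finset.smul_sum]
    refine Finset.sum_congr rfl fun k _ => ?_
    rw [Pi.smul_apply, smul_eq_mul, mul_smul]
  simp only [hc] at key
  by_cases h1 : Pr * ((1 : ℂ) • Z + ((1 : ℂ) • Z)ᴴ) * Pr ≠ 0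
  · exact key 1 h1
  · push Not at h1
    refine key Complex.I fun h3 => ?_
    have h4 : Pr * Z * Pr + Pr * Zᴴ * Pr = 0 := by
      rw [one_smul, Matrix.mul_add, Matrix.add_mul] at h1
      exact h1
    have h5 : Pr * Z * Pr - Pr * Zᴴ * Pr = 0 := by
      rw [conjTranspose_smul, Complex.star_def, Complex.conj_I, neg_smul, Matrix.mul_add,
        Matrix.add_mul, Matrix.mul_neg, Matrix.neg_mul, Matrix.mul_smul, Matrix.smul_mul,
        Matrix.mul_smul, Matrix.smul_mul, ← smul_neg, ← smul_add, ← sub_eq_add_neg] at h3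
      rcases smul_eq_zero.mp h3 with h6 | h6
      · exact absurd h6 Complex.I_ne_zero
      · exact h6
    have h6 : Pr * Z * Pr = 0 := by
      have : (2 : ℂ) • (Pr * Z * Pr) = 0 := by
        rw [two_smul]
        calc Pr * Z * Pr + Pr * Z * Pr = (Pr * Z * Pr + Pr * Zᴴ * Pr) + (Pr * Z * Pr - Pr * Zᴴ * Pr) := by
              abel
          _ = 0 := by rw [h4, h5, add_zero]
      exact (smul_eq_zero.mp this).resolve_left two_ne_zero
    apply hw1
    have h7 : (Pr * Z * Pr) *ᵥ w = 0 := by rw [h6, zero_mulVec]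
    have hZw : Z *ᵥ w ∈ V := by
      rw [hZ, sum_mulVec]
      refine Submodule.sum_mem _ fun k _ => ?_
      rw [smul_mulVec]
      exact Submodule.smul_mem _ _ (hS.rigid' hV k hw)
    rw [← mulVec_mulVec, ← mulVec_mulVec, p3 w hw, p3 _ hZw] at h7
    rw [← hZ]
    exact h7

/-- The dichotomy for normalised tight states. -/
theorem norm_dichotomy (hr : r.PosSemidef) (hp : (pTrans r).PosSemidef)
    (h : r *ᵥ prodVec a b = 0) (hP : bl a r * bl a r = bl a r)
    (hQ : br b r * br b r = br b r) (hrk : r.rank ≤ (bl a r).rank + (br b r).rank) :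
    IsSep r ∨ KeyCrit r := by
  obtain ⟨h1, h2⟩ := tight hr hp h hP hQ hrk
  rcases tight_dichotomy hr hp h hP hQ hrk with h3 | ⟨V, hV, h3, h4⟩
  · exact Or.inl h3
  · exact Or.inr (keyCrit_of_irred hr h h1 hP h2 hV h3 h4)

end Vale.Agent.P372.R4
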