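import Vale.Agent.P372.R4.J2d
import Vale.Agent.P372.R4.L0
import Vale.Agent.P372.R4.SPL
import Vale.Agent.P372.R4.SUP
import Vale.Agent.P372.H625.Zero

/-! States without positivity of the partial transpose: kernel property, local rank two. -/

open Matrix Kronecker
open scoped ComplexOrder MatrixOrder

set_option linter.unusedSectionVars false
set_option linter.unusedVariables false

namespace Vale.Agent.P372.R4.J2

variable {A B : Type} [Fintype A] [DecidableEq A] [Fintype B] [DecidableEq B]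
  {r : Matrix (A × B) (A × B) ℂ}

/-- The kernel property: product vectors in the kernel of `r` give product vectors in the kernel
of the partial transpose. -/
def Kp (r : Matrix (A × B) (A × B) ℂ) : Prop :=
  ∀ (a : A → ℂ) (v : B → ℂ), r *ᵥ prodVec a v = 0 → pTrans r *ᵥ prodVec a (star v) = 0

theorem kp_of (hr : r.PosSemidef) (hU : U1 r) : Kp r := fun _ _ h => kill hr hU h

/-- **Row L0** under the kernel property. -/
theorem L0K (hr : r.PosSemidef) (hK : Kp r) : ∃ a : A → ℂ, (bl a r).rank = (trA r).rank := by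
  obtain ⟨a, ha⟩ : ∃ a : A → ℂ, ∀ x : A → ℂ, (bl x r).rank ≤ (bl a r).rank := by
    have hb : BddAbove (Set.range fun a : A → ℂ => (bl a r).rank) := by
      refine ⟨Fintype.card B, ?_⟩
      rintro _ ⟨a, rfl⟩
      exact rank_le_card_width _
    obtain ⟨a, ha⟩ := Nat.sSup_mem (Set.range_nonempty _) hb
    exact ⟨a, fun x => by
      have h1 : (bl a r).rank = _ := ha
      rw [h1]
      exact le_csSup hb ⟨x, rfl⟩⟩
  refine ⟨a, rank_eq_of_ker _ (trA r) fun v => ?_⟩
  rw [trA_ker hr]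
  refine ⟨fun hv x => ?_, fun h => h a⟩
  by_contra hx
  have hk := R4.kill hr hv
  have k1 : blc a x r *ᵥ v = 0 := blc_left hr (hK a v hk) x
  have k2 : blc x a r *ᵥ v = 0 := blc_right hk x
  have h2 : (blc a x r + blc x a r) *ᵥ v = 0 := by rw [add_mulVec, k1, k2, add_zero]
  have h3 : (blc a x r + blc x a r)ᴴ *ᵥ v = 0 := by
    rw [conjTranspose_add, blc_conj hr, blc_conj hr, add_mulVec, k1, k2, add_zero]
  have h4 : star v ⬝ᵥ (bl x r *ᵥ v) ≠ 0 := fun h =>
    hx (((bl_psd hr x).dotProduct_mulVec_zero_iff _).1 h)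
  obtain ⟨e, he⟩ := rank_bump (bl_psd hr a) hv h2 h3 h4
  rw [← bl_add_smul] at he
  have := ha (a + (e : ℂ) • x)
  omega

/-- The partial transpose of the swapped state. -/
theorem swp_pT (p q : B × A) : pTrans (swp r) p q = pTrans r q.swap p.swap := rfl

theorem prodVec_swap (a : A → ℂ) (v : B → ℂ) (p : A × B) : prodVec v a p.swap = prodVec a v p :=
  mul_comm _ _

theorem sv_prodVec (a : A → ℂ) (v : B → ℂ) : sv (prodVec v a) = prodVec a v := by
  ext p
  exact prodVec_swap a v p

/-- The swapped partial transpose is the complex conjugate of the partial transpose. -/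
theorem swp_pT_mulVec (hr : r.PosSemidef) (w : B × A → ℂ) (p : B × A) :
    (pTrans (swp r) *ᵥ w) p = star ((pTrans r *ᵥ star (sv w)) p.swap) := by
  have h1 : (pTrans (swp r) *ᵥ w) p = ∑ q : A × B, pTrans r q p.swap * w q.swap := by
    change ∑ q : B × A, pTrans r q.swap p.swap * w q = _
    rw [← sum_swap]
    rfl
  rw [h1]
  change _ = star (∑ q : A × B, pTrans r p.swap q * star (sv w) q)
  rw [star_sum]
  refine Finset.sum_congr rfl fun q _ => ?_
  have h2 : star (pTrans r p.swap q) = pTrans r q p.swap := by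
    have := congrFun (congrFun (pT_herm hr) q) p.swap
    rw [conjTranspose_apply] at this
    exact this
  rw [star_mul', h2, Pi.star_apply, star_star]
  rfl

theorem star_prodVec (a : A → ℂ) (v : B → ℂ) : star (prodVec a v) = prodVec (star a) (star v) := by
  ext p
  simp only [Pi.star_apply, prodVec, star_mul']

theorem swp_Kp (hr : r.PosSemidef) (hK : Kp r) : Kp (swp r) := by
  intro b a h
  have h1 : r *ᵥ prodVec a b = 0 := by
    rw [← sv_prodVec, swp_mulVec, h, map_zero]
  have h2 := hK a b h1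
  ext p
  rw [swp_pT_mulVec hr, sv_prodVec, star_prodVec, star_star, h2, Pi.zero_apply, star_zero,
    Pi.zero_apply]

/-- `U1` is symmetric. -/
theorem swp_U1 (hr : r.PosSemidef) (hU : U1 r) : U1 (swp r) := by
  intro y y' x x'
  have h1 := hU (star x) (star x') (star y) (star y')
  obtain ⟨w, hw⟩ : ∃ w : B × A → ℂ, w = prodVec y x + prodVec y' x' := ⟨_, rfl⟩
  have h2 : prodVec (star x) (star y) + prodVec (star x') (star y') = star (sv w) := by
    rw [hw, map_add, sv_prodVec, sv_prodVec, star_add, star_prodVec, star_prodVec]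
  rw [h2] at h1
  rw [← hw]
  have h3 : sprod w (pTrans (swp r) *ᵥ w) =
      star (sprod (star (sv w)) (pTrans r *ᵥ star (sv w))) := by
    rw [sprod, sprod, star_sum, ← sum_swap]
    refine Finset.sum_congr rfl fun p _ => ?_
    rw [swp_pT_mulVec hr]
    simp only [Prod.swap_swap, star_mul', Pi.star_apply, star_star]
    rfl
  rw [h3]
  exact h1

theorem swp_ppt (hr : r.PosSemidef) (hp : (pTrans (swp r)).PosSemidef) :
    (pTrans r).PosSemidef := by
  refine Matrix.PosSemidef.of_dotProduct_mulVec_nonneg (pT_herm hr) fun v => ?_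
  obtain ⟨w, hw⟩ : ∃ w : B × A → ℂ, star (sv w) = v :=
    ⟨fun p => star (v p.swap), by
      ext p
      exact star_star _⟩
  have h3 : star w ⬝ᵥ (pTrans (swp r) *ᵥ w) = star (star v ⬝ᵥ (pTrans r *ᵥ v)) := by
    rw [dotProduct, dotProduct, star_sum, ← sum_swap]
    refine Finset.sum_congr rfl fun p _ => ?_
    rw [swp_pT_mulVec hr, hw]
    simp only [Prod.swap_swap, star_mul', Pi.star_apply]
    rw [← hw]
    simp only [Pi.star_apply, star_star]
    rfl
  have h4 := hp.dotProduct_mulVec_nonneg w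
  rw [h3] at h4
  have h5 := star_nonneg_iff.1 h4
  exact h5

theorem prodVec_zero : prodVec (0 : A → ℂ) (0 : B → ℂ) = 0 := by
  ext p
  simp [prodVec]

theorem U1.sum (hU : U1 r) {p : ℕ} (hp : p ≤ 2) (x : Fin p → A → ℂ) (y : Fin p → B → ℂ) :
    0 ≤ (sprod (∑ i, prodVec (x i) (y i)) (pTrans r *ᵥ ∑ i, prodVec (x i) (y i))).re := by
  have h3 : p = 0 ∨ p = 1 ∨ p = 2 := by omega
  rcases h3 with rfl | rfl | rfl
  · have h := hU 0 0 0 0
    rw [prodVec_zero, add_zero] at h
    rw [Fin.sum_univ_zero]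
    exact h
  · have h := hU (x 0) 0 (y 0) 0
    rw [prodVec_zero, add_zero] at h
    rw [Fin.sum_univ_one]
    exact h
  · rw [Fin.sum_univ_two]
    exact hU _ _ _ _

theorem map_star_one : (1 : Matrix B B ℂ).map star = 1 := by
  ext i j
  rw [Matrix.map_apply, one_apply]
  split_ifs <;> simp

/-- A filter of rank at most two on Alice's side makes the partial transpose positive. -/
theorem ppt_filter (hr : r.PosSemidef) (hU : U1 r) (F : Matrix A A ℂ) (hF : F.rank ≤ 2) :
    (pTrans ((F ⊗ₖ (1 : Matrix B B ℂ)) * r * (F ⊗ₖ (1 : Matrix B B ℂ))ᴴ)).PosSemidef := by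
  rw [pTrans_rect, map_star_one]
  obtain ⟨G, hG⟩ : ∃ G, G = F ⊗ₖ (1 : Matrix B B ℂ) := ⟨_, rfl⟩
  rw [← hG]
  have hH : (G * pTrans r * Gᴴ).IsHermitian := by
    rw [IsHermitian, conjTranspose_mul, conjTranspose_mul, conjTranspose_conjTranspose,
      pT_herm hr, Matrix.mul_assoc]
  refine Matrix.PosSemidef.of_dotProduct_mulVec_nonneg hH fun v => ?_
  obtain ⟨p, hp, V, Z, h4⟩ : ∃ (p : ℕ) (_ : p ≤ 2) (V : Matrix A (Fin p) ℂ)
      (Z : Matrix (Fin p) A ℂ), Fᴴ = V * Z := by
    obtain ⟨V, h1, h2, -⟩ := exists_iso (posSemidef_conjTranspose_mul_self F)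
    have h3 : (1 - V * Vᴴ) * Fᴴ = 0 := by
      rw [← mul_self_mul_conjTranspose_eq_zero, conjTranspose_conjTranspose, Matrix.sub_mul,
        Matrix.one_mul, h2, sub_self]
    refine ⟨(Fᴴ * F).rank, (rank_mul_le_right _ _).trans hF, V, Vᴴ * Fᴴ, ?_⟩
    rw [Matrix.sub_mul, Matrix.one_mul, sub_eq_zero] at h3
    rw [← Matrix.mul_assoc]
    exact h3
  have h5 : Gᴴ *ᵥ v = ∑ i, prodVec (fun j => V j i) (fun s => ∑ k, Z i k * v (k, s)) := by
    rw [hG, conjTranspose_kronecker, conjTranspose_one, h4]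
    ext ⟨j, s⟩
    rw [mulVec, dotProduct, Fintype.sum_prod_type, Finset.sum_apply]
    simp only [prodVec, kroneckerMap_apply, one_apply, mul_ite, mul_one, mul_zero, ite_mul,
      zero_mul, Finset.sum_ite_eq, Finset.mem_univ, if_true, mul_apply, Finset.sum_mul,
      Finset.mul_sum]
    rw [Finset.sum_comm]
    refine Finset.sum_congr rfl fun i _ => Finset.sum_congr rfl fun k _ => ?_
    ring
  have h6 := hU.sum hp (fun i j => V j i) (fun i s => ∑ k, Z i k * v (k, s))
  rw [← h5] at h6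
  have h7 : star v ⬝ᵥ ((G * pTrans r * Gᴴ) *ᵥ v) =
      sprod (Gᴴ *ᵥ v) (pTrans r *ᵥ (Gᴴ *ᵥ v)) := by
    have e : sprod (Gᴴ *ᵥ v) (pTrans r *ᵥ (Gᴴ *ᵥ v)) =
        star (Gᴴ *ᵥ v) ⬝ᵥ (pTrans r *ᵥ (Gᴴ *ᵥ v)) := rfl
    rw [e, star_mulVec, conjTranspose_conjTranspose, ← dotProduct_mulVec, mulVec_mulVec,
      mulVec_mulVec, Matrix.mul_assoc]
  have h8 : (star v ⬝ᵥ ((G * pTrans r * Gᴴ) *ᵥ v)).im = 0 :=
    hH.im_star_dotProduct_mulVec_self v
  rw [Complex.nonneg_iff]
  exact ⟨by rw [h7]; exact h6, h8.symm⟩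

/-- A state whose reduction on Alice's side has rank at most two is PPT under `U1`. -/
theorem ppt_of_redA (hr : r.PosSemidef) (hU : U1 r) (h : (redA r).rank ≤ 2) :
    (pTrans r).PosSemidef := by
  obtain ⟨V, hV, h1⟩ := sup_A hr
  have h2 : (V * Vᴴ).rank ≤ 2 := by
    refine (rank_mul_le_left _ _).trans ((rank_le_card_width _).trans ?_)
    rw [Fintype.card_fin]
    exact h
  have h3 := ppt_filter hr hU (V * Vᴴ) h2
  have h4 : r * ((V * Vᴴ) ⊗ₖ (1 : Matrix B B ℂ))ᴴ = r := by
    have := congrArg conjTranspose h1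
    rw [conjTranspose_mul, hr.isHermitian.eq] at this
    exact this
  rw [h1, h4] at h3
  exact h3

end Vale.Agent.P372.R4.J2
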