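import Vale.Agent.P372.R4.Npt1

/-! A product vector `a` with `⟨a|r|a⟩` of rank one, without positivity of the partial
transpose. -/

open Matrix Kronecker
open scoped ComplexOrder MatrixOrder

set_option linter.unusedSectionVars false
set_option linter.unusedVariables false

namespace Vale.Agent.P372.R4.J2

variable {A B : Type} [Fintype A] [DecidableEq A] [Fintype B] [DecidableEq B]
  {r : Matrix (A × B) (A × B) ℂ}

/-- Splitting off a product state from a vector `a` with `⟨a|r|a⟩` of rank one. -/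
theorem splitK (hr : r.PosSemidef) (hK : Kp r) (a : A → ℂ) (h1 : (bl a r).rank = 1) :
    ∃ (γ : A → ℂ) (v u₀ : B → ℂ), star a ⬝ᵥ γ = 1 ∧ star v ⬝ᵥ u₀ = 1 ∧
      r *ᵥ prodVec a u₀ = prodVec γ v ∧ (∀ y, (r - vecMulVec (prodVec γ v)
        (star (prodVec γ v))) *ᵥ prodVec a y = 0) ∧
      (r - vecMulVec (prodVec γ v) (star (prodVec γ v))).PosSemidef := by
  obtain ⟨u₀, hu₀, hP⟩ := rank_one (bl_psd hr a) h1
  set v : B → ℂ := bl a r *ᵥ u₀ with hv
  have hvu : star v ⬝ᵥ u₀ = 1 := by rw [hv, herm_dot (bl_psd hr a).1, ← hv, hu₀]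
  have hk : ∀ y : B → ℂ, bl a r *ᵥ (y - (star v ⬝ᵥ y) • u₀) = 0 := by
    intro y
    rw [mulVec_sub, mulVec_smul, ← hv, hP, vecMulVec_mulVec, sub_eq_zero]
    ext i
    simp [mul_comm]
  -- the basic formula
  have hC : ∀ (x : A → ℂ) (y : B → ℂ), blc x a r *ᵥ y = (star v ⬝ᵥ y) • (blc x a r *ᵥ u₀) := by
    intro x y
    have h3 := blc_right (R4.kill hr (hk y)) x
    rwa [mulVec_sub, mulVec_smul, sub_eq_zero] at h3
  have hC' : ∀ (x : A → ℂ) (y : B → ℂ), blc a x r *ᵥ y = (star v ⬝ᵥ y) • (blc a x r *ᵥ u₀) := by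
    intro x y
    have h3 := blc_left hr (hK a _ (R4.kill hr (hk y))) x
    rwa [mulVec_sub, mulVec_smul, sub_eq_zero] at h3
  let g : (A → ℂ) → ℂ := fun x => star u₀ ⬝ᵥ (blc x a r *ᵥ u₀)
  have hform : ∀ (x : A → ℂ) (w y : B → ℂ),
      star w ⬝ᵥ (blc x a r *ᵥ y) = g x * (star w ⬝ᵥ v) * (star v ⬝ᵥ y) := by
    intro x w y
    rw [hC, dotProduct_smul, smul_eq_mul]
    have h3 : star w ⬝ᵥ (blc x a r *ᵥ u₀) = star (star u₀ ⬝ᵥ (blc a x r *ᵥ w)) := by
      rw [← blc_conj hr a x, adj]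
    have h4 : star (star u₀ ⬝ᵥ (blc a x r *ᵥ u₀)) = g x := by
      rw [← adj, blc_conj hr a x]
    rw [h3, hC', dotProduct_smul, smul_eq_mul, star_mul', h4, ← star_dotProduct]
    ring
  have hM : ∀ (x : A → ℂ) (s t : B), blc x a r s t = g x * v s * star (v t) := by
    intro x s t
    have h2 := hform x (Pi.single s 1) (Pi.single t 1)
    have e1 : star (Pi.single s 1 : B → ℂ) = Pi.single s 1 := by
      ext i
      by_cases h : i = s
      · subst h; simp
      · simp [Pi.single_eq_of_ne h]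
    rw [e1] at h2
    simpa [mulVec_single] using h2
  let γ : A → ℂ := fun j => g (Pi.single j 1)
  set u : A × B → ℂ := prodVec a u₀ with hudef
  have hu : star u ⬝ᵥ (r *ᵥ u) = 1 := by rw [hudef, ← quad', ← hv, hu₀]
  have hξ : r *ᵥ u = prodVec γ v := by
    ext ⟨j, s⟩
    rw [hudef, ← blc_single]
    simp only [mulVec, dotProduct, hM, prodVec, γ]
    have : ∀ t, g (Pi.single j 1) * v s * star (v t) * u₀ t =
        g (Pi.single j 1) * v s * (star (v t) * u₀ t) := fun t => by ring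
    simp only [this, ← Finset.mul_sum]
    have h5 : ∑ t, star (v t) * u₀ t = 1 := hvu
    rw [h5, mul_one]
  have haγ : star a ⬝ᵥ γ = 1 := by
    rw [hξ, hudef] at hu
    have e1 : star (prodVec a u₀) ⬝ᵥ prodVec γ v = (star a ⬝ᵥ γ) * (star u₀ ⬝ᵥ v) := by
      simp only [dotProduct, Fintype.sum_prod_type, Pi.star_apply, prodVec, star_mul',
        Finset.sum_mul_sum]
      refine Finset.sum_congr rfl fun i _ => Finset.sum_congr rfl fun j _ => ?_
      ring
    rw [e1, hu₀, mul_one] at hu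
    exact hu
  refine ⟨γ, v, u₀, haγ, hvu, hξ, ?_, ?_⟩
  · intro y
    rw [← hξ, peel_mulVec]
    have h5 : star (r *ᵥ u) ⬝ᵥ prodVec a y = star v ⬝ᵥ y := by
      rw [herm_dot hr.1, hudef, ← quad, blc_self, hP, vecMulVec_mulVec]
      have : star u₀ ⬝ᵥ (MulOpposite.op (star v ⬝ᵥ y) • v) = (star v ⬝ᵥ y) * (star u₀ ⬝ᵥ v) := by
        simp [dotProduct_smul, mul_comm]
      rw [this, hu₀, mul_one]
    have h6 : prodVec a y - (star (r *ᵥ u) ⬝ᵥ prodVec a y) • u =
        prodVec a (y - (star v ⬝ᵥ y) • u₀) := by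
      rw [h5, hudef]
      ext p
      simp only [prodVec, Pi.sub_apply, Pi.smul_apply, smul_eq_mul]
      ring
    rw [h6]
    exact R4.kill hr (hk y)
  · rw [← hξ]
    exact peel_psd hr hu

/-- **A vector `a` with `⟨a|r|a⟩` of rank one.** If Alice's dimension is at most three, `U1`
makes the state PPT. -/
theorem ppt_of_rank_one (hr : r.PosSemidef) (hU : U1 r) (hA : Fintype.card A ≤ 3) (a : A → ℂ)
    (h1 : (bl a r).rank = 1) : (pTrans r).PosSemidef := by
  obtain ⟨γ, v, u₀, haγ, hvu, hξ, hker, hpsd⟩ := splitK hr (kp_of hr hU) a h1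
  obtain ⟨r', hr'⟩ : ∃ r', r' = r - vecMulVec (prodVec γ v) (star (prodVec γ v)) := ⟨_, rfl⟩
  rw [← hr'] at hker hpsd
  obtain ⟨F, hF⟩ : ∃ F : Matrix A A ℂ, F = 1 - vecMulVec γ (star a) := ⟨_, rfl⟩
  -- the filter has rank at most two
  have hFγ : F *ᵥ γ = 0 := by
    rw [hF, sub_mulVec, one_mulVec, vecMulVec_mulVec, haγ]
    simp
  have hγ : γ ≠ 0 := by
    rintro rfl
    simp at haγ
  have hFr : F.rank ≤ 2 := by
    have h2 := LinearMap.finrank_range_add_finrank_ker F.mulVecLin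
    have h3 : 0 < Module.finrank ℂ (LinearMap.ker F.mulVecLin) := by
      rw [Module.finrank_pos_iff_exists_ne_zero]
      exact ⟨⟨γ, hFγ⟩, fun h => hγ (congrArg Subtype.val h)⟩
    have h4 : F.rank = Module.finrank ℂ (LinearMap.range F.mulVecLin) := rfl
    rw [Module.finrank_fintype_fun_eq_card] at h2
    omega
  -- `r'` is fixed by the filter
  have e1 : r' * (F ⊗ₖ (1 : Matrix B B ℂ))ᴴ = r' := by
    rw [← Matrix.toLin'.injective.eq_iff]
    refine LinearMap.ext fun w => ?_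
    rw [Matrix.toLin'_apply, Matrix.toLin'_apply, ← mulVec_mulVec]
    have h5 : (F ⊗ₖ (1 : Matrix B B ℂ))ᴴ *ᵥ w =
        w - prodVec a (fun s => ∑ k, star (γ k) * w (k, s)) := by
      rw [hF, conjTranspose_kronecker, conjTranspose_one, conjTranspose_sub, conjTranspose_one,
        conjTranspose_vecMulVec, star_star]
      ext ⟨j, s⟩
      rw [mulVec, dotProduct, Fintype.sum_prod_type, Pi.sub_apply, prodVec]
      simp only [kroneckerMap_apply, Matrix.sub_apply, one_apply, mul_ite, mul_one, mul_zero, ite_mul,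
        zero_mul, Finset.sum_ite_eq, Finset.mem_univ, if_true, vecMulVec_apply, sub_mul, one_mul,
        Pi.star_apply]
      rw [Finset.sum_sub_distrib]
      simp only [Finset.sum_ite_eq, Finset.mem_univ, if_true, Finset.mul_sum, mul_assoc]
    rw [h5, mulVec_sub, hker, sub_zero]
  have e2 : (F ⊗ₖ (1 : Matrix B B ℂ)) * r' = r' := by
    have := congrArg conjTranspose e1
    rw [conjTranspose_mul, conjTranspose_conjTranspose, hpsd.isHermitian.eq] at this
    exact this
  have e3 : (F ⊗ₖ (1 : Matrix B B ℂ)) *ᵥ prodVec γ v = 0 := by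
    rw [kron_prodVec, hFγ]
    ext p
    simp [prodVec]
  have e4 : (F ⊗ₖ (1 : Matrix B B ℂ)) * r * (F ⊗ₖ (1 : Matrix B B ℂ))ᴴ = r' := by
    have h6 : r = r' + vecMulVec (prodVec γ v) (star (prodVec γ v)) := by
      rw [hr', sub_add_cancel]
    rw [h6, Matrix.mul_add, Matrix.add_mul, e2, e1, mul_vecMulVec, e3]
    simp
  have h7 := ppt_filter hr hU F hFr
  rw [e4] at h7
  have h8 : pTrans r = pTrans r' +
      vecMulVec (prodVec γ (star v)) (star (prodVec γ (star v))) := by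
    rw [hr']
    ext ⟨j, s⟩ ⟨k, t⟩
    simp only [pTrans, Matrix.sub_apply, Matrix.add_apply, vecMulVec_apply, prodVec,
      Pi.star_apply, star_mul', star_star]
    ring
  rw [h8]
  exact h7.add (posSemidef_vecMulVec_self_star _)

end Vale.Agent.P372.R4.J2
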