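import Vale.Agent.P372.R4.Ker

open Matrix
open scoped ComplexOrder

namespace Vale.Agent.P372.R4

set_option linter.unusedSectionVars false
set_option linter.unusedVariables false

variable {D : Type} [Fintype D] [DecidableEq D]

theorem herm_dot {r : Matrix D D ℂ} (hr : r.IsHermitian) (u w : D → ℂ) :
    star (r *ᵥ u) ⬝ᵥ w = star u ⬝ᵥ (r *ᵥ w) := by
  rw [star_mulVec, hr.eq, ← dotProduct_mulVec]

theorem peel_mulVec (r : Matrix D D ℂ) (u w : D → ℂ) :
    (r - vecMulVec (r *ᵥ u) (star (r *ᵥ u))) *ᵥ w =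
      r *ᵥ (w - (star (r *ᵥ u) ⬝ᵥ w) • u) := by
  rw [sub_mulVec, vecMulVec_mulVec, mulVec_sub, mulVec_smul]
  congr 1
  ext i
  simp [mul_comm]

/-- Subtraction of a rank one piece. -/
theorem peel_psd {r : Matrix D D ℂ} (hr : r.PosSemidef) {u : D → ℂ}
    (hu : star u ⬝ᵥ (r *ᵥ u) = 1) :
    (r - vecMulVec (r *ᵥ u) (star (r *ᵥ u))).PosSemidef := by
  refine Matrix.PosSemidef.of_dotProduct_mulVec_nonneg ?_ fun w => ?_
  · exact hr.1.sub (by
      ext i j
      simp [vecMulVec_apply, conjTranspose_apply, mul_comm])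
  · rw [peel_mulVec]
    set c := star (r *ᵥ u) ⬝ᵥ w with hc
    have h1 := hr.dotProduct_mulVec_nonneg (w - c • u)
    have h2 : star (c • u) ⬝ᵥ (r *ᵥ (w - c • u)) = 0 := by
      rw [star_smul, smul_dotProduct, mulVec_sub, mulVec_smul, dotProduct_sub, dotProduct_smul, hu,
        ← herm_dot hr.1, ← hc]
      simp
    rw [star_sub, sub_dotProduct, h2, sub_zero] at h1
    exact h1

theorem peel_kill {r : Matrix D D ℂ} (hr : r.PosSemidef) {u : D → ℂ}
    (hu : star u ⬝ᵥ (r *ᵥ u) = 1) :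
    (r - vecMulVec (r *ᵥ u) (star (r *ᵥ u))) *ᵥ u = 0 := by
  rw [peel_mulVec, herm_dot hr.1, hu, one_smul, sub_self, mulVec_zero]

theorem peel_rank {r : Matrix D D ℂ} (hr : r.PosSemidef) {u : D → ℂ}
    (hu : star u ⬝ᵥ (r *ᵥ u) = 1) :
    (r - vecMulVec (r *ᵥ u) (star (r *ᵥ u))).rank + 1 = r.rank := by
  set r' := r - vecMulVec (r *ᵥ u) (star (r *ᵥ u)) with hr'
  have hru : r *ᵥ u ≠ 0 := fun h => by
    rw [h, dotProduct_zero] at hu
    exact zero_ne_one hu
  have hu0 : u ≠ 0 := fun h => hru (by rw [h, mulVec_zero])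
  have h1 : LinearMap.ker r'.mulVecLin = LinearMap.ker r.mulVecLin ⊔ Submodule.span ℂ {u} := by
    apply le_antisymm
    · intro w hw
      rw [LinearMap.mem_ker, mulVecLin_apply, hr', peel_mulVec] at hw
      have h2 : w = (w - (star (r *ᵥ u) ⬝ᵥ w) • u) + (star (r *ᵥ u) ⬝ᵥ w) • u := by abel
      rw [h2]
      refine Submodule.add_mem_sup ?_ (Submodule.smul_mem _ _ (Submodule.mem_span_singleton_self u))
      rw [LinearMap.mem_ker, mulVecLin_apply]
      exact hw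
    · refine sup_le ?_ ?_
      · intro w hw
        rw [LinearMap.mem_ker, mulVecLin_apply] at hw ⊢
        rw [hr', peel_mulVec, herm_dot hr.1, hw, dotProduct_zero, zero_smul, sub_zero, hw]
      · rw [Submodule.span_singleton_le_iff_mem, LinearMap.mem_ker, mulVecLin_apply]
        exact peel_kill hr hu
  have h3 : LinearMap.ker r.mulVecLin ⊓ Submodule.span ℂ {u} = ⊥ := by
    rw [eq_bot_iff]
    rintro w ⟨hw1, hw2⟩
    obtain ⟨c, rfl⟩ := Submodule.mem_span_singleton.1 hw2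
    have hw3 : r *ᵥ (c • u) = 0 := hw1
    rw [mulVec_smul] at hw3
    have : c = 0 := by
      by_contra hc
      exact hru ((smul_eq_zero.1 hw3).resolve_left hc)
    rw [this, zero_smul]
    exact Submodule.zero_mem _
  have h4 := Submodule.finrank_sup_add_finrank_inf_eq (LinearMap.ker r.mulVecLin)
    (Submodule.span ℂ {u})
  rw [h3, finrank_bot, ← h1, finrank_span_singleton hu0] at h4
  have h5 := LinearMap.finrank_range_add_finrank_ker r.mulVecLin
  have h6 := LinearMap.finrank_range_add_finrank_ker r'.mulVecLin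
  rw [Matrix.rank, Matrix.rank]
  omega

/-- A vector with `⟨u|P|u⟩ = 1`. -/
theorem exists_unit {P : Matrix D D ℂ} (hP : P.PosSemidef) (h0 : P ≠ 0) :
    ∃ u : D → ℂ, star u ⬝ᵥ (P *ᵥ u) = 1 := by
  obtain ⟨v, hv⟩ : ∃ v, P *ᵥ v ≠ 0 := by
    by_contra h
    push Not at h
    apply h0
    ext i j
    have := congrFun (h (Pi.single j 1)) i
    simpa [mulVec_single] using this
  have h1 := hP.dotProduct_mulVec_nonneg v
  have h2 : star v ⬝ᵥ (P *ᵥ v) ≠ 0 := fun h => hv ((hP.dotProduct_mulVec_zero_iff _).1 h)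
  obtain ⟨p, hp0, hp⟩ : ∃ p : ℝ, 0 < p ∧ star v ⬝ᵥ (P *ᵥ v) = p := by
    refine ⟨(star v ⬝ᵥ (P *ᵥ v)).re, ?_, ?_⟩
    · rcases lt_or_eq_of_le (Complex.le_def.1 h1).1 with h | h
      · exact h
      · exact absurd (Complex.ext h.symm (Complex.le_def.1 h1).2.symm) h2
    · exact Complex.ext rfl (Complex.le_def.1 h1).2.symm
  refine ⟨((Real.sqrt p : ℂ)⁻¹) • v, ?_⟩
  rw [star_smul, smul_dotProduct, mulVec_smul, dotProduct_smul, hp]
  have h3 : ((Real.sqrt p : ℝ) : ℂ) * (Real.sqrt p : ℝ) = p := by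
    rw [← Complex.ofReal_mul, Real.mul_self_sqrt hp0.le]
  have h4 : ((Real.sqrt p : ℝ) : ℂ) ≠ 0 := Complex.ofReal_ne_zero.2 (Real.sqrt_pos.2 hp0).ne'
  have h5 : star ((Real.sqrt p : ℂ)⁻¹) = (Real.sqrt p : ℂ)⁻¹ := by
    rw [star_inv₀]
    congr 1
    exact Complex.conj_ofReal _
  rw [h5, smul_eq_mul, smul_eq_mul, ← h3]
  field_simp

/-- A positive semidefinite matrix of rank one. -/
theorem rank_one {P : Matrix D D ℂ} (hP : P.PosSemidef) (h1 : P.rank = 1) :
    ∃ u : D → ℂ, star u ⬝ᵥ (P *ᵥ u) = 1 ∧ P = vecMulVec (P *ᵥ u) (star (P *ᵥ u)) := by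
  have h0 : P ≠ 0 := fun h => by simp [h] at h1
  obtain ⟨u, hu⟩ := exists_unit hP h0
  refine ⟨u, hu, ?_⟩
  have h2 := peel_rank hP hu
  have h3 : (P - vecMulVec (P *ᵥ u) (star (P *ᵥ u))).rank = 0 := by omega
  have h4 : P - vecMulVec (P *ᵥ u) (star (P *ᵥ u)) = 0 := by
    rw [Matrix.rank, Submodule.finrank_eq_zero, LinearMap.range_eq_bot] at h3
    ext i j
    have := congrFun (LinearMap.congr_fun h3 (Pi.single j 1)) i
    simpa [mulVec_single] using this
  exact sub_eq_zero.1 h4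

end Vale.Agent.P372.R4
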