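import Vale.Agent.P372.R4.Main

/-! The Schur complement of a PPT operator with respect to a vector of the first system. -/

open Matrix Kronecker
open scoped ComplexOrder MatrixOrder

set_option linter.unusedSectionVars false

namespace Vale.Agent.P372.R4

open H750 UPB

variable {A B : Type} [Fintype A] [DecidableEq A] [Fintype B] [DecidableEq B]
  {r : Matrix (A × B) (A × B) ℂ} {a : A → ℂ}

/-- The operator `r (a ⊗ ·)`. -/
def rv (a : A → ℂ) (r : Matrix (A × B) (A × B) ℂ) : Matrix (A × B) B ℂ :=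
  r * (Va a : Matrix (A × B) B ℂ)

/-- The Schur complement with respect to `a`. -/
def sc (a : A → ℂ) (r : Matrix (A × B) (A × B) ℂ) : Matrix (A × B) (A × B) ℂ :=
  r - rv a r * (rv a r)ᴴ

theorem mul_Va (r : Matrix (A × B) (A × B) ℂ) (p : A × B) (y : B) :
    (rv a r) p y = ∑ x, r p (x, y) * a x := by
  rw [rv, mul_apply, Fintype.sum_prod_type]
  refine Finset.sum_congr rfl fun x _ => ?_
  rw [Finset.sum_eq_single y]
  · simp [Va]
  · intro z _ hz
    simp [Va, hz]
  · intro h; exact absurd (Finset.mem_univ y) h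

theorem mulVa_C (hr : r.PosSemidef) (j : A) (s y : B) :
    (rv a r) (j, s) y = star (Cm a r j y s) := by
  rw [mul_Va, Cm, star_sum]
  refine Finset.sum_congr rfl fun x _ => ?_
  rw [star_mul', star_star, herm_apply hr, mul_comm]

theorem mulVa_C' (hr : r.PosSemidef) (j : A) (s y : B) :
    (rv a (pTrans r)) (j, s) y = star (Cm a r j s y) := by
  rw [mul_Va, Cm, star_sum]
  refine Finset.sum_congr rfl fun x _ => ?_
  rw [star_mul', star_star, herm_apply hr, mul_comm]
  rfl

theorem sq_Va (hr : r.PosSemidef) (j k : A) (s t : B) :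
    (rv a r * (rv a r)ᴴ) (j, s) (k, t) = ((Cm a r j)ᴴ * Cm a r k) s t := by
  rw [mul_apply, mul_apply]
  refine Finset.sum_congr rfl fun y _ => ?_
  rw [conjTranspose_apply, conjTranspose_apply, mulVa_C hr, mulVa_C hr, star_star]

theorem sq_Va' (hr : r.PosSemidef) (j k : A) (s t : B) :
    (rv a (pTrans r) * (rv a (pTrans r))ᴴ) (j, s) (k, t) =
      (Cm a r k * (Cm a r j)ᴴ) t s := by
  rw [mul_apply, mul_apply]
  refine Finset.sum_congr rfl fun y _ => ?_
  rw [conjTranspose_apply, conjTranspose_apply, mulVa_C' hr, mulVa_C' hr, star_star, mul_comm]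

theorem bl_pTrans (a : A → ℂ) (r : Matrix (A × B) (A × B) ℂ) : bl a (pTrans r) = (bl a r)ᵀ := by
  ext s t
  rfl

theorem sc_psd (hr : r.PosSemidef) (hP : bl a r * bl a r = bl a r) : (sc a r).PosSemidef := by
  refine (schur hr (Va a) ?_).2
  rw [← bl_Va, hP]

theorem sc_Va (hr : r.PosSemidef) (hP : bl a r * bl a r = bl a r) :
    sc a r * (Va a : Matrix (A × B) B ℂ) = 0 := by
  have h := (schur hr (Va a) (by rw [← bl_Va, hP])).1
  have e : (rv a r)ᴴ * Va a = (Va a)ᴴ * r * (Va a : Matrix (A × B) B ℂ) := by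
    rw [rv, conjTranspose_mul, hr.1.eq]
  rw [sc, Matrix.sub_mul, Matrix.mul_assoc (rv a r), e, rv, h, sub_self]

theorem sc_kill (hr : r.PosSemidef) (hP : bl a r * bl a r = bl a r) (y : B → ℂ) :
    sc a r *ᵥ prodVec a y = 0 := by
  rw [← Va_mulVec, mulVec_mulVec, sc_Va hr hP, zero_mulVec]

/-- The partial transpose of the Schur complement. -/
theorem sc_ppt (hr : r.PosSemidef) (hp : (pTrans r).PosSemidef) (hP : bl a r * bl a r = bl a r)
    (hC : ∀ i j, (Cm a r i)ᴴ * Cm a r j = Cm a r j * (Cm a r i)ᴴ) :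
    (pTrans (sc a r)).PosSemidef := by
  have e : pTrans (sc a r) = pTrans r - rv a (pTrans r) * (rv a (pTrans r))ᴴ := by
    ext ⟨j, s⟩ ⟨k, t⟩
    rw [Matrix.sub_apply, sq_Va' hr]
    change r (j, t) (k, s) - (rv a r * (rv a r)ᴴ) (j, t) (k, s) = _
    rw [sq_Va hr, hC]
    rfl
  rw [e]
  refine (schur hp (Va a) ?_).2
  rw [← bl_Va, bl_pTrans, conj_idem hP]

/-- The part with respect to `a` is separable. -/
theorem sep_part (hr : r.PosSemidef)
    (hC : ∀ i j, (Cm a r i)ᴴ * Cm a r j = Cm a r j * (Cm a r i)ᴴ) :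
    IsSep (rv a r * (rv a r)ᴴ) := by
  refine sep_of_comm _ (Cm a r) (fun _ => 0) (fun j s k t => ?_) (fun j k s t => ?_)
    (fun i j => ?_) hC
  · rw [sq_Va hr]
    simp
  · rw [hC]
    simp
  · have := fuglede (N := (Cm a r i)ᴴ) (M := Cm a r j)
      (by rw [conjTranspose_conjTranspose, hC]) (hC i j)
    rw [conjTranspose_conjTranspose] at this
    exact this

/-- Kernel vectors `a ⊗ v` are killed by all `C_j`. -/
theorem Cm_kill (hr : r.PosSemidef) (hp : (pTrans r).PosSemidef) {v : B → ℂ}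
    (hv : bl a r *ᵥ v = 0) (j : A) : Cm a r j *ᵥ v = 0 := by
  have h1 : r *ᵥ prodVec a v = 0 := by
    apply psd_mulVec_zero hr
    rw [dp_bl, hv, dp, dotProduct_zero]
  have h2 := pTrans_kernel hp h1
  ext s
  have h3 := congrFun h2 (j, s)
  rw [sum_prodVec, Pi.zero_apply] at h3
  rw [Pi.zero_apply, ← star_star ((Cm a r j *ᵥ v) s), mulVec, dotProduct, star_sum]
  rw [star_eq_zero, ← h3]
  rw [Finset.sum_comm]
  refine Finset.sum_congr rfl fun t _ => ?_
  rw [Cm, star_mul', star_sum, Finset.sum_mul]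
  refine Finset.sum_congr rfl fun x _ => ?_
  rw [star_mul', star_star, herm_apply hr, Pi.star_apply]
  change a x * r (j, t) (x, s) * star (v t) = r (j, t) (x, s) * (a x * star (v t))
  ring

theorem sub_kron (G : Matrix B B ℂ) :
    (1 : Matrix A A ℂ) ⊗ₖ (1 - G) = 1 - (1 : Matrix A A ℂ) ⊗ₖ G := by
  rw [← one_kronecker_one (α := ℂ) (m := A) (n := B)]
  ext p q
  simp only [kroneckerMap_apply, Matrix.sub_apply, mul_sub]

/-- The projection on the kernel kills the part with respect to `a`. -/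
theorem proj_Va (hr : r.PosSemidef) (hp : (pTrans r).PosSemidef)
    (hP : bl a r * bl a r = bl a r) :
    ((1 : Matrix A A ℂ) ⊗ₖ (1 - bl a r)) * (rv a r) = 0 := by
  have hPh : (bl a r)ᴴ = bl a r := by
    have : (bl a r).PosSemidef := by rw [bl_Va]; exact hr.conjTranspose_mul_mul_same _
    exact this.1
  have h1 : ∀ j, Cm a r j * (1 - bl a r) = 0 := by
    intro j
    refine Matrix.ext_of_mulVec_single fun i => ?_
    rw [← mulVec_mulVec, zero_mulVec]
    apply Cm_kill hr hp
    rw [mulVec_mulVec, Matrix.mul_sub, Matrix.mul_one, hP, sub_self, zero_mulVec]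
  have h2 : ∀ j, (1 - bl a r) * (Cm a r j)ᴴ = 0 := by
    intro j
    have := congrArg conjTranspose (h1 j)
    rw [conjTranspose_mul, conjTranspose_zero, conjTranspose_sub, conjTranspose_one, hPh] at this
    exact this
  ext ⟨j, s⟩ y
  rw [Matrix.zero_apply, mul_apply, Fintype.sum_prod_type, Finset.sum_eq_single j]
  · have := congrFun (congrFun (h2 j) s) y
    rw [mul_apply, Matrix.zero_apply] at this
    rw [← this]
    refine Finset.sum_congr rfl fun t _ => ?_
    rw [kroneckerMap_apply, one_apply_eq, one_mul, mulVa_C hr, conjTranspose_apply]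
  · intro k _ hk
    refine Finset.sum_eq_zero fun t _ => ?_
    rw [kroneckerMap_apply, one_apply_ne (Ne.symm hk), zero_mul, zero_mul]
  · intro h; exact absurd (Finset.mem_univ j) h

/-- The rank of the Schur complement. -/
theorem sc_rank (hr : r.PosSemidef) (hP : bl a r * bl a r = bl a r) :
    (sc a r).rank + (bl a r).rank ≤ r.rank := by
  have h0 := (schur hr (Va a) (by rw [← bl_Va, hP])).1
  have hs : (sc a r)ᴴ = sc a r := (sc_psd hr hP).1
  have h1 : (Va a : Matrix (A × B) B ℂ)ᴴ * sc a r = 0 := by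
    have := congrArg conjTranspose (sc_Va hr hP)
    rw [conjTranspose_mul, hs, conjTranspose_zero] at this
    exact this
  have h2 : LinearMap.range (sc a r).mulVecLin ⊓
      LinearMap.range (rv a r).mulVecLin = ⊥ := by
    rw [eq_bot_iff]
    rintro _ ⟨⟨w, rfl⟩, ⟨y, hy⟩⟩
    rw [mulVecLin_apply] at hy ⊢
    rw [mulVecLin_apply] at hy
    have h3 : bl a r *ᵥ y = 0 := by
      rw [rv] at hy
      rw [bl_Va, Matrix.mul_assoc, ← mulVec_mulVec, hy, mulVec_mulVec, h1, zero_mulVec]
    rw [Submodule.mem_bot, ← hy, rv, ← h0, ← mulVec_mulVec, ← bl_Va, h3, mulVec_zero]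
  have h3 : LinearMap.range (sc a r).mulVecLin ⊔
      LinearMap.range (rv a r).mulVecLin ≤
      LinearMap.range r.mulVecLin := by
    refine sup_le ?_ ?_
    · rintro _ ⟨w, rfl⟩
      refine ⟨w - Va a *ᵥ ((rv a r)ᴴ *ᵥ w), ?_⟩
      rw [mulVecLin_apply, mulVecLin_apply, mulVec_sub, sc, sub_mulVec, mulVec_mulVec,
        mulVec_mulVec]
      rfl
    · rintro _ ⟨w, rfl⟩
      exact ⟨Va a *ᵥ w, by rw [mulVecLin_apply, mulVecLin_apply, mulVec_mulVec]; rfl⟩
  have h4 := Submodule.finrank_sup_add_finrank_inf_eq (LinearMap.range (sc a r).mulVecLin)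
    (LinearMap.range (rv a r).mulVecLin)
  rw [h2, finrank_bot, add_zero] at h4
  have h5 := Submodule.finrank_mono h3
  have h6 : (bl a r).rank ≤ (rv a r).rank := by
    rw [bl_Va, Matrix.mul_assoc]
    exact rank_mul_le_right _ _
  calc (sc a r).rank + (bl a r).rank ≤ (sc a r).rank + (rv a r).rank :=
        Nat.add_le_add_left h6 _
    _ ≤ r.rank := by
        rw [h4] at h5
        exact h5

/-- The compression to the kernel. -/
theorem sc_compr (hr : r.PosSemidef) (hp : (pTrans r).PosSemidef)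
    (hP : bl a r * bl a r = bl a r) :
    ((1 : Matrix A A ℂ) ⊗ₖ (1 - bl a r)) * r * ((1 : Matrix A A ℂ) ⊗ₖ (1 - bl a r))ᴴ =
      ((1 : Matrix A A ℂ) ⊗ₖ (1 - bl a r)) * sc a r *
        ((1 : Matrix A A ℂ) ⊗ₖ (1 - bl a r))ᴴ := by
  rw [sc, Matrix.mul_sub, Matrix.sub_mul]
  have : ((1 : Matrix A A ℂ) ⊗ₖ (1 - bl a r)) * (rv a r * (rv a r)ᴴ) = 0 := by
    rw [← Matrix.mul_assoc, proj_Va hr hp hP, Matrix.zero_mul]
  rw [this, Matrix.zero_mul, sub_zero]

theorem rank_compr (hr : r.PosSemidef) (hp : (pTrans r).PosSemidef)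
    (hP : bl a r * bl a r = bl a r) :
    (((1 : Matrix A A ℂ) ⊗ₖ (1 - bl a r)) * r *
      ((1 : Matrix A A ℂ) ⊗ₖ (1 - bl a r))ᴴ).rank + (bl a r).rank ≤ r.rank := by
  refine le_trans (Nat.add_le_add_right ?_ _) (sc_rank hr hP)
  rw [sc_compr hr hp hP]
  exact (rank_mul_le_left _ _).trans (rank_mul_le_right _ _)

/-- The slices of the vectors of the range of a relatively tight operator. -/
theorem rel_slices (hr : r.PosSemidef) (hp : (pTrans r).PosSemidef)
    (hP : bl a r * bl a r = bl a r)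
    (hrk : r.rank ≤ (((1 : Matrix A A ℂ) ⊗ₖ (1 - bl a r)) * r *
      ((1 : Matrix A A ℂ) ⊗ₖ (1 - bl a r))ᴴ).rank + (bl a r).rank) {s : A × B → ℂ}
    (hs : s ∈ LinearMap.range r.mulVecLin)
    (h : ((1 : Matrix A A ℂ) ⊗ₖ (1 - bl a r)) *ᵥ s = 0) (j : A) (y : B) :
    s (j, y) = ((Cm a r j)ᴴ *ᵥ ca a s) y := by
  obtain ⟨w, rfl⟩ := hs
  rw [mulVecLin_apply] at h ⊢
  obtain ⟨G, hG⟩ : ∃ G, G = (1 : Matrix A A ℂ) ⊗ₖ (1 - bl a r) := ⟨_, rfl⟩
  rw [← hG] at h hrk
  have e1 : r *ᵥ w = sc a r *ᵥ w + (rv a r) *ᵥ ((rv a r)ᴴ *ᵥ w) := by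
    rw [sc, sub_mulVec, mulVec_mulVec, sub_add_cancel]
  have e2 : G *ᵥ (sc a r *ᵥ w) = 0 := by
    have : G *ᵥ (r *ᵥ w) = G *ᵥ (sc a r *ᵥ w) + (G * (rv a r)) *ᵥ ((rv a r)ᴴ *ᵥ w) := by
      conv_lhs => rw [e1]
      rw [mulVec_add, mulVec_mulVec _ G (rv a r)]
    rw [h, hG, proj_Va hr hp hP, zero_mulVec, add_zero, ← hG] at this
    exact this.symm
  have e3 : sc a r *ᵥ w = 0 := by
    have k1 : (sc a r).rank ≤ (G * sc a r).rank := by
      have k2 := sc_rank hr hP
      have k3 : (G * r * Gᴴ).rank ≤ (G * sc a r).rank := by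
        rw [hG, sc_compr hr hp hP]
        exact rank_mul_le_left _ _
      omega
    have k4 : (LinearMap.range (sc a r).mulVecLin).map G.mulVecLin =
        LinearMap.range (G * sc a r).mulVecLin := by
      rw [← LinearMap.range_comp, ← mulVecLin_mul]
    have k5 : Module.finrank ℂ ((LinearMap.range (sc a r).mulVecLin).map G.mulVecLin) =
        Module.finrank ℂ (LinearMap.range (sc a r).mulVecLin) := by
      refine le_antisymm (Submodule.finrank_map_le _ _) ?_
      rw [k4]
      exact k1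
    have k6 : Function.Injective (G.mulVecLin.domRestrict
        (LinearMap.range (sc a r).mulVecLin)) := by
      rw [← LinearMap.ker_eq_bot]
      have k7 := LinearMap.finrank_range_add_finrank_ker (G.mulVecLin.domRestrict
        (LinearMap.range (sc a r).mulVecLin))
      rw [LinearMap.range_domRestrict, k5] at k7
      have k8 : Module.finrank ℂ (LinearMap.ker (G.mulVecLin.domRestrict
        (LinearMap.range (sc a r).mulVecLin))) = 0 := by omega
      exact Submodule.finrank_eq_zero.mp k8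
    have k9 : (⟨sc a r *ᵥ w, ⟨w, rfl⟩⟩ : LinearMap.range (sc a r).mulVecLin) = 0 := by
      apply k6
      rw [map_zero]
      exact e2
    exact congrArg Subtype.val k9
  have e4 : ca a (r *ᵥ w) = (rv a r)ᴴ *ᵥ w := by
    ext y
    rw [ca_apply, rv, conjTranspose_mul, hr.1.eq, ← mulVec_mulVec, mulVec, dotProduct,
      Fintype.sum_prod_type]
    refine Finset.sum_congr rfl fun x _ => ?_
    rw [Finset.sum_eq_single y]
    · simp [Va, conjTranspose_apply]
    · intro t _ ht
      simp [Va, conjTranspose_apply, ht]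
    · intro h; exact absurd (Finset.mem_univ y) h
  rw [e4, e1, e3, zero_add, mulVec, mulVec, dotProduct, dotProduct]
  refine Finset.sum_congr rfl fun t _ => ?_
  rw [mulVa_C hr, conjTranspose_apply]

end Vale.Agent.P372.R4
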