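import Vale.Agent.P372.R4.Alg

/-! Commuting families give separable operators. -/

open Matrix Kronecker
open scoped ComplexOrder

set_option linter.unusedSectionVars false

namespace Vale.Agent.P372.R4

variable {A B n : Type} [Fintype A] [DecidableEq A] [Fintype B] [DecidableEq B]
  [Fintype n] [DecidableEq n]

/-- Joint spectral projections of a commuting family of normal matrices. -/
theorem joint_normal {ι : Type} [Finite ι] (C : ι → Matrix n n ℂ)
    (h1 : ∀ i j, C i * C j = C j * C i) (h2 : ∀ i j, (C i)ᴴ * C j = C j * (C i)ᴴ) :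
    ∃ (S : Type) (_ : Fintype S) (Q : S → Matrix n n ℂ) (c : ι → S → ℂ),
      (∀ s, (Q s).PosSemidef) ∧ ∑ s, Q s = 1 ∧
      (∀ i j s, (C i)ᴴ * Q s * C j = (star (c i s) * c j s) • Q s) := by
  have h3 : ∀ i j, (C i)ᴴ * (C j)ᴴ = (C j)ᴴ * (C i)ᴴ := by
    intro i j
    rw [← conjTranspose_mul, ← conjTranspose_mul, h1]
  obtain ⟨S, iS, Q, lam, a1, a2, a3, a4, -⟩ := H23.joint_spec
    (fun p : ι × Bool => if p.2 then C p.1 + (C p.1)ᴴ else
      Complex.I • (C p.1 - (C p.1)ᴴ)) (by
      rintro ⟨i, b⟩
      cases b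
      · simp only [Bool.false_eq_true, if_false]
        rw [IsHermitian, conjTranspose_smul, conjTranspose_sub, conjTranspose_conjTranspose,
          Complex.star_def, Complex.conj_I, neg_smul, ← smul_neg, neg_sub]
      · simp only [if_true]
        rw [IsHermitian, conjTranspose_add, conjTranspose_conjTranspose, add_comm])
    (by
      have k1 : ∀ i j, Commute (C i) (C j) := h1
      have k2 : ∀ i j, Commute (C i)ᴴ (C j) := h2
      have k3 : ∀ i j, Commute (C i)ᴴ (C j)ᴴ := h3
      have k4 : ∀ i j, Commute (C i) (C j)ᴴ := fun i j => (k2 j i).symm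
      rintro ⟨i, b⟩ ⟨j, b'⟩
      cases b <;> cases b'
      · simp only [Bool.false_eq_true, if_false]
        exact ((((k1 i j).sub_right (k4 i j)).sub_left
          ((k2 i j).sub_right (k3 i j))).smul_left _).smul_right _
      · simp only [Bool.false_eq_true, if_false, if_true]
        exact (((k1 i j).add_right (k4 i j)).sub_left
          ((k2 i j).add_right (k3 i j))).smul_left _
      · simp only [Bool.false_eq_true, if_false, if_true]
        exact (((k1 i j).sub_right (k4 i j)).add_left
          ((k2 i j).sub_right (k3 i j))).smul_right _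
      · simp only [if_true]
        exact ((k1 i j).add_right (k4 i j)).add_left
          ((k2 i j).add_right (k3 i j)))
  have b1 : ∀ i s, (C i)ᴴ * Q s =
      ((1 / 2 : ℂ) * ((lam (i, true) s : ℂ) + Complex.I * lam (i, false) s)) • Q s := by
    intro i s
    have e1 := a4 (i, true) s
    have e2 := a4 (i, false) s
    simp only [Bool.false_eq_true, if_false, if_true] at e1 e2
    rw [Matrix.add_mul] at e1
    rw [Matrix.smul_mul, Matrix.sub_mul] at e2
    have e3 : (C i)ᴴ * Q s = (1 / 2 : ℂ) • ((C i * Q s + (C i)ᴴ * Q s) +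
        Complex.I • (Complex.I • (C i * Q s - (C i)ᴴ * Q s))) := by
      rw [smul_smul, Complex.I_mul_I, neg_smul, one_smul]
      have : C i * Q s + (C i)ᴴ * Q s + -(C i * Q s - (C i)ᴴ * Q s) =
          (2 : ℂ) • ((C i)ᴴ * Q s) := by
        rw [two_smul]; abel
      rw [this, smul_smul]
      norm_num
    rw [e3, e1, e2, smul_smul, ← add_smul, smul_smul]
  refine ⟨S, iS, Q, fun i s => star ((1 / 2 : ℂ) * ((lam (i, true) s : ℂ) +
    Complex.I * lam (i, false) s)), ?_, a3, ?_⟩
  · intro s
    have : Q s = (Q s)ᴴ * Q s := by rw [(a1 s).eq, a2]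
    rw [this]
    exact posSemidef_conjTranspose_mul_self _
  · intro i j s
    have e1 : Q s * C j = star ((1 / 2 : ℂ) * ((lam (j, true) s : ℂ) +
        Complex.I * lam (j, false) s)) • Q s := by
      have := congrArg conjTranspose (b1 j s)
      rw [conjTranspose_mul, conjTranspose_conjTranspose, conjTranspose_smul, (a1 s).eq] at this
      exact this
    rw [Matrix.mul_assoc, e1, Matrix.mul_smul, b1, smul_smul, star_star, mul_comm]

theorem isSep_of_fintype' {κ : Type} [Fintype κ] (M : κ → Matrix A A ℂ) (N : κ → Matrix B B ℂ)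
    (hM : ∀ k, (M k).PosSemidef) (hN : ∀ k, (N k).PosSemidef) : IsSep (∑ k, M k ⊗ₖ N k) := by
  let e := Fintype.equivFin κ
  refine ⟨Fintype.card κ, fun k => M (e.symm k), fun k => N (e.symm k), fun k => hM _,
    fun k => hN _, ?_⟩
  exact (Equiv.sum_comp e.symm fun k => M k ⊗ₖ N k).symm

/-- The state with the two families, all commuting. -/
theorem sep_of_comm (r : Matrix (A × B) (A × B) ℂ) (C : A → Matrix B B ℂ)
    (D : B → Matrix A A ℂ) (hr : ∀ j s k t, r (j, s) (k, t) =
      ((C j)ᴴ * C k) s t + ((D s)ᴴ * D t) j k)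
    (hS : Star C D) (h1 : ∀ i j, C i * C j = C j * C i)
    (h2 : ∀ i j, (C i)ᴴ * C j = C j * (C i)ᴴ) : IsSep r := by
  have d2 : ∀ i j, (D i)ᴴ * D j = D j * (D i)ᴴ := by
    intro t s
    rw [← sub_eq_zero]
    ext j k
    have := hS j k s t
    rw [h2, sub_self, Matrix.zero_apply, zero_add] at this
    rw [this, Matrix.zero_apply]
  have d1 : ∀ i j, D i * D j = D j * D i := by
    intro i j
    have := fuglede (d2 i i) (M := (D j)ᴴ) (d2 j i).symm
    have h3 := congrArg conjTranspose this
    rw [conjTranspose_mul, conjTranspose_mul, conjTranspose_conjTranspose,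
      conjTranspose_conjTranspose] at h3
    exact h3.symm
  obtain ⟨S, iS, Q, c, q1, q2, q3⟩ := joint_normal C h1 h2
  obtain ⟨S', iS', Q', c', q1', q2', q3'⟩ := joint_normal D d1 d2
  have hp : ∀ {m : Type} [Fintype m] (v : m → ℂ), (vecMulVec (star v) v).PosSemidef := by
    intro m _ v
    have := posSemidef_vecMulVec_self_star (star v)
    rwa [star_star] at this
  have hs := isSep_of_fintype' (κ := S ⊕ S')
    (Sum.elim (fun s => vecMulVec (star (fun j => c j s)) (fun j => c j s)) Q')
    (Sum.elim Q (fun s => vecMulVec (star (fun j => c' j s)) (fun j => c' j s)))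
    (fun k => by cases k <;> simp [hp, q1']) (fun k => by cases k <;> simp [hp, q1])
  refine (congrArg IsSep ?_).mpr hs
  ext ⟨j, s⟩ ⟨k, t⟩
  rw [hr, Fintype.sum_sum_type, Matrix.add_apply, Matrix.sum_apply, Matrix.sum_apply]
  congr 1
  · have : (C j)ᴴ * C k = ∑ σ, (C j)ᴴ * Q σ * C k := by
      rw [← Matrix.sum_mul, ← Matrix.mul_sum, q2, Matrix.mul_one]
    rw [this, Matrix.sum_apply]
    refine Finset.sum_congr rfl fun σ _ => ?_
    rw [q3]
    simp [vecMulVec_apply]
  · have : (D s)ᴴ * D t = ∑ σ, (D s)ᴴ * Q' σ * D t := by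
      rw [← Matrix.sum_mul, ← Matrix.mul_sum, q2', Matrix.mul_one]
    rw [this, Matrix.sum_apply]
    refine Finset.sum_congr rfl fun σ _ => ?_
    rw [q3']
    simp [vecMulVec_apply, mul_comm]

end Vale.Agent.P372.R4
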