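import Vale.Agent.P372.R4.Tight
import Vale.Agent.P372.H750.Upb

/-! The irreducible case: no subspace of the range is stuck. -/

open Matrix Kronecker
open scoped ComplexOrder MatrixOrder

set_option linter.unusedSectionVars false

namespace Vale.Agent.P372.R4

open H750 UPB

variable {A B : Type} [Fintype A] [DecidableEq A] [Fintype B] [DecidableEq B]

/-- The hypotheses of the nested blinding criterion. -/
def KeyCrit (r : Matrix (A × B) (A × B) ℂ) : Prop :=
  ∃ (X : Matrix A A ℂ) (Y : Matrix B B ℂ), X.IsHermitian ∧ Y.IsHermitian ∧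
    0 < (r * (X ⊗ₖ Y)).trace.re ∧ NoStuck (LinearMap.range r.mulVecLin) X Y

theorem KeyCrit.keyPos {r : Matrix (A × B) (A × B) ℂ} (h : KeyCrit r) (hr : r.trace = 1) :
    KeyPos r := by
  obtain ⟨X, Y, hX, hY, hc, hW⟩ := h
  intro E _ _ Ψ hΨ
  have htr : (Ψ * Ψᴴ).trace = 1 := by rw [hΨ, hr]
  refine pos_of_noStuck Ψ htr hX hY ?_ ?_
  · rw [tq_eq, hΨ]
    exact hc
  · intro S hS
    have := range_mul_conjTranspose Ψ
    rw [hΨ] at this
    exact hW S (hS.trans this)

/-- The contraction with `a` on the first system. -/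
def ca (a : A → ℂ) : (A × B → ℂ) →ₗ[ℂ] (B → ℂ) where
  toFun v := fun y => ∑ x, star (a x) * v (x, y)
  map_add' v w := by
    ext y
    simp only [Pi.add_apply, mul_add, Finset.sum_add_distrib]
  map_smul' c v := by
    ext y
    simp only [Pi.smul_apply, smul_eq_mul, RingHom.id_apply, Finset.mul_sum]
    exact Finset.sum_congr rfl fun x _ => by ring

theorem ca_apply (a : A → ℂ) (v : A × B → ℂ) (y : B) :
    ca a v y = ∑ x, star (a x) * v (x, y) := rfl

theorem ip_ca (a : A → ℂ) (h : B → ℂ) (v : A × B → ℂ) :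
    ip (prodVec a h) v = dp h (ca a v) := by
  simp only [ip, dp, dotProduct, Fintype.sum_prod_type, prodVec, Pi.star_apply, ca_apply,
    star_mul', Finset.mul_sum]
  rw [Finset.sum_comm]
  exact Finset.sum_congr rfl fun x _ => Finset.sum_congr rfl fun y _ => by ring

theorem ip_ctr (a : A → ℂ) (h : B → ℂ) (v : A × B → ℂ) :
    ip (prodVec a h) v = dp a (ctr h v) := ip_prodVec_ctr a h v

/-- The vectors of the range of a tight state. -/
theorem range_vec {r : Matrix (A × B) (A × B) ℂ} {a : A → ℂ} {b : B → ℂ}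
    (h : ∀ j s k t, r (j, s) (k, t) =
      ((Cm a r j)ᴴ * Cm a r k) s t + ((Dm b r s)ᴴ * Dm b r t) j k) {v : A × B → ℂ}
    (hv : v ∈ LinearMap.range r.mulVecLin) (j : A) (s : B) :
    v (j, s) = ((Cm a r j)ᴴ *ᵥ ca a v) s + ((Dm b r s)ᴴ *ᵥ ctr b v) j := by
  obtain ⟨w, rfl⟩ := hv
  rw [mulVecLin_apply]
  have e1 : ca a (r *ᵥ w) = ∑ k, Cm a r k *ᵥ (fun t => w (k, t)) := by
    ext y
    rw [ca_apply, Finset.sum_apply]
    simp only [mulVec, dotProduct, Fintype.sum_prod_type, Cm, Finset.mul_sum, Finset.sum_mul]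
    rw [Finset.sum_comm]
    refine Finset.sum_congr rfl fun k _ => ?_
    rw [Finset.sum_comm]
    exact Finset.sum_congr rfl fun t _ => Finset.sum_congr rfl fun x _ => by ring
  have e2 : ctr b (r *ᵥ w) = ∑ t, Dm b r t *ᵥ (fun k => w (k, t)) := by
    ext l
    rw [ctr_apply, Finset.sum_apply]
    simp only [ip, mulVec, dotProduct, Fintype.sum_prod_type, Dm, Finset.mul_sum, Finset.sum_mul,
      Pi.star_apply]
    rw [Finset.sum_comm]
    rw [Finset.sum_comm]
    conv_rhs => rw [Finset.sum_comm]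
    rw [Finset.sum_comm]
    refine Finset.sum_congr rfl fun k _ => ?_
    rw [Finset.sum_comm]
    refine Finset.sum_congr rfl fun t _ => Finset.sum_congr rfl fun x _ => ?_
    ring
  rw [e1, e2, mulVec_sum, mulVec_sum, Finset.sum_apply, Finset.sum_apply]
  simp only [mulVec_mulVec]
  rw [mulVec, dotProduct, Fintype.sum_prod_type]
  simp only [h, add_mul, Finset.sum_add_distrib]
  congr 1
  rw [Finset.sum_comm]
  rfl

theorem one_kron_mulVec_ne {h : B → ℂ} {v : A × B → ℂ} (hv : ctr h v ≠ 0) :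
    ((0 : Matrix A A ℂ) ⊗ₖ (1 : Matrix B B ℂ) + (1 : Matrix A A ℂ) ⊗ₖ vecMulVec h (star h)) *ᵥ v
      ≠ 0 := by
  intro h0
  apply hv
  rw [zero_kronecker, zero_add] at h0
  have h1 : star v ⬝ᵥ (((1 : Matrix A A ℂ) ⊗ₖ vecMulVec h (star h)) *ᵥ v) = 0 := by
    rw [h0, dotProduct_zero]
  rw [quad_fiber, Complex.ofReal_eq_zero] at h1
  ext y
  have h4 := (Finset.sum_eq_zero_iff_of_nonneg (fun _ _ => sq_nonneg _)).mp h1 y
    (Finset.mem_univ y)
  rw [ctr_apply]
  exact norm_eq_zero.mp (pow_eq_zero_iff two_ne_zero |>.mp h4)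

/-- The form with `X = |a⟩⟨x| + |x⟩⟨a|` and a rank one operator. -/
theorem form_X (a x : A → ℂ) (h : B → ℂ) (Y : Matrix B B ℂ) (u v : A × B → ℂ)
    (h1 : ip (prodVec a h) v * ip u (prodVec x h) = 0)
    (h2 : ip (prodVec x h) v * ip u (prodVec a h) = 0) :
    star u ⬝ᵥ (((vecMulVec a (star x) + vecMulVec x (star a)) ⊗ₖ vecMulVec h (star h) +
      (0 : Matrix A A ℂ) ⊗ₖ Y) *ᵥ v) = 0 := by
  rw [zero_kronecker, add_zero, add_kronecker, add_mulVec, dotProduct_add, form_vmv, form_vmv,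
    h1, h2, add_zero]

/-- No stuck subspaces. -/
theorem noStuck_of_irred {r : Matrix (A × B) (A × B) ℂ} {a x : A → ℂ} {b h : B → ℂ}
    (hr : r.PosSemidef) (hab : r *ᵥ prodVec a b = 0)
    (hst : ∀ j s k t, r (j, s) (k, t) =
      ((Cm a r j)ᴴ * Cm a r k) s t + ((Dm b r s)ᴴ * Dm b r t) j k)
    (hS : Star (Cm a r) (Dm b r)) {V : Submodule ℂ (B → ℂ)} (hV : Inv (Cm a r) V)
    (hirr : ∀ U : Submodule ℂ (B → ℂ), Inv (Cm a r) U → U ≤ V → U = ⊥ ∨ U = V)
    (hhV : h ∈ V) (hh0 : h ≠ 0) (hx : (∑ j, x j • Cm a r j) *ᵥ h = 0) {Y : Matrix B B ℂ}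
    (hY : ∀ w ∈ orth V, Y *ᵥ w = 0) :
    NoStuck (LinearMap.range r.mulVecLin) (vecMulVec a (star x) + vecMulVec x (star a)) Y := by
  intro S hSr hS0
  have hk : ∀ v ∈ S, ip (prodVec a b) v = 0 := by
    intro v hv
    obtain ⟨w, rfl⟩ := hSr hv
    rw [mulVecLin_apply]
    have : ip (prodVec a b) (r *ᵥ w) = dp (rᴴ *ᵥ prodVec a b) w := dp_mulVec r _ _
    rw [this, hr.1, hab, dp, star_zero, zero_dotProduct]
  by_cases hc1 : ∃ v ∈ S, ctr b v ≠ 0
  · obtain ⟨v, hv, hv0⟩ := hc1
    refine ⟨0, vecMulVec b (star b), PosSemidef.zero, posSemidef_vmv b, fun u hu w hw => ?_,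
      v, hv, one_kron_mulVec_ne hv0⟩
    refine form_X a x b Y u w ?_ ?_
    · rw [hk w hw, zero_mul]
    · rw [ip_comm_zero (hk u hu), mul_zero]
  push Not at hc1
  have hvec : ∀ v ∈ S, ∀ j s, v (j, s) = ((Cm a r j)ᴴ *ᵥ ca a v) s := by
    intro v hv j s
    rw [range_vec hst (hSr hv), hc1 v hv, mulVec_zero, Pi.zero_apply, add_zero]
  have hctr : ∀ v ∈ S, ∀ (g : B → ℂ) (j : A), ctr g v j = dp g ((Cm a r j)ᴴ *ᵥ ca a v) := by
    intro v hv g j
    rw [ctr_apply, ip, dp]
    congr 1
    ext s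
    exact hvec v hv j s
  obtain ⟨V', hV'⟩ : ∃ V' : Submodule ℂ (B → ℂ), V' = S.map (ca a) := ⟨_, rfl⟩
  have hmem : ∀ v ∈ S, ca a v ∈ V' := fun v hv => by
    rw [hV']; exact Submodule.mem_map_of_mem hv
  by_cases hc2 : Inv (Cm a r) V'
  · by_cases hc3 : ∃ v ∈ S, dp h (ca a v) ≠ 0
    · obtain ⟨v, hv, hv0⟩ := hc3
      have hne : ctr h v ≠ 0 := by
        intro h0
        apply hv0
        rw [← ip_ca, ip_ctr, h0, dp, dotProduct_zero]
      have hz : ∀ w ∈ S, ip (prodVec x h) w = 0 := by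
        intro w hw
        rw [ip_ctr, dp, dotProduct]
        have e1 : ∀ j, star x j * ctr h w j = star (x j) * dp (Cm a r j *ᵥ h) (ca a w) := by
          intro j
          rw [hctr w hw, dp_mulVec, conjTranspose_conjTranspose]
          rfl
        simp only [e1]
        have e2 : ∀ j, star (x j) * dp (Cm a r j *ᵥ h) (ca a w) =
            dp ((x j • Cm a r j) *ᵥ h) (ca a w) := by
          intro j
          rw [smul_mulVec, smul_dp]
        simp only [e2]
        have e3 : ∑ j, dp ((x j • Cm a r j) *ᵥ h) (ca a w) =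
            dp ((∑ j, x j • Cm a r j) *ᵥ h) (ca a w) := by
          rw [sum_mulVec, dp, star_sum, sum_dotProduct]
          rfl
        rw [e3, hx, dp, star_zero, zero_dotProduct]
      refine ⟨0, vecMulVec h (star h), PosSemidef.zero, posSemidef_vmv h, fun u hu w hw => ?_,
        v, hv, one_kron_mulVec_ne hne⟩
      refine form_X a x h Y u w ?_ ?_
      · rw [ip_comm_zero (hz u hu), mul_zero]
      · rw [hz w hw, zero_mul]
    · push Not at hc3
      have hI : Inv (Cm a r) (V ⊓ orth V') := by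
        intro j v hv
        exact ⟨hV j v hv.1, hS.inv_orth hc2 j v hv.2⟩
      have hhm : h ∈ V ⊓ orth V' := by
        refine ⟨hhV, fun w hw => ?_⟩
        rw [hV'] at hw
        obtain ⟨v, hv, rfl⟩ := hw
        exact dp_zero_symm (hc3 v hv)
      have hle : V ≤ orth V' := by
        rcases hirr _ hI inf_le_left with h1 | h1
        · exfalso
          rw [h1] at hhm
          exact hh0 hhm
        · rw [← h1]
          exact inf_le_right
      obtain ⟨v, hv, hv0⟩ := S.exists_mem_ne_zero_of_ne_bot hS0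
      refine ⟨1, 0, PosSemidef.one, PosSemidef.zero, fun u hu w hw => ?_, v, hv, ?_⟩
      · have hYw : ∀ j, Y *ᵥ (fun s => w (j, s)) = 0 := by
          intro j
          apply hY
          intro g hg
          have e1 : (fun s => w (j, s)) = (Cm a r j)ᴴ *ᵥ ca a w := by
            ext s
            exact hvec w hw j s
          rw [e1]
          exact dp_zero_symm (hle hg _ (hc2 j _ (hmem w hw)))
        have e2 : ((vecMulVec a (star x) + vecMulVec x (star a)) ⊗ₖ (0 : Matrix B B ℂ) +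
            (1 : Matrix A A ℂ) ⊗ₖ Y) *ᵥ w = 0 := by
          rw [kronecker_zero, zero_add]
          ext ⟨j, s⟩
          rw [mulVec, dotProduct, Fintype.sum_prod_type, Finset.sum_eq_single j]
          · have := congrFun (hYw j) s
            rw [mulVec, dotProduct] at this
            simpa [kroneckerMap_apply] using this
          · intro k _ hk
            refine Finset.sum_eq_zero fun t _ => ?_
            rw [kroneckerMap_apply, one_apply_ne (Ne.symm hk), zero_mul, zero_mul]
          · intro hj; exact absurd (Finset.mem_univ j) hj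
        rw [e2, dotProduct_zero]
      · rw [kronecker_zero, add_zero, one_kronecker_one, one_mulVec]
        exact hv0
  · -- a vector orthogonal to `V'`
    unfold Inv at hc2
    push Not at hc2
    obtain ⟨j, β, hβ, hn⟩ := hc2
    rw [hV'] at hβ
    obtain ⟨v, hv, rfl⟩ := hβ
    obtain ⟨P, p1, p2, p3, p4⟩ := exists_proj V'
    obtain ⟨w, hw⟩ : ∃ w, w = (Cm a r j)ᴴ *ᵥ ca a v := ⟨_, rfl⟩
    rw [← hw] at hn
    obtain ⟨g, hg⟩ : ∃ g, g = w - P *ᵥ w := ⟨_, rfl⟩
    have hgo : ∀ z ∈ V', dp z g = 0 := by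
      intro z hz
      have e : dp z (P *ᵥ w) = dp z w := by rw [dp_mulVec, p1, p3 z hz]
      rw [hg, sub_eq_add_neg, dp_add, ← neg_one_smul ℂ (P *ᵥ w), dp_smul, e]
      ring
    have hgw : dp g w ≠ 0 := by
      intro h0
      apply hn
      have e1 : w = g + P *ᵥ w := by rw [hg]; abel
      have e2 : dp g g = 0 := by
        have : dp g w = dp g g + dp g (P *ᵥ w) := by
          conv_lhs => rw [e1]
          rw [dp_add]
        rw [h0, dp_zero_symm (hgo _ (p4 w)), add_zero] at this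
        exact this.symm
      have e3 := dp_self e2
      rw [e1, e3, zero_add]
      exact p4 w
    have hz : ∀ u ∈ S, ip (prodVec a g) u = 0 := by
      intro u hu
      rw [ip_ca]
      exact dp_zero_symm (hgo _ (hmem u hu))
    have hne : ctr g v ≠ 0 := by
      intro h0
      apply hgw
      have := congrFun h0 j
      rw [hctr v hv, Pi.zero_apply, ← hw] at this
      exact this
    refine ⟨0, vecMulVec g (star g), PosSemidef.zero, posSemidef_vmv g, fun u hu w hw => ?_,
      v, hv, one_kron_mulVec_ne hne⟩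
    refine form_X a x g Y u w ?_ ?_
    · rw [hz w hw, zero_mul]
    · rw [ip_comm_zero (hz u hu), mul_zero]

end Vale.Agent.P372.R4
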