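import Vale.Agent.P372.R4.Sep

/-! Invariant subspaces. -/

open Matrix Kronecker
open scoped ComplexOrder

set_option linter.unusedSectionVars false

namespace Vale.Agent.P372.R4

variable {A B n : Type} [Fintype A] [DecidableEq A] [Fintype B] [DecidableEq B]
  [Fintype n] [DecidableEq n]

/-- The inner product, conjugate linear on the left. -/
def dp (u v : n → ℂ) : ℂ := star u ⬝ᵥ v

theorem dp_mulVec (M : Matrix n n ℂ) (u v : n → ℂ) : dp u (M *ᵥ v) = dp (Mᴴ *ᵥ u) v := by
  rw [dp, dp, star_mulVec, conjTranspose_conjTranspose, dotProduct_mulVec]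

theorem dp_star (u v : n → ℂ) : star (dp u v) = dp v u := by
  rw [dp, dp, star_dotProduct, star_star]

theorem dp_self {u : n → ℂ} (h : dp u u = 0) : u = 0 := dotProduct_star_self_eq_zero.mp h

theorem dp_zero_symm {u v : n → ℂ} (h : dp u v = 0) : dp v u = 0 := by
  rw [← dp_star, h, star_zero]

theorem dp_add (u v w : n → ℂ) : dp u (v + w) = dp u v + dp u w := dotProduct_add _ _ _

theorem dp_smul (c : ℂ) (u v : n → ℂ) : dp u (c • v) = c * dp u v := by
  rw [dp, dotProduct_smul]; rfl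

theorem add_dp (u v w : n → ℂ) : dp (u + v) w = dp u w + dp v w := by
  rw [dp, star_add, add_dotProduct]; rfl

theorem smul_dp (c : ℂ) (u v : n → ℂ) : dp (c • u) v = star c * dp u v := by
  rw [dp, star_smul, smul_dotProduct]; rfl

/-- The orthogonal complement. -/
def orth (V : Submodule ℂ (n → ℂ)) : Submodule ℂ (n → ℂ) where
  carrier := {w | ∀ v ∈ V, dp v w = 0}
  add_mem' {a b} ha hb v hv := by rw [dp_add, ha v hv, hb v hv, add_zero]
  zero_mem' v _ := by rw [dp, dotProduct_zero]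
  smul_mem' c w hw v hv := by rw [dp_smul, hw v hv, mul_zero]

theorem mem_orth {V : Submodule ℂ (n → ℂ)} {w : n → ℂ} :
    w ∈ orth V ↔ ∀ v ∈ V, dp v w = 0 := Iff.rfl

/-- Spectral calculus of a Hermitian matrix: the projection on the range. -/
theorem exists_proj_herm {N : Matrix n n ℂ} (hN : N.IsHermitian) :
    ∃ P W : Matrix n n ℂ, Pᴴ = P ∧ P * P = P ∧ P * N = N ∧ P = N * W := by
  obtain ⟨U, hU⟩ : ∃ U : Matrix n n ℂ, U = (hN.eigenvectorUnitary : Matrix n n ℂ) := ⟨_, rfl⟩
  have hU1 : Uᴴ * U = 1 := by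
    rw [hU]
    exact Unitary.coe_star_mul_self hN.eigenvectorUnitary
  obtain ⟨d, hd⟩ : ∃ d : n → ℝ, d = hN.eigenvalues := ⟨_, rfl⟩
  have hsp : N = U * diagonal (fun i => (d i : ℂ)) * Uᴴ := by
    have h := hN.spectral_theorem
    rw [Unitary.conjStarAlgAut_apply] at h
    rw [hU, hd]
    exact h
  have key : ∀ (e f : n → ℂ), (U * diagonal e * Uᴴ) * (U * diagonal f * Uᴴ) =
      U * diagonal (fun i => e i * f i) * Uᴴ := by
    intro e f
    calc (U * diagonal e * Uᴴ) * (U * diagonal f * Uᴴ) =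
        U * diagonal e * (Uᴴ * U) * diagonal f * Uᴴ := by simp only [Matrix.mul_assoc]
      _ = _ := by rw [hU1, Matrix.mul_one, Matrix.mul_assoc U, diagonal_mul_diagonal]
  refine ⟨U * diagonal (fun i => if d i = 0 then (0 : ℂ) else 1) * Uᴴ,
    U * diagonal (fun i => (d i : ℂ)⁻¹) * Uᴴ, ?_, ?_, ?_, ?_⟩
  · rw [conjTranspose_mul, conjTranspose_mul, conjTranspose_conjTranspose,
      diagonal_conjTranspose, ← Matrix.mul_assoc]
    have : star (fun i => if d i = 0 then (0 : ℂ) else 1) =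
        fun i => if d i = 0 then (0 : ℂ) else 1 := by
      funext i
      simp only [Pi.star_apply]
      split_ifs <;> simp
    rw [this]
  · rw [key]
    have : (fun i => (if d i = 0 then (0 : ℂ) else 1) * (if d i = 0 then (0 : ℂ) else 1)) =
        fun i => if d i = 0 then (0 : ℂ) else 1 := by
      funext i
      split_ifs <;> simp
    rw [this]
  · conv_lhs => rw [hsp]
    rw [key]
    have : (fun i => (if d i = 0 then (0 : ℂ) else 1) * (d i : ℂ)) =
        fun i => (d i : ℂ) := by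
      funext i
      split_ifs with h
      · simp [h]
      · simp
    rw [this]
    exact hsp.symm
  · rw [hsp, key]
    have : (fun i => (d i : ℂ) * (d i : ℂ)⁻¹) =
        fun i => if d i = 0 then (0 : ℂ) else 1 := by
      funext i
      split_ifs with h
      · simp [h]
      · rw [mul_inv_cancel₀]
        exact_mod_cast h
    rw [this]

/-- The projection on a subspace. -/
theorem exists_proj (V : Submodule ℂ (n → ℂ)) :
    ∃ P : Matrix n n ℂ, Pᴴ = P ∧ P * P = P ∧ (∀ v ∈ V, P *ᵥ v = v) ∧ ∀ v, P *ᵥ v ∈ V := by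
  classical
  have hfg : V.FG := IsNoetherian.noetherian V
  obtain ⟨s, hs⟩ := hfg
  obtain ⟨K, hK⟩ : ∃ K : Matrix n s ℂ, K = fun i v => v.1 i := ⟨_, rfl⟩
  have hKr : ∀ w, K *ᵥ w ∈ V := by
    intro w
    have : K *ᵥ w = ∑ v : s, w v • v.1 := by
      ext i
      simp [mulVec, dotProduct, hK, Finset.sum_apply, mul_comm]
    rw [this]
    exact Submodule.sum_mem _ fun v _ => Submodule.smul_mem _ _ (by
      rw [← hs]; exact Submodule.subset_span v.2)
  obtain ⟨P, W, h1, h2, h3, h4⟩ := exists_proj_herm (N := K * Kᴴ)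
    (posSemidef_self_mul_conjTranspose K).1
  have h5 : P * K = K := by
    have h6 : (P * K - K) * (P * K - K)ᴴ = 0 := by
      rw [conjTranspose_sub, conjTranspose_mul, h1, Matrix.sub_mul, Matrix.mul_sub,
        Matrix.mul_sub]
      have a1 : P * K * (Kᴴ * P) = P * (K * Kᴴ) * P := by simp only [Matrix.mul_assoc]
      have a2 : P * K * Kᴴ = P * (K * Kᴴ) := by simp only [Matrix.mul_assoc]
      have a3 : K * (Kᴴ * P) = (K * Kᴴ) * P := by simp only [Matrix.mul_assoc]
      rw [a1, a2, a3, h3]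
      abel
    exact sub_eq_zero.mp (self_mul_conjTranspose_eq_zero.mp h6)
  refine ⟨P, h1, h2, ?_, ?_⟩
  · intro v hv
    rw [← hs] at hv
    induction hv using Submodule.span_induction with
    | mem x hx =>
      have : x = K *ᵥ Pi.single (⟨x, hx⟩ : s) 1 := by
        ext i
        rw [mulVec_single_one, hK]
        rfl
      rw [this, mulVec_mulVec, h5]
    | zero => rw [mulVec_zero]
    | add x y _ _ hx hy => rw [mulVec_add, hx, hy]
    | smul c x _ hx => rw [mulVec_smul, hx]
  · intro v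
    rw [h4, Matrix.mul_assoc, ← mulVec_mulVec]
    exact hKr _

/-- A subspace invariant under all `(C j)ᴴ`. -/
def Inv (C : A → Matrix B B ℂ) (V : Submodule ℂ (B → ℂ)) : Prop :=
  ∀ j, ∀ v ∈ V, (C j)ᴴ *ᵥ v ∈ V

/-- Invariant subspaces are reducing. -/
theorem Star.rigid' {C : A → Matrix B B ℂ} {D : B → Matrix A A ℂ} (hS : Star C D)
    {V : Submodule ℂ (B → ℂ)} (hV : Inv C V) (j : A) {v : B → ℂ} (hv : v ∈ V) :
    C j *ᵥ v ∈ V := by
  obtain ⟨P, h1, h2, h3, h4⟩ := exists_proj V
  have h5 := hS.rigid h1 h2 (fun j => by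
    refine Matrix.ext_of_mulVec_single fun i => ?_
    rw [← mulVec_mulVec, ← mulVec_mulVec, ← mulVec_mulVec]
    exact (h3 _ (hV j _ (h4 _))).symm) j
  have : C j *ᵥ v = P *ᵥ (C j *ᵥ v) := by
    conv_lhs => rw [← h3 v hv]
    rw [mulVec_mulVec, h5, ← mulVec_mulVec, ← mulVec_mulVec, h3 v hv]
  rw [this]
  exact h4 _

theorem Star.inv_orth {C : A → Matrix B B ℂ} {D : B → Matrix A A ℂ} (hS : Star C D)
    {V : Submodule ℂ (B → ℂ)} (hV : Inv C V) : Inv C (orth V) := by
  intro j w hw v hv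
  rw [dp_mulVec, conjTranspose_conjTranspose]
  exact hw _ (hS.rigid' hV j hv)

theorem orth_bot {V : Submodule ℂ (n → ℂ)} (h : orth V = ⊥) : V = ⊤ := by
  obtain ⟨P, h1, h2, h3, h4⟩ := exists_proj V
  rw [eq_top_iff]
  intro w _
  have : w - P *ᵥ w ∈ orth V := by
    intro v hv
    have e : dp v (P *ᵥ w) = dp v w := by rw [dp_mulVec, h1, h3 v hv]
    rw [sub_eq_add_neg, dp_add, ← neg_one_smul ℂ (P *ᵥ w), dp_smul, e]
    ring
  rw [h, Submodule.mem_bot, sub_eq_zero] at this
  rw [this]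
  exact h4 _

theorem inf_orth {V : Submodule ℂ (n → ℂ)} {w : n → ℂ} (h1 : w ∈ V) (h2 : w ∈ orth V) :
    w = 0 := dp_self (h2 w h1)

/-- Either an irreducible subspace of dimension at least two, or the matrices commute. -/
theorem Star.dichotomy {C : A → Matrix B B ℂ} {D : B → Matrix A A ℂ} (hS : Star C D) :
    (∃ V : Submodule ℂ (B → ℂ), Inv C V ∧ 2 ≤ Module.finrank ℂ V ∧
      ∀ U : Submodule ℂ (B → ℂ), Inv C U → U ≤ V → U = ⊥ ∨ U = V) ∨
    ((∀ i j, C i * C j = C j * C i) ∧ ∀ i j, (C i)ᴴ * C j = C j * (C i)ᴴ) := by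
  classical
  obtain ⟨N, hN⟩ : ∃ N : Submodule ℂ (B → ℂ), N = Submodule.span ℂ
    {f | ∀ j, ∃ c : ℂ, (C j)ᴴ *ᵥ f = c • f} := ⟨_, rfl⟩
  have hNi : Inv C N := by
    intro j v hv
    rw [hN] at hv ⊢
    induction hv using Submodule.span_induction with
    | mem x hx =>
      obtain ⟨c, hc⟩ := hx j
      rw [hc]
      exact Submodule.smul_mem _ _ (Submodule.subset_span hx)
    | zero => rw [mulVec_zero]; exact Submodule.zero_mem _
    | add x y _ _ hx hy => rw [mulVec_add]; exact Submodule.add_mem _ hx hy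
    | smul c x _ hx => rw [mulVec_smul]; exact Submodule.smul_mem _ _ hx
  by_cases hO : orth N = ⊥
  · right
    have hT := orth_bot hO
    -- all vectors are sums of common eigenvectors
    have hk : ∀ f : B → ℂ, (∀ j, ∃ c : ℂ, (C j)ᴴ *ᵥ f = c • f) → ∀ j, ∃ c : ℂ,
        C j *ᵥ f = c • f := by
      intro f hf j
      have hI : Inv C (Submodule.span ℂ {f}) := by
        intro j v hv
        obtain ⟨a, rfl⟩ := Submodule.mem_span_singleton.mp hv
        obtain ⟨c, hc⟩ := hf j
        rw [mulVec_smul, hc]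
        exact Submodule.smul_mem _ _ (Submodule.smul_mem _ _
          (Submodule.mem_span_singleton_self f))
      obtain ⟨c, hc⟩ := Submodule.mem_span_singleton.mp
        (hS.rigid' hI j (Submodule.mem_span_singleton_self f))
      exact ⟨c, hc.symm⟩
    have hg : ∀ M : Matrix B B ℂ, (∀ f : B → ℂ, (∀ j, ∃ c : ℂ, (C j)ᴴ *ᵥ f = c • f) →
        M *ᵥ f = 0) → M = 0 := by
      intro M hM
      refine Matrix.ext_of_mulVec_single fun i => ?_
      rw [zero_mulVec]
      have : (Pi.single i 1 : B → ℂ) ∈ N := by rw [hT]; trivial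
      generalize (Pi.single i 1 : B → ℂ) = v at this ⊢
      rw [hN] at this
      induction this using Submodule.span_induction with
      | mem x hx => exact hM x hx
      | zero => rw [mulVec_zero]
      | add x y _ _ hx hy => rw [mulVec_add, hx, hy, add_zero]
      | smul c x _ hx => rw [mulVec_smul, hx, smul_zero]
    constructor
    · intro i j
      rw [← sub_eq_zero]
      refine hg _ fun f hf => ?_
      obtain ⟨c, hc⟩ := hk f hf i
      obtain ⟨d, hd⟩ := hk f hf j
      rw [sub_mulVec, ← mulVec_mulVec, ← mulVec_mulVec, hc, hd, mulVec_smul, mulVec_smul, hc, hd,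
        smul_comm, sub_self]
    · intro i j
      rw [← sub_eq_zero]
      refine hg _ fun f hf => ?_
      obtain ⟨c, hc⟩ := hf i
      obtain ⟨d, hd⟩ := hk f hf j
      rw [sub_mulVec, ← mulVec_mulVec, ← mulVec_mulVec, hc, hd, mulVec_smul, mulVec_smul, hc, hd,
        smul_comm, sub_self]
  · left
    -- a minimal nonzero invariant subspace of the complement
    have hex : ∃ m : ℕ, ∃ V : Submodule ℂ (B → ℂ), Inv C V ∧ V ≤ orth N ∧ V ≠ ⊥ ∧
        Module.finrank ℂ V = m := ⟨_, orth N, hS.inv_orth hNi, le_rfl, hO, rfl⟩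
    obtain ⟨V, hV1, hV2, hV3, hV4⟩ := Nat.find_spec hex
    refine ⟨V, hV1, ?_, ?_⟩
    · by_contra hlt
      have hle : Module.finrank ℂ V ≤ 1 := by omega
      obtain ⟨f, hf⟩ := finrank_le_one_iff.mp hle
      have hfe : f.1 ∈ N := by
        rw [hN]
        refine Submodule.subset_span fun j => ?_
        obtain ⟨c, hc⟩ := hf ⟨_, hV1 j f.1 f.2⟩
        exact ⟨c, (congrArg Subtype.val hc).symm⟩
      have hf0 : f.1 = 0 := inf_orth hfe (hV2 f.2)
      apply hV3
      rw [eq_bot_iff]
      intro w hw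
      obtain ⟨c, hc⟩ := hf ⟨w, hw⟩
      have := congrArg Subtype.val hc
      rw [Submodule.mem_bot]
      change c • f.1 = w at this
      rw [← this, hf0, smul_zero]
    · intro U hU hUV
      by_contra hcon
      push Not at hcon
      have hlt : Module.finrank ℂ U < Module.finrank ℂ V :=
        Submodule.finrank_lt_finrank_of_lt (lt_of_le_of_ne hUV hcon.2)
      rw [hV4] at hlt
      exact Nat.find_min hex hlt ⟨U, hU, hUV.trans hV2, hcon.1, rfl⟩

end Vale.Agent.P372.R4
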