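import Vale.Agent.P372.R4.Sub
import Vale.Agent.P372.R4.Defs

/-! The structure of a tight PPT state. -/

open Matrix Kronecker
open scoped ComplexOrder MatrixOrder

set_option linter.unusedSectionVars false

namespace Vale.Agent.P372.R4

variable {A B n f : Type} [Fintype A] [DecidableEq A] [Fintype B] [DecidableEq B]
  [Fintype n] [DecidableEq n] [Fintype f] [DecidableEq f]

theorem exists_sq {M : Matrix n n ℂ} (h : M.PosSemidef) : ∃ K : Matrix n n ℂ, M = Kᴴ * K := by
  obtain ⟨C, hC⟩ := CStarAlgebra.nonneg_iff_eq_star_mul_self.mp h.nonneg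
  exact ⟨C, hC⟩

/-- The rank of an idempotent matrix is its trace. -/
theorem rank_idem {G : Matrix n n ℂ} (h : G * G = G) : (G.rank : ℂ) = G.trace := by
  have h1 : IsIdempotentElem (toLin' G) := by
    change toLin' G * toLin' G = toLin' G
    rw [Module.End.mul_eq_comp, ← toLin'_mul, h]
  have h2 := (LinearMap.IsIdempotentElem.isProj_range _ h1).trace
  rw [trace_toLin'_eq] at h2
  rw [h2, rank, toLin'_apply']

/-- The Schur complement. -/
theorem schur {M : Matrix n n ℂ} (hM : M.PosSemidef) (F : Matrix n f ℂ)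
    (hG : (Fᴴ * M * F) * (Fᴴ * M * F) = Fᴴ * M * F) :
    M * F * (Fᴴ * M * F) = M * F ∧ (M - M * F * (M * F)ᴴ).PosSemidef := by
  obtain ⟨K, hK⟩ := exists_sq hM
  obtain ⟨G, hGd⟩ : ∃ G, G = Fᴴ * M * F := ⟨_, rfl⟩
  rw [← hGd] at hG ⊢
  have hMh : Mᴴ = M := hM.1
  have hGh : Gᴴ = G := by
    rw [hGd, conjTranspose_mul, conjTranspose_mul, conjTranspose_conjTranspose, hMh,
      Matrix.mul_assoc]
  have h0 : (K * (F * (1 - G)))ᴴ * (K * (F * (1 - G))) = 0 := by
    calc (K * (F * (1 - G)))ᴴ * (K * (F * (1 - G))) =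
        (1 - G)ᴴ * (Fᴴ * (Kᴴ * K) * F) * (1 - G) := by
          rw [conjTranspose_mul, conjTranspose_mul]
          simp only [Matrix.mul_assoc]
      _ = (1 - G) * G * (1 - G) := by
          rw [← hK, ← hGd, conjTranspose_sub, conjTranspose_one, hGh]
      _ = 0 := by
          rw [Matrix.sub_mul, Matrix.one_mul, hG, sub_self, Matrix.zero_mul]
  have h1 : K * (F * (1 - G)) = 0 := conjTranspose_mul_self_eq_zero.mp h0
  have h2 : M * F * G = M * F := by
    have : M * (F * (1 - G)) = 0 := by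
      rw [hK, Matrix.mul_assoc, h1, Matrix.mul_zero]
    rw [Matrix.mul_sub, Matrix.mul_one, Matrix.mul_sub, sub_eq_zero, ← Matrix.mul_assoc] at this
    exact this.symm
  refine ⟨h2, ?_⟩
  have h3 : M - M * F * (M * F)ᴴ = (1 - F * (M * F)ᴴ)ᴴ * M * (1 - F * (M * F)ᴴ) := by
    have a0 : (F * (M * F)ᴴ)ᴴ = M * F * Fᴴ := by
      rw [conjTranspose_mul, conjTranspose_conjTranspose]
    rw [conjTranspose_sub, conjTranspose_one, a0,
      Matrix.sub_mul, Matrix.one_mul, Matrix.mul_sub, Matrix.mul_one, Matrix.sub_mul,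
      conjTranspose_mul, hMh]
    have a1 : M * F * Fᴴ * M * (F * (Fᴴ * M)) = M * F * (Fᴴ * M) := by
      calc M * F * Fᴴ * M * (F * (Fᴴ * M)) = M * F * (Fᴴ * M * F) * (Fᴴ * M) := by
            simp only [Matrix.mul_assoc]
        _ = _ := by rw [← hGd, h2]
    have a2 : M * (F * (Fᴴ * M)) = M * F * (Fᴴ * M) := by simp only [Matrix.mul_assoc]
    have a3 : M * F * Fᴴ * M = M * F * (Fᴴ * M) := by simp only [Matrix.mul_assoc]
    rw [a1, a2, a3]
    abel
  rw [h3]
  exact hM.conjTranspose_mul_mul_same _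

/-- If the rank is not larger than that of the compression, the Schur complement vanishes. -/
theorem schur_zero {M : Matrix n n ℂ} (hM : M.PosSemidef) (F : Matrix n f ℂ)
    (hG : (Fᴴ * M * F) * (Fᴴ * M * F) = Fᴴ * M * F) (hr : M.rank ≤ (Fᴴ * M * F).rank) :
    M = M * F * (M * F)ᴴ := by
  classical
  have h1 : (Fᴴ * M * F).rank ≤ (M * F).rank := by
    rw [Matrix.mul_assoc]
    exact rank_mul_le_right _ _
  have h2 : LinearMap.range (M * F).mulVecLin ≤ LinearMap.range M.mulVecLin := by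
    rintro _ ⟨v, rfl⟩
    exact ⟨F *ᵥ v, by simp only [mulVecLin_apply, mulVec_mulVec]⟩
  have h3 : LinearMap.range (M * F).mulVecLin = LinearMap.range M.mulVecLin :=
    Submodule.eq_of_le_of_finrank_le h2 (hr.trans h1)
  have h4 : ∀ i, ∃ z, (M * F) *ᵥ z = M *ᵥ Pi.single i 1 := by
    intro i
    have : M *ᵥ Pi.single i 1 ∈ LinearMap.range (M * F).mulVecLin := by
      rw [h3]; exact ⟨_, rfl⟩
    exact this
  choose z hz using h4
  obtain ⟨Z, hZ⟩ : ∃ Z : Matrix f n ℂ, Z = fun i j => z j i := ⟨_, rfl⟩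
  have h5 : M = M * F * Z := by
    refine Matrix.ext_of_mulVec_single fun i => ?_
    rw [← mulVec_mulVec, ← hz i]
    congr 1
    rw [mulVec_single_one, hZ]
    rfl
  have h6 := (schur hM F hG).1
  have hMh : Mᴴ = M := hM.1
  calc M = M * F * Z := h5
    _ = M * F * (Fᴴ * M * F) * Z := by rw [h6]
    _ = M * F * (Fᴴ * (M * F * Z)) := by simp only [Matrix.mul_assoc]
    _ = M * F * (Fᴴ * M) := by rw [← h5]
    _ = _ := by rw [conjTranspose_mul, hMh]

/-- The operator `⟨a| r |j⟩` on Bob's system. -/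
def Cm (a : A → ℂ) (r : Matrix (A × B) (A × B) ℂ) (j : A) : Matrix B B ℂ :=
  fun s t => ∑ x, star (a x) * r (x, s) (j, t)

/-- The operator `⟨b| r |s⟩` on Alice's system. -/
def Dm (b : B → ℂ) (r : Matrix (A × B) (A × B) ℂ) (s : B) : Matrix A A ℂ :=
  fun j k => ∑ y, star (b y) * r (j, y) (k, s)

/-- The isometric embeddings `a ⊗ ·` and `· ⊗ b`. -/
def Fm (a : A → ℂ) (b : B → ℂ) : Matrix (A × B) (B ⊕ A) ℂ := fun p =>
  Sum.elim (fun y => if p.2 = y then a p.1 else 0) (fun l => if p.1 = l then b p.2 else 0)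

theorem mul_Fm_inl (r : Matrix (A × B) (A × B) ℂ) (a : A → ℂ) (b : B → ℂ) (p : A × B) (y : B) :
    (r * Fm a b) p (Sum.inl y) = ∑ x, r p (x, y) * a x := by
  rw [mul_apply, Fintype.sum_prod_type]
  refine Finset.sum_congr rfl fun x _ => ?_
  rw [Finset.sum_eq_single y]
  · simp [Fm]
  · intro z _ hz
    simp [Fm, hz]
  · intro h; exact absurd (Finset.mem_univ y) h

theorem mul_Fm_inr (r : Matrix (A × B) (A × B) ℂ) (a : A → ℂ) (b : B → ℂ) (p : A × B) (l : A) :
    (r * Fm a b) p (Sum.inr l) = ∑ y, r p (l, y) * b y := by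
  rw [mul_apply, Fintype.sum_prod_type]
  rw [Finset.sum_eq_single l]
  · simp [Fm]
  · intro z _ hz
    simp [Fm, hz]
  · intro h; exact absurd (Finset.mem_univ l) h

theorem Fm_mul_inl (M : Matrix (A × B) (B ⊕ A) ℂ) (a : A → ℂ) (b : B → ℂ) (y : B) (q : B ⊕ A) :
    ((Fm a b)ᴴ * M) (Sum.inl y) q = ∑ x, star (a x) * M (x, y) q := by
  rw [mul_apply, Fintype.sum_prod_type]
  refine Finset.sum_congr rfl fun x _ => ?_
  rw [Finset.sum_eq_single y]
  · simp [Fm, conjTranspose_apply]
  · intro z _ hz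
    simp [Fm, hz, conjTranspose_apply]
  · intro h; exact absurd (Finset.mem_univ y) h

theorem Fm_mul_inr (M : Matrix (A × B) (B ⊕ A) ℂ) (a : A → ℂ) (b : B → ℂ) (l : A) (q : B ⊕ A) :
    ((Fm a b)ᴴ * M) (Sum.inr l) q = ∑ y, star (b y) * M (l, y) q := by
  rw [mul_apply, Fintype.sum_prod_type]
  rw [Finset.sum_eq_single l]
  · simp [Fm, conjTranspose_apply]
  · intro z _ hz
    simp [Fm, hz, conjTranspose_apply]
  · intro h; exact absurd (Finset.mem_univ l) h

/-- A block diagonal Gram matrix of projections. -/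
theorem gram_idem {G : Matrix (B ⊕ A) (B ⊕ A) ℂ} {P : Matrix B B ℂ} {Q : Matrix A A ℂ}
    (hG : G = fromBlocks P 0 0 Q) (hP : P * P = P) (hQ : Q * Q = Q) :
    G * G = G ∧ G.rank = P.rank + Q.rank := by
  have h1 : G * G = G := by
    rw [hG, fromBlocks_multiply, hP, hQ]
    simp
  refine ⟨h1, ?_⟩
  have h2 : (G.rank : ℂ) = ((P.rank + Q.rank : ℕ) : ℂ) := by
    rw [rank_idem h1, Nat.cast_add, rank_idem hP, rank_idem hQ, hG]
    simp [trace, Fintype.sum_sum_type]
  exact_mod_cast h2

theorem psd_mulVec_zero {M : Matrix n n ℂ} (hM : M.PosSemidef) {v : n → ℂ}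
    (h : dp v (M *ᵥ v) = 0) : M *ᵥ v = 0 := by
  obtain ⟨K, hK⟩ := exists_sq hM
  have h1 : K *ᵥ v = 0 := by
    apply dp_self
    rw [← h, hK, ← mulVec_mulVec, dp, dp, dotProduct_mulVec (star v), ← star_mulVec]
  rw [hK, ← mulVec_mulVec, h1, mulVec_zero]

section

variable {r : Matrix (A × B) (A × B) ℂ} {a : A → ℂ} {b : B → ℂ}

theorem sum_prodVec (M : Matrix (A × B) (A × B) ℂ) (a : A → ℂ) (b : B → ℂ) (p : A × B) :
    (M *ᵥ prodVec a b) p = ∑ x, ∑ y, M p (x, y) * (a x * b y) := by
  rw [mulVec, dotProduct, Fintype.sum_prod_type]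
  rfl

/-- The partial transpose kills `a ⊗ b̄`. -/
theorem pTrans_kernel (hp : (pTrans r).PosSemidef)
    (h : r *ᵥ prodVec a b = 0) : pTrans r *ᵥ prodVec a (star b) = 0 := by
  apply psd_mulVec_zero hp
  have e : dp (prodVec a (star b)) (pTrans r *ᵥ prodVec a (star b)) =
      dp (prodVec a b) (r *ᵥ prodVec a b) := by
    simp only [dp, dotProduct, Fintype.sum_prod_type, sum_prodVec, pTrans, prodVec,
      Pi.star_apply, star_mul', star_star, Finset.mul_sum]
    refine Finset.sum_congr rfl fun j _ => ?_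
    rw [Finset.sum_comm]
    conv_rhs => rw [Finset.sum_comm]
    refine Finset.sum_congr rfl fun x _ => ?_
    rw [Finset.sum_comm]
    refine Finset.sum_congr rfl fun y _ => Finset.sum_congr rfl fun s _ => ?_
    ring
  rw [e, h, dp, dotProduct_zero]

theorem herm_apply (hr : r.PosSemidef) (p q : A × B) : star (r p q) = r q p := by
  have := congrFun (congrFun hr.1 q) p
  rw [conjTranspose_apply] at this
  exact this

theorem mulF_inl (hr : r.PosSemidef) (j : A) (s y : B) :
    (r * Fm a b) (j, s) (Sum.inl y) = star (Cm a r j y s) := by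
  rw [mul_Fm_inl, Cm, star_sum]
  refine Finset.sum_congr rfl fun x _ => ?_
  rw [star_mul', star_star, herm_apply hr, mul_comm]

theorem mulF_inr (hr : r.PosSemidef) (j l : A) (s : B) :
    (r * Fm a b) (j, s) (Sum.inr l) = star (Dm b r s l j) := by
  rw [mul_Fm_inr, Dm, star_sum]
  refine Finset.sum_congr rfl fun x _ => ?_
  rw [star_mul', star_star, herm_apply hr, mul_comm]

theorem mulF'_inl (hr : r.PosSemidef) (j : A) (s y : B) :
    (pTrans r * Fm a (star b)) (j, s) (Sum.inl y) = star (Cm a r j s y) := by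
  rw [mul_Fm_inl, Cm, star_sum]
  refine Finset.sum_congr rfl fun x _ => ?_
  rw [star_mul', star_star, herm_apply hr, mul_comm]
  rfl

theorem mulF'_inr (j l : A) (s : B) :
    (pTrans r * Fm a (star b)) (j, s) (Sum.inr l) = Dm b r s j l := by
  rw [mul_Fm_inr, Dm]
  refine Finset.sum_congr rfl fun x _ => ?_
  rw [mul_comm]
  rfl

theorem sum_Cm (j : B) (s : B) : (∑ x, a x • Cm a r x) j s = bl a r j s := by
  rw [Matrix.sum_apply, bl]
  simp only [Matrix.smul_apply, Cm, smul_eq_mul, Finset.mul_sum]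
  rw [Finset.sum_comm]
  refine Finset.sum_congr rfl fun x _ => Finset.sum_congr rfl fun y _ => ?_
  ring

theorem bl_eq : bl a r = ∑ x, a x • Cm a r x := by
  ext j s
  rw [sum_Cm]

theorem br_eq : br b r = ∑ y, b y • Dm b r y := by
  ext j k
  rw [Matrix.sum_apply, br]
  simp only [Matrix.smul_apply, Dm, smul_eq_mul, Finset.mul_sum]
  rw [Finset.sum_comm]
  refine Finset.sum_congr rfl fun x _ => Finset.sum_congr rfl fun y _ => ?_
  ring

/-- The Gram matrix of the state. -/
theorem gram_r (hr : r.PosSemidef) (hp : (pTrans r).PosSemidef) (h : r *ᵥ prodVec a b = 0) :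
    (Fm a b)ᴴ * r * Fm a b = fromBlocks (bl a r) 0 0 (br b r) := by
  have hk := pTrans_kernel hp h
  have hz : ∀ (y : B) (l : A), ∑ x, star (a x) * star (Dm b r y l x) = 0 := by
    intro y l
    have h1 := congrFun hk (l, y)
    rw [sum_prodVec] at h1
    have h2 : ∑ x, star (a x) * star (Dm b r y l x) = star (∑ x, ∑ y', pTrans r (l, y) (x, y') *
        (a x * (star b) y')) := by
      rw [star_sum]
      refine Finset.sum_congr rfl fun x _ => ?_
      rw [Dm, ← star_mul', mul_comm, Finset.sum_mul]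
      congr 1
      refine Finset.sum_congr rfl fun y' _ => ?_
      simp only [pTrans, Pi.star_apply]
      ring
    rw [h2, h1, Pi.zero_apply, star_zero]
  rw [Matrix.mul_assoc]
  ext p q
  rcases p with y | l <;> rcases q with y' | l'
  · rw [Fm_mul_inl, fromBlocks_apply₁₁, bl]
    refine Finset.sum_congr rfl fun x _ => ?_
    rw [mul_Fm_inl, Finset.mul_sum]
    refine Finset.sum_congr rfl fun x' _ => ?_
    ring
  · rw [Fm_mul_inl, fromBlocks_apply₁₂, Matrix.zero_apply]
    simp only [mulF_inr hr]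
    exact hz y l'
  · rw [Fm_mul_inr, fromBlocks_apply₂₁, Matrix.zero_apply]
    simp only [mulF_inl hr]
    have h3 := hz y' l
    have h4 : ∑ y, star (b y) * star (Cm a r l y' y) = star (∑ x, star (a x) *
        star (Dm b r y' l x)) := by
      simp only [Cm, Dm, star_sum, star_mul', star_star, Finset.mul_sum]
      rw [Finset.sum_comm]
      refine Finset.sum_congr rfl fun x _ => Finset.sum_congr rfl fun y _ => ?_
      rw [herm_apply hr]
      ring
    rw [h4, h3, star_zero]
  · rw [Fm_mul_inr, fromBlocks_apply₂₂, br]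
    refine Finset.sum_congr rfl fun x _ => ?_
    rw [mul_Fm_inr, Finset.mul_sum]
    refine Finset.sum_congr rfl fun x' _ => ?_
    ring

/-- The Gram matrix of the partial transpose. -/
theorem gram_p (hr : r.PosSemidef) (h : r *ᵥ prodVec a b = 0) :
    (Fm a (star b))ᴴ * pTrans r * Fm a (star b) = fromBlocks (bl a r)ᵀ 0 0 (br b r) := by
  have hz : ∀ (y : B) (l : A), ∑ x, star (a x) * Dm b r y x l = 0 := by
    intro y l
    have h1 := congrFun h (l, y)
    rw [sum_prodVec] at h1
    have h2 : ∑ x, star (a x) * Dm b r y x l = star (∑ x, ∑ y', r (l, y) (x, y') *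
        (a x * b y')) := by
      rw [star_sum]
      refine Finset.sum_congr rfl fun x _ => ?_
      rw [Dm, Finset.mul_sum, star_sum]
      refine Finset.sum_congr rfl fun y' _ => ?_
      rw [star_mul', star_mul', herm_apply hr]
      ring
    rw [h2, h1, Pi.zero_apply, star_zero]
  rw [Matrix.mul_assoc]
  ext p q
  rcases p with y | l <;> rcases q with y' | l'
  · rw [Fm_mul_inl, fromBlocks_apply₁₁, transpose_apply, bl]
    refine Finset.sum_congr rfl fun x _ => ?_
    rw [mul_Fm_inl, Finset.mul_sum]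
    refine Finset.sum_congr rfl fun x' _ => ?_
    simp only [pTrans]
    ring
  · rw [Fm_mul_inl, fromBlocks_apply₁₂, Matrix.zero_apply]
    simp only [mulF'_inr]
    exact hz y l'
  · rw [Fm_mul_inr, fromBlocks_apply₂₁, Matrix.zero_apply]
    simp only [mulF'_inl hr, Pi.star_apply, star_star]
    have h4 : ∑ y, b y * star (Cm a r l y y') = star (∑ x, star (a x) * Dm b r y' x l) := by
      simp only [Cm, Dm, star_sum, star_mul', star_star, Finset.mul_sum]
      rw [Finset.sum_comm]
      refine Finset.sum_congr rfl fun x _ => Finset.sum_congr rfl fun y _ => ?_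
      ring
    rw [h4, hz, star_zero]
  · rw [Fm_mul_inr, fromBlocks_apply₂₂, br]
    simp only [mulF'_inr, Pi.star_apply, star_star, Dm, Finset.mul_sum]
    rw [Finset.sum_comm]
    refine Finset.sum_congr rfl fun x _ => Finset.sum_congr rfl fun y _ => ?_
    ring

theorem conj_idem {P : Matrix B B ℂ} (h : P * P = P) : Pᵀ * Pᵀ = Pᵀ := by
  rw [← transpose_mul, h]

/-- The structure of a tight PPT state. -/
theorem tight (hr : r.PosSemidef) (hp : (pTrans r).PosSemidef) (h : r *ᵥ prodVec a b = 0)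
    (hP : bl a r * bl a r = bl a r) (hQ : br b r * br b r = br b r)
    (hrk : r.rank ≤ (bl a r).rank + (br b r).rank) :
    (∀ j s k t, r (j, s) (k, t) =
      ((Cm a r j)ᴴ * Cm a r k) s t + ((Dm b r s)ᴴ * Dm b r t) j k) ∧
    Star (Cm a r) (Dm b r) := by
  have g1 := gram_idem (gram_r hr hp h) hP hQ
  have g2 := gram_idem (gram_p hr h) (conj_idem hP) hQ
  have e1 := schur_zero hr (Fm a b) g1.1 (by rw [g1.2]; exact hrk)
  have e2 := (schur hp (Fm a (star b)) g2.1).2
  have f1 : ∀ j s k t, r (j, s) (k, t) =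
      ((Cm a r j)ᴴ * Cm a r k) s t + ((Dm b r s)ᴴ * Dm b r t) j k := by
    intro j s k t
    conv_lhs => rw [e1]
    rw [mul_apply, Fintype.sum_sum_type]
    simp only [conjTranspose_apply (r * Fm a b), mulF_inl hr, mulF_inr hr, star_star]
    rw [mul_apply, mul_apply]
    rfl
  have f2 : ∀ j s k t, (pTrans r - pTrans r * Fm a (star b) * (pTrans r * Fm a (star b))ᴴ)
      (j, s) (k, t) = ((Cm a r j)ᴴ * Cm a r k - Cm a r k * (Cm a r j)ᴴ) t s +
        ((Dm b r t)ᴴ * Dm b r s - Dm b r s * (Dm b r t)ᴴ) j k := by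
    intro j s k t
    have f3 : pTrans r (j, s) (k, t) = r (j, t) (k, s) := rfl
    have f4 : (pTrans r * Fm a (star b) * (pTrans r * Fm a (star b))ᴴ) (j, s) (k, t) =
        (Cm a r k * (Cm a r j)ᴴ) t s + (Dm b r s * (Dm b r t)ᴴ) j k := by
      rw [mul_apply, Fintype.sum_sum_type, mul_apply, mul_apply]
      congr 1
      · refine Finset.sum_congr rfl fun x _ => ?_
        rw [conjTranspose_apply, conjTranspose_apply, mulF'_inl hr, mulF'_inl hr, star_star,
          mul_comm]
      · refine Finset.sum_congr rfl fun x _ => ?_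
        rw [conjTranspose_apply, conjTranspose_apply, mulF'_inr, mulF'_inr]
    rw [Matrix.sub_apply, f3, f4, f1, Matrix.sub_apply, Matrix.sub_apply]
    ring
  refine ⟨f1, ?_⟩
  have f5 : (pTrans r - pTrans r * Fm a (star b) * (pTrans r * Fm a (star b))ᴴ).trace = 0 := by
    rw [trace, Fintype.sum_prod_type]
    simp only [diag_apply, f2, Matrix.sub_apply]
    rw [Finset.sum_congr rfl fun j _ => Finset.sum_add_distrib, Finset.sum_add_distrib]
    have k1 : ∀ j, ∑ s, (((Cm a r j)ᴴ * Cm a r j) s s - (Cm a r j * (Cm a r j)ᴴ) s s) = 0 := by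
      intro j
      rw [Finset.sum_sub_distrib]
      have : ((Cm a r j)ᴴ * Cm a r j).trace - (Cm a r j * (Cm a r j)ᴴ).trace = 0 := by
        rw [trace_mul_comm, sub_self]
      exact this
    have k2 : ∀ s, ∑ j, (((Dm b r s)ᴴ * Dm b r s) j j - (Dm b r s * (Dm b r s)ᴴ) j j) = 0 := by
      intro s
      rw [Finset.sum_sub_distrib]
      have : ((Dm b r s)ᴴ * Dm b r s).trace - (Dm b r s * (Dm b r s)ᴴ).trace = 0 := by
        rw [trace_mul_comm, sub_self]
      exact this
    rw [Finset.sum_eq_zero fun j _ => k1 j, zero_add, Finset.sum_comm,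
      Finset.sum_eq_zero fun s _ => k2 s]
  have f6 := e2.trace_eq_zero_iff.mp f5
  intro j k s t
  rw [← f2, f6, Matrix.zero_apply]

/-- Tight PPT states with commuting families are separable; otherwise there is an irreducible
subspace. -/
theorem tight_dichotomy (hr : r.PosSemidef) (hp : (pTrans r).PosSemidef)
    (h : r *ᵥ prodVec a b = 0) (hP : bl a r * bl a r = bl a r)
    (hQ : br b r * br b r = br b r) (hrk : r.rank ≤ (bl a r).rank + (br b r).rank) :
    IsSep r ∨ ∃ V : Submodule ℂ (B → ℂ), Inv (Cm a r) V ∧ 2 ≤ Module.finrank ℂ V ∧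
      ∀ U : Submodule ℂ (B → ℂ), Inv (Cm a r) U → U ≤ V → U = ⊥ ∨ U = V := by
  obtain ⟨h1, h2⟩ := tight hr hp h hP hQ hrk
  rcases h2.dichotomy with h3 | ⟨h3, h4⟩
  · exact Or.inr h3
  · exact Or.inl (sep_of_comm r _ _ h1 h2 h3 h4)

end

end Vale.Agent.P372.R4
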