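import Mathlib

/-! The normal dilation of a three-dimensional matrix with self-commutator of rank two. -/

open Matrix
open scoped ComplexOrder

set_option linter.unusedSectionVars false
set_option linter.unusedVariables false

namespace Vale.Agent.P372.R4.W

/-- The statement `b2`. -/
def B2 : Prop := ∀ (T : Matrix (Fin 2) (Fin 2) ℂ) (a b q l : Fin 2 → ℂ)
  (h1 : Tᴴ * T + vecMulVec b (star b) + vecMulVec l (star l) =
    T * Tᴴ + vecMulVec a (star a) + vecMulVec q (star q))
  (h2 : Tᴴ *ᵥ a = T *ᵥ b) (h3 : star a ⬝ᵥ a = star b ⬝ᵥ b) (hql : q 0 * l 1 ≠ q 1 * l 0),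
  Complex.normSq (star a ⬝ᵥ q) = Complex.normSq (star b ⬝ᵥ l)

theorem exists_phase {x y : ℂ} (h : Complex.normSq x = Complex.normSq y) :
    ∃ om : ℂ, star om * om = 1 ∧ om * x = y := by
  have h1 : x * star x = y * star y := by
    have e : ∀ z : ℂ, z * star z = (Complex.normSq z : ℂ) := fun z => Complex.mul_conj z
    rw [e, e, h]
  by_cases hx : x = 0
  · subst hx
    have hy : y = 0 := by
      rw [map_zero] at h
      exact Complex.normSq_eq_zero.1 h.symm
    exact ⟨1, by simp, by rw [hy, mul_zero]⟩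
  · refine ⟨y / x, ?_, div_mul_cancel₀ y hx⟩
    have hx' : star x ≠ 0 := star_ne_zero.2 hx
    rw [star_div₀, div_mul_div_comm, div_eq_one_iff_eq (mul_ne_zero hx' hx)]
    linear_combination -h1

theorem exists_om (hb2 : B2) (C : Matrix (Fin 3) (Fin 3) ℂ) (q l : Fin 3 → ℂ) (hq : q 2 = 0)
    (hl : l 2 = 0) (h1 : Cᴴ * C + vecMulVec l (star l) = C * Cᴴ + vecMulVec q (star q))
    (hql : q 0 * l 1 ≠ q 1 * l 0) : ∃ om w : ℂ, star om * om = 1 ∧
      Cᴴ *ᵥ (om • q) + w • l = C *ᵥ l + star w • (om • q) := by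
  have e := fun s t => congrFun (congrFun h1 s) t
  simp only [Matrix.add_apply, mul_apply, conjTranspose_apply, vecMulVec_apply, Pi.star_apply,
    Fin.sum_univ_three] at e
  have e00 := e 0 0
  have e01 := e 0 1
  have e02 := e 0 2
  have e10 := e 1 0
  have e11 := e 1 1
  have e12 := e 1 2
  have e20 := e 2 0
  have e21 := e 2 1
  have e22 := e 2 2
  clear e
  simp only [hq, hl, star_zero, mul_zero, zero_mul, add_zero] at e00 e01 e02 e10 e11 e12 e20 e21 e22
  have hn := hb2 !![C 0 0 - C 2 2, C 0 1; C 1 0, C 1 1 - C 2 2] ![C 0 2, C 1 2]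
    ![star (C 2 0), star (C 2 1)] ![q 0, q 1] ![l 0, l 1] (by
      ext s t
      fin_cases s <;> fin_cases t <;>
        simp only [Matrix.add_apply, mul_apply, Fin.sum_univ_two, conjTranspose_apply,
          vecMulVec_apply, Pi.star_apply, Matrix.of_apply, Matrix.cons_val', Matrix.cons_val_zero,
          Matrix.cons_val_one, Matrix.cons_val_fin_one, Fin.zero_eta, Fin.mk_one, star_sub,
          star_star, Fin.isValue]
      · linear_combination e00
      · linear_combination e01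
      · linear_combination e10
      · linear_combination e11) (by
      ext s
      fin_cases s <;> simp only [mulVec, dotProduct, Fin.sum_univ_two, conjTranspose_apply,
          Matrix.of_apply, Matrix.cons_val', Matrix.cons_val_zero,
          Matrix.cons_val_one, Matrix.cons_val_fin_one, Fin.zero_eta, Fin.mk_one, star_sub,
          Fin.isValue]
      · linear_combination e02
      · linear_combination e12) (by
      simp only [dotProduct, Fin.sum_univ_two, Pi.star_apply, Matrix.cons_val_zero,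
        Matrix.cons_val_one, Matrix.cons_val_fin_one, star_star, Fin.isValue]
      linear_combination e22) hql
  obtain ⟨om, ho1, ho2⟩ := exists_phase hn
  simp only [dotProduct, Fin.sum_univ_two, Pi.star_apply, Matrix.cons_val_zero,
    Matrix.cons_val_one, Matrix.cons_val_fin_one, star_star, Fin.isValue] at ho2
  obtain ⟨Q0, hQ0⟩ : ∃ Q0, Q0 = om * q 0 := ⟨_, rfl⟩
  obtain ⟨Q1, hQ1⟩ : ∃ Q1, Q1 = om * q 1 := ⟨_, rfl⟩
  obtain ⟨z0, hz0⟩ : ∃ z0, z0 = star (C 0 0 - C 2 2) * Q0 + star (C 1 0) * Q1 -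
    (C 0 0 - C 2 2) * l 0 - C 0 1 * l 1 := ⟨_, rfl⟩
  obtain ⟨z1, hz1⟩ : ∃ z1, z1 = star (C 0 1) * Q0 + star (C 1 1 - C 2 2) * Q1 -
    C 1 0 * l 0 - (C 1 1 - C 2 2) * l 1 := ⟨_, rfl⟩
  obtain ⟨D, hD⟩ : ∃ D, D = Q0 * l 1 - Q1 * l 0 := ⟨_, rfl⟩
  have ho : om ≠ 0 := by
    rintro rfl
    rw [star_zero, zero_mul] at ho1
    exact zero_ne_one ho1
  have hD0 : D ≠ 0 := by
    rw [hD, hQ0, hQ1]
    intro h
    apply hql
    have : om * (q 0 * l 1 - q 1 * l 0) = 0 := by linear_combination h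
    rcases mul_eq_zero.1 this with h | h
    · exact absurd h ho
    · exact sub_eq_zero.1 h
  obtain ⟨α, hα⟩ : ∃ α, α = (z0 * l 1 - z1 * l 0) / D := ⟨_, rfl⟩
  obtain ⟨β, hβ⟩ : ∃ β, β = (z0 * Q1 - z1 * Q0) / D := ⟨_, rfl⟩
  have hαD : α * D = z0 * l 1 - z1 * l 0 := by rw [hα, div_mul_cancel₀ _ hD0]
  have hβD : β * D = z0 * Q1 - z1 * Q0 := by rw [hβ, div_mul_cancel₀ _ hD0]
  have s0 : z0 = α * Q0 - β * l 0 := by
    apply mul_right_cancel₀ hD0
    rw [sub_mul]
    linear_combination (-Q0) * hαD + l 0 * hβD + z0 * hD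
  have s1 : z1 = α * Q1 - β * l 1 := by
    apply mul_right_cancel₀ hD0
    rw [sub_mul]
    linear_combination (-Q1) * hαD + l 1 * hβD + z1 * hD
  -- the norms
  have hm : star (l 0) * l 0 + star (l 1) * l 1 = star (q 0) * q 0 + star (q 1) * q 1 := by
    linear_combination e00 + e11 + e22
  have hQQ : star Q0 * Q0 + star Q1 * Q1 = star (l 0) * l 0 + star (l 1) * l 1 := by
    rw [hm, hQ0, hQ1, star_mul', star_mul']
    linear_combination (star (q 0) * q 0 + star (q 1) * q 1) * ho1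
  -- the trace identity
  have hτ : star Q0 * z0 + star Q1 * z1 + star (star (l 0) * z0 + star (l 1) * z1) = 0 := by
    rw [hz0, hz1]
    simp only [star_add, star_sub, star_mul', star_star]
    rw [hQ0, hQ1]
    simp only [star_mul']
    linear_combination (-star (C 0 0)) * e00 - star (C 0 1) * e01 - star (C 0 2) * e02 -
      star (C 1 0) * e10 - star (C 1 1) * e11 - star (C 1 2) * e12 - star (C 2 0) * e20 -
      star (C 2 1) * e21 - star (C 2 2) * e22 + star (C 2 2) * (e00 + e11 + e22) +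
      ((star (C 0 0) - star (C 2 2)) * q 0 * star (q 0) + star (C 1 0) * star (q 0) * q 1 +
        star (C 0 1) * star (q 1) * q 0 +
        (star (C 1 1) - star (C 2 2)) * q 1 * star (q 1)) * ho1
  obtain ⟨m, hmd⟩ : ∃ m, m = star (l 0) * l 0 + star (l 1) * l 1 := ⟨_, rfl⟩
  obtain ⟨h, hh⟩ : ∃ h, h = star Q0 * l 0 + star Q1 * l 1 := ⟨_, rfl⟩
  have hms : star m = m := by
    rw [hmd]
    simp only [star_add, star_mul', star_star]
    ring
  rw [← hmd] at hQQ
  have k1 : m * (α - star β) + h * (star α - β) = 0 := by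
    rw [s0, s1] at hτ
    simp only [star_add, star_sub, star_mul', star_star] at hτ
    rw [hh]
    linear_combination hτ - α * hQQ - star β * hmd
  have k2 : m * (star α - β) + star h * (α - star β) = 0 := by
    have := congrArg star k1
    simp only [star_add, star_sub, star_mul', star_star, hms, star_zero] at this
    exact this
  have k3 : D * star D * (α - star β) = 0 := by
    have e1 : D * star D = m * m - h * star h := by
      have e2 : m * m = (star Q0 * Q0 + star Q1 * Q1) * (star (l 0) * l 0 + star (l 1) * l 1) := by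
        rw [hQQ, ← hmd]
      rw [e2, hD, hh]
      simp only [star_add, star_sub, star_mul', star_star]
      ring
    rw [e1]
    linear_combination m * k1 - h * k2
  have k4 : α = star β := by
    rcases mul_eq_zero.1 k3 with h | h
    · rcases mul_eq_zero.1 h with h | h
      · exact absurd h hD0
      · exact absurd (star_eq_zero.1 h) hD0
    · exact sub_eq_zero.1 h
  refine ⟨om, β + C 2 2, ho1, ?_⟩
  ext s
  simp only [Pi.add_apply, Pi.smul_apply, smul_eq_mul, mulVec, dotProduct, Fin.sum_univ_three,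
    conjTranspose_apply, hq, hl, mul_zero, add_zero, star_add, ← hQ0, ← hQ1, ← k4]
  fin_cases s
  · simp only [Fin.zero_eta, Fin.isValue, ← hQ0]
    rw [s0, star_sub] at hz0
    linear_combination -hz0
  · simp only [Fin.mk_one, Fin.isValue, ← hQ1]
    rw [s1, star_sub] at hz1
    linear_combination -hz1
  · simp only [Fin.reduceFinMk, Fin.isValue, hq, hl, mul_zero, add_zero]
    rw [hQ0, hQ1]
    linear_combination ho2

theorem exists_unitary (q l : Fin 3 → ℂ) : ∃ U : Matrix (Fin 3) (Fin 3) ℂ, Uᴴ * U = 1 ∧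
    (Uᴴ *ᵥ q) 2 = 0 ∧ (Uᴴ *ᵥ l) 2 = 0 := by
  obtain ⟨g, hg, hg0⟩ : ∃ g : Fin 3 → ℂ, g ≠ 0 ∧
      (of ![star q, star l, 0] : Matrix (Fin 3) (Fin 3) ℂ) *ᵥ g = 0 := by
    apply exists_mulVec_eq_zero_iff.2
    rw [det_fin_three]
    simp
  have e0 : star q ⬝ᵥ g = 0 := congrFun hg0 0
  have e1 : star l ⬝ᵥ g = 0 := congrFun hg0 1
  obtain ⟨G, hG⟩ : ∃ G : EuclideanSpace ℂ (Fin 3), G = WithLp.toLp 2 g := ⟨_, rfl⟩
  have hG0 : G ≠ 0 := by
    intro h
    apply hg
    ext i
    have := congrFun (congrArg WithLp.ofLp h) i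
    rw [hG] at this
    exact this
  obtain ⟨u, hu⟩ : ∃ u : EuclideanSpace ℂ (Fin 3), u = ((‖G‖⁻¹ : ℝ) : ℂ) • G := ⟨_, rfl⟩
  have hu1 : ‖u‖ = 1 := by
    rw [hu, norm_smul, Complex.norm_real, norm_inv, norm_norm,
      inv_mul_cancel₀ (norm_ne_zero_iff.2 hG0)]
  have hv : Orthonormal ℂ (({2} : Set (Fin 3)).domRestrict (fun _ => u)) := by
    constructor
    · intro i
      exact hu1
    · intro i j hij
      exact absurd (Subsingleton.elim i j) hij
  obtain ⟨b, hb⟩ := hv.exists_orthonormalBasis_extension_of_card_eq (by simp)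
  have hb2 : b 2 = u := hb 2 rfl
  have hin : ∀ i j, ∑ k, star (b i k) * b j k = if i = j then 1 else 0 := by
    intro i j
    have h1 := orthonormal_iff_ite.1 b.orthonormal i j
    rw [← h1, EuclideanSpace.inner_eq_star_dotProduct, dotProduct]
    exact Finset.sum_congr rfl fun k _ => mul_comm _ _
  have hg2 : ∀ k, b 2 k = ((‖G‖⁻¹ : ℝ) : ℂ) * g k := by
    intro k
    rw [hb2, hu, hG]
    rfl
  have hz : ∀ v : Fin 3 → ℂ, star v ⬝ᵥ g = 0 → ∑ k, star (b 2 k) * v k = 0 := by
    intro v hv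
    have h2 := congrArg star hv
    rw [star_zero] at h2
    simp only [dotProduct, star_sum, star_mul', Pi.star_apply, star_star] at h2
    simp only [hg2, star_mul']
    calc ∑ k, star ((‖G‖⁻¹ : ℝ) : ℂ) * star (g k) * v k =
        star ((‖G‖⁻¹ : ℝ) : ℂ) * ∑ k, v k * star (g k) := by
          rw [Finset.mul_sum]
          exact Finset.sum_congr rfl fun k _ => by ring
      _ = 0 := by rw [h2, mul_zero]
  refine ⟨of fun i j => b j i, ?_, hz q e0, hz l e1⟩
  ext i j
  rw [mul_apply, one_apply]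
  exact hin i j

theorem par_eq {q0 q1 l0 l1 : ℂ} (h : q0 * l1 = q1 * l0)
    (hn : star q0 * q0 + star q1 * q1 = star l0 * l0 + star l1 * l1) :
    q0 * star q0 = l0 * star l0 ∧ q0 * star q1 = l0 * star l1 ∧ q1 * star q0 = l1 * star l0 ∧
      q1 * star q1 = l1 * star l1 := by
  have h' : star q0 * star l1 = star q1 * star l0 := by
    have := congrArg star h
    rwa [star_mul', star_mul'] at this
  by_cases hz : star l0 * l0 + star l1 * l1 = 0
  · have f : ∀ x y : ℂ, star x * x + star y * y = 0 → x = 0 ∧ y = 0 := by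
      intro x y hxy
      have e : ∀ z : ℂ, star z * z = (Complex.normSq z : ℂ) := fun z => by
        rw [mul_comm]; exact Complex.mul_conj z
      rw [e, e, ← Complex.ofReal_add] at hxy
      have h3 : Complex.normSq x + Complex.normSq y = 0 := by exact_mod_cast hxy
      have h4 := Complex.normSq_nonneg x
      have h5 := Complex.normSq_nonneg y
      exact ⟨Complex.normSq_eq_zero.1 (by linarith), Complex.normSq_eq_zero.1 (by linarith)⟩
    obtain ⟨rfl, rfl⟩ := f _ _ hz
    rw [hz] at hn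
    obtain ⟨rfl, rfl⟩ := f _ _ hn
    simp
  · refine ⟨?_, ?_, ?_, ?_⟩ <;> apply mul_right_cancel₀ hz
    · linear_combination (star q0 * star l1) * h + l0 * star l0 * hn + q1 * l0 * h'
    · linear_combination (star q1 * star l1) * h - q0 * l0 * h' + l0 * star l1 * hn
    · linear_combination (-(star q0 * star l0)) * h + q1 * l1 * h' + l1 * star l0 * hn
    · linear_combination (-(star q0 * star l1)) * h - q1 * l0 * h' + l1 * star l1 * hn

/-- The normal dilation exists up to a phase, or the matrix is normal. -/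
theorem exists_dil (hb2 : B2) (C : Matrix (Fin 3) (Fin 3) ℂ) (q l : Fin 3 → ℂ)
    (h1 : Cᴴ * C + vecMulVec l (star l) = C * Cᴴ + vecMulVec q (star q)) :
    Cᴴ * C = C * Cᴴ ∨ ∃ om w : ℂ, star om * om = 1 ∧
      Cᴴ *ᵥ (om • q) + w • l = C *ᵥ l + star w • (om • q) := by
  obtain ⟨U, hU, hq, hl⟩ := exists_unitary q l
  have hU' : U * Uᴴ = 1 := mul_eq_one_comm.mp hU
  obtain ⟨q', hq'⟩ : ∃ q', q' = Uᴴ *ᵥ q := ⟨_, rfl⟩
  obtain ⟨l', hl'⟩ : ∃ l', l' = Uᴴ *ᵥ l := ⟨_, rfl⟩
  obtain ⟨C', hC'⟩ : ∃ C', C' = Uᴴ * C * U := ⟨_, rfl⟩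
  rw [← hq'] at hq
  rw [← hl'] at hl
  have hv : ∀ v : Fin 3 → ℂ, vecMulVec (Uᴴ *ᵥ v) (star (Uᴴ *ᵥ v)) =
      Uᴴ * vecMulVec v (star v) * U := by
    intro v
    rw [mul_vecMulVec, vecMulVec_mul, star_mulVec, conjTranspose_conjTranspose]
  have c1 : C'ᴴ * C' = Uᴴ * (Cᴴ * C) * U := by
    rw [hC', conjTranspose_mul, conjTranspose_mul, conjTranspose_conjTranspose]
    calc Uᴴ * (Cᴴ * U) * (Uᴴ * C * U) = Uᴴ * Cᴴ * (U * Uᴴ) * C * U := by
          simp only [Matrix.mul_assoc]
      _ = _ := by rw [hU', Matrix.mul_one]; simp only [Matrix.mul_assoc]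
  have c2 : C' * C'ᴴ = Uᴴ * (C * Cᴴ) * U := by
    rw [hC', conjTranspose_mul, conjTranspose_mul, conjTranspose_conjTranspose]
    calc Uᴴ * C * U * (Uᴴ * (Cᴴ * U)) = Uᴴ * C * (U * Uᴴ) * Cᴴ * U := by
          simp only [Matrix.mul_assoc]
      _ = _ := by rw [hU', Matrix.mul_one]; simp only [Matrix.mul_assoc]
  have h1' : C'ᴴ * C' + vecMulVec l' (star l') = C' * C'ᴴ + vecMulVec q' (star q') := by
    rw [c1, c2, hl', hq', hv, hv, ← Matrix.add_mul, ← Matrix.mul_add, h1, Matrix.mul_add,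
      Matrix.add_mul]
  by_cases hql : q' 0 * l' 1 = q' 1 * l' 0
  · left
    have e := fun s => congrFun (congrFun h1' s) s
    simp only [Matrix.add_apply, mul_apply, conjTranspose_apply, vecMulVec_apply, Pi.star_apply,
      Fin.sum_univ_three] at e
    have e00 := e 0
    have e11 := e 1
    have e22 := e 2
    clear e
    simp only [hq, hl, star_zero, mul_zero, add_zero] at e00 e11 e22
    obtain ⟨p1, p2, p3, p4⟩ := par_eq hql (by linear_combination -e00 - e11 - e22)
    have h2 : vecMulVec l' (star l') = vecMulVec q' (star q') := by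
      ext s t
      rw [vecMulVec_apply, vecMulVec_apply, Pi.star_apply, Pi.star_apply]
      fin_cases s <;> fin_cases t <;>
        simp only [Fin.zero_eta, Fin.mk_one, Fin.reduceFinMk, Fin.isValue, hq, hl, star_zero,
          mul_zero, zero_mul, p1, p2, p3, p4]
    rw [h2] at h1'
    have h3 := add_right_cancel h1'
    rw [c1, c2] at h3
    have h4 := congrArg (fun M => U * M * Uᴴ) h3
    have h5 : ∀ M : Matrix (Fin 3) (Fin 3) ℂ, U * (Uᴴ * M * U) * Uᴴ = M := by
      intro M
      calc U * (Uᴴ * M * U) * Uᴴ = (U * Uᴴ) * M * (U * Uᴴ) := by simp only [Matrix.mul_assoc]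
        _ = M := by rw [hU', Matrix.one_mul, Matrix.mul_one]
    simpa only [h5] using h4
  · right
    obtain ⟨om, w, ho, h2⟩ := exists_om hb2 C' q' l' hq hl h1' hql
    refine ⟨om, w, ho, ?_⟩
    have h3 := congrArg (fun v => U *ᵥ v) h2
    have r1 : U *ᵥ q' = q := by rw [hq', mulVec_mulVec, hU', one_mulVec]
    have r2 : U *ᵥ l' = l := by rw [hl', mulVec_mulVec, hU', one_mulVec]
    have r3 : U *ᵥ (C'ᴴ *ᵥ q') = Cᴴ *ᵥ q := by
      rw [hC', conjTranspose_mul, conjTranspose_mul, conjTranspose_conjTranspose, hq',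
        mulVec_mulVec, mulVec_mulVec]
      have : U * (Uᴴ * (Cᴴ * U)) * Uᴴ = Cᴴ := by
        calc U * (Uᴴ * (Cᴴ * U)) * Uᴴ = (U * Uᴴ) * Cᴴ * (U * Uᴴ) := by
              simp only [Matrix.mul_assoc]
          _ = _ := by rw [hU', Matrix.one_mul, Matrix.mul_one]
      rw [this]
    have r4 : U *ᵥ (C' *ᵥ l') = C *ᵥ l := by
      rw [hC', hl', mulVec_mulVec, mulVec_mulVec]
      have : U * (Uᴴ * C * U) * Uᴴ = C := by
        calc U * (Uᴴ * C * U) * Uᴴ = (U * Uᴴ) * C * (U * Uᴴ) := by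
              simp only [Matrix.mul_assoc]
          _ = _ := by rw [hU', Matrix.one_mul, Matrix.mul_one]
      rw [this]
    simp only [mulVec_add, mulVec_smul, r1, r2, r3, r4] at h3 ⊢
    exact h3

end Vale.Agent.P372.R4.W
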