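import Vale.Agent.P372.R4.SUP
import Vale.Agent.P372.R4.Main
import Vale.Agent.P372.R4.L0

/-!
Edge reduction: a PPT operator whose ranks satisfy `r² + r'² ≥ (|A| |B|)² + 2` is a sum of two PPT
operators with smaller sum of the ranks. Two qubits: every PPT operator is separable. Qubit and
qutrit: reduction of rank at most four to the case of ranks `(4, 4)`.
-/

open Matrix Kronecker
open scoped ComplexOrder MatrixOrder

set_option linter.unusedSectionVars false

namespace Vale.Agent.P372.R4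

section Herm

variable {n : Type} [Fintype n] [DecidableEq n] {X : Matrix n n ℂ}

theorem herm_form (hX : X.IsHermitian) (c : ℝ) :
    ∃ U : Matrix n n ℂ, Uᴴ * U = 1 ∧ U * Uᴴ = 1 ∧
      X - (c : ℂ) • (1 : Matrix n n ℂ) =
        U * diagonal (fun i => ((hX.eigenvalues i - c : ℝ) : ℂ)) * Uᴴ := by
  obtain ⟨U, hU⟩ : ∃ U : Matrix n n ℂ, U = (hX.eigenvectorUnitary : Matrix n n ℂ) := ⟨_, rfl⟩
  have hU1 : Uᴴ * U = 1 := by
    rw [hU]
    exact Unitary.coe_star_mul_self hX.eigenvectorUnitary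
  have hU2 : U * Uᴴ = 1 := mul_eq_one_comm.mp hU1
  have hsp : X = U * diagonal (fun i => (hX.eigenvalues i : ℂ)) * Uᴴ := by
    have h := hX.spectral_theorem
    rw [Unitary.conjStarAlgAut_apply] at h
    rw [hU]
    exact h
  refine ⟨U, hU1, hU2, ?_⟩
  have h1 : (fun i => ((hX.eigenvalues i - c : ℝ) : ℂ)) =
      fun i => (hX.eigenvalues i : ℂ) - (c : ℂ) := by
    funext i
    push_cast
    rfl
  have h2 : diagonal (fun _ : n => (c : ℂ)) = (c : ℂ) • (1 : Matrix n n ℂ) := by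
    rw [← diagonal_one, ← diagonal_smul]
    congr 1
    funext i
    simp
  rw [h1, ← diagonal_sub, Matrix.mul_sub, Matrix.sub_mul, ← hsp]
  congr 1
  have h3 : diagonal (fun _ : n => (c : ℂ)) = (c : ℂ) • (1 : Matrix n n ℂ) := h2
  rw [h3, Matrix.mul_smul, Matrix.smul_mul, Matrix.mul_one, hU2]

theorem psd_sub (hX : X.IsHermitian) {c : ℝ} (h : ∀ i, c ≤ hX.eigenvalues i) :
    (X - (c : ℂ) • (1 : Matrix n n ℂ)).PosSemidef := by
  obtain ⟨U, -, -, h3⟩ := herm_form hX c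
  rw [h3]
  refine (PosSemidef.diagonal fun i => ?_).mul_mul_conjTranspose_same U
  rw [Pi.zero_apply]
  exact Complex.zero_le_real.2 (sub_nonneg.2 (h i))

theorem psd_sub' (hX : X.IsHermitian) {c : ℝ} (h : ∀ i, hX.eigenvalues i ≤ c) :
    ((c : ℂ) • (1 : Matrix n n ℂ) - X).PosSemidef := by
  obtain ⟨U, -, -, h3⟩ := herm_form hX c
  have h4 : (c : ℂ) • (1 : Matrix n n ℂ) - X =
      U * diagonal (fun i => ((c - hX.eigenvalues i : ℝ) : ℂ)) * Uᴴ := by
    rw [← neg_sub, h3, ← Matrix.neg_mul, ← Matrix.mul_neg, diagonal_neg]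
    congr 3
    funext i
    rw [← Complex.ofReal_neg, neg_sub]
  rw [h4]
  refine (PosSemidef.diagonal fun i => ?_).mul_mul_conjTranspose_same U
  rw [Pi.zero_apply]
  exact Complex.zero_le_real.2 (sub_nonneg.2 (h i))

theorem rank_sub_lt (hX : X.IsHermitian) {c : ℝ} {i : n} (h : hX.eigenvalues i = c) :
    (X - (c : ℂ) • (1 : Matrix n n ℂ)).rank < Fintype.card n := by
  obtain ⟨U, -, -, h3⟩ := herm_form hX c
  rw [h3]
  refine lt_of_le_of_lt ((rank_mul_le_left _ _).trans (rank_mul_le_right _ _)) ?_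
  rw [rank_diagonal]
  refine Fintype.card_subtype_lt (x := i) ?_
  rw [h, sub_self, Complex.ofReal_zero, not_not]

theorem eq_of_all (hX : X.IsHermitian) {c : ℝ} (h : ∀ i, hX.eigenvalues i = c) :
    X = (c : ℂ) • (1 : Matrix n n ℂ) := by
  obtain ⟨U, -, -, h3⟩ := herm_form hX c
  rw [← sub_eq_zero, h3]
  have h4 : (fun i => ((hX.eigenvalues i - c : ℝ) : ℂ)) = fun _ => 0 := by
    funext i
    rw [h, sub_self, Complex.ofReal_zero]
  rw [h4, diagonal_zero, Matrix.mul_zero, Matrix.zero_mul]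

theorem rank_neg' (M : Matrix n n ℂ) : (-M).rank = M.rank := by
  apply le_antisymm
  · rw [← neg_one_smul ℂ M]
    have : (-1 : ℂ) • M = ((-1 : ℂ) • (1 : Matrix n n ℂ)) * M := by
      rw [Matrix.smul_mul, Matrix.one_mul]
    rw [this]
    exact rank_mul_le_right _ _
  · have : M = ((-1 : ℂ) • (1 : Matrix n n ℂ)) * (-M) := by
      rw [Matrix.smul_mul, Matrix.one_mul, neg_one_smul, neg_neg]
    conv_lhs => rw [this]
    exact rank_mul_le_right _ _

/-- Two Hermitian matrices, not both the same scalar: common interval of the spectra, both ends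
attained. -/
theorem exists_interval {m : Type} [Fintype m] [DecidableEq m] {Y : Matrix m m ℂ}
    (hX : X.IsHermitian) (hY : Y.IsHermitian) (hpos : 0 < Fintype.card n + Fintype.card m)
    (hne : ∀ c : ℂ, ¬ (X = c • (1 : Matrix n n ℂ) ∧ Y = c • (1 : Matrix m m ℂ))) :
    ∃ lo hi : ℝ, lo < hi ∧ (X - (lo : ℂ) • (1 : Matrix n n ℂ)).PosSemidef ∧
      (Y - (lo : ℂ) • (1 : Matrix m m ℂ)).PosSemidef ∧
      ((hi : ℂ) • (1 : Matrix n n ℂ) - X).PosSemidef ∧
      ((hi : ℂ) • (1 : Matrix m m ℂ) - Y).PosSemidef ∧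
      (X - (lo : ℂ) • (1 : Matrix n n ℂ)).rank + (Y - (lo : ℂ) • (1 : Matrix m m ℂ)).rank <
        Fintype.card n + Fintype.card m ∧
      ((hi : ℂ) • (1 : Matrix n n ℂ) - X).rank + ((hi : ℂ) • (1 : Matrix m m ℂ) - Y).rank <
        Fintype.card n + Fintype.card m := by
  obtain ⟨ev, hev⟩ : ∃ ev : n ⊕ m → ℝ, ev = Sum.elim hX.eigenvalues hY.eigenvalues := ⟨_, rfl⟩
  have : Nonempty (n ⊕ m) := by
    rw [← Fintype.card_pos_iff, Fintype.card_sum]
    exact hpos
  obtain ⟨i0, h0⟩ := Finite.exists_min ev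
  obtain ⟨j0, h1⟩ := Finite.exists_max ev
  have eX : ∀ i, ev (Sum.inl i) = hX.eigenvalues i := fun i => by rw [hev]; rfl
  have eY : ∀ i, ev (Sum.inr i) = hY.eigenvalues i := fun i => by rw [hev]; rfl
  have key : ∀ (c : ℝ) (k : n ⊕ m), ev k = c →
      (X - (c : ℂ) • (1 : Matrix n n ℂ)).rank + (Y - (c : ℂ) • (1 : Matrix m m ℂ)).rank <
        Fintype.card n + Fintype.card m := by
    intro c k hk
    have a1 : (X - (c : ℂ) • (1 : Matrix n n ℂ)).rank ≤ Fintype.card n := rank_le_card_width _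
    have a2 : (Y - (c : ℂ) • (1 : Matrix m m ℂ)).rank ≤ Fintype.card m := rank_le_card_width _
    rcases k with k | k
    · have := rank_sub_lt hX (i := k) (c := c) (by rw [← eX, hk])
      omega
    · have := rank_sub_lt hY (i := k) (c := c) (by rw [← eY, hk])
      omega
  refine ⟨ev i0, ev j0, ?_, ?_, ?_, ?_, ?_, ?_, ?_⟩
  · refine lt_of_le_of_ne (h0 j0) fun heq => hne (ev i0 : ℂ) ⟨?_, ?_⟩
    · exact eq_of_all hX fun i => by
        rw [← eX]
        exact le_antisymm ((h1 _).trans heq.ge) (h0 _)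
    · exact eq_of_all hY fun i => by
        rw [← eY]
        exact le_antisymm ((h1 _).trans heq.ge) (h0 _)
  · exact psd_sub hX fun i => by rw [← eX]; exact h0 _
  · exact psd_sub hY fun i => by rw [← eY]; exact h0 _
  · exact psd_sub' hX fun i => by rw [← eX]; exact h1 _
  · exact psd_sub' hY fun i => by rw [← eY]; exact h1 _
  · exact key _ i0 rfl
  · have := key _ j0 rfl
    rw [← neg_sub X, ← neg_sub Y, rank_neg', rank_neg']
    exact this

/-- A positive semidefinite matrix is `K Kᴴ` with as many columns as its rank. -/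
theorem exists_cols {M : Matrix n n ℂ} (hM : M.PosSemidef) :
    ∃ K : Matrix n (Fin M.rank) ℂ, K * Kᴴ = M := by
  obtain ⟨V, h1, h2, -⟩ := exists_iso hM
  obtain ⟨C, hC⟩ := exists_factor (hM.conjTranspose_mul_mul_same V)
  refine ⟨V * Cᴴ, ?_⟩
  have h3 : M * (V * Vᴴ) = M := by
    have h := congrArg conjTranspose h2
    rw [conjTranspose_mul, conjTranspose_mul, conjTranspose_conjTranspose,
      hM.isHermitian.eq] at h
    exact h
  calc V * Cᴴ * (V * Cᴴ)ᴴ = V * (Cᴴ * C) * Vᴴ := by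
        rw [conjTranspose_mul, conjTranspose_conjTranspose]
        simp only [Matrix.mul_assoc]
    _ = (V * Vᴴ * M) * (V * Vᴴ) := by
        rw [← hC]
        simp only [Matrix.mul_assoc]
    _ = M := by rw [h2, h3]

end Herm

section Split

variable {A B : Type} [Fintype A] [DecidableEq A] [Fintype B] [DecidableEq B]

/-- partial transposition as a linear map -/
def pTl (A B : Type) : Matrix (A × B) (A × B) ℂ →ₗ[ℂ] Matrix (A × B) (A × B) ℂ where
  toFun := pTrans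
  map_add' _ _ := rfl
  map_smul' _ _ := rfl

theorem pTrans_conjT (M : Matrix (A × B) (A × B) ℂ) : pTrans Mᴴ = (pTrans M)ᴴ := rfl

/-- the map whose kernel consists of the pairs -/
noncomputable def Phi {p q : ℕ} (K : Matrix (A × B) (Fin p) ℂ) (K' : Matrix (A × B) (Fin q) ℂ) :
    (Matrix (Fin p) (Fin p) ℂ × Matrix (Fin q) (Fin q) ℂ) →ₗ[ℂ] Matrix (A × B) (A × B) ℂ where
  toFun Z := pTrans (K * Z.1 * Kᴴ) - K' * Z.2 * K'ᴴ
  map_add' Z W := by
    have h : pTrans (K * (Z + W).1 * Kᴴ) = pTrans (K * Z.1 * Kᴴ) + pTrans (K * W.1 * Kᴴ) := by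
      rw [Prod.fst_add, Matrix.mul_add, Matrix.add_mul]
      rfl
    rw [h, Prod.snd_add, Matrix.mul_add, Matrix.add_mul]
    abel
  map_smul' c Z := by
    have h : pTrans (K * (c • Z).1 * Kᴴ) = c • pTrans (K * Z.1 * Kᴴ) := by
      rw [Prod.smul_fst, Matrix.mul_smul, Matrix.smul_mul]
      rfl
    rw [h, Prod.smul_snd, Matrix.mul_smul, Matrix.smul_mul, RingHom.id_apply, smul_sub]

theorem Phi_apply {p q : ℕ} (K : Matrix (A × B) (Fin p) ℂ) (K' : Matrix (A × B) (Fin q) ℂ)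
    (X : Matrix (Fin p) (Fin p) ℂ) (Y : Matrix (Fin q) (Fin q) ℂ) :
    Phi K K' (X, Y) = pTrans (K * X * Kᴴ) - K' * Y * K'ᴴ := rfl

theorem Phi_conj {p q : ℕ} {K : Matrix (A × B) (Fin p) ℂ} {K' : Matrix (A × B) (Fin q) ℂ}
    {X : Matrix (Fin p) (Fin p) ℂ} {Y : Matrix (Fin q) (Fin q) ℂ} (h : Phi K K' (X, Y) = 0) :
    Phi K K' (Xᴴ, Yᴴ) = 0 := by
  rw [Phi_apply] at h ⊢
  have h1 := congrArg conjTranspose h
  rw [conjTranspose_sub, conjTranspose_zero, ← pTrans_conjT] at h1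
  rw [← h1]
  simp only [conjTranspose_mul, conjTranspose_conjTranspose, Matrix.mul_assoc]

/-- **Edge reduction.** -/
theorem split_ppt (r : Matrix (A × B) (A × B) ℂ) (hr : r.PosSemidef) (hp : (pTrans r).PosSemidef)
    (hd : (Fintype.card A * Fintype.card B) ^ 2 + 2 ≤ r.rank ^ 2 + (pTrans r).rank ^ 2) :
    ∃ r1 r2 : Matrix (A × B) (A × B) ℂ, r1.PosSemidef ∧ (pTrans r1).PosSemidef ∧
      r2.PosSemidef ∧ (pTrans r2).PosSemidef ∧ r = r1 + r2 ∧ r1.rank ≤ r.rank ∧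
      (pTrans r1).rank ≤ (pTrans r).rank ∧ r2.rank ≤ r.rank ∧
      (pTrans r2).rank ≤ (pTrans r).rank ∧ r1.rank + (pTrans r1).rank <
        r.rank + (pTrans r).rank ∧ r2.rank + (pTrans r2).rank < r.rank + (pTrans r).rank := by
  obtain ⟨K, hK⟩ := exists_cols hr
  obtain ⟨K', hK'⟩ := exists_cols hp
  obtain ⟨p, hpn⟩ : ∃ p, p = r.rank := ⟨_, rfl⟩
  obtain ⟨q, hqn⟩ : ∃ q, q = (pTrans r).rank := ⟨_, rfl⟩
  have h11 : Phi K K' (1, 1) = 0 := by
    rw [Phi_apply, Matrix.mul_one, Matrix.mul_one, hK, hK', sub_self]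
  -- a pair off the line
  have hdim := LinearMap.finrank_range_add_finrank_ker (Phi K K')
  have hdom : Module.finrank ℂ (Matrix (Fin r.rank) (Fin r.rank) ℂ ×
      Matrix (Fin (pTrans r).rank) (Fin (pTrans r).rank) ℂ) =
      r.rank ^ 2 + (pTrans r).rank ^ 2 := by
    rw [Module.finrank_prod, Module.finrank_matrix, Module.finrank_matrix,
      Module.finrank_self, Fintype.card_fin, Fintype.card_fin]
    ring
  have hran : Module.finrank ℂ (LinearMap.range (Phi K K')) ≤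
      (Fintype.card A * Fintype.card B) ^ 2 := by
    refine (Submodule.finrank_le _).trans (le_of_eq ?_)
    rw [Module.finrank_matrix, Module.finrank_self, Fintype.card_prod]
    ring
  have hker : 2 ≤ Module.finrank ℂ (LinearMap.ker (Phi K K')) := by
    rw [hdom] at hdim
    omega
  obtain ⟨Z, hZ, hZn⟩ : ∃ Z ∈ LinearMap.ker (Phi K K'), ∀ c : ℂ, Z ≠ c • (1, 1) := by
    by_contra hcon
    push Not at hcon
    have hle : LinearMap.ker (Phi K K') ≤ Submodule.span ℂ {((1, 1) :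
        Matrix (Fin r.rank) (Fin r.rank) ℂ ×
        Matrix (Fin (pTrans r).rank) (Fin (pTrans r).rank) ℂ)} := by
      intro Z hZ
      obtain ⟨c, hc⟩ := hcon Z hZ
      exact Submodule.mem_span_singleton.2 ⟨c, hc.symm⟩
    have h1 := (Submodule.finrank_mono hle).trans (finrank_span_le_card _)
    rw [Set.toFinset_singleton, Finset.card_singleton] at h1
    omega
  obtain ⟨X, Y⟩ := Z
  rw [LinearMap.mem_ker] at hZ
  have hZ' := Phi_conj hZ
  -- Hermitian pair off the line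
  obtain ⟨X', Y', hX', hY', hXY, hne⟩ : ∃ (X' : Matrix (Fin r.rank) (Fin r.rank) ℂ)
      (Y' : Matrix (Fin (pTrans r).rank) (Fin (pTrans r).rank) ℂ), X'.IsHermitian ∧
      Y'.IsHermitian ∧ Phi K K' (X', Y') = 0 ∧
      ∀ c : ℂ, ¬ (X' = c • (1 : Matrix _ _ ℂ) ∧ Y' = c • (1 : Matrix _ _ ℂ)) := by
    by_cases hc : ∃ c : ℂ, X + Xᴴ = c • (1 : Matrix _ _ ℂ) ∧ Y + Yᴴ = c • (1 : Matrix _ _ ℂ)
    · refine ⟨Complex.I • (X - Xᴴ), Complex.I • (Y - Yᴴ), ?_, ?_, ?_, ?_⟩
      · rw [IsHermitian, conjTranspose_smul, conjTranspose_sub, conjTranspose_conjTranspose,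
          Complex.star_def, Complex.conj_I, neg_smul, ← smul_neg, neg_sub]
      · rw [IsHermitian, conjTranspose_smul, conjTranspose_sub, conjTranspose_conjTranspose,
          Complex.star_def, Complex.conj_I, neg_smul, ← smul_neg, neg_sub]
      · have : (Complex.I • (X - Xᴴ), Complex.I • (Y - Yᴴ)) =
            Complex.I • ((X, Y) - (Xᴴ, Yᴴ)) := rfl
        rw [this, map_smul, map_sub, hZ, hZ', sub_zero, smul_zero]
      · rintro d ⟨hd1, hd2⟩
        obtain ⟨c, hc1, hc2⟩ := hc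
        have key : ∀ {k : ℕ} (W : Matrix (Fin k) (Fin k) ℂ), W + Wᴴ = c • (1 : Matrix _ _ ℂ) →
            Complex.I • (W - Wᴴ) = d • (1 : Matrix _ _ ℂ) →
            W = ((c - Complex.I * d) / 2) • (1 : Matrix _ _ ℂ) := by
          intro k W e1 e2
          have e3 : W - Wᴴ = (-Complex.I * d) • (1 : Matrix _ _ ℂ) := by
            rw [← one_smul ℂ (W - Wᴴ), ← neg_neg (1 : ℂ), ← Complex.I_mul_I, ← neg_mul,
              mul_smul, e2, smul_smul]
          have e4 : (2 : ℂ) • W = (W + Wᴴ) + (W - Wᴴ) := by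
            rw [two_smul]
            abel
          rw [e1, e3, ← add_smul] at e4
          rw [← one_smul ℂ W, ← inv_mul_cancel₀ (two_ne_zero (α := ℂ)), mul_smul, e4, smul_smul]
          congr 1
          ring
        refine hZn ((c - Complex.I * d) / 2) ?_
        have e1 := key X hc1 hd1
        have e2 := key Y hc2 hd2
        exact Prod.ext e1 e2
    · refine ⟨X + Xᴴ, Y + Yᴴ, ?_, ?_, ?_, fun c hcc => hc ⟨c, hcc⟩⟩
      · rw [IsHermitian, conjTranspose_add, conjTranspose_conjTranspose, add_comm]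
      · rw [IsHermitian, conjTranspose_add, conjTranspose_conjTranspose, add_comm]
      · have : (X + Xᴴ, Y + Yᴴ) = (X, Y) + (Xᴴ, Yᴴ) := rfl
        rw [this, map_add, hZ, hZ', add_zero]
  have hpos : 0 < Fintype.card (Fin r.rank) + Fintype.card (Fin (pTrans r).rank) := by
    rw [Fintype.card_fin, Fintype.card_fin]
    by_contra h0
    have h1 : r.rank = 0 := by omega
    have h2 : (pTrans r).rank = 0 := by omega
    rw [h1, h2] at hd
    omega
  obtain ⟨lo, hi, hlt, c1, c2, c3, c4, c5, c6⟩ := exists_interval hX' hY' hpos hne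
  rw [Fintype.card_fin, Fintype.card_fin] at c5 c6
  obtain ⟨w, hw⟩ : ∃ w : ℝ, w = (hi - lo)⁻¹ := ⟨_, rfl⟩
  have hw0 : 0 < w := by
    rw [hw]
    exact inv_pos.2 (sub_pos.2 hlt)
  have hw1 : (w : ℂ) * ((hi : ℂ) - lo) = 1 := by
    rw [hw, Complex.ofReal_inv, Complex.ofReal_sub]
    refine inv_mul_cancel₀ ?_
    rw [← Complex.ofReal_sub]
    exact_mod_cast (sub_pos.2 hlt).ne'
  have hwc : (0 : ℂ) ≤ (w : ℂ) := by exact_mod_cast hw0.le
  -- pieces
  have build : ∀ (X1 : Matrix (Fin r.rank) (Fin r.rank) ℂ)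
      (Y1 : Matrix (Fin (pTrans r).rank) (Fin (pTrans r).rank) ℂ), X1.PosSemidef →
      Y1.PosSemidef → Phi K K' (X1, Y1) = 0 → X1.rank + Y1.rank < r.rank + (pTrans r).rank →
      (K * ((w : ℂ) • X1) * Kᴴ).PosSemidef ∧ (pTrans (K * ((w : ℂ) • X1) * Kᴴ)).PosSemidef ∧
      (K * ((w : ℂ) • X1) * Kᴴ).rank ≤ r.rank ∧
      (pTrans (K * ((w : ℂ) • X1) * Kᴴ)).rank ≤ (pTrans r).rank ∧
      (K * ((w : ℂ) • X1) * Kᴴ).rank + (pTrans (K * ((w : ℂ) • X1) * Kᴴ)).rank <
        r.rank + (pTrans r).rank := by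
    intro X1 Y1 g1 g2 g3 g4
    have g5 : pTrans (K * ((w : ℂ) • X1) * Kᴴ) = K' * ((w : ℂ) • Y1) * K'ᴴ := by
      have h1 : Phi K K' ((w : ℂ) • (X1, Y1)) = 0 := by rw [map_smul, g3, smul_zero]
      have h2 : (w : ℂ) • (X1, Y1) = ((w : ℂ) • X1, (w : ℂ) • Y1) := rfl
      rw [h2, Phi_apply, sub_eq_zero] at h1
      exact h1
    have rk : ∀ {k : ℕ} (L : Matrix (A × B) (Fin k) ℂ) (T : Matrix (Fin k) (Fin k) ℂ),
        (L * ((w : ℂ) • T) * Lᴴ).rank ≤ T.rank := by
      intro k L T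
      refine (rank_mul_le_left _ _).trans ((rank_mul_le_right _ _).trans ?_)
      have : (w : ℂ) • T = ((w : ℂ) • (1 : Matrix _ _ ℂ)) * T := by
        rw [Matrix.smul_mul, Matrix.one_mul]
      rw [this]
      exact rank_mul_le_right _ _
    have r1 := rk K X1
    have r2 := rk K' Y1
    have r3 : X1.rank ≤ r.rank := by
      have := rank_le_card_width X1
      rwa [Fintype.card_fin] at this
    have r4 : Y1.rank ≤ (pTrans r).rank := by
      have := rank_le_card_width Y1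
      rwa [Fintype.card_fin] at this
    refine ⟨(g1.smul hwc).mul_mul_conjTranspose_same K, ?_, r1.trans r3, ?_, ?_⟩
    · rw [g5]
      exact (g2.smul hwc).mul_mul_conjTranspose_same K'
    · rw [g5]
      exact r2.trans r4
    · rw [g5]
      omega
  have e1 : Phi K K' (X' - (lo : ℂ) • (1 : Matrix _ _ ℂ), Y' - (lo : ℂ) • (1 : Matrix _ _ ℂ)) =
      0 := by
    have : (X' - (lo : ℂ) • (1 : Matrix (Fin r.rank) (Fin r.rank) ℂ),
        Y' - (lo : ℂ) • (1 : Matrix (Fin (pTrans r).rank) (Fin (pTrans r).rank) ℂ)) =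
        (X', Y') - (lo : ℂ) • (1, 1) := rfl
    rw [this, map_sub, map_smul, hXY, h11, smul_zero, sub_zero]
  have e2 : Phi K K' ((hi : ℂ) • (1 : Matrix _ _ ℂ) - X', (hi : ℂ) • (1 : Matrix _ _ ℂ) - Y') =
      0 := by
    have : ((hi : ℂ) • (1 : Matrix (Fin r.rank) (Fin r.rank) ℂ) - X',
        (hi : ℂ) • (1 : Matrix (Fin (pTrans r).rank) (Fin (pTrans r).rank) ℂ) - Y') =
        (hi : ℂ) • (1, 1) - (X', Y') := rfl
    rw [this, map_sub, map_smul, hXY, h11, smul_zero, sub_zero]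
  obtain ⟨a1, a2, a3, a4, a5⟩ := build _ _ c1 c2 e1 c5
  obtain ⟨b1, b2, b3, b4, b5⟩ := build _ _ c3 c4 e2 c6
  refine ⟨_, _, a1, a2, b1, b2, ?_, a3, a4, b3, b4, a5, b5⟩
  rw [← Matrix.add_mul, ← Matrix.mul_add, ← smul_add]
  have : X' - (lo : ℂ) • (1 : Matrix (Fin r.rank) (Fin r.rank) ℂ) +
      ((hi : ℂ) • (1 : Matrix (Fin r.rank) (Fin r.rank) ℂ) - X') =
      ((hi : ℂ) - lo) • (1 : Matrix (Fin r.rank) (Fin r.rank) ℂ) := by
    rw [sub_smul]
    abel
  rw [this, smul_smul, hw1, one_smul, Matrix.mul_one, hK]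

end Split

section Small

variable {A B : Type} [Fintype A] [DecidableEq A] [Fintype B] [DecidableEq B]

theorem pTrans_pTrans (r : Matrix (A × B) (A × B) ℂ) : pTrans (pTrans r) = r := rfl

/-- Partial transposition preserves separability. -/
theorem isSep_pTrans {r : Matrix (A × B) (A × B) ℂ} (h : IsSep r) : IsSep (pTrans r) := by
  obtain ⟨n, M, N, hM, hN, hMN⟩ := h
  refine ⟨n, M, fun k => (N k)ᵀ, hM, fun k => (hN k).transpose, ?_⟩
  rw [hMN]
  ext ⟨i, s⟩ ⟨j, t⟩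
  simp only [pTrans, Matrix.sum_apply, kroneckerMap_apply, transpose_apply]

theorem isSep_add {r r' : Matrix (A × B) (A × B) ℂ} (h : IsSep r) (h' : IsSep r') :
    IsSep (r + r') := by
  obtain ⟨n, M, N, hM, hN, hMN⟩ := h
  obtain ⟨n', M', N', hM', hN', hMN'⟩ := h'
  refine ⟨n + n', Fin.append M M', Fin.append N N', ?_, ?_, ?_⟩
  · intro k
    refine Fin.addCases (fun i => ?_) (fun i => ?_) k
    · rw [Fin.append_left]; exact hM i
    · rw [Fin.append_right]; exact hM' i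
  · intro k
    refine Fin.addCases (fun i => ?_) (fun i => ?_) k
    · rw [Fin.append_left]; exact hN i
    · rw [Fin.append_right]; exact hN' i
  · rw [Fin.sum_univ_add]
    simp only [Fin.append_left, Fin.append_right]
    rw [hMN, hMN']

/-- **Two qubits**: every PPT operator is separable. -/
theorem sep_22 (r : Matrix (Fin 2 × Fin 2) (Fin 2 × Fin 2) ℂ) (hr : r.PosSemidef)
    (hp : (pTrans r).PosSemidef) : IsSep r := by
  obtain ⟨N, hN⟩ : ∃ N, r.rank + (pTrans r).rank < N := ⟨_, Nat.lt_succ_self _⟩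
  induction N generalizing r with
  | zero => omega
  | succ N ih =>
    by_cases h1 : r.rank ≤ 3
    · exact sep_two_qubits r hr hp h1
    by_cases h2 : (pTrans r).rank ≤ 3
    · have := isSep_pTrans (sep_two_qubits (pTrans r) hp hr h2)
      rwa [pTrans_pTrans] at this
    obtain ⟨r1, r2, a1, a2, a3, a4, a5, -, -, -, -, a6, a7⟩ := split_ppt r hr hp (by
      rw [Fintype.card_fin]
      have b1 : 4 ≤ r.rank := by omega
      have b2 : 4 ≤ (pTrans r).rank := by omega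
      nlinarith)
    rw [a5]
    exact isSep_add (ih r1 a1 a2 (by omega)) (ih r2 a3 a4 (by omega))

/-- an isometry of a small space into the plane -/
theorem exists_incl {q : ℕ} (hq : q ≤ 2) : ∃ F : Matrix (Fin 2) (Fin q) ℂ, Fᴴ * F = 1 := by
  refine ⟨Matrix.of fun i j => if i = Fin.castLE hq j then 1 else 0, ?_⟩
  ext j k
  rw [Matrix.mul_apply, Matrix.one_apply]
  simp only [conjTranspose_apply, of_apply]
  rw [Finset.sum_eq_single (Fin.castLE hq j)]
  · rw [if_pos rfl, star_one, one_mul]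
    by_cases h : j = k
    · rw [if_pos h, if_pos (by rw [h])]
    · rw [if_neg h, if_neg fun h' => h (Fin.castLE_injective hq h')]
  · intro i _ hi
    rw [if_neg hi, star_zero, zero_mul]
  · intro h
    exact absurd (Finset.mem_univ _) h

/-- Qubit and any system: PPT and rank at most three. -/
theorem sep_2n_rank3 (r : Matrix (Fin 2 × B) (Fin 2 × B) ℂ) (hr : r.PosSemidef)
    (hp : (pTrans r).PosSemidef) (hk : r.rank ≤ 3) : IsSep r := by
  obtain ⟨a, ha⟩ := L0 r hr hp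
  by_cases h1 : r.rank ≤ (trA r).rank
  · exact sep_of_rank' r hr hp a (h1.trans ha.ge)
  have hq : (redB r).rank ≤ 2 := by
    have : (redB r).rank = (trA r).rank := rfl
    omega
  obtain ⟨W, hW1, hW2⟩ := sup_B hr
  obtain ⟨F, hF⟩ := exists_incl hq
  obtain ⟨r', hr'⟩ : ∃ r' : Matrix (Fin 2 × Fin 2) (Fin 2 × Fin 2) ℂ,
      r' = ((1 : Matrix (Fin 2) (Fin 2) ℂ) ⊗ₖ (F * Wᴴ)) * r *
        ((1 : Matrix (Fin 2) (Fin 2) ℂ) ⊗ₖ (F * Wᴴ))ᴴ := ⟨_, rfl⟩
  have hs : IsSep r' := by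
    rw [hr']
    refine sep_two_qubits _ (hr.mul_mul_conjTranspose_same _) (ppt_rect hp _ _) ?_
    exact ((rank_mul_le_left _ _).trans (rank_mul_le_right _ _)).trans hk
  have h2 := isSep_rect hs (1 : Matrix (Fin 2) (Fin 2) ℂ) (W * Fᴴ)
  have h3 : ((1 : Matrix (Fin 2) (Fin 2) ℂ) ⊗ₖ (W * Fᴴ)) *
      ((1 : Matrix (Fin 2) (Fin 2) ℂ) ⊗ₖ (F * Wᴴ)) =
      (1 : Matrix (Fin 2) (Fin 2) ℂ) ⊗ₖ (W * Wᴴ) := by
    rw [← Matrix.mul_kronecker_mul, Matrix.one_mul]
    congr 1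
    calc W * Fᴴ * (F * Wᴴ) = W * (Fᴴ * F) * Wᴴ := by simp only [Matrix.mul_assoc]
      _ = W * Wᴴ := by rw [hF, Matrix.mul_one]
  have h4 : r * ((1 : Matrix (Fin 2) (Fin 2) ℂ) ⊗ₖ (W * Wᴴ)) = r := by
    have h := congrArg conjTranspose hW2
    rw [conjTranspose_mul, hr.isHermitian.eq, conjTranspose_kronecker, conjTranspose_one,
      conjTranspose_mul, conjTranspose_conjTranspose] at h
    exact h
  have h5 : ((1 : Matrix (Fin 2) (Fin 2) ℂ) ⊗ₖ (W * Fᴴ)) * r' *
      ((1 : Matrix (Fin 2) (Fin 2) ℂ) ⊗ₖ (W * Fᴴ))ᴴ = r := by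
    rw [hr']
    calc ((1 : Matrix (Fin 2) (Fin 2) ℂ) ⊗ₖ (W * Fᴴ)) *
        (((1 : Matrix (Fin 2) (Fin 2) ℂ) ⊗ₖ (F * Wᴴ)) * r *
          ((1 : Matrix (Fin 2) (Fin 2) ℂ) ⊗ₖ (F * Wᴴ))ᴴ) *
        ((1 : Matrix (Fin 2) (Fin 2) ℂ) ⊗ₖ (W * Fᴴ))ᴴ =
        (((1 : Matrix (Fin 2) (Fin 2) ℂ) ⊗ₖ (W * Fᴴ)) *
          ((1 : Matrix (Fin 2) (Fin 2) ℂ) ⊗ₖ (F * Wᴴ))) * r *
        (((1 : Matrix (Fin 2) (Fin 2) ℂ) ⊗ₖ (W * Fᴴ)) *
          ((1 : Matrix (Fin 2) (Fin 2) ℂ) ⊗ₖ (F * Wᴴ)))ᴴ := by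
          rw [conjTranspose_mul (((1 : Matrix (Fin 2) (Fin 2) ℂ) ⊗ₖ (W * Fᴴ)))]
          simp only [Matrix.mul_assoc]
      _ = r := by
          rw [h3, conjTranspose_kronecker, conjTranspose_one, conjTranspose_mul,
            conjTranspose_conjTranspose, hW2, h4]
  rwa [h5] at h2

/-- **Qubit and qutrit**: PPT operators of rank at most four, given the case of ranks `(4, 4)`. -/
theorem sep_23_of_44 (hb : ∀ r : Matrix (Fin 2 × Fin 3) (Fin 2 × Fin 3) ℂ, r.PosSemidef →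
      (pTrans r).PosSemidef → r.rank = 4 → (pTrans r).rank = 4 → IsSep r)
    (r : Matrix (Fin 2 × Fin 3) (Fin 2 × Fin 3) ℂ) (hr : r.PosSemidef)
    (hp : (pTrans r).PosSemidef) (hk : r.rank ≤ 4) : IsSep r := by
  obtain ⟨N, hN⟩ : ∃ N, r.rank + (pTrans r).rank < N := ⟨_, Nat.lt_succ_self _⟩
  induction N generalizing r with
  | zero => omega
  | succ N ih =>
    by_cases h1 : r.rank ≤ 3
    · exact sep_2n_rank3 r hr hp h1
    by_cases h2 : (pTrans r).rank ≤ 3
    · have := isSep_pTrans (sep_2n_rank3 (pTrans r) hp hr h2)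
      rwa [pTrans_pTrans] at this
    by_cases h3 : (pTrans r).rank = 4
    · exact hb r hr hp (by omega) h3
    obtain ⟨r1, r2, a1, a2, a3, a4, a5, b1, -, b2, -, a6, a7⟩ := split_ppt r hr hp (by
      rw [Fintype.card_fin, Fintype.card_fin]
      have b1 : r.rank = 4 := by omega
      have b2 : 5 ≤ (pTrans r).rank := by omega
      rw [b1]
      nlinarith)
    rw [a5]
    exact isSep_add (ih r1 a1 a2 (b1.trans hk) (by omega)) (ih r2 a3 a4 (b2.trans hk) (by omega))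

end Small

end Vale.Agent.P372.R4
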