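import Vale.Agent.P372.R4.Sep
import Vale.Agent.P372.R4.SUP
import Vale.Agent.P372.R4.Q22

/-! Separability of `2 × n` block operators from normal dilations. -/

open Matrix Kronecker
open scoped ComplexOrder MatrixOrder

set_option linter.unusedSectionVars false
set_option linter.unusedVariables false

namespace Vale.Agent.P372.R4.W

variable {B : Type} [Fintype B] [DecidableEq B]

/-- The block operator with blocks `1, C, Cᴴ, M`. -/
def blk (C M : Matrix B B ℂ) : Matrix (Fin 2 × B) (Fin 2 × B) ℂ := fun p q =>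
  if p.1 = 0 then (if q.1 = 0 then (1 : Matrix B B ℂ) p.2 q.2 else C p.2 q.2)
  else (if q.1 = 0 then Cᴴ p.2 q.2 else M p.2 q.2)

/-- The normal case. -/
theorem blk_sep {C : Matrix B B ℂ} (hC : Cᴴ * C = C * Cᴴ) : IsSep (blk C (Cᴴ * C)) := by
  refine sep_of_comm _ (fun j => if j = 0 then 1 else C) (fun _ => 0) ?_ ?_ ?_ ?_
  · intro j s k t
    fin_cases j <;> fin_cases k <;> simp [blk]
  · intro j k s t
    fin_cases j <;> fin_cases k <;> simp [hC]
  · intro i j
    fin_cases i <;> fin_cases j <;> simp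
  · intro i j
    fin_cases i <;> fin_cases j <;> simp [hC]

theorem compress {B' : Type} [Fintype B'] [DecidableEq B'] (e : B → B')
    {R : Matrix (Fin 2 × B') (Fin 2 × B') ℂ} (h : IsSep R) :
    IsSep (R.submatrix (Prod.map id e) (Prod.map id e)) := by
  obtain ⟨n, M, N, hM, hN, hMN⟩ := h
  refine ⟨n, M, fun k => (N k).submatrix e e, hM, fun k => (hN k).submatrix e, ?_⟩
  rw [hMN]
  ext ⟨j, s⟩ ⟨k, t⟩
  simp only [submatrix_apply, Matrix.sum_apply, Prod.map, id, kroneckerMap_apply]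

/-- A compression of the normal case. -/
theorem blk_sep_dil {C : Matrix B B ℂ} {q l : B → ℂ} {w : ℂ}
    (h1 : Cᴴ * C + vecMulVec l (star l) = C * Cᴴ + vecMulVec q (star q))
    (h2 : Cᴴ *ᵥ q + w • l = C *ᵥ l + star w • q) (h3 : star q ⬝ᵥ q = star l ⬝ᵥ l) :
    IsSep (blk C (Cᴴ * C + vecMulVec l (star l))) := by
  obtain ⟨Qm, hQ⟩ : ∃ Qm : Matrix B Unit ℂ, ∀ s u, Qm s u = q s := ⟨fun s _ => q s, fun _ _ => rfl⟩
  obtain ⟨Lm, hL⟩ : ∃ Lm : Matrix Unit B ℂ, ∀ u s, Lm u s = star (l s) :=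
    ⟨fun _ s => star (l s), fun _ _ => rfl⟩
  obtain ⟨Wm, hW⟩ : ∃ Wm : Matrix Unit Unit ℂ, ∀ s u, Wm s u = w := ⟨fun _ _ => w, fun _ _ => rfl⟩
  obtain ⟨N, hN⟩ : ∃ N : Matrix (B ⊕ Unit) (B ⊕ Unit) ℂ, N = fromBlocks C Qm Lm Wm := ⟨_, rfl⟩
  have hN1 : Nᴴ * N = N * Nᴴ := by
    rw [hN, fromBlocks_conjTranspose, fromBlocks_multiply, fromBlocks_multiply]
    congr 1
    · ext s t
      have := congrFun (congrFun h1 s) t
      simp only [Matrix.add_apply, mul_apply, conjTranspose_apply, vecMulVec_apply, Pi.star_apply,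
        Fintype.sum_unique, star_star, hQ, hL] at this ⊢
      rw [this]
    · ext s u
      have := congrFun h2 s
      simp only [Matrix.add_apply, mul_apply, conjTranspose_apply, Pi.add_apply,
        Fintype.sum_unique, star_star, mulVec, dotProduct, Pi.smul_apply, smul_eq_mul, hQ, hL,
        hW] at this ⊢
      rw [mul_comm (l s) w, this, mul_comm (star w) (q s)]
    · ext u t
      have := congrArg star (congrFun h2 t)
      simp only [Matrix.add_apply, mul_apply, conjTranspose_apply, Pi.add_apply,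
        Fintype.sum_unique, star_star, mulVec, dotProduct, Pi.smul_apply, smul_eq_mul, star_add,
        star_sum, star_mul', hQ, hL, hW] at this ⊢
      have e1 : ∑ x, star (q x) * C x t = ∑ x, C x t * star (q x) :=
        Finset.sum_congr rfl fun x _ => mul_comm _ _
      have e2 : ∑ x, star (l x) * star (C t x) = ∑ x, star (C t x) * star (l x) :=
        Finset.sum_congr rfl fun x _ => mul_comm _ _
      rw [e1, e2, this]
    · ext u v
      have : ∑ s, star (q s) * q s = ∑ s, star (l s) * l s := h3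
      simp only [Matrix.add_apply, mul_apply, conjTranspose_apply, Fintype.sum_unique,
        star_star, hQ, hL, hW]
      rw [this, mul_comm (star w) w]
  have h4 := compress (Sum.inl : B → B ⊕ Unit) (blk_sep hN1)
  have e : ∀ s t, (Nᴴ * N) (Sum.inl s) (Sum.inl t) = (Cᴴ * C + vecMulVec l (star l)) s t := by
    intro s t
    rw [hN, fromBlocks_conjTranspose, fromBlocks_multiply, fromBlocks_apply₁₁]
    simp only [Matrix.add_apply, mul_apply, conjTranspose_apply, vecMulVec_apply, Pi.star_apply,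
        Fintype.sum_unique, star_star, hL]
  have e' : blk C (Cᴴ * C + vecMulVec l (star l)) =
      (blk N (Nᴴ * N)).submatrix (Prod.map id Sum.inl) (Prod.map id Sum.inl) := by
    ext ⟨j, s⟩ ⟨k, t⟩
    have e1 : (1 : Matrix (B ⊕ Unit) (B ⊕ Unit) ℂ) (Sum.inl s) (Sum.inl t) =
        (1 : Matrix B B ℂ) s t := by
      rw [one_apply, one_apply]
      simp
    have e2 : N (Sum.inl s) (Sum.inl t) = C s t := by rw [hN, fromBlocks_apply₁₁]
    have e3 : Nᴴ (Sum.inl s) (Sum.inl t) = Cᴴ s t := by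
      rw [hN, fromBlocks_conjTranspose, fromBlocks_apply₁₁]
    change _ = (if j = 0 then (if k = 0 then (1 : Matrix (B ⊕ Unit) (B ⊕ Unit) ℂ) (Sum.inl s)
      (Sum.inl t) else N (Sum.inl s) (Sum.inl t)) else (if k = 0 then Nᴴ (Sum.inl s) (Sum.inl t)
      else (Nᴴ * N) (Sum.inl s) (Sum.inl t)))
    rw [e1, e2, e3, e]
    rfl
  rw [e']
  exact h4

/-- The case of parallel vectors. -/
theorem blk_sep_add {C : Matrix B B ℂ} {l : B → ℂ} (hC : Cᴴ * C = C * Cᴴ) :
    IsSep (blk C (Cᴴ * C + vecMulVec l (star l))) := by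
  have h1 : blk C (Cᴴ * C + vecMulVec l (star l)) = blk C (Cᴴ * C) +
      (vecMulVec (Pi.single 1 1 : Fin 2 → ℂ) (star (Pi.single 1 1))) ⊗ₖ vecMulVec l (star l) := by
    ext ⟨j, s⟩ ⟨k, t⟩
    fin_cases j <;> fin_cases k <;>
      simp [blk, Matrix.add_apply, kroneckerMap_apply, vecMulVec_apply]
  rw [h1]
  exact Q.isSep_add (blk_sep hC) (Q.isSep_kron (posSemidef_vecMulVec_self_star _)
    (posSemidef_vecMulVec_self_star _))

end Vale.Agent.P372.R4.W
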