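import Vale.Agent.P372.R4.B2
import Vale.Agent.P372.R4.W2
import Vale.Agent.P372.R4.W3
import Vale.Agent.P372.R4.Four
import Vale.Agent.P372.R4.W23a

/-! PPT operators on `C² ⊗ C³` of rank four whose partial transpose has rank four. -/

open Matrix Kronecker
open scoped ComplexOrder MatrixOrder

set_option linter.unusedSectionVars false
set_option linter.unusedVariables false

namespace Vale.Agent.P372.R4.W

variable {B : Type} [Fintype B] [DecidableEq B]

/-- The Schur complement of a block operator. -/
theorem schur_blk {C M : Matrix B B ℂ} (h : (blk C M).PosSemidef) :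
    (M - Cᴴ * C).PosSemidef ∧ (M - Cᴴ * C).rank + Fintype.card B ≤ (blk C M).rank := by
  have hM : Mᴴ = M := by
    ext s t
    exact congrFun (congrFun h.1 (1, s)) (1, t)
  have b0 : ∀ (v : Fin 2 × B → ℂ) (s : B), (blk C M *ᵥ v) (0, s) =
      v (0, s) + (C *ᵥ fun t => v (1, t)) s := by
    intro v s
    rw [mulVec, dotProduct, Fintype.sum_prod_type, Fin.sum_univ_two]
    have e1 : ∀ t, blk C M (0, s) (0, t) = (1 : Matrix B B ℂ) s t := fun t => rfl
    have e2 : ∀ t, blk C M (0, s) (1, t) = C s t := fun t => rfl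
    simp only [e1, e2, one_apply, ite_mul, one_mul, zero_mul, Finset.sum_ite_eq,
      Finset.mem_univ, if_true]
    rfl
  have b1 : ∀ (v : Fin 2 × B → ℂ) (s : B), (blk C M *ᵥ v) (1, s) =
      (Cᴴ *ᵥ fun t => v (0, t)) s + (M *ᵥ fun t => v (1, t)) s := by
    intro v s
    rw [mulVec, dotProduct, Fintype.sum_prod_type, Fin.sum_univ_two]
    rfl
  constructor
  · refine Matrix.PosSemidef.of_dotProduct_mulVec_nonneg ?_ fun y => ?_
    · rw [IsHermitian, conjTranspose_sub, conjTranspose_mul, conjTranspose_conjTranspose, hM]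
    · obtain ⟨v, hv⟩ : ∃ v : Fin 2 × B → ℂ, v = fun p => if p.1 = 0 then -(C *ᵥ y) p.2 else y p.2 :=
        ⟨_, rfl⟩
      have v0 : (fun t => v (0, t)) = -(C *ᵥ y) := by
        rw [hv]; rfl
      have v1 : (fun t => v (1, t)) = y := by
        rw [hv]; rfl
      have h1 := h.dotProduct_mulVec_nonneg v
      have h2 : star v ⬝ᵥ (blk C M *ᵥ v) = star y ⬝ᵥ ((M - Cᴴ * C) *ᵥ y) := by
        rw [dotProduct, Fintype.sum_prod_type, Fin.sum_univ_two]
        have e1 : ∀ s, (blk C M *ᵥ v) (0, s) = 0 := by
          intro s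
          rw [b0, v1]
          have : v (0, s) = -(C *ᵥ y) s := congrFun v0 s
          rw [this, neg_add_cancel]
        have e2 : ∀ s, (blk C M *ᵥ v) (1, s) = ((M - Cᴴ * C) *ᵥ y) s := by
          intro s
          rw [b1, v0, v1, sub_mulVec, ← mulVec_mulVec, mulVec_neg, Pi.neg_apply, Pi.sub_apply]
          ring
        simp only [e1, e2, mul_zero, Finset.sum_const_zero, zero_add]
        have e3 : ∀ s, star v (1, s) = star y s := by
          intro s
          rw [Pi.star_apply, Pi.star_apply]
          exact congrArg star (congrFun v1 s)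
        simp only [e3]
        rfl
      rw [← h2]
      exact h1
  · have k1 := LinearMap.finrank_range_add_finrank_ker (blk C M).mulVecLin
    have k2 := LinearMap.finrank_range_add_finrank_ker (M - Cᴴ * C).mulVecLin
    rw [Module.finrank_fintype_fun_eq_card] at k1 k2
    rw [Fintype.card_prod, Fintype.card_fin] at k1
    have r1 : (blk C M).rank = Module.finrank ℂ (LinearMap.range (blk C M).mulVecLin) := rfl
    have r2 : (M - Cᴴ * C).rank = Module.finrank ℂ (LinearMap.range (M - Cᴴ * C).mulVecLin) := rfl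
    let φ : (Fin 2 × B → ℂ) →ₗ[ℂ] (B → ℂ) :=
      { toFun := fun v s => v (1, s), map_add' := fun _ _ => rfl, map_smul' := fun _ _ => rfl }
    have hφ : ∀ v ∈ LinearMap.ker (blk C M).mulVecLin,
        φ v ∈ LinearMap.ker (M - Cᴴ * C).mulVecLin := by
      intro v hv
      have hv' : blk C M *ᵥ v = 0 := hv
      have e0 : (fun t => v (0, t)) = -(C *ᵥ φ v) := by
        ext s
        have := congrFun hv' (0, s)
        rw [b0, Pi.zero_apply] at this
        exact eq_neg_of_add_eq_zero_left this
      change (M - Cᴴ * C) *ᵥ φ v = 0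
      ext s
      have := congrFun hv' (1, s)
      rw [b1, e0, mulVec_neg, Pi.neg_apply, Pi.zero_apply, mulVec_mulVec] at this
      rw [sub_mulVec, Pi.sub_apply, Pi.zero_apply]
      rw [← this]
      change _ = _ + (M *ᵥ φ v) s
      ring
    have hinj : Function.Injective (φ.restrict hφ) := by
      rw [injective_iff_map_eq_zero]
      intro v hv
      have hv1 : φ v.1 = 0 := congrArg Subtype.val hv
      have hv' : blk C M *ᵥ v.1 = 0 := v.2
      apply Subtype.ext
      ext ⟨j, s⟩
      have h1 : v.1 (1, s) = 0 := congrFun hv1 s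
      have h0 : v.1 (0, s) = 0 := by
        have := congrFun hv' (0, s)
        rw [b0, Pi.zero_apply] at this
        have e : (fun t => v.1 (1, t)) = 0 := hv1
        rw [e, mulVec_zero, Pi.zero_apply, add_zero] at this
        exact this
      fin_cases j
      · exact h0
      · exact h1
    have k3 := LinearMap.finrank_le_finrank_of_injective hinj
    omega

theorem psd_rank_le_one {n : Type} [Fintype n] [DecidableEq n] {E : Matrix n n ℂ}
    (hE : E.PosSemidef) (h : E.rank ≤ 1) : ∃ l : n → ℂ, E = vecMulVec l (star l) := by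
  rcases Nat.le_one_iff_eq_zero_or_eq_one.1 h with h0 | h1
  · refine ⟨0, ?_⟩
    rw [Matrix.rank, Submodule.finrank_eq_zero, LinearMap.range_eq_bot] at h0
    ext i j
    have := congrFun (LinearMap.congr_fun h0 (Pi.single j 1)) i
    simpa [mulVec_single] using this
  · obtain ⟨u, -, hu⟩ := rank_one hE h1
    exact ⟨_, hu⟩

/-- The normalised case. -/
theorem sep_blk (C M : Matrix (Fin 3) (Fin 3) ℂ) (h : (blk C M).PosSemidef)
    (hp : (pTrans (blk C M)).PosSemidef) (h4 : (blk C M).rank ≤ 4)
    (h4' : (pTrans (blk C M)).rank ≤ 4) : IsSep (blk C M) := by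
  obtain ⟨p1, p2⟩ := schur_blk h
  rw [Fintype.card_fin] at p2
  obtain ⟨l, hl⟩ := psd_rank_le_one p1 (by omega)
  have e1 : pTrans (blk C M) = blk Cᵀ Mᵀ := by
    ext ⟨j, s⟩ ⟨k, t⟩
    fin_cases j <;> fin_cases k
    · change (1 : Matrix (Fin 3) (Fin 3) ℂ) t s = (1 : Matrix (Fin 3) (Fin 3) ℂ) s t
      rw [one_apply, one_apply]
      simp only [eq_comm]
    · rfl
    · rfl
    · rfl
  rw [e1] at hp h4'
  obtain ⟨p3, p4⟩ := schur_blk hp
  rw [Fintype.card_fin] at p4
  obtain ⟨q, hq⟩ := psd_rank_le_one p3 (by omega)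
  have hM1 : M = Cᴴ * C + vecMulVec l (star l) := by rw [← hl]; abel
  have hM2 : M = C * Cᴴ + vecMulVec (star q) (star (star q)) := by
    have e2 := congrArg transpose hq
    rw [transpose_sub, transpose_transpose, transpose_mul, transpose_transpose] at e2
    have e3 : ((Cᵀ)ᴴ)ᵀ = Cᴴ := by
      ext s t
      rfl
    have e4 : (vecMulVec q (star q))ᵀ = vecMulVec (star q) (star (star q)) := by
      ext s t
      rw [transpose_apply, vecMulVec_apply, vecMulVec_apply, star_star, mul_comm]
    rw [e3, e4] at e2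
    rw [← e2]
    abel
  have h1 : Cᴴ * C + vecMulVec l (star l) = C * Cᴴ + vecMulVec (star q) (star (star q)) := by
    rw [← hM1, ← hM2]
  rcases exists_dil b2 C (star q) l h1 with h5 | ⟨om, w, ho, h5⟩
  · rw [hM1]
    exact blk_sep_add h5
  · rw [hM1]
    have e5 : vecMulVec (om • star q) (star (om • star q)) =
        vecMulVec (star q) (star (star q)) := by
      ext s t
      simp only [vecMulVec_apply, Pi.star_apply, Pi.smul_apply, smul_eq_mul, star_mul', star_star]
      linear_combination (star (q s) * q t) * ho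
    refine blk_sep_dil (q := om • star q) ?_ h5 ?_
    · rw [e5]
      exact h1
    · have e6 := congrArg trace h1
      rw [trace_add, trace_add, trace_mul_comm, add_right_inj, trace_vecMulVec,
        trace_vecMulVec] at e6
      have e7 : star (om • star q) ⬝ᵥ (om • star q) = star q ⬝ᵥ q := by
        simp only [dotProduct, Pi.star_apply, Pi.smul_apply, smul_eq_mul, star_mul', star_star]
        refine Finset.sum_congr rfl fun x _ => ?_
        linear_combination (star (q x) * q x) * ho
      rw [e7, dotProduct_comm (star l) l, e6, star_star]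

/-- **Part (b).** -/
theorem sep_44 (r : Matrix (Fin 2 × Fin 3) (Fin 2 × Fin 3) ℂ) (hr : r.PosSemidef)
    (hp : (pTrans r).PosSemidef) (h4 : r.rank = 4) (h4' : (pTrans r).rank = 4) : IsSep r := by
  by_cases h3 : 3 ≤ (redB r).rank
  · obtain ⟨a, ha⟩ := L0 r hr hp
    have ha' : (bl a r).rank = (redB r).rank := ha
    have ha0 : a ≠ 0 := by
      rintro rfl
      have : bl (0 : Fin 2 → ℂ) r = 0 := by
        ext s t
        simp [bl]
      rw [this, rank_zero] at ha'
      omega
    obtain ⟨X, hX, hX'⟩ := Q.exists_first ha0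
    obtain ⟨T, T', hT1, hT2, hT3, -⟩ := exists_norm (bl_psd hr a) (v := 0) (mulVec_zero _)
    have hT4 : T * bl a r * T = 1 := by
      have h6 : 3 ≤ (T * bl a r * T).rank := by
        have := rank_conj_le (P := bl a r) hT2
        omega
      by_contra hne
      have : ∃ v, (1 - T * bl a r * T) *ᵥ v ≠ 0 := by
        by_contra hcon
        push Not at hcon
        apply hne
        rw [eq_comm, ← sub_eq_zero]
        refine Matrix.ext_of_mulVec_single fun i => ?_
        rw [hcon, zero_mulVec]
      obtain ⟨v, hv⟩ := this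
      have h7 := J2.rank_lt (M := T * bl a r * T) hv (by
        rw [mulVec_mulVec, Matrix.mul_sub, Matrix.mul_one, hT3, sub_self, zero_mulVec])
      rw [Fintype.card_fin] at h7
      omega
    obtain ⟨r1, hr1⟩ : ∃ r1, r1 = (Xᴴ ⊗ₖ T) * r * (Xᴴ ⊗ₖ T)ᴴ := ⟨_, rfl⟩
    have hb : bl (Pi.single 0 1) r1 = 1 := by
      rw [hr1, bl_filter, conjTranspose_conjTranspose, hT1]
      have : X *ᵥ (Pi.single 0 1) = a := by
        ext i
        rw [mulVec_single_one, col_apply, hX']
      rw [this, hT4]
    have q1 : r1.PosSemidef := by rw [hr1]; exact hr.mul_mul_conjTranspose_same _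
    have q2 : (pTrans r1).PosSemidef := by rw [hr1]; exact ppt_rect hp _ _
    have q3 : r1.rank ≤ 4 := by
      rw [hr1, ← h4]
      exact (rank_mul_le_left _ _).trans (rank_mul_le_right _ _)
    have q4 : (pTrans r1).rank ≤ 4 := by
      rw [hr1, ← h4', pTrans_rect]
      exact (rank_mul_le_left _ _).trans (rank_mul_le_right _ _)
    have e : r1 = blk (of fun s t => r1 (0, s) (1, t)) (of fun s t => r1 (1, s) (1, t)) := by
      ext ⟨j, s⟩ ⟨k, t⟩
      fin_cases j <;> fin_cases k
      · change r1 (0, s) (0, t) = (1 : Matrix (Fin 3) (Fin 3) ℂ) s t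
        rw [← hb]
        simp [bl, Fin.sum_univ_two]
      · rfl
      · change r1 (1, s) (0, t) = star (r1 (0, t) (1, s))
        exact (herm_apply q1 _ _).symm
      · rfl
    have q5 : IsSep r1 := by
      rw [e] at q1 q2 q3 q4 ⊢
      exact sep_blk _ _ q1 q2 q3 q4
    have hTdet : IsUnit T.det := by
      rw [← isUnit_iff_isUnit_det]
      exact IsUnit.of_mul_eq_one_right _ hT2
    rw [hr1] at q5
    exact Q.sep_of_filter (Q.det_conj hX) hTdet q5
  · have main : ∀ (m n : ℕ), m ≤ 2 → n ≤ 2 →
        ∀ r' : Matrix (Fin m × Fin n) (Fin m × Fin n) ℂ, r'.PosSemidef →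
        (pTrans r').PosSemidef → r'.rank = 4 → IsSep r' := by
      intro m n hm hn r' h1 h2 h5
      have h6 : r'.rank ≤ m * n := by
        have := rank_le_card_width r'
        rwa [Fintype.card_prod, Fintype.card_fin, Fintype.card_fin] at this
      have hm' : m = 0 ∨ m = 1 ∨ m = 2 := by omega
      have hn' : n = 0 ∨ n = 1 ∨ n = 2 := by omega
      rcases hm' with rfl | rfl | rfl <;> rcases hn' with rfl | rfl | rfl <;>
        first | omega | exact sep_22 r' h1 h2
    obtain ⟨V, W, r', -, -, h1, h2, h5, h6, h7, h8, h9, h10, h11⟩ := sup hr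
    have hA : (redA r).rank ≤ 2 := by
      have := rank_le_card_width (redA r)
      rwa [Fintype.card_fin] at this
    exact h7.1 (main _ _ hA (by omega) r' h5 (h6 hp) (by omega))

/-- **A PPT operator on `C² ⊗ C³` of rank at most four is separable.** -/
theorem sep_23 (r : Matrix (Fin 2 × Fin 3) (Fin 2 × Fin 3) ℂ) (hr : r.PosSemidef)
    (hp : (pTrans r).PosSemidef) (hk : r.rank ≤ 4) : IsSep r :=
  sep_23_of_44 sep_44 r hr hp hk

end Vale.Agent.P372.R4.W
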